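import Vale.Agent.P157.StmS
import Vale.Agent.P157.A
import Vale.Agent.P157.C

namespace Vale.Agent.P157

open Finset Real

namespace Apr

theorem avg_le_log {S : Type} [Fintype S] [Inhabited S] (U : S → ℝ) :
    avg U ≤ log (avg fun σ => exp (U σ)) := by
  have hc : (0 : ℝ) < Fintype.card S := by exact_mod_cast Fintype.card_pos
  have hp : 0 < avg fun σ => exp (U σ) :=
    div_pos (sum_pos (fun _ _ => exp_pos _) univ_nonempty) hc
  rw [le_log_iff_exp_le hp]
  have h1 : ∀ σ, exp (avg U) * (U σ - avg U + 1) ≤ exp (U σ) := fun σ => by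
    have := mul_le_mul_of_nonneg_left (add_one_le_exp (U σ - avg U)) (exp_pos (avg U)).le
    rwa [← exp_add, add_sub_cancel] at this
  have h2 := sum_le_sum fun σ (_ : σ ∈ univ) => h1 σ
  rw [← mul_sum, sum_add_distrib, sum_sub_distrib, sum_const, sum_const, card_univ, nsmul_eq_mul,
    nsmul_eq_mul, mul_one] at h2
  have h3 : (Fintype.card S : ℝ) * avg U = ∑ σ, U σ := by rw [avg]; field_simp
  rw [h3, sub_self, zero_add] at h2
  exact (le_div_iff₀ hc).2 h2

variable {I T : Type} [Fintype I] [DecidableEq I] [Fintype T]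

theorem upd (i : I) (G : (I → T) → ℝ) :
    ∑ σ : I → T, ∑ t, G (Function.update σ i t) = Fintype.card T * ∑ σ, G σ := by
  have hinv : Function.Involutive fun z : (I → T) × T => (Function.update z.1 i z.2, z.1 i) :=
    fun z => by simp
  have h := Equiv.sum_comp (hinv.toPerm _) fun z : (I → T) × T => G z.1
  rw [Fintype.sum_prod_type, Fintype.sum_prod_type] at h
  refine h.trans ?_
  simp [mul_sum]

theorem sqsum [Inhabited T] (u : T → ℝ) (hu : ∑ t, u t = 0) (V c : ℝ) (hV : ∀ t, u t ^ 2 ≤ V)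
    (A : Finset I) : ∑ σ : I → T, (∑ i ∈ A, u (σ i) + c) ^ 2 ≤
      Fintype.card (I → T) * (A.card * V + c ^ 2) := by
  have hc : (0 : ℝ) < Fintype.card T := by exact_mod_cast Fintype.card_pos
  induction A using Finset.induction_on with
  | empty => simp
  | insert i A hi ih =>
    have h1 : ∑ σ : I → T, u (σ i) * (∑ j ∈ A, u (σ j) + c) = 0 := by
      have h2 := upd i fun σ : I → T => u (σ i) * (∑ j ∈ A, u (σ j) + c)
      have h3 : ∀ (σ : I → T) t, ∑ j ∈ A, u (Function.update σ i t j) = ∑ j ∈ A, u (σ j) :=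
        fun σ t => sum_congr rfl fun j hj => by
          rw [Function.update_of_ne (ne_of_mem_of_not_mem hj hi)]
      simp only [h3, Function.update_self, ← sum_mul, hu, zero_mul, sum_const_zero] at h2
      exact (mul_eq_zero.1 h2.symm).resolve_left hc.ne'
    have h2 : ∑ σ : I → T, u (σ i) ^ 2 ≤ Fintype.card (I → T) * V :=
      (sum_le_sum fun σ _ => hV (σ i)).trans (by simp)
    have h3 : ∀ σ : I → T, (∑ j ∈ insert i A, u (σ j) + c) ^ 2 = u (σ i) ^ 2 +
        2 * (u (σ i) * (∑ j ∈ A, u (σ j) + c)) + (∑ j ∈ A, u (σ j) + c) ^ 2 := fun σ => by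
      rw [sum_insert hi]; ring
    simp only [h3, sum_add_distrib, ← mul_sum, h1, card_insert_of_notMem hi]
    push_cast
    linarith

theorem avgU [Inhabited T] (v : T → ℝ) (K η k : ℝ) (A : Finset I) (hA : A.Nonempty) (hk : 0 ≤ k)
    (hv : ∀ t, |v t| ≤ K) (hη : |avg (fun t => v t ^ 2) - 1| ≤ η) :
    -(k * (A.card * η ^ 2 + K ^ 4)) ≤ avg (Uk v k A) := by
  have hc : (0 : ℝ) < Fintype.card T := by exact_mod_cast Fintype.card_pos
  have hc' : (0 : ℝ) < Fintype.card (I → T) := by exact_mod_cast Fintype.card_pos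
  have hA' : (0 : ℝ) < A.card := by exact_mod_cast hA.card_pos
  set ρ := avg (fun t => v t ^ 2) with hρ
  have hv2 : ∀ t, v t ^ 2 ≤ K ^ 2 := fun t => sq_le_sq' (abs_le.1 (hv t)).1 (abs_le.1 (hv t)).2
  have h0 : 0 ≤ ρ := div_nonneg (sum_nonneg fun t _ => sq_nonneg _) hc.le
  have h1 : ρ ≤ K ^ 2 := by
    rw [hρ, avg, div_le_iff₀ hc]
    exact (sum_le_sum fun t _ => hv2 t).trans (by simp [mul_comm])
  have h2 := sqsum (fun t => v t ^ 2 - ρ) (by
      rw [sum_sub_distrib, sum_const, card_univ, nsmul_eq_mul, hρ, avg]; field_simp; ring)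
    (K ^ 4) (A.card * (ρ - 1)) (fun t => by
      have := hv2 t
      have := sq_nonneg (v t)
      rw [show K ^ 4 = (K ^ 2) ^ 2 by ring]
      exact sq_le_sq' (by linarith) (by linarith)) A
  have h3 : ∀ σ : I → T, Uk v k A σ =
      -(k / A.card) * (∑ i ∈ A, (v (σ i) ^ 2 - ρ) + A.card * (ρ - 1)) ^ 2 := fun σ => by
    rw [Uk, sum_sub_distrib, sum_const, nsmul_eq_mul]; ring
  have h4 : (ρ - 1) ^ 2 ≤ η ^ 2 := sq_le_sq' (abs_le.1 hη).1 (abs_le.1 hη).2
  rw [avg, le_div_iff₀ hc']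
  simp only [h3, ← mul_sum]
  have h5 := mul_le_mul_of_nonneg_left h2 (div_nonneg hk hA'.le)
  have h6 : k / A.card * (Fintype.card (I → T) * (A.card * K ^ 4 + (A.card * (ρ - 1)) ^ 2)) =
      k * (A.card * (ρ - 1) ^ 2 + K ^ 4) * Fintype.card (I → T) := by field_simp; ring
  rw [h6] at h5
  have h7 : k * (A.card * (ρ - 1) ^ 2 + K ^ 4) * Fintype.card (I → T) ≤
      k * (A.card * η ^ 2 + K ^ 4) * Fintype.card (I → T) := by gcongr
  linarith

theorem pats' (hPatU : PatU) (hG : GUApi) {O S I : Type} [Fintype O] [DecidableEq O] [Fintype S]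
    [Inhabited S] (n : ℕ) (B K : ℝ) (g : O → ℝ → ℝ) (U : S → ℝ) (s : I → S → ℝ) (A : Finset I)
    (D : ℕ) (c : ℝ) (L : Multiset (St O S)) (hn : 1 ≤ n) (hs : ∀ i σ, |s i σ| ≤ K)
    (J : Finset O) (hJ : ∀ a ∈ J, ∀ t, |g a t| ≤ B) :
    |TU n g U (sy n s A J D c + L) - TU n g U L| ≤ 2 * B * J.card := by
  induction J using Finset.induction_on with
  | empty => simp [sy]
  | insert a J ha ih =>
    have h1 : sy n s A (insert a J) D c + L = (sy n s A J D c + L) + D • rd s a A (n - 1) c := by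
      rw [sy, insert_val_of_notMem ha, Multiset.cons_bind, sy]; abel
    have h2 := (hPatU O S n g U (sy n s A J D c + L) (D • rd s a A (n - 1) c) a B hn
      (hJ a (mem_insert_self a J)) fun t ht => (hG.rd_vr n 0 K s a A (n - 1) c le_rfl hs).2.2 t
        (Multiset.mem_of_mem_nsmul ht)).1
    have h3 := ih fun b hb => hJ b (mem_insert_of_mem hb)
    rw [h1, card_insert_of_notMem ha]
    push_cast
    rw [abs_le] at h2 h3 ⊢
    constructor <;> linarith [h2.1, h2.2, h3.1, h3.2]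

end Apr

theorem aprU (hUApi : UApi) (hGUApi : GUApi) (hPatU : PatU) : AprU := by
  intro O I T _ _ _ _ _ _ n B K η k Y g g1 g2 f f1 f2 v o0 A J D c y hn hM hP hA hk hη hY
  have hA' : (0 : ℝ) < A.card := by exact_mod_cast hA.card_pos
  have hK := hM.hK
  have hv : ∀ t, |v t| ≤ K := fun t => hM.bd hA.choose fun _ => t
  set L := sy n (sv v) A J D c + fl (sv v) o0 A (ys n y) with hL
  have key : ∀ U : (I → T) → ℝ,
      |TU n g U L - TU n g U 0| ≤ 2 * B * J.card + K * n * Y * A.card := fun U => by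
    have h1 := Apr.pats' hPatU hGUApi n B K g U (sv v) A D c (fl (sv v) o0 A (ys n y)) hn hM.bd J
      fun a ha t => by rw [(hP.2.2 a ha).1]; exact hP.2.1 t
    obtain ⟨-, h2, -, -, h3⟩ := hGUApi.fl_vr n 0 K (sv v) o0 A (ys n y) 0 le_rfl hM.bd
    have h4 := hUApi.crude n g U 1 0 (fl (sv v) o0 A (ys n y)) hn fun s hs t h => by
      rw [h3 s hs, hM.e0]; simp
    have h5 : ((ys n y).map fun s => |s.2|).sum ≤ n * Y := by
      rw [ys, Multiset.map_map]
      exact (sum_le_sum (s := range n) fun κ hκ => hY κ (mem_range.1 hκ)).trans (by simp)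
    have h6 : K * (A.card * ((ys n y).map fun s => |s.2|).sum) ≤ K * (A.card * (n * Y)) := by
      gcongr
    rw [zero_add, one_mul] at h4
    rw [abs_le] at h1 h4 ⊢
    constructor <;> linarith [h1.1, h1.2, h4.1, h4.2]
  have p2 : ∑ o, g o 0 - 2 * B * J.card - K * n * Y * A.card - k * (A.card * η ^ 2 + K ^ 4) ≤
      TU n g (Uk v k A) L := by
    have h1 := (abs_le.1 (key (Uk v k A))).1
    have h2 := (Apr.avgU v K η k A hA hk.le hv hη).trans (Apr.avg_le_log _)
    rw [hUApi.tt0 n g _ hn] at h1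
    linarith
  refine ⟨?_, p2⟩
  have h1 := hUApi.potlow n g (Uk v k A)
    (fun σ => k / 2 * A.card * ((-1 + 1 * RR (sv v) A σ σ) * (-1 + 1 * RR (sv v) A σ σ))) L hn
  have h2 := hUApi.potle n g (fun σ => Uk v k A σ +
    k / 2 * A.card * ((-1 + 1 * RR (sv v) A σ σ) * (-1 + 1 * RR (sv v) A σ σ))) (fun _ => 0) 0 L hn
    fun σ => by
      have e1 : RR (sv v) A σ σ = (∑ i ∈ A, v (σ i) ^ 2) / A.card := by
        simp only [RR, sv, sq]
      have e2 : Uk v k A σ + k / 2 * A.card *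
          ((-1 + 1 * RR (sv v) A σ σ) * (-1 + 1 * RR (sv v) A σ σ)) =
          -(k / 2 * (∑ i ∈ A, v (σ i) ^ 2 - A.card) ^ 2 / A.card) := by
        rw [e1, Uk]; field_simp; ring
      rw [e2, add_zero, neg_nonpos]; positivity
  have h3 := (abs_le.1 (key fun _ => 0)).2
  have hc' : (0 : ℝ) < Fintype.card (I → T) := by exact_mod_cast Fintype.card_pos
  have h4 : (avg fun _ : I → T => exp 0) = 1 := by
    rw [avg, exp_zero, sum_const, card_univ, nsmul_eq_mul, mul_one, div_self hc'.ne']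
  rw [hUApi.tt0 n g _ hn, h4, log_one] at h3
  have hQ := aApi.ce (Cc.ok n L hn) (ZU g (Uk v k A)) 0 (n + 1) le_rfl
  have h5 := Aa.sq1 hQ (fun ω => -1 + 1 * RR (sv v) A ω.2 ω.2) (0, default)
  rw [Aa.aff hQ] at h5
  rw [E1U, Aa.smul'] at h1
  rw [ovU, if_pos rfl, E1U]
  set x := Ce (chain L) (ex n) (ZU g (Uk v k A)) 0 (n + 1) (fun ω => RR (sv v) A ω.2 ω.2)
    (0, default)
  have h6 := mul_le_mul_of_nonneg_left h5 (by positivity : 0 ≤ k / 2 * A.card)
  have h7 : k / 2 * A.card * (x - 1) ^ 2 ≤ 4 * B * J.card + 2 * K * n * Y * A.card +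
      k * (A.card * η ^ 2 + K ^ 4) := by linarith
  refine le_of_mul_le_mul_left (h7.trans (le_of_eq ?_)) (by positivity : 0 < k / 2 * A.card)
  field_simp; ring

end Vale.Agent.P157
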