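import Vale.Agent.P157.S.UApi
import Vale.Agent.P157.G
import Vale.Agent.P157.G2
import Vale.Agent.P157.Lin
import Vale.Agent.P157.Link

namespace Vale.Agent.P157

open MeasureTheory ProbabilityTheory Finset Real Filter

set_option linter.unusedSectionVars false

namespace BlockUm

section
variable {O S I : Type} [Fintype O] [DecidableEq O] [Fintype S] [Inhabited S] [DecidableEq I]

theorem fl_insert (s : I → S → ℝ) (o0 : O) {A : Finset I} {τ : I} (h : τ ∉ A)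
    (l : Multiset (ℕ × ℝ)) : fl s o0 (insert τ A) l = fl s o0 A l + lift o0 (s τ) l := by
  simp only [fl, Finset.insert_val_of_notMem h, Multiset.cons_bind]
  exact add_comm _ _

theorem sy_insert (n : ℕ) (s : I → S → ℝ) (A : Finset I) {J : Finset O} {a : O} (h : a ∉ J) (D : ℕ)
    (c : ℝ) : sy n s A (insert a J) D c = sy n s A J D c + D • rd s a A (n - 1) c := by
  simp only [sy, Finset.insert_val_of_notMem h, Multiset.cons_bind]
  exact add_comm _ _

theorem cu_mono {n : ℕ} {g : O → ℝ → ℝ} {U : S → ℝ} {L : Multiset (St O S)} {s : I → S → ℝ}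
    {A : Finset I} {P : ℕ → ℝ} {e e' : ℝ} (h : CU n g U L s A P e) (he : e ≤ e') :
    CU n g U L s A P e' := ⟨h.1.trans he, h.2.trans he⟩

theorem rd_o {s : I → S → ℝ} {a : O} {A : Finset I} {κ D : ℕ} {c : ℝ} :
    ∀ t ∈ D • rd s a A κ c, t.2.1 = a := by
  intro t ht
  obtain ⟨i, -, rfl⟩ := Multiset.mem_map.1 (Multiset.mem_of_mem_nsmul ht)
  rfl

theorem not_mem_sy (n : ℕ) (s : I → S → ℝ) (A : Finset I) {J : Finset O} {a o0 : O} (h : a ∉ J)
    (h0 : o0 ≠ a) (D : ℕ) (c : ℝ) (l : Multiset (ℕ × ℝ)) :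
    ∀ t ∈ sy n s A J D c + fl s o0 A l, t.2.1 ≠ a := by
  intro t ht
  rcases Multiset.mem_add.1 ht with ht | ht
  · obtain ⟨a', ha', ht⟩ := Multiset.mem_bind.1 ht
    rw [rd_o t ht]
    intro e
    exact h (e ▸ ha')
  · obtain ⟨i, -, ht⟩ := Multiset.mem_bind.1 ht
    obtain ⟨x, -, rfl⟩ := Multiset.mem_map.1 ht
    exact h0

theorem pt_mono {g g1 g2 : O → ℝ → ℝ} {o0 : O} {J J' : Finset O} {B : ℝ} {f f1 f2 : ℝ → ℝ}
    (h : Pt g g1 g2 o0 J' B f f1 f2) (hJ : J ⊆ J') : Pt g g1 g2 o0 J B f f1 f2 :=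
  ⟨fun h0 => h.1 (hJ h0), h.2.1, fun a ha => h.2.2 a (hJ ha)⟩

end

theorem spins (hs : SpinU) (hs2 : Sc2U) (B β α ε : ℝ) (hB : 1 ≤ B) (hβ : 0 ≤ β)
    (hα : 0 < α) (hε : 0 < ε) : ∃ η0 b1 : ℝ, 0 < η0 ∧ 1 ≤ b1 ∧ ∀ (K k e1 : ℝ) (b : ℕ), 0 ≤ k → 0 < e1 →
    ∃ e0 : ℝ, 0 < e0 ∧ ∀ (T : Type) [Fintype T] [Inhabited T] (v : T → ℝ), QS K η0 b1 v →
    ∀ n : ℕ, 1 ≤ n → ∃ η : ℝ, 0 < η ∧
    ∀ (O I : Type) [Fintype O] [DecidableEq O] [Fintype I] [DecidableEq I]
    (g g1 g2 : O → ℝ → ℝ) (f f1 f2 : ℝ → ℝ) (o0 : O) (A A' : Finset I) (J : Finset O) (D0 : ℕ)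
    (c : ℝ) (y P : ℕ → ℝ), Md B K g g1 g2 o0 (sv v : I → _) → Pt g g1 g2 o0 J B f f1 f2 →
      Sm B f f1 f2 → A ⊆ A' → A'.card = A.card + b →
      1 ≤ e0 * A.card → (J.card : ℝ) ≤ β * A.card →
      (∀ j, 1 ≤ j → j ≤ A'.card → j * (j + 1) ∣ D0) → D0 * c ^ 2 = 1 → A'.card * c ^ 2 ≤ η →
      (∀ κ, κ < n → |y κ| ≤ η) → Path n P → |P 0 - 1| ≤ η0 → P 0 ≤ K ^ 2 →
      CU n g (Uk v k A) (sy n (sv v) A J (D0 / A.card) c + fl (sv v) o0 A (ys n y)) (sv v) A P e0 →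
      TU n g (Uk v k A) (sy n (sv v) A J (D0 / A.card) c + fl (sv v) o0 A (ys n y)) +
          b * (Vs n α f - α * Hf n f P - ε) ≤
        TU n g (Uk v k A') (sy n (sv v) A' J (D0 / A'.card) c + fl (sv v) o0 A' (ys n y)) ∧
      CU n g (Uk v k A') (sy n (sv v) A' J (D0 / A'.card) c + fl (sv v) o0 A' (ys n y)) (sv v) A' P
        e1 := by
  obtain ⟨η0, b1, hη0, hb1, hs⟩ := hs B β α ε hB hβ hα hε
  refine ⟨η0, b1, hη0, hb1, fun K k e1 b hk he1 => ?_⟩
  induction b with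
  | zero =>
    refine ⟨e1, he1, fun T _ _ v _ n _ => ⟨1, one_pos, ?_⟩⟩
    intro O I _ _ _ _ g g1 g2 f f1 f2 o0 A A' J D0 c y P _ _ _ hA hc _ _ _ _ _ _ _ _ _ hC
    obtain rfl := Finset.eq_of_subset_of_card_le hA (by omega)
    exact ⟨by simp, hC⟩
  | succ b ih =>
    obtain ⟨e', he', ih⟩ := ih
    obtain ⟨es, hes, hs⟩ := hs K k hk
    obtain ⟨C, hC1, hs2⟩ := hs2 B K β k hβ hk
    have hpos : 0 < e' / (2 * C) := by positivity
    refine ⟨min es (e' / (2 * C)), lt_min hes hpos, fun T _ _ v hq n hn => ?_⟩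
    obtain ⟨η', hη', ih⟩ := ih T v hq n hn
    obtain ⟨ηs, hηs, hs⟩ := hs T v hq n hn
    have hK := hq.hK
    refine ⟨min (min η' ηs) (1 / (B * K) ^ 2), lt_min (lt_min hη' hηs) (by positivity), ?_⟩
    intro O I _ _ _ _ g g1 g2 f f1 f2 o0 A A' J D0 c y P hM hf hS hA hc h1 hJ hd hD hη hy hP hP0 hPK hC
    have hj0 : (0 : ℝ) ≤ A.card := Nat.cast_nonneg _
    have hj : 1 ≤ A.card := by
      by_contra h
      have : A.card = 0 := by omega
      rw [this] at h1; norm_num at h1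
    have hj' : (1 : ℝ) ≤ A.card := by exact_mod_cast hj
    obtain ⟨τ, hτ', hτ⟩ := Finset.exists_mem_notMem_of_card_lt_card (s := A) (t := A') (by omega)
    obtain ⟨R, hR⟩ := hd A.card hj (by omega)
    have e1' : D0 / A.card = (A.card + 1) * R := by
      rw [hR, mul_assoc, Nat.mul_div_cancel_left _ hj]
    have e2' : D0 / (insert τ A).card = A.card * R := by
      rw [Finset.card_insert_of_notMem hτ, hR, mul_right_comm, Nat.mul_div_cancel _ (by omega)]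
    have hR' : (A.card * (A.card + 1) * R : ℝ) * c ^ 2 = 1 := by
      rw [hR] at hD; push_cast at hD; exact hD
    have hle : (A.card : ℝ) ≤ A'.card := by exact_mod_cast Finset.card_le_card hA
    have hc2 : 0 ≤ c ^ 2 := sq_nonneg c
    have hAc : A.card * c ^ 2 ≤ A'.card * c ^ 2 := mul_le_mul_of_nonneg_right hle hc2
    have hm1 := min_le_left es (e' / (2 * C))
    have hm2 := min_le_right es (e' / (2 * C))
    have hn1 : min (min η' ηs) (1 / (B * K) ^ 2) ≤ η' := (min_le_left _ _).trans (min_le_left _ _)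
    have hn2 : min (min η' ηs) (1 / (B * K) ^ 2) ≤ ηs := (min_le_left _ _).trans (min_le_right _ _)
    have hn3 := min_le_right (min η' ηs) (1 / (B * K) ^ 2)
    rw [e1'] at hC ⊢
    have s1 := hs O I g g1 g2 f f1 f2 o0 A J τ R c y P hM hf hS hτ
      (h1.trans (mul_le_mul_of_nonneg_right hm1 hj0)) hJ hR' ((hAc.trans hη).trans hn2)
      (fun κ hκ => (hy κ hκ).trans hn2) hP hP0 hPK (cu_mono hC hm1)
    have hBc : B * K * |c| ≤ 1 := by
      have h2 : c ^ 2 ≤ 1 / (B * K) ^ 2 := by nlinarith only [(hAc.trans hη).trans hn3, hj', hc2]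
      rw [le_div_iff₀ (by positivity)] at h2
      have h3 : (B * K * |c|) ^ 2 ≤ 1 := by rw [mul_pow, sq_abs]; linarith
      exact (sq_le_one_iff₀ (by positivity)).1 h3
    have s2 := hs2 O I T n g g1 g2 v o0 A J τ R c _ (ys n y) (ys n y) P hn hM hτ
      (Finset.card_pos.1 hj) hJ hR' hBc hC
    rw [add_assoc, ← fl_insert _ _ hτ, ← e2'] at s2
    rw [← e2'] at s1
    have hee : e' / (2 * C) ≤ e' := div_le_self he'.le (by linarith)
    have hci : ((insert τ A).card : ℝ) = A.card + 1 := by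
      rw [Finset.card_insert_of_notMem hτ]; push_cast; ring
    have s3 := ih O I g g1 g2 f f1 f2 o0 (insert τ A) A' J D0 c y P hM hf hS
      (Finset.insert_subset hτ' hA) (by rw [Finset.card_insert_of_notMem hτ]; omega)
      (by rw [hci]; nlinarith only [hm2.trans hee, h1, hj0, he'])
      (by rw [hci]; linarith only [hJ, hβ]) hd hD (hη.trans hn1) (fun κ hκ => (hy κ hκ).trans hn1) hP hP0 hPK
      (cu_mono s2 (by
        have h4 : 1 / (A.card : ℝ) ≤ e' / (2 * C) := by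
          rw [div_le_iff₀ (by linarith)]
          exact h1.trans (mul_le_mul_of_nonneg_right hm2 hj0)
        have h5 : C * (e' / (2 * C) + e' / (2 * C)) = e' := by field_simp; ring
        exact (mul_le_mul_of_nonneg_left (add_le_add hm2 h4) (by linarith)).trans h5.le))
    have aux : ∀ x y z w : ℝ, x + w ≤ y → y + b * w ≤ z → x + ((b + 1 : ℕ) : ℝ) * w ≤ z :=
      fun x y z w h h' => by push_cast; linarith only [h, h']
    exact ⟨aux _ _ _ _ s1 s3.1, s3.2⟩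

theorem pats (hc : PcU) (h1 : P1U) (hP : PatU) (B K ε : ℝ) (hB : 1 ≤ B) (hε : 0 < ε) (b' : ℕ) :
    ∃ e1 : ℝ, 0 < e1 ∧ ∀ n : ℕ, 1 ≤ n → ∃ η : ℝ, 0 < η ∧
    ∀ (O S I : Type) [Fintype O] [DecidableEq O] [Fintype S] [Inhabited S] [DecidableEq I]
    (g g1 g2 : O → ℝ → ℝ) (U : S → ℝ) (s : I → S → ℝ) (o0 : O) (f f1 f2 : ℝ → ℝ)
    (A : Finset I) (J J' : Finset O) (D : ℕ) (c : ℝ) (l : Multiset (ℕ × ℝ)) (P : ℕ → ℝ),
      Md B K g g1 g2 o0 s → Pt g g1 g2 o0 J' B f f1 f2 → Sm B f f1 f2 → A.Nonempty →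
      D * (A.card * c ^ 2) = 1 → A.card * c ^ 2 ≤ η → Path n P → P 0 ≤ K ^ 2 →
      CU n g U (sy n s A J D c + fl s o0 A l) s A P e1 →
      ∀ J1 : Finset O, J1 ⊆ J' → Disjoint J1 J → J1.card ≤ b' →
      TU n g U (sy n s A J D c + fl s o0 A l) + J1.card * (Hf n f P - f 0 - ε) ≤
        TU n g U (sy n s A (J1 ∪ J) D c + fl s o0 A l) := by
  have hG := gApi aApi cApi
  have h2 := g2Stmt aApi cApi (linStmt aApi cApi) (linkStmt aApi cApi)
  obtain ⟨C, hC0, hc⟩ := hc B K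
  set δ : ℝ := ε / (3 * (C + 1)) with hδ
  have hδ0 : 0 < δ := by positivity
  have hCδ : C * δ ≤ ε / 3 := by
    rw [hδ, ← mul_div_assoc, div_le_div_iff₀ (by positivity) (by positivity)]; nlinarith
  have hE : 1 ≤ exp (12 * B) := one_le_exp (by linarith)
  refine ⟨δ ^ 2 / exp (12 * B) ^ b', by positivity, fun n hn => ?_⟩
  obtain ⟨η, hη, h2⟩ := h2 n B (K ^ 2) (ε / 3) hn (by positivity)
  refine ⟨min (min (η ^ 2 / (K ^ 2 + 1)) (δ ^ 2)) (1 / (B ^ 2 * (K ^ 2 + 1))), by positivity, ?_⟩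
  intro O S I _ _ _ _ _ g g1 g2 U s o0 f f1 f2 A J J' D c l P hM hf hS hA hD hη' hPa hP0 hC J1
  have hc0 : 0 ≤ A.card * c ^ 2 := by positivity
  have hn1 : √(A.card * c ^ 2 * P 0) ≤ η := by
    refine sqrt_le_iff.2 ⟨hη.le, ?_⟩
    have := hη'.trans ((min_le_left _ _).trans (min_le_left _ _))
    rw [le_div_iff₀ (by positivity)] at this
    nlinarith
  have hn2 : √(A.card * c ^ 2) ≤ δ :=
    sqrt_le_iff.2 ⟨hδ0.le, hη'.trans ((min_le_left _ _).trans (min_le_right _ _))⟩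
  have hn3 : B ^ 2 * K ^ 2 * (A.card * c ^ 2) ≤ 1 := by
    have := hη'.trans (min_le_right _ _)
    rw [le_div_iff₀ (by positivity)] at this
    nlinarith [mul_nonneg hc0 (sq_nonneg B)]
  obtain ⟨-, v2, v3⟩ := hG.sprof_var n P _ hPa hc0
  have hH := (h2 P (D • sprof n P (A.card * c ^ 2)) hPa hP0
    (fun s hs => (v3 s (Multiset.mem_of_mem_nsmul hs)).2.trans hn1)
    (fun d hd => by
      rw [(hG.lvar_add _ 0 D d).2, v2 d hd, ← mul_assoc, hD, one_mul, sub_self, abs_zero]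
      exact hη.le)).1 f (fun t h => (hS.d0 t h).1)
  suffices H : J1 ⊆ J' → Disjoint J1 J → J1.card ≤ b' →
      TU n g U (sy n s A J D c + fl s o0 A l) + J1.card * (Hf n f P - f 0 - ε) ≤
        TU n g U (sy n s A (J1 ∪ J) D c + fl s o0 A l) ∧
      CU n g U (sy n s A (J1 ∪ J) D c + fl s o0 A l) s A P
        (exp (12 * B) ^ J1.card * (δ ^ 2 / exp (12 * B) ^ b')) from fun a b c => (H a b c).1
  induction J1 using Finset.induction_on with
  | empty => intro _ _ _; simpa using hC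
  | insert a J1 ha ih =>
    intro hsub hd hk
    rw [Finset.card_insert_of_notMem ha] at hk ⊢
    rw [Finset.disjoint_insert_left] at hd
    obtain ⟨i1, i2⟩ := ih ((Finset.subset_insert _ _).trans hsub) hd.2 (by omega)
    have ha' : a ∉ J1 ∪ J := by simp [ha, hd.1]
    have haJ : a ∈ J' := hsub (Finset.mem_insert_self _ _)
    have e2 : g a = f := (hf.2.2 a haJ).1
    have hga : ∀ t, |g a t| ≤ B := e2 ▸ hf.2.1
    rw [Finset.insert_union, sy_insert n s A ha', add_right_comm]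
    constructor
    · have p1 := hc O S I n g g1 g2 U _ s o0 a A P _ c D hn hM hga hA hPa hP0 hn3 i2
      have p2 := (h1 _ _ n g U _ a (D • sprof n P (A.card * c ^ 2)) hn
        (not_mem_sy n s A ha' (o0 := o0) (fun e => hf.1 (e ▸ haJ)) D c l)).1
      have e : D • lift a (fun _ : S => (1 : ℝ)) (sprof n P (A.card * c ^ 2)) =
          lift a (fun _ => 1) (D • sprof n P (A.card * c ^ 2)) := by
        simp only [lift, Multiset.map_nsmul]
      rw [e, p2, hD, mul_one, e2] at p1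
      have hsq : √(exp (12 * B) ^ J1.card * (δ ^ 2 / exp (12 * B) ^ b')) ≤ δ := by
        refine sqrt_le_iff.2 ⟨hδ0.le, ?_⟩
        rw [mul_div_assoc', div_le_iff₀ (by positivity), mul_comm]
        exact mul_le_mul_of_nonneg_left (pow_le_pow_right₀ hE (by omega)) (by positivity)
      have p3 := mul_le_mul_of_nonneg_left (add_le_add hsq hn2) hC0
      have p4 := (abs_le.1 (p1.trans p3)).1
      have p5 := (abs_le.1 hH).1
      push_cast
      linarith
    · rw [pow_succ', mul_assoc]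
      exact uApi.cumul n g U U _ _ s A P _ _ hn (exp_pos _).le (fun χ d hd hχ =>
        ((hP _ _ n g U _ _ a B hn hga rd_o).2 χ d hd hχ).1) i2

end BlockUm

theorem blockU (hs : SpinU) (hs2 : Sc2U) (hc : PcU) (h1 : P1U) (hP : PatU) : BlockU := by
  intro B β α ε hB hβ hα hε
  obtain ⟨η0, b1, hη0, hb1, hq⟩ := BlockUm.spins hs hs2 B β α ε hB hβ hα hε
  refine ⟨η0, b1, hη0, hb1, fun K k b b' hk => ?_⟩
  obtain ⟨e1, he1, hp⟩ := BlockUm.pats hc h1 hP B K ε hB hε b'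
  obtain ⟨e0, he0, hq⟩ := hq K k e1 b hk he1
  refine ⟨e0, he0, fun T _ _ v hv n hn => ?_⟩
  obtain ⟨η1, hη1, hp⟩ := hp n hn
  obtain ⟨η2, hη2, hq⟩ := hq T v hv n hn
  refine ⟨min η2 η1, lt_min hη2 hη1, ?_⟩
  intro O I _ _ _ _ g g1 g2 f f1 f2 o0 A A' J J' D0 c y P hM hf hS hA hc hJ hJ' he hβ' hd hD hη hy
    hPa hP0 hPK hC
  obtain ⟨q1, q2⟩ := hq O I g g1 g2 f f1 f2 o0 A A' J D0 c y P hM (BlockUm.pt_mono hf hJ) hS hA hc he
    hβ' hd hD (hη.trans (min_le_left _ _)) (fun κ hκ => (hy κ hκ).trans (min_le_left _ _)) hPa hP0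
    hPK hC
  have hj : 1 ≤ A.card := by
    by_contra h
    have : A.card = 0 := by omega
    rw [this] at he; norm_num at he
  have hdv : A'.card ∣ D0 := (Dvd.intro _ rfl).trans (hd A'.card (by omega) le_rfl)
  have q3 := hp O _ I g g1 g2 _ _ o0 f f1 f2 A' J J' (D0 / A'.card) c (ys n y) P hM hf hS
    (Finset.card_pos.1 (by omega))
    (by rw [← mul_assoc, ← Nat.cast_mul, Nat.div_mul_cancel hdv, hD])
    (hη.trans (min_le_right _ _)) hPa hPK q2 (J' \ J) Finset.sdiff_subset Finset.sdiff_disjoint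
    (by rw [Finset.card_sdiff_of_subset hJ]; omega)
  rw [Finset.sdiff_union_of_subset hJ, Finset.card_sdiff_of_subset hJ,
    Nat.cast_sub (Finset.card_le_card hJ)] at q3
  linarith

end Vale.Agent.P157
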