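import Vale.Agent.P157.StmS
import Vale.Agent.P157.A

/-! P157, sphere: comparison of the discretised single site system with the Gaussian one. -/

namespace Vale.Agent.P157

open MeasureTheory ProbabilityTheory Finset Real Filter

noncomputable section

namespace CmpM

section
variable {T : Type} [Fintype T] [Inhabited T]

theorem avg_mono {F G : T → ℝ} (h : ∀ t, F t ≤ G t) : avg F ≤ avg G := by
  unfold avg
  gcongr with t
  exact h t

theorem avg_const (c : ℝ) : avg (fun _ : T => c) = c := by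
  have : (0 : ℝ) < Fintype.card T := by exact_mod_cast Fintype.card_pos
  simp only [avg, sum_const, card_univ, nsmul_eq_mul]
  field_simp

theorem avg_mul (F : T → ℝ) (c : ℝ) : avg (fun t => F t * c) = avg F * c := by
  simp only [avg, ← sum_mul]
  ring

theorem avg_pos {F : T → ℝ} (h : ∀ t, 0 < F t) : 0 < avg F := by
  have : (0 : ℝ) < Fintype.card T := by exact_mod_cast Fintype.card_pos
  exact div_pos (sum_pos (fun t _ => h t) univ_nonempty) this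

theorem mT_abs (v : T → ℝ) (b : ℝ) {F : T → ℝ} {c : ℝ} (hF : ∀ t, |F t| ≤ c) (h : ℝ) :
    |mT v b F h| ≤ c := by
  have hp : 0 < avg fun t => exp (h * v t + Uq v b t) := avg_pos (fun t => exp_pos _)
  have h1 : avg (fun t => exp (h * v t + Uq v b t) * F t) ≤
      avg (fun t => exp (h * v t + Uq v b t) * c) :=
    avg_mono (fun t => mul_le_mul_of_nonneg_left (abs_le.1 (hF t)).2 (exp_pos _).le)
  have h2 : avg (fun t => exp (h * v t + Uq v b t) * (-c)) ≤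
      avg (fun t => exp (h * v t + Uq v b t) * F t) :=
    avg_mono (fun t => mul_le_mul_of_nonneg_left (abs_le.1 (hF t)).1 (exp_pos _).le)
  rw [avg_mul] at h1 h2
  rw [mT, abs_le, le_div_iff₀ hp, div_le_iff₀ hp]
  constructor <;> linarith

theorem phT_low {v : T → ℝ} {K : ℝ} (hv : ∀ t, |v t| ≤ K) (b h : ℝ) :
    -(K * |h| + |b - 1| * K ^ 2 / 2) ≤ PhT v b h := by
  rw [PhT, le_log_iff_exp_le (avg_pos (fun t => exp_pos _)), ← avg_const (T := T) (exp _)]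
  refine avg_mono (fun t => exp_le_exp.2 ?_)
  have h1 : |h * v t| ≤ K * |h| := by
    rw [abs_mul, mul_comm]; exact mul_le_mul_of_nonneg_right (hv t) (abs_nonneg _)
  have h2 : v t ^ 2 ≤ K ^ 2 := by rw [← sq_abs]; exact pow_le_pow_left₀ (abs_nonneg _) (hv t) 2
  have h3 : (b - 1) * v t ^ 2 ≤ |b - 1| * K ^ 2 :=
    mul_le_mul (le_abs_self _) h2 (sq_nonneg _) (abs_nonneg _)
  have := (abs_le.1 h1).1
  unfold Uq
  linarith

end

/-- the basic estimates on the bad set -/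
theorem bad {K η h : ℝ} (hK : 1 ≤ K) (hη : 1 ≤ K * η) (hh : K / 8 < |h|) :
    K ^ 2 ≤ 64 * h ^ 2 ∧ h ^ 2 ≤ 64 * η * h ^ 4 := by
  have h0 : 0 < η := by by_contra hc; nlinarith
  have h1 : K ^ 2 ≤ 64 * h ^ 2 := by
    have : (K / 8) ^ 2 ≤ |h| ^ 2 := pow_le_pow_left₀ (by linarith) hh.le 2
    rw [sq_abs] at this
    linarith
  refine ⟨h1, ?_⟩
  have h2 : 1 ≤ η * K ^ 2 := by nlinarith
  have h3 : 1 ≤ 64 * η * h ^ 2 := by nlinarith
  nlinarith [sq_nonneg h]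

theorem ptw {K η h h' a a' p g : ℝ} (hK : 1 ≤ K) (hη : 1 ≤ K * η) (hp : |p| ≤ K ^ 2)
    (hg : |g| ≤ 4 + 16 * (h ^ 2 + h' ^ 2))
    (hgood : |h| ≤ K / 8 → |h'| ≤ K / 8 → -(2 * η / K ^ 2) ≤ a ∧ -(2 * η / K ^ 2) ≤ a' ∧
      |p - g| ≤ 9 * η * (1 + h ^ 4 + h' ^ 4)) :
    K ^ 2 + g - 30000 * η * (1 + h ^ 4 + h' ^ 4) ≤ (K ^ 2 + p) * exp (a + a') := by
  have h0 : 0 < η := by by_contra hc; nlinarith
  have hp0 : 0 ≤ K ^ 2 + p := by linarith [(abs_le.1 hp).1]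
  have hK2 : 1 ≤ K ^ 2 := by nlinarith
  have e4 : 0 ≤ η * h ^ 4 := by positivity
  have e4' : 0 ≤ η * h' ^ 4 := by positivity
  by_cases hb : |h| ≤ K / 8 ∧ |h'| ≤ K / 8
  · obtain ⟨a1, a2, a3⟩ := hgood hb.1 hb.2
    have h1 : 1 - 4 * η / K ^ 2 ≤ exp (a + a') := by
      have := add_one_le_exp (a + a')
      have e : 4 * η / K ^ 2 = 2 * η / K ^ 2 + 2 * η / K ^ 2 := by ring
      linarith
    have h2 : (K ^ 2 + p) * (4 * η / K ^ 2) ≤ 8 * η := by
      calc (K ^ 2 + p) * (4 * η / K ^ 2) ≤ (2 * K ^ 2) * (4 * η / K ^ 2) :=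
            mul_le_mul_of_nonneg_right (by linarith [(abs_le.1 hp).2]) (by positivity)
        _ = 8 * η := by field_simp; ring
    have h3 := mul_le_mul_of_nonneg_left h1 hp0
    have h4 := (abs_le.1 a3).1
    nlinarith
  · have h1 : 0 ≤ (K ^ 2 + p) * exp (a + a') := by positivity
    have h2 := (abs_le.1 hg).2
    rcases le_total |h| |h'| with hc | hc
    · have hb' : K / 8 < |h'| := by
        by_contra hn
        exact hb ⟨hc.trans (not_lt.1 hn), not_lt.1 hn⟩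
      obtain ⟨b1, b2⟩ := bad hK hη hb'
      have : h ^ 2 ≤ h' ^ 2 := sq_le_sq.2 hc
      nlinarith
    · have hb' : K / 8 < |h| := by
        by_contra hn
        exact hb ⟨not_lt.1 hn, hc.trans (not_lt.1 hn)⟩
      obtain ⟨b1, b2⟩ := bad hK hη hb'
      have : h' ^ 2 ≤ h ^ 2 := sq_le_sq.2 hc
      nlinarith

section
variable {P : ℕ → Op (ℝ × Unit)} {m : ℕ → ℝ} {t : ℕ}

theorem e2four (hO : Ok P m t) (Z : ℝ × Unit → ℝ) {l : ℕ} (hl : l ≤ t) (ω0 : ℝ × Unit) :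
    E2 P m Z l t (fun x x' => 1 + x.1 ^ 4 + x'.1 ^ 4) ω0 =
      1 + 2 * Ce P m Z 0 t (fun x => x.1 ^ 4) ω0 := by
  have h1 := aApi.e2one hO Z l hl (fun x => x.1 ^ 4) ω0
  have h2 : E2 P m Z l t (fun _ x' => x'.1 ^ 4) ω0 = Ce P m Z 0 t (fun x => x.1 ^ 4) ω0 := by
    have := aApi.e2mul P m Z l t (fun _ => 1) (fun x => x.1 ^ 4) ω0
    simp only [one_mul, aApi.const (aApi.ce hO Z 0 l hl)] at this
    rw [this]
    exact congrFun (aApi.comp P m Z (Nat.zero_le l) hl _) ω0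
  have h3 := aApi.e2add P m Z l t (fun x _ => x.1 ^ 4) (fun _ x' => x'.1 ^ 4) 1 1 ω0
  have h4 := aApi.e2add P m Z l t (fun _ _ => 1) (fun x x' => 1 * x.1 ^ 4 + 1 * x'.1 ^ 4) 1 1 ω0
  rw [aApi.e2const hO Z l hl, h3, h1, h2] at h4
  refine Eq.trans ?_ (h4.trans (by ring))
  congr 1
  funext x x'
  ring

theorem half (hDomA : DomA) (hO : Ok P m t) {Z Z' A : ℝ × Unit → ℝ} {c K η C : ℝ}
    (hZ : ∀ ω, Z' ω = Z ω + A ω + c) (hA : ∀ ω, A ω ≤ 0) {l : ℕ} (hl : l ≤ t) (ω0 : ℝ × Unit)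
    (hK : 1 ≤ K) (hη : 1 ≤ K * η) (hC : Ce P m Z 0 t (fun x => x.1 ^ 4) ω0 ≤ C)
    {p g : ℝ × Unit → ℝ × Unit → ℝ} (hp : ∀ x x', |p x x'| ≤ K ^ 2)
    (hg : ∀ x x', |g x x'| ≤ 4 + 16 * (x.1 ^ 2 + x'.1 ^ 2))
    (hgood : ∀ x x', |x.1| ≤ K / 8 → |x'.1| ≤ K / 8 → -(2 * η / K ^ 2) ≤ A x ∧
      -(2 * η / K ^ 2) ≤ A x' ∧ |p x x' - g x x'| ≤ 9 * η * (1 + x.1 ^ 4 + x'.1 ^ 4)) :
    E2 P m Z l t g ω0 - 30000 * η * (1 + 2 * C) ≤ E2 P m Z' l t p ω0 := by
  have h0 : 0 < η := by by_contra hc; nlinarith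
  have h1 := hDomA _ P m t hO Z Z' A c hZ hA l hl (fun x x' => K ^ 2 + p x x')
    (fun x x' => by linarith [(abs_le.1 (hp x x')).1]) ω0
  have h2 := aApi.e2mono hO Z l hl (fun x x' => ptw hK hη (hp x x') (hg x x') (hgood x x')) ω0
  have h3 := aApi.e2add P m Z' l t (fun _ _ => K ^ 2) p 1 1 ω0
  have h4 := aApi.e2add P m Z l t (fun _ _ => K ^ 2) g 1 1 ω0
  have h5 := aApi.e2add P m Z l t (fun x x' => 1 * K ^ 2 + 1 * g x x')
    (fun x x' => 1 + x.1 ^ 4 + x'.1 ^ 4) 1 (-(30000 * η)) ω0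
  rw [h4, e2four hO Z hl, aApi.e2const hO Z l hl] at h5
  rw [aApi.e2const hO Z' l hl] at h3
  simp only [one_mul] at h3 h5
  have h6 : (fun x x' : ℝ × Unit => K ^ 2 + g x x' - 30000 * η * (1 + x.1 ^ 4 + x'.1 ^ 4)) =
      fun x x' => K ^ 2 + g x x' + -(30000 * η) * (1 + x.1 ^ 4 + x'.1 ^ 4) := by
    funext x x'; ring
  rw [h6, h5] at h2
  rw [h3] at h1
  nlinarith

theorem both (hDomA : DomA) (hO : Ok P m t) {Z Z' A : ℝ × Unit → ℝ} {c K η C : ℝ}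
    (hZ : ∀ ω, Z' ω = Z ω + A ω + c) (hA : ∀ ω, A ω ≤ 0) {l : ℕ} (hl : l ≤ t) (ω0 : ℝ × Unit)
    (hK : 1 ≤ K) (hη : 1 ≤ K * η) (hC : Ce P m Z 0 t (fun x => x.1 ^ 4) ω0 ≤ C)
    {p g : ℝ × Unit → ℝ × Unit → ℝ} (hp : ∀ x x', |p x x'| ≤ K ^ 2)
    (hg : ∀ x x', |g x x'| ≤ 4 + 16 * (x.1 ^ 2 + x'.1 ^ 2))
    (hgood : ∀ x x', |x.1| ≤ K / 8 → |x'.1| ≤ K / 8 → -(2 * η / K ^ 2) ≤ A x ∧
      -(2 * η / K ^ 2) ≤ A x' ∧ |p x x' - g x x'| ≤ 9 * η * (1 + x.1 ^ 4 + x'.1 ^ 4)) :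
    |E2 P m Z' l t p ω0 - E2 P m Z l t g ω0| ≤ 30000 * η * (1 + 2 * C) := by
  have h1 := half hDomA hO hZ hA hl ω0 hK hη hC hp hg hgood
  have h2 := half hDomA hO hZ hA hl ω0 hK hη hC (p := fun x x' => -p x x') (g := fun x x' => -g x x')
    (fun x x' => by rw [abs_neg]; exact hp x x') (fun x x' => by rw [abs_neg]; exact hg x x')
    (fun x x' a b => by
      obtain ⟨c1, c2, c3⟩ := hgood x x' a b
      refine ⟨c1, c2, ?_⟩
      rw [← abs_neg]
      refine le_trans (le_of_eq ?_) c3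
      congr 1; ring)
  have h3 := aApi.e2add P m Z' l t p p (-1) 0 ω0
  have h4 := aApi.e2add P m Z l t g g (-1) 0 ω0
  simp only [neg_mul, one_mul, zero_mul, add_zero] at h3 h4
  rw [h3, h4] at h2
  rw [abs_le]
  constructor <;> linarith

end

theorem prod_close {η b h h' u u' : ℝ} (hη : 0 ≤ η) (hη1 : η ≤ 1) (hb : 1 / 4 ≤ b)
    (h1 : |u - h / b| ≤ η) (h2 : |u' - h' / b| ≤ η) :
    |u * u' - h / b * (h' / b)| ≤ 9 * η * (1 + h ^ 4 + h' ^ 4) := by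
  have hb0 : 0 < b := by linarith
  have k : ∀ x : ℝ, |x / b| ≤ 4 * (1 + x ^ 4) := fun x => by
    rw [abs_div, abs_of_pos hb0, div_le_iff₀ hb0]
    have : |x| ≤ 1 + x ^ 4 := by
      have e : x ^ 4 = |x| ^ 4 := by rw [← abs_pow]; exact (abs_of_nonneg (by positivity)).symm
      rw [e]
      nlinarith [abs_nonneg x, sq_nonneg (|x| ^ 2 - 1 / 2), sq_nonneg (|x| - 1 / 2)]
    have : 0 ≤ 1 + x ^ 4 := by positivity
    nlinarith
  have e : u * u' - h / b * (h' / b) =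
      (u - h / b) * (u' - h' / b) + (u - h / b) * (h' / b) + h / b * (u' - h' / b) := by ring
  rw [e]
  have a1 : |(u - h / b) * (u' - h' / b)| ≤ η * 1 := by
    rw [abs_mul]; exact mul_le_mul h1 (h2.trans hη1) (abs_nonneg _) hη
  have a2 : |(u - h / b) * (h' / b)| ≤ η * (4 * (1 + h' ^ 4)) := by
    rw [abs_mul]; exact mul_le_mul h1 (k _) (abs_nonneg _) hη
  have a3 : |h / b * (u' - h' / b)| ≤ (4 * (1 + h ^ 4)) * η := by
    rw [abs_mul]; exact mul_le_mul (k _) h2 (abs_nonneg _) (by positivity)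
  have a4 := abs_add_three ((u - h / b) * (u' - h' / b)) ((u - h / b) * (h' / b))
    (h / b * (u' - h' / b))
  have e4 : 0 ≤ η * h ^ 4 := by positivity
  have e4' : 0 ≤ η * h' ^ 4 := by positivity
  nlinarith

theorem val_ptw {T : Type} [Fintype T] [Inhabited T] {v : T → ℝ} {K η b1 b : ℝ}
    (hQ : QS K η b1 v) (hb : 1 / 4 ≤ b) (hb1 : b ≤ b1) (h : ℝ) :
    -((30000 + 2048 * |b1|) * η * (1 + h ^ 4)) ≤ PhT v b h - PhG b h := by
  have hK := hQ.hK
  have hη := hQ.hKη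
  have h0 : 0 < η := by by_contra hc; nlinarith
  have hK2 : 1 ≤ K ^ 2 := by nlinarith
  have e4 : 0 ≤ η * h ^ 4 := by positivity
  have e5 : 0 ≤ |b1| * η := by positivity
  have e6 : 0 ≤ |b1| * (η * h ^ 4) := by positivity
  rcases le_or_gt |h| (K / 8) with hc | hc
  · have h1 := (hQ.low b h hb hb1 hc).1
    have h2 : η / K ^ 2 ≤ η := div_le_self h0.le hK2
    nlinarith
  · obtain ⟨b1', b2⟩ := bad hK hη hc
    have h1 := phT_low hQ.bd b h
    have hb0 : 0 < b := by linarith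
    have h2 : h ^ 2 / (2 * b) ≤ 2 * h ^ 2 := by
      rw [div_le_iff₀ (by linarith)]; nlinarith [sq_nonneg h]
    have h3 : -log b ≤ 3 := by
      have := log_le_sub_one_of_pos (inv_pos.2 hb0)
      rw [log_inv] at this
      have : b⁻¹ ≤ 4 := by rw [inv_le_comm₀ hb0 (by norm_num)]; linarith
      linarith
    have h4 : K * |h| ≤ 8 * h ^ 2 := by
      rw [← sq_abs]; nlinarith [abs_nonneg h]
    have h5 : |b - 1| ≤ |b1| + 1 := by
      rw [abs_le]; constructor <;> linarith [le_abs_self b1, abs_nonneg b1]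
    have h6 : |b - 1| * K ^ 2 ≤ (|b1| + 1) * (4096 * (η * h ^ 4)) :=
      mul_le_mul h5 (by linarith) (by positivity) (by positivity)
    unfold PhG
    nlinarith

end CmpM

open CmpM in
theorem cmpU (hLinkU : LinkU) (hDomA : DomA) (hQG : QG) : CmpU := by
  intro Q b1 ε hε
  obtain ⟨C, hC⟩ := hQG Q b1
  obtain ⟨η, hη, hG⟩ := hC (ε / 2) (by linarith)
  set D : ℝ := (30000 + 2048 * |b1|) * (1 + 2 * |C|) with hD
  have hD0 : 0 < D := by positivity
  refine ⟨min 1 (ε / 2 / D), η, lt_min one_pos (by positivity), hη, ?_⟩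
  set η0 := min 1 (ε / 2 / D) with hη0
  have e0 : 0 < η0 := lt_min one_pos (by positivity)
  have e1 : η0 ≤ 1 := min_le_left _ _
  have e2 : η0 * D ≤ ε / 2 := by rw [← le_div_iff₀ hD0]; exact min_le_right _ _
  intro K T _ _ v hQ n b q l hn hP hq hb1 hl
  obtain ⟨g1, g2, g3⟩ := hG n b q l hn hP hq hb1 hl
  obtain ⟨hO, hL⟩ := hLinkU n l hn
  obtain ⟨l1, l2, l3⟩ := hL T v b
  have hn' : (0 : ℝ) < n := by exact_mod_cast hn
  have hb : 1 / 4 ≤ b := by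
    have : 0 ≤ Dk n q n := sum_nonneg (fun k hk => by
      have hk' := mem_range.1 hk
      have : (k : ℝ) / n ≤ 1 := by rw [div_le_one hn']; exact_mod_cast hk'.le
      exact mul_nonneg (by linarith) (by linarith [hP.1.1 k hk']))
    unfold lamb at hl
    linarith
  have hb0 : 0 < b := by linarith
  have hK := hQ.hK
  have g3' := g3.trans (le_abs_self C)
  have hZ : ∀ ω : ℝ × Unit, PhT v b ω.1 =
      PhG b ω.1 + (PhT v b ω.1 - PhG b ω.1 - η0 / K ^ 2) + η0 / K ^ 2 := fun ω => by ring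
  have hA : ∀ ω : ℝ × Unit, PhT v b ω.1 - PhG b ω.1 - η0 / K ^ 2 ≤ 0 := fun ω => by
    linarith [hQ.up b ω.1 hb hb1]
  have hA' : ∀ ω : ℝ × Unit, |ω.1| ≤ K / 8 →
      -(2 * η0 / K ^ 2) ≤ PhT v b ω.1 - PhG b ω.1 - η0 / K ^ 2 := fun ω h => by
    have := (hQ.low b ω.1 hb hb1 h).1
    have e : 2 * η0 / K ^ 2 = η0 / K ^ 2 + η0 / K ^ 2 := by ring
    linarith
  have hfin : 30000 * η0 * (1 + 2 * |C|) ≤ ε / 2 := by
    refine le_trans ?_ e2
    have : 0 ≤ η0 * (|b1| * (1 + 2 * |C|)) := by positivity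
    rw [hD]; nlinarith
  have hib : 1 / b ≤ 4 := by rw [div_le_iff₀ hb0]; linarith
  have hsq : ∀ x : ℝ, x ^ 2 / b ^ 2 ≤ 16 * x ^ 2 := fun x => by
    rw [div_le_iff₀ (by positivity)]
    have : 1 ≤ 16 * b ^ 2 := by nlinarith
    nlinarith [sq_nonneg x]
  refine ⟨?_, ?_, fun d hd => ?_⟩
  · have h1 := aApi.xlow hO (fun ω => PhG b ω.1) (fun ω => PhT v b ω.1 - PhG b ω.1) n le_rfl (0, ())
    have h2 : ((fun ω : ℝ × Unit => PhG b ω.1) + fun ω => PhT v b ω.1 - PhG b ω.1) =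
        fun ω => PhT v b ω.1 := by funext ω; simp
    rw [h2, ← l1] at h1
    have hM := aApi.ce hO (fun ω => PhG b ω.1) 0 n le_rfl
    have h3 := aApi.mono' hM (fun ω : ℝ × Unit => val_ptw hQ hb hb1 ω.1) (0, ())
    have h4 : (fun ω : ℝ × Unit => -((30000 + 2048 * |b1|) * η0 * (1 + ω.1 ^ 4))) =
        (-((30000 + 2048 * |b1|) * η0)) • ((fun _ => (1 : ℝ)) + fun ω : ℝ × Unit => ω.1 ^ 4) := by
      funext ω; simp only [Pi.smul_apply, Pi.add_apply, smul_eq_mul]; ring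
    rw [h4, map_smul, map_add, Pi.smul_apply, Pi.add_apply, hM.2, smul_eq_mul] at h3
    have h5 : (30000 + 2048 * |b1|) * η0 * (1 + Ce (sch l) (mm n) (fun ω => PhG b ω.1) 0 n
        (fun ω => ω.1 ^ 4) (0, ())) ≤ (30000 + 2048 * |b1|) * η0 * (1 + 2 * |C|) :=
      mul_le_mul_of_nonneg_left (by linarith [abs_nonneg C]) (by positivity)
    have h6 : (30000 + 2048 * |b1|) * η0 * (1 + 2 * |C|) = η0 * D := by rw [hD]; ring
    linarith
  · have h1 := both hDomA hO hZ hA (Nat.zero_le n) (0, ()) hK hQ.hKη g3'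
      (p := fun x _ => mT v b (fun t => v t ^ 2) x.1) (g := fun x _ => 1 / b + x.1 ^ 2 / b ^ 2)
      (fun x _ => mT_abs v b (fun t => by
        rw [abs_pow]; exact pow_le_pow_left₀ (abs_nonneg _) (hQ.bd t) 2) _)
      (fun x x' => by
        rw [abs_of_nonneg (by positivity)]
        linarith [hsq x.1, sq_nonneg x'.1])
      (fun x x' a a' => ⟨hA' x a, hA' x' a', (hQ.low b x.1 hb hb1 a).2.2.trans (by
        have : 0 ≤ η0 * (x.1 ^ 4 + x'.1 ^ 4) := by positivity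
        nlinarith)⟩)
    rw [aApi.e2one hO _ 0 (Nat.zero_le n), ← l2] at h1
    have h2 := g2 0 (Nat.zero_le n)
    have h3 := aApi.e2add (sch l) (mm n) (fun ω => PhG b ω.1) 0 n (fun _ _ => 1 / b)
      (fun ω ω' => ω.1 / b * (ω'.1 / b)) 1 1 (0, ())
    rw [aApi.e2const hO _ 0 (Nat.zero_le n)] at h3
    have h4 : E2 (sch l) (mm n) (fun ω => PhG b ω.1) 0 n (fun x _ => 1 / b + x.1 ^ 2 / b ^ 2) (0, ()) =
        E2 (sch l) (mm n) (fun ω => PhG b ω.1) 0 n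
          (fun ω ω' => 1 * (1 / b) + 1 * (ω.1 / b * (ω'.1 / b))) (0, ()) := by
      simp only [E2, Ce, LinearMap.id_coe, id]
      refine congrFun (congrArg _ (funext (fun x => ?_))) _
      ring
    rw [h4, h3] at h1
    rw [abs_le] at h1 h2 ⊢
    constructor <;> linarith [h1.1, h1.2, h2.1, h2.2]
  · have h1 := both hDomA hO hZ hA hd (0, ()) hK hQ.hKη g3'
      (p := fun x x' => mT v b v x.1 * mT v b v x'.1) (g := fun x x' => x.1 / b * (x'.1 / b))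
      (fun x x' => by
        rw [abs_mul, sq]
        exact mul_le_mul (mT_abs v b hQ.bd _) (mT_abs v b hQ.bd _) (abs_nonneg _) (by linarith))
      (fun x x' => by
        have a1 := hsq x.1
        have a2 := hsq x'.1
        rw [← div_pow] at a1 a2
        rw [abs_le]
        constructor <;> nlinarith [sq_nonneg (x.1 / b + x'.1 / b), sq_nonneg (x.1 / b - x'.1 / b),
          sq_nonneg x.1, sq_nonneg x'.1])
      (fun x x' a a' => ⟨hA' x a, hA' x' a', prod_close e0.le e1 hb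
        (hQ.low b x.1 hb hb1 a).2.1 (hQ.low b x'.1 hb hb1 a').2.1⟩)
    rw [← l3 d hd] at h1
    have h2 := g2 d hd
    rw [abs_le] at h1 h2 ⊢
    constructor <;> linarith [h1.1, h1.2, h2.1, h2.2]

end

end Vale.Agent.P157
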