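import Vale.Agent.P157.S.UApi
import Vale.Agent.P157.Cn
import Vale.Agent.P157.L1

/-! P157, sphere: concentration of the overlaps at a maximiser of the perturbed value. -/

namespace Vale.Agent.P157

open MeasureTheory ProbabilityTheory Finset Real Filter

noncomputable section

namespace ConU

theorem ggu_mono {Ω I : Type} {P : ℕ → Op Ω} {n : ℕ} {Z : Ω → ℝ} {s : I → Ω → ℝ} {A : Finset I}
    {h : ℕ → Ω → ℝ} {ω0 : Ω} {ε ε' : ℝ} (hε : ε ≤ ε') (H : GGU P n Z s A h ω0 ε) :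
    GGU P n Z s A h ω0 ε' :=
  ⟨H.u0.trans hε, fun κ hκ => (H.u1 κ hκ).trans hε, fun κ l h1 h2 => (H.u2 κ l h1 h2).trans hε,
    fun l h1 h2 => (H.sh l h1 h2).trans hε⟩

section
variable {O S I : Type} [Fintype O] [DecidableEq O] [Fintype S] [Inhabited S] [Fintype I]
  [DecidableEq I]

omit [DecidableEq O] [Fintype S] [Inhabited S] [Fintype I] [DecidableEq I] in
theorem rZ_upd (n : ℕ) (g : O → ℝ → ℝ) (U : S → ℝ) (s : I → S → ℝ) (A : Finset I) (y : ℕ → ℝ)
    {κ : ℕ} (hκ : κ < n) (u : ℝ) :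
    (rZU n g U s A (Function.update y κ (y κ + u)) : RsU O S I → ℝ) =
      rZU n g U s A y + fun x => u * hhU s A κ x := by
  funext x
  simp only [rZU, Pi.add_apply]
  rw [Con.sum_upd n y hκ u (fun k t => t * hhU s A k x)]
  ring

omit [Fintype O] [DecidableEq O] [Fintype S] [Inhabited S] [Fintype I] [DecidableEq I] in
theorem hh_le {s : I → S → ℝ} {K : ℝ} (hs : ∀ i σ, |s i σ| ≤ K) (A : Finset I) (κ : ℕ)
    (x : RsU O S I) : |hhU s A κ x| ≤ A.card * K := by
  refine (abs_sum_le_sum_abs _ _).trans ((sum_le_card_nsmul _ _ K (fun i _ => ?_)).trans (by simp))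
  cases x.2.1 κ i <;> simpa [spin] using hs i x.2.2

end

end ConU

open Con ConU in
theorem conU (hRecU : RecU) (hGgU : GgU) (hAlgU : AlgU) : ConU := by
  intro K hK
  have hL := l1Stmt aApi
  obtain ⟨C, hC0, hC⟩ := hGgU K hK
  obtain ⟨C', hC0', hAl⟩ := hAlgU K hK
  refine ⟨C', fun n hn => ⟨C' * (n : ℝ) ^ 2 * (3 * C + √(2 * n)), by positivity, ?_⟩⟩
  intro O S I _ _ _ _ _ _ g U L s o0 A lam k y hg hs hAn hlam hlam3 hk hM
  obtain ⟨ho, hf, hy0⟩ := hRecU O S I n L hn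
  have hy := fun y => hy0 g U s o0 A y hg
  have hc : (0 : ℝ) < A.card := by exact_mod_cast hAn.card_pos
  have hn' : (0 : ℝ) < n := by exact_mod_cast hn
  have hn1 : (1 : ℝ) ≤ n := by exact_mod_cast hn
  set ε : ℝ := C * (3 * lam) + √(2 * n) * (√k / (lam * A.card)) with hε
  have hε1 : 0 ≤ √(2 * n) * (√k / (lam * A.card)) := by positivity
  have hε2 : 0 ≤ C * (3 * lam) := by positivity
  have hG := ggu_mono (ε' := ε) (by linarith) (hC O S I n g U L s A y (3 * lam) hn hAn hs hlam3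
    (fun κ hκ => ⟨hlam.trans_le (hM.1 κ hκ).1, (hM.1 κ hκ).2⟩))
  have hV : ∀ κ, κ < n → Ce (rchU I L) (ex n) (rZU n g U s A y) 0 (n + 1)
      (fun ω => (hhU s A κ ω / (y κ * A.card) - Ce (rchU I L) (ex n) (rZU n g U s A y) 0 (n + 1)
        (fun ω => hhU s A κ ω / (y κ * A.card)) (r0U O S I)) ^ 2) (r0U O S I) ≤ ε ^ 2 := by
    intro κ hκ
    rw [var_eq (Aa.ce ho _ 0 _ le_rfl)]
    have h1 := vv_le hL ho (rZU n g U s A y) (hhU s A κ) (r0U O S I) (k := k)
      (mul_pos hc (by linarith : 0 < K)) (hh_le hs A κ) (fun u => by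
      have a1 := hM.2 (Function.update y κ (y κ + u))
      have a2 := hM.2 (Function.update y κ (y κ + -u))
      rw [(hy _).1, (hy _).1, ConU.rZ_upd n g U s A y hκ, pen_upd n lam k y hκ] at a1 a2
      nlinarith)
    have h2 := vv_ge ho (rZU n g U s A y) (hhU s A κ) (r0U O S I)
    have h3 : ex n n = 1 / (n : ℝ) := by
      obtain ⟨j, rfl⟩ : ∃ j, n = j + 1 := ⟨n - 1, by omega⟩
      simp only [ex]; push_cast; field_simp; ring
    rw [h3, one_div, inv_mul_le_iff₀ hn'] at h2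
    have hyκ := (hM.1 κ hκ).1
    have h4 : (√(2 * n) * (√k / (lam * A.card))) ^ 2 = n * (2 * k) / (lam * A.card) ^ 2 := by
      rw [mul_pow, div_pow, sq_sqrt (by positivity), sq_sqrt hk]; ring
    have h5 : (√(2 * n) * (√k / (lam * A.card))) ^ 2 ≤ ε ^ 2 :=
      pow_le_pow_left₀ hε1 (by linarith) 2
    refine le_trans ?_ h5
    rw [h4]
    refine div_le_div₀ (by positivity) (h2.trans (by gcongr)) (by positivity) ?_
    gcongr
  obtain ⟨hA, hA'⟩ := hAl (RsU O S I) I (rchU I L) rrU n hn ho hf (rZU n g U s A y)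
    (fun i ω => s i ω.2.2) A (fun κ ω => hhU s A κ ω / (y κ * A.card)) (r0U O S I) ε hAn
    (fun i ω => hs _ _) (by linarith) hG hV
  have h6 : ε ≤ (3 * C + √(2 * n)) * (lam + √k / (lam * A.card)) := by
    have : 0 ≤ √k / (lam * A.card) := by positivity
    have : 0 ≤ √(2 * (n : ℝ)) := by positivity
    rw [hε]
    nlinarith [mul_nonneg hC0 ‹0 ≤ √k / (lam * A.card)›, mul_nonneg this hlam.le]
  have h7 := mul_le_mul_of_nonneg_left h6 (show 0 ≤ C' * (n : ℝ) ^ 2 by positivity)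
  have h8 := mul_assoc (C' * (n : ℝ) ^ 2) (3 * C + √(2 * n)) (lam + √k / (lam * A.card))
  constructor
  · have e1 : ∀ d ∈ Ico 1 n, EU n g U (L + fl s o0 A (ys n y)) d
        (fun ω ω' => (RR s A ω.2 ω'.2 - ovU n g U (L + fl s o0 A (ys n y)) s A d) ^ 2) =
        E2 (rchU I L) (ex n) (rZU n g U s A y) (d + 1) (n + 1)
        (fun ω1 ω2 => (aR (fun i (ω : RsU O S I) => s i ω.2.2) A ω1 ω2 -
          E2 (rchU I L) (ex n) (rZU n g U s A y) (d + 1) (n + 1)
            (aR (fun i (ω : RsU O S I) => s i ω.2.2) A) (r0U O S I)) ^ 2) (r0U O S I) := by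
      intro d hd
      obtain ⟨h1, h2⟩ := mem_Ico.1 hd
      have h0 : d ≠ 0 := by omega
      have b1 := (hy y).2 (RR s A) d h2.le
      simp only [ovU, h0, h2, if_true, if_false]
      rw [b1]
      exact (hy y).2 (fun σ σ' => (RR s A σ σ' - _) ^ 2) d h2.le
    rw [sum_congr rfl e1]
    linarith
  · have e1 : ∀ V : S → ℝ, E1U n g U (L + fl s o0 A (ys n y)) (fun ω => V ω.2) =
        Ce (rchU I L) (ex n) (rZU n g U s A y) 0 (n + 1) (fun ω => V ω.2.2) (r0U O S I) := by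
      intro V
      rw [← uApi.e1 n g U _ n _ hn le_rfl, (hy y).2 (fun σ _ => V σ) n le_rfl,
        aApi.e2one ho _ _ le_rfl]
    simp only [ovU, if_true]
    rw [e1 (fun σ => RR s A σ σ), e1 (fun σ => (RR s A σ σ - _) ^ 2)]
    refine hA'.trans ?_
    have h9 : C' * ε ≤ C' * (n : ℝ) ^ 2 * ε := by
      have : (1 : ℝ) ≤ (n : ℝ) ^ 2 := one_le_pow₀ hn1
      have : 0 ≤ C' * ε := mul_nonneg hC0' (by linarith)
      nlinarith
    have : 0 ≤ C' / √(n : ℝ) := by positivity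
    linarith

end

end Vale.Agent.P157
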