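import Vale.Agent.P157.StmS
import Vale.Agent.P157.Bdd

namespace Vale.Agent.P157

open Finset Real

namespace Cs

open Bdd (path_le path_nonneg m_pos m_le)

theorem dk_succ (n : ℕ) (p : ℕ → ℝ) (k : ℕ) :
    Dk n p (k + 1) = Dk n p k + (1 - (k : ℝ) / n) * (p k - p (k + 1)) := sum_range_succ _ _

theorem dk_zero (n : ℕ) (p : ℕ → ℝ) : Dk n p 0 = 0 := rfl

theorem dk_one (n : ℕ) (p : ℕ → ℝ) : Dk n p 1 = p 0 - p 1 := by simp [Dk]

theorem dk_mono {n : ℕ} {p : ℕ → ℝ} (hp : Path n p) {d e : ℕ} (hde : d ≤ e) (he : e ≤ n) :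
    Dk n p d ≤ Dk n p e := by
  induction e, hde using Nat.le_induction with
  | base => exact le_rfl
  | succ e hde ih =>
    rw [dk_succ]
    have := mul_nonneg (m_pos (show e < n by omega)).le (sub_nonneg.2 (hp.1 e (by omega)))
    linarith [ih (by omega)]

theorem dk_le {n : ℕ} {p : ℕ → ℝ} (hp : Path n p) {e : ℕ} (he : e ≤ n) : Dk n p e ≤ p 0 - p e := by
  induction e with
  | zero => simp [dk_zero]
  | succ e ih =>
    rw [dk_succ]
    have := mul_le_of_le_one_left (sub_nonneg.2 (hp.1 e (by omega))) (m_le (n := n) (d := e))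
    linarith [ih (by omega)]

theorem lin (n : ℕ) (b : ℝ) (p q : ℕ → ℝ) (d : ℕ) (hd : d + 1 ≤ n) :
    ∑ κ ∈ Ico 1 (d + 1), (1 - (κ : ℝ) / n)⁻¹ *
        (lamb n b q κ * Dk n p κ - lamb n b q (κ + 1) * Dk n p (κ + 1)) =
      lamb n b q 1 * Dk n p 1 - b * (p 0 - p (d + 1)) - q (d + 1) * Dk n p (d + 1) -
        p (d + 1) * Dk n q (d + 1) + p 0 * q 0 - (1 / (n : ℝ)) * ∑ κ ∈ Ico 1 (d + 1), p κ * q κ -
        (1 - (d : ℝ) / n) * (p (d + 1) * q (d + 1)) := by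
  induction d with
  | zero => simp only [lamb, zero_add, dk_one]; simp; ring
  | succ d ih =>
    rw [sum_Ico_succ_top (by omega : 1 ≤ d + 1), sum_Ico_succ_top (by omega : 1 ≤ d + 1),
      ih (by omega)]
    have hm := (m_pos (show d + 1 < n by omega)).ne'
    have e : (1 - ((d + 1 : ℕ) : ℝ) / n)⁻¹ * (lamb n b q (d + 1) * Dk n p (d + 1) -
        lamb n b q (d + 1 + 1) * Dk n p (d + 1 + 1)) = (q (d + 1) - q (d + 1 + 1)) * Dk n p (d + 1) -
          lamb n b q (d + 1 + 1) * (p (d + 1) - p (d + 1 + 1)) := by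
      rw [inv_mul_eq_iff_eq_mul₀ hm]
      simp only [lamb]
      rw [dk_succ n p (d + 1), dk_succ n q (d + 1)]; ring
    rw [e]
    simp only [lamb]
    rw [dk_succ n p (d + 1), dk_succ n q (d + 1)]
    push_cast; ring

noncomputable def yy (x : ℝ) : ℝ := x - 1 - log x

theorem yy_nonneg {x : ℝ} (hx : 0 < x) : 0 ≤ yy x := sub_nonneg.2 (log_le_sub_one_of_pos hx)

theorem ident {n : ℕ} (hn : 1 ≤ n) (b : ℝ) {p q : ℕ → ℝ} (hp0 : p 0 = 1) (hpn : p n = 0)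
    (hqn : q n = 0) (hD : ∀ κ, 1 ≤ κ → κ ≤ n → 0 < Dk n p κ)
    (hl : ∀ κ, κ ≤ n → 0 < lamb n b q κ) :
    2 * ((b - 1 - log b) / 2 + qv n b q - q 0 / 2 + ip n p q - CS n p) =
      yy (lamb n b q 1 * Dk n p 1) - ∑ κ ∈ Ico 1 n, (1 - (κ : ℝ) / n)⁻¹ *
        (yy (lamb n b q κ * Dk n p κ) - yy (lamb n b q (κ + 1) * Dk n p (κ + 1))) := by
  obtain ⟨d, rfl⟩ : ∃ d, n = d + 1 := ⟨n - 1, by omega⟩
  have h1 := lin (d + 1) b p q d le_rfl
  rw [hpn, hqn, hp0] at h1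
  have h2 : ∑ κ ∈ Ico 1 (d + 1), (1 - (κ : ℝ) / ((d + 1 : ℕ) : ℝ))⁻¹ *
      (yy (lamb (d + 1) b q κ * Dk (d + 1) p κ) -
        yy (lamb (d + 1) b q (κ + 1) * Dk (d + 1) p (κ + 1))) =
      ∑ κ ∈ Ico 1 (d + 1), (1 - (κ : ℝ) / ((d + 1 : ℕ) : ℝ))⁻¹ *
        (lamb (d + 1) b q κ * Dk (d + 1) p κ - lamb (d + 1) b q (κ + 1) * Dk (d + 1) p (κ + 1)) -
      ∑ κ ∈ Ico 1 (d + 1), (mm (d + 1) κ)⁻¹ * log (lamb (d + 1) b q κ / lamb (d + 1) b q (κ + 1)) +
      ∑ κ ∈ Ico 1 (d + 1), (1 - (κ : ℝ) / ((d + 1 : ℕ) : ℝ))⁻¹ *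
        log (Dk (d + 1) p (κ + 1) / Dk (d + 1) p κ) := by
    rw [← sum_sub_distrib, ← sum_add_distrib]
    refine sum_congr rfl fun κ hκ => ?_
    obtain ⟨a1, a2⟩ := mem_Ico.1 hκ
    have b1 := (hD κ a1 a2.le).ne'
    have b2 := (hD (κ + 1) (by omega) a2).ne'
    have b3 := (hl κ a2.le).ne'
    have b4 := (hl (κ + 1) a2).ne'
    simp only [yy, mm]
    rw [log_mul b3 b1, log_mul b4 b2, log_div b3 b4, log_div b2 b1]; ring
  have h3 : lamb (d + 1) b q 0 = b := by simp [lamb, dk_zero]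
  have b0 := (hl 0 (by omega)).ne'
  have b1 := (hl 1 hn).ne'
  rw [h2, h1]
  unfold qv ip CS yy
  rw [range_eq_Ico, sum_eq_sum_Ico_succ_bot (by omega : 0 < d + 1), log_mul b1 (hD 1 le_rfl hn).ne',
    log_div b0 (by simpa using b1), h3]
  simp only [mm, Nat.cast_zero, zero_div, sub_zero, inv_one, zero_add]
  ring

theorem tele {n : ℕ} {y : ℕ → ℝ} (hy : ∀ κ, 1 ≤ κ → κ ≤ n → 0 ≤ y κ) (d : ℕ) (hd : d + 1 ≤ n) :
    y 1 - ∑ κ ∈ Ico 1 (d + 1), (1 - (κ : ℝ) / n)⁻¹ * (y κ - y (κ + 1)) ≤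
      (1 - (d : ℝ) / n)⁻¹ * y (d + 1) := by
  induction d with
  | zero => simp
  | succ d ih =>
    rw [sum_Ico_succ_top (by omega : 1 ≤ d + 1)]
    have h1 : (1 - (d : ℝ) / n)⁻¹ ≤ (1 - ((d + 1 : ℕ) : ℝ) / n)⁻¹ := by
      refine inv_anti₀ (m_pos (by omega)) ?_
      have : (d : ℝ) / n ≤ ((d + 1 : ℕ) : ℝ) / n := by gcongr; omega
      linarith
    have h2 := mul_le_mul_of_nonneg_right h1 (hy (d + 1) (by omega) (by omega))
    have := ih (by omega)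
    linarith

theorem lam_anti {n : ℕ} (b : ℝ) {q : ℕ → ℝ} (hq : Path n q) {d : ℕ} (hd : d ≤ n) :
    lamb n b q n ≤ lamb n b q d := by
  have := dk_mono hq hd le_rfl
  simp only [lamb]; linarith

theorem up (n : ℕ) (p q : ℕ → ℝ) (hn : 1 ≤ n) (hp : Path n p) (hp0 : p 0 = 1) (hp1 : p 1 < 1)
    (hq : Path n q) : 0 < Dk n p n ∧ Dk n p n ≤ 1 ∧ 0 ≤ Dk n q n ∧ Dk n q n ≤ q 0 ∧
    ((Dk n p n)⁻¹ + Dk n q n - 1 - log ((Dk n p n)⁻¹ + Dk n q n)) / 2 +
      qv n ((Dk n p n)⁻¹ + Dk n q n) q - q 0 / 2 + ip n p q ≤ CS n p := by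
  have hD : ∀ κ, 1 ≤ κ → κ ≤ n → 0 < Dk n p κ := fun κ h1 h2 =>
    lt_of_lt_of_le (by rw [dk_one]; linarith) (dk_mono hp h1 h2)
  have hDn := hD n hn le_rfl
  refine ⟨hDn, by have := dk_le hp le_rfl; rw [hp.2] at this; linarith,
    dk_mono hq (Nat.zero_le _) le_rfl, by have := dk_le hq le_rfl; rw [hq.2] at this; linarith, ?_⟩
  set b := (Dk n p n)⁻¹ + Dk n q n with hb
  have hln : lamb n b q n = (Dk n p n)⁻¹ := by simp [lamb, hb]
  have hl : ∀ κ, κ ≤ n → 0 < lamb n b q κ := fun κ h =>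
    lt_of_lt_of_le (by rw [hln]; positivity) (lam_anti b hq h)
  have h1 := ident hn b hp0 hp.2 hq.2 hD hl
  obtain ⟨d, rfl⟩ : ∃ d, n = d + 1 := ⟨n - 1, by omega⟩
  have h2 := tele (y := fun κ => yy (lamb (d + 1) b q κ * Dk (d + 1) p κ))
    (fun κ a1 a2 => yy_nonneg (mul_pos (hl κ a2) (hD κ a1 a2))) d le_rfl
  simp only [hln, inv_mul_cancel₀ hDn.ne'] at h2
  have h3 : yy 1 = 0 := by simp [yy]
  rw [h3, mul_zero] at h2
  linarith

theorem pi_succ (n : ℕ) (b : ℝ) (q : ℕ → ℝ) {d : ℕ} (hd : d < n) : piG n b q d =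
    (q d - q (d + 1)) / (lamb n b q d * lamb n b q (d + 1)) + piG n b q (d + 1) :=
  sum_eq_sum_Ico_succ_bot hd _

theorem crit (n : ℕ) (b : ℝ) (q : ℕ → ℝ) (hn : 1 ≤ n) (hq : Path n q) (hln : 0 < lamb n b q n) :
    Path n (fun d => if d = 0 then 1 else piG n b q d / (1 / b + piG n b q 0)) ∧
    piG n b q 1 / (1 / b + piG n b q 0) < 1 ∧
    CS n (fun d => if d = 0 then 1 else piG n b q d / (1 / b + piG n b q 0)) ≤
      (b - 1 - log b) / 2 + qv n b q - q 0 / 2 +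
        ip n (fun d => if d = 0 then 1 else piG n b q d / (1 / b + piG n b q 0)) q ∧
    1 / lamb n b q n ≤ 1 / b + piG n b q 0 ∧
    1 / b + piG n b q 0 ≤ 1 / lamb n b q n + q 0 / lamb n b q n ^ 2 ∧
    ∀ d, 0 ≤ piG n b q d ∧ piG n b q d ≤ 1 / b + piG n b q 0 := by
  have hl : ∀ κ, κ ≤ n → 0 < lamb n b q κ := fun κ h => hln.trans_le (lam_anti b hq h)
  have h0 : lamb n b q 0 = b := by simp [lamb, dk_zero]
  have hb : 0 < b := h0 ▸ hl 0 (Nat.zero_le _)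
  have ht : ∀ k, k < n → 0 ≤ (q k - q (k + 1)) / (lamb n b q k * lamb n b q (k + 1)) := fun k hk =>
    div_nonneg (sub_nonneg.2 (hq.1 k hk)) (mul_pos (hl k hk.le) (hl (k + 1) hk)).le
  have hπ : ∀ d, 0 ≤ piG n b q d := fun d => sum_nonneg fun k hk => ht k (mem_Ico.1 hk).2
  have hπ0 : ∀ d, piG n b q d ≤ piG n b q 0 := fun d =>
    sum_le_sum_of_subset_of_nonneg (Ico_subset_Ico_left (Nat.zero_le _))
      fun k hk _ => ht k (mem_Ico.1 hk).2
  set ρ := 1 / b + piG n b q 0 with hρ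
  have hb' : 0 < 1 / b := by positivity
  have hρ0 : 0 < ρ := by linarith [hπ 0]
  have h1 : piG n b q 1 / ρ < 1 := by rw [div_lt_one hρ0]; linarith [hπ0 1]
  set pv : ℕ → ℝ := fun d => if d = 0 then 1 else piG n b q d / ρ with hpv
  have hP : Path n pv := by
    refine ⟨fun d hd => ?_, ?_⟩
    · rcases Nat.eq_zero_or_pos d with rfl | h
      · simpa [hpv] using h1.le
      · simp only [hpv, if_neg h.ne', if_neg (Nat.succ_ne_zero d)]
        refine div_le_div_of_nonneg_right ?_ hρ0.le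
        rw [pi_succ n b q hd]; linarith [ht d hd]
    · simp [hpv, piG, (show n ≠ 0 by omega)]
  have hD : ∀ κ, κ + 1 ≤ n → lamb n b q (κ + 1) * Dk n pv (κ + 1) = 1 / ρ := by
    intro κ
    induction κ with
    | zero =>
      intro _
      have e1 := pi_succ n b q (show 0 < n by omega)
      have e2 : lamb n b q 1 = b - (q 0 - q 1) := by simp [lamb, dk_one]
      have e3 := (hl 1 hn).ne'
      rw [h0, zero_add] at e1
      have e4 : piG n b q 1 = ρ - 1 / lamb n b q 1 := by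
        have : piG n b q 1 = ρ - 1 / b - (q 0 - q 1) / (b * lamb n b q 1) := by linarith
        rw [this, show q 0 - q 1 = b - lamb n b q 1 by linarith]
        field_simp; ring
      simp only [zero_add, dk_one, hpv, if_true, if_neg one_ne_zero]
      rw [e4]; field_simp; ring
    | succ κ ih =>
      intro hκ
      have e0 := ih (by omega)
      have e1 := pi_succ n b q (show κ + 1 < n by omega)
      have e2 : (1 - ((κ + 1 : ℕ) : ℝ) / n) * (q (κ + 1) - q (κ + 1 + 1)) =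
          lamb n b q (κ + 1) - lamb n b q (κ + 1 + 1) := by
        simp only [lamb]; rw [dk_succ n q (κ + 1)]; ring
      have e3 := (hl (κ + 1) (by omega)).ne'
      have e4 := (hl (κ + 1 + 1) hκ).ne'
      have e5 : Dk n pv (κ + 1) = 1 / ρ / lamb n b q (κ + 1) := by
        rw [← e0]; field_simp
      have e6 : pv (κ + 1) - pv (κ + 1 + 1) = (q (κ + 1) - q (κ + 1 + 1)) /
          (lamb n b q (κ + 1) * lamb n b q (κ + 1 + 1)) / ρ := by
        simp only [hpv, if_neg (Nat.succ_ne_zero _)]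
        rw [e1]; ring
      rw [dk_succ, e5, e6, ← mul_div_assoc, ← mul_div_assoc, e2]
      field_simp; ring
  have hD' : ∀ κ, 1 ≤ κ → κ ≤ n → lamb n b q κ * Dk n pv κ = 1 / ρ := fun κ a1 a2 => by
    obtain ⟨k, rfl⟩ : ∃ k, κ = k + 1 := ⟨κ - 1, by omega⟩
    exact hD k a2
  have hDp : ∀ κ, 1 ≤ κ → κ ≤ n → 0 < Dk n pv κ := fun κ a1 a2 =>
    (mul_pos_iff_of_pos_left (hl κ a2)).1 (by rw [hD' κ a1 a2]; positivity)
  have hp0 : pv 0 = 1 := by simp [hpv]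
  refine ⟨hP, h1, ?_, ?_, ?_, fun d => ⟨hπ d, by linarith [hπ0 d]⟩⟩
  · have h2 := ident hn b hp0 hP.2 hq.2 hDp hl
    rw [hD' 1 le_rfl hn, sum_eq_zero fun κ hκ => by
      rw [hD' κ (mem_Ico.1 hκ).1 (mem_Ico.1 hκ).2.le, hD' (κ + 1) (by omega) (mem_Ico.1 hκ).2,
        sub_self, mul_zero]] at h2
    have := yy_nonneg (show 0 < 1 / ρ by positivity)
    linarith
  · have h2 := dk_le hP le_rfl
    rw [hP.2, hp0, sub_zero] at h2
    have h3 := mul_le_mul_of_nonneg_left h2 hln.le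
    rw [hD' n hn le_rfl, mul_one, div_le_iff₀ hρ0] at h3
    rw [div_le_iff₀ hln]; linarith
  · have h2 : 1 / b ≤ 1 / lamb n b q n :=
      one_div_le_one_div_of_le hln ((lam_anti b hq (Nat.zero_le _)).trans_eq h0)
    have h3 : piG n b q 0 ≤ ∑ k ∈ range n, (q k - q (k + 1)) / lamb n b q n ^ 2 := by
      rw [range_eq_Ico]
      refine sum_le_sum fun k hk => ?_
      have hk' := (mem_Ico.1 hk).2
      refine div_le_div_of_nonneg_left (sub_nonneg.2 (hq.1 k hk')) (by positivity) ?_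
      rw [sq]
      exact mul_le_mul (lam_anti b hq hk'.le) (lam_anti b hq hk') hln.le (hl k hk'.le).le
    rw [← sum_div, sum_range_sub', hq.2, sub_zero] at h3
    linarith

end Cs

theorem csApi : CsApi where
  up := Cs.up
  crit := Cs.crit
  nn := fun n p hn hp hp0 hp1 => by
    obtain ⟨h1, -, -, -, h2⟩ := Cs.up n p (fun _ => 0) hn hp hp0 hp1 ⟨fun _ _ => le_rfl, rfl⟩
    have e : ∀ k, Dk n (fun _ => (0 : ℝ)) k = 0 := fun k => by simp [Dk]
    have h3 := Cs.yy_nonneg (inv_pos.2 h1)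
    have h4 : qv n ((Dk n p n)⁻¹ + 0) (fun _ => 0) = 0 := by
      simp [qv, lamb, e, h1.ne']
    rw [e, h4] at h2
    simp only [ip, mul_zero, sum_const_zero, add_zero] at h2
    unfold Cs.yy at h3
    linarith
  one := fun n hn => by
    have e : ∀ k, Dk n (fun d => if d = 0 then (1 : ℝ) else 0) (k + 1) = 1 := fun k => by
      induction k with
      | zero => simp [Cs.dk_one]
      | succ k ih => rw [Cs.dk_succ, ih]; simp
    unfold CS
    rw [e 0, sum_eq_zero fun κ hκ => by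
      obtain ⟨k, rfl⟩ : ∃ k, κ = k + 1 := ⟨κ - 1, by have := (mem_Ico.1 hκ).1; omega⟩
      rw [e, e]; simp]
    simp

end Vale.Agent.P157
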