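import Vale.Agent.P157.StmS
import Vale.Agent.P157.Dom

/-! P157, sphere, module DomA: a nonpositive perturbation dominates. -/

namespace Vale.Agent.P157

open Finset Real

namespace DomA'

variable {Ω : Type} {P : ℕ → Op Ω} {m : ℕ → ℝ} {t : ℕ}

theorem m_anti (h : Ok P m t) {a b : ℕ} (hab : a ≤ b) (hb : b < t) : m b ≤ m a := by
  induction b, hab using Nat.le_induction with
  | base => exact le_rfl
  | succ b _ ih => exact (h.anti b hb).trans (ih (by omega))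

theorem chg (Z Z' : Ω → ℝ) (c : ℝ) (j : ℕ) (g : Ω → ℝ) (ω : Ω) :
    QQ P m Z j (fun x => exp (m j * (XX P m Z' j x - XX P m Z j x - c)) * g x) ω =
      exp (m j * (XX P m Z' (j + 1) ω - XX P m Z (j + 1) ω - c)) * QQ P m Z' j g ω := by
  have e : (fun x => exp (m j * (XX P m Z' j x - XX P m Z j x - c)) * g x) =
      fun x => exp (-(m j * c)) * (exp (m j * (XX P m Z' j x - XX P m Z j x)) * g x) := by
    funext x; rw [← mul_assoc, ← exp_add]; congr 2; ring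
  rw [e, Aa.smul', ← Dom.chg, ← mul_assoc, ← exp_add]
  congr 2; ring

theorem key (h : Ok P m t) (Z Z' : Ω → ℝ) (c : ℝ)
    (hD : ∀ j, j ≤ t → ∀ ω, XX P m Z' j ω - XX P m Z j ω - c ≤ 0) {g : Ω → ℝ}
    (hg : ∀ ω, 0 ≤ g ω) (μ : ℝ) {a b : ℕ} (hab : a ≤ b) (hb : b ≤ t)
    (hμ : ∀ j, a ≤ j → j < b → m j ≤ μ) (ν : ℝ) (hν : ν ≤ μ) (hν' : ∀ j, a ≤ j → j < b → ν ≤ m j)
    (ω : Ω) :
    Ce P m Z a b (fun x => exp (μ * (XX P m Z' a x - XX P m Z a x - c)) * g x) ω ≤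
      exp (ν * (XX P m Z' b ω - XX P m Z b ω - c)) * Ce P m Z' a b g ω := by
  induction b, hab using Nat.le_induction generalizing ν ω with
  | base =>
    simp only [Aa.self P m _ (le_refl a)]
    refine mul_le_mul_of_nonneg_right (exp_le_exp.2 ?_) (hg ω)
    exact mul_le_mul_of_nonpos_right hν (hD a hb ω)
  | succ b hab ih =>
    rw [Aa.ce_succ _ hab, Aa.ce_succ _ hab]
    have h1 := fun x => ih (by omega) (fun j h1 h2 => hμ j h1 (by omega)) (m b)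
      (hμ b hab (by omega)) (fun j _ h2 => m_anti h h2.le (by omega)) x
    refine (Aa.mono' (Aa.qq_mk h Z (show b < t by omega)) h1 ω).trans ?_
    rw [chg]
    refine mul_le_mul_of_nonneg_right (exp_le_exp.2 ?_) ?_
    · exact mul_le_mul_of_nonpos_right (hν' b hab (by omega)) (hD (b + 1) hb ω)
    · exact (Aa.qq_mk h Z' (show b < t by omega)).1 _
        ((Aa.ce h Z' a b (by omega)).1 g hg) ω

end DomA'

theorem domA : DomA := by
  intro Ω P m t h Z Z' A c hZ hA l hl φ hφ ω0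
  have hD : ∀ j, j ≤ t → ∀ ω, XX P m Z' j ω - XX P m Z j ω - c ≤ 0 := fun j hj ω => by
    have := Aa.xle h (Z := Z') (Z' := Z) (c := c) (fun x => by rw [hZ]; linarith [hA x]) j hj ω
    linarith
  obtain ⟨ν, hν0, hν1, hν2, hν3⟩ : ∃ ν : ℝ, 0 ≤ ν ∧ ν ≤ 1 ∧ (∀ j, j < l → ν ≤ m j) ∧
      ∀ j, l ≤ j → j < t → m j ≤ ν := by
    by_cases hlt : l < t
    · exact ⟨m l, (h.pos l hlt).le, h.le1 l hlt, fun j hj => DomA'.m_anti h hj.le hlt,
        fun j h1 h2 => DomA'.m_anti h h1 h2⟩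
    · exact ⟨0, le_rfl, zero_le_one, fun j hj => (h.pos j (by omega)).le, fun j h1 h2 => by omega⟩
  have hA0 : ∀ x, A x = 1 * (XX P m Z' 0 x - XX P m Z 0 x - c) := fun x => by
    simp only [XX, hZ]; ring
  have k0 : ∀ (g : Ω → ℝ), (∀ x, 0 ≤ g x) → ∀ ν' : ℝ, ν' ≤ 1 → (∀ j, j < l → ν' ≤ m j) → ∀ ω,
      Ce P m Z 0 l (fun x => exp (A x) * g x) ω ≤
        exp (ν' * (XX P m Z' l ω - XX P m Z l ω - c)) * Ce P m Z' 0 l g ω := by
    intro g hg ν' h1 h2 ω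
    have := DomA'.key h Z Z' c hD hg 1 (Nat.zero_le l) hl
      (fun j _ hj => h.le1 j (by omega)) ν' h1 (fun j _ hj => h2 j hj) ω
    simpa only [← hA0] using this
  have hc := Aa.ce h Z 0 l hl
  have hc' := Aa.ce h Z' 0 l hl
  set G : Ω → ℝ := fun ω => Ce P m Z' 0 l (fun ω1 => Ce P m Z' 0 l (fun ω2 => φ ω1 ω2) ω) ω
    with hG
  have hG0 : ∀ ω, 0 ≤ G ω := fun ω => hc'.1 _ (fun ω1 => hc'.1 _ (hφ ω1) ω) ω
  have h1 : ∀ ω, Ce P m Z 0 l
      (fun ω1 => Ce P m Z 0 l (fun ω2 => φ ω1 ω2 * exp (A ω1 + A ω2)) ω) ω ≤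
      exp (ν * (XX P m Z' l ω - XX P m Z l ω - c)) * G ω := by
    intro ω
    have h2 : ∀ ω1, Ce P m Z 0 l (fun ω2 => φ ω1 ω2 * exp (A ω1 + A ω2)) ω ≤
        exp (ν * (XX P m Z' l ω - XX P m Z l ω - c)) *
          (exp (A ω1) * Ce P m Z' 0 l (fun ω2 => φ ω1 ω2) ω) := by
      intro ω1
      have e : (fun ω2 => φ ω1 ω2 * exp (A ω1 + A ω2)) =
          fun ω2 => exp (A ω1) * (exp (A ω2) * φ ω1 ω2) := by
        funext ω2; rw [exp_add]; ring
      rw [e, Aa.smul', mul_left_comm]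
      exact mul_le_mul_of_nonneg_left (k0 _ (hφ ω1) ν hν1 hν2 ω) (exp_pos _).le
    refine (Aa.mono' hc h2 ω).trans ?_
    rw [Aa.smul']
    refine mul_le_mul_of_nonneg_left ?_ (exp_pos _).le
    have h3 := k0 (fun ω1 => Ce P m Z' 0 l (fun ω2 => φ ω1 ω2) ω)
      (fun ω1 => hc'.1 _ (hφ ω1) ω) 0 zero_le_one (fun j hj => (h.pos j (by omega)).le) ω
    simpa only [zero_mul, exp_zero, one_mul] using h3
  refine (Aa.mono' (Aa.ce h Z l t le_rfl) h1 ω0).trans ?_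
  have h4 := DomA'.key h Z Z' c hD hG0 ν hl le_rfl hν3 0 hν0
    (fun j _ hj => (h.pos j hj).le) ω0
  rw [zero_mul, exp_zero, one_mul] at h4
  exact h4

end Vale.Agent.P157
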