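import Vale.Agent.P157.StmS
import Vale.Agent.P157.C

namespace Vale.Agent.P157

open Finset Real

set_option linter.unusedSectionVars false

namespace EndUm

noncomputable def eg (m μ x : ℝ) : ℝ := m * x ^ 2 / (2 * μ) - log μ / 2

theorem one {m μ x t : ℝ} (hm : 0 ≤ m) (h : 0 < μ - m * t ^ 2) :
    (exp (eg m μ (x + t)) + exp (eg m μ (x - t))) / 2 ≤ exp (eg m (μ - m * t ^ 2) x) := by
  have hu : 0 ≤ m * t ^ 2 := by positivity
  have hμ : 0 < μ := by linarith
  have e1 : (exp (eg m μ (x + t)) + exp (eg m μ (x - t))) / 2 =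
      exp (m * (x ^ 2 + t ^ 2) / (2 * μ) - log μ / 2) * cosh (m * x * t / μ) := by
    rw [cosh_eq, ← mul_div_assoc, mul_add (exp _), ← exp_add, ← exp_add]
    unfold eg
    congr 3 <;> field_simp <;> ring
  rw [e1]
  refine (mul_le_mul_of_nonneg_left (cosh_le_exp_half_sq _) (exp_pos _).le).trans ?_
  rw [← exp_add, exp_le_exp]
  have h1 := log_le_sub_one_of_pos (div_pos h hμ)
  rw [log_div h.ne' hμ.ne'] at h1
  have h2 : (μ - m * t ^ 2) / μ - 1 = -(2 * (m * t ^ 2 / (2 * μ))) := by field_simp; ring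
  have h3 : m * x ^ 2 / (2 * μ) + (m * x * t / μ) ^ 2 / 2 ≤ m * x ^ 2 / (2 * (μ - m * t ^ 2)) := by
    rw [show m * x ^ 2 / (2 * μ) + (m * x * t / μ) ^ 2 / 2 =
      m * x ^ 2 * (μ + m * t ^ 2) / (2 * μ ^ 2) by field_simp,
      div_le_div_iff₀ (by positivity) (by positivity)]
    nlinarith [mul_nonneg (mul_nonneg hm (sq_nonneg x)) (sq_nonneg (m * t ^ 2))]
  have h4 : m * (x ^ 2 + t ^ 2) / (2 * μ) = m * x ^ 2 / (2 * μ) + m * t ^ 2 / (2 * μ) := by ring
  unfold eg
  linarith

variable {I S : Type} [Fintype I] [DecidableEq I]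

def va (p : Multiset (I × ℝ)) (i : I) : ℝ := (p.map fun u => if u.1 = i then u.2 ^ 2 else 0).sum

theorem level {m : ℝ} (hm : 0 ≤ m) (lam : ℝ) (σ : S) (p : Multiset (I × ℝ)) :
    (∀ i, 0 < lam - m * va p i) → ∀ h : I → ℝ,
      (lv (p.map fun u => (Pi.single u.1 u.2 : I → ℝ)) : Op ((I → ℝ) × S))
        (fun x => exp (∑ i, eg m lam (x.1 i))) (h, σ) ≤
        exp (∑ i, eg m (lam - m * va p i) (h i)) := by
  induction p using Multiset.induction_on with
  | empty => intro _ h; simp [va, Cc.lv_zero]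
  | cons u p ih =>
    intro hp h
    have e0 : ∀ i, lam - m * va (u ::ₘ p) i =
        lam - m * va p i - m * (if u.1 = i then u.2 ^ 2 else 0) := fun i => by
      simp only [va, Multiset.map_cons, Multiset.sum_cons]; ring
    have hp' : ∀ i, 0 < lam - m * va p i := fun i => by
      have h1 := hp i
      have h2 : 0 ≤ m * (if u.1 = i then u.2 ^ 2 else 0) :=
        mul_nonneg hm (by split_ifs <;> positivity)
      rw [e0] at h1; linarith
    rw [Multiset.map_cons, Cc.cons_apply]
    refine (div_le_div_of_nonneg_right (add_le_add (ih hp' _) (ih hp' _)) zero_le_two).trans ?_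
    have hu := hp u.1
    rw [e0, if_pos rfl] at hu
    have h1 := mul_le_mul_of_nonneg_right (one (x := h u.1) hm hu)
      (exp_pos (∑ i ∈ univ.erase u.1, eg m (lam - m * va p i) (h i))).le
    rw [← add_sum_erase _ _ (mem_univ u.1), ← add_sum_erase _ _ (mem_univ u.1),
      ← add_sum_erase _ _ (mem_univ u.1), e0, if_pos rfl]
    have e1 : ∑ i ∈ univ.erase u.1, eg m (lam - m * va p i)
        ((h + (Pi.single u.1 u.2 : I → ℝ)) i) =
        ∑ i ∈ univ.erase u.1, eg m (lam - m * va p i) (h i) :=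
      sum_congr rfl fun i hi => by simp [Pi.single_eq_of_ne (ne_of_mem_erase hi)]
    have e2 : ∑ i ∈ univ.erase u.1, eg m (lam - m * va p i)
        ((h - (Pi.single u.1 u.2 : I → ℝ)) i) =
        ∑ i ∈ univ.erase u.1, eg m (lam - m * va p i) (h i) :=
      sum_congr rfl fun i hi => by simp [Pi.single_eq_of_ne (ne_of_mem_erase hi)]
    have e3 : ∑ i ∈ univ.erase u.1, eg m (lam - m * va (u ::ₘ p) i) (h i) =
        ∑ i ∈ univ.erase u.1, eg m (lam - m * va p i) (h i) :=
      sum_congr rfl fun i hi => by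
        rw [e0, if_neg (ne_of_mem_erase hi).symm, mul_zero, sub_zero]
    rw [e1, e2, e3]
    simp only [exp_add, Pi.add_apply, Pi.sub_apply, Pi.single_eq_same]
    linarith

variable {ι : Type} [Fintype ι] [DecidableEq ι] [Fintype S] [Inhabited S]

/-- the field configuration with coefficients `h` -/
noncomputable def th (ι : Type) [DecidableEq ι] (s : I → S → ℝ) :
    (I → ℝ) →+ (Option ι → S → ℝ) where
  toFun h := Pi.single none (∑ i, h i • s i)
  map_zero' := by simp
  map_add' h h' := by simp [add_smul, sum_add_distrib, Pi.single_add]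

def pr (l : Multiset (ℕ × ℝ)) (d : ℕ) : Multiset (I × ℝ) :=
  (univ : Finset I).val.bind fun i => (l.filter fun u => u.1 = d).map fun u => (i, u.2)

theorem va_pr (l : Multiset (ℕ × ℝ)) (d : ℕ) (i : I) : va (pr l d) i = lvar l d := by
  unfold va pr
  rw [Multiset.map_bind, Multiset.sum_bind]
  simp only [Multiset.map_map, Function.comp_def]
  rw [← Finset.sum_eq_multiset_sum, sum_eq_single i]
  · simp [lvar]
  · intro j _ hj; simp [hj]
  · simp

theorem steps (s : I → S → ℝ) (l : Multiset (ℕ × ℝ)) (d : ℕ) :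
    ((fl s (none : Option ι) univ l).filter fun u => u.1 = d).map vec =
      ((pr l d).map fun u => (Pi.single u.1 u.2 : I → ℝ)).map (th ι s) := by
  unfold fl pr lift
  rw [Multiset.filter_bind, Multiset.map_bind, Multiset.map_bind, Multiset.map_bind]
  refine Multiset.bind_congr fun i _ => ?_
  rw [Multiset.filter_map, Multiset.map_map, Multiset.map_map, Multiset.map_map]
  refine Multiset.map_congr rfl fun u _ => ?_
  simp only [Function.comp_apply, vec, th, AddMonoidHom.coe_mk, ZeroHom.coe_mk]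
  congr 1
  rw [sum_eq_single i]
  · simp
  · intro j _ hj; simp [Pi.single_eq_of_ne hj]
  · simp

theorem lamb_succ (n : ℕ) (b : ℝ) (q : ℕ → ℝ) (d : ℕ) :
    lamb n b q (d + 1) = lamb n b q d - mm n d * (q d - q (d + 1)) := by
  unfold lamb Dk mm; rw [sum_range_succ]; ring

theorem mm_pos {n d : ℕ} (h : d < n) : 0 < mm n d := by
  have : (d : ℝ) < n := by exact_mod_cast h
  unfold mm
  rw [sub_pos, div_lt_one (lt_of_le_of_lt (Nat.cast_nonneg d) this)]
  exact this

theorem lamb_pos {n : ℕ} {b : ℝ} {q : ℕ → ℝ} (hq : Path n q) (h : 0 < lamb n b q n) {d : ℕ}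
    (hd : d ≤ n) : 0 < lamb n b q d := by
  induction hd using Nat.decreasingInduction with
  | self => exact h
  | of_succ d hd ih =>
    rw [lamb_succ] at ih
    have := mul_nonneg (mm_pos hd).le (sub_nonneg.2 (hq.1 d hd))
    linarith

theorem field {n : ℕ} (f : ℝ → ℝ) (s : I → S → ℝ) (l : Multiset (ℕ × ℝ)) {q : ℕ → ℝ} {b E0 : ℝ}
    (hq : Path n q) (hl : ∀ d, d < n → lvar l d = q d - q (d + 1)) (hb : 0 < lamb n b q n)
    (h0 : ∀ h : I → ℝ, log (avg fun σ => exp (∑ i, h i * s i σ)) ≤ ∑ i, h i ^ 2 / (2 * b) + E0) :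
    ∀ j, j ≤ n → ∀ (h : I → ℝ) (σ : S),
      XX (chain (fl s (none : Option ι) univ l)) (ex n) (ZU (gg ι f) fun _ => 0) (j + 1)
        (th ι s h, σ) ≤ (Fintype.card ι * f 0 + E0 + Fintype.card I *
          ((∑ d ∈ range j, (mm n d)⁻¹ * log (lamb n b q d / lamb n b q (d + 1))) / 2)) +
          ∑ i, h i ^ 2 / (2 * lamb n b q j) := by
  intro j
  induction j with
  | zero =>
    intro _ h σ
    have hc : (0 : ℝ) < Fintype.card S := by exact_mod_cast Fintype.card_pos
    have e1 : ∀ σ' : S, ZU (gg ι f) (fun _ => 0) (th ι s h, σ') =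
        Fintype.card ι * f 0 + ∑ i, h i * s i σ' := fun σ' => by
      simp [ZU, ZZ, Fintype.sum_option, gg, th, add_comm]
    show (1 : ℝ)⁻¹ * log ((∑ σ' : S, exp (1 * ZU (gg ι f) (fun _ => 0) (th ι s h, σ'))) / _) ≤ _
    have e2 : 0 < (∑ σ, exp (∑ i, h i * s i σ)) / (Fintype.card S : ℝ) :=
      div_pos (sum_pos (fun _ _ => exp_pos _) univ_nonempty) hc
    simp only [e1, one_mul, inv_one, exp_add, ← mul_sum]
    rw [mul_div_assoc, log_mul (exp_pos _).ne' e2.ne', log_exp]
    have := h0 h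
    simp only [lamb, Dk, sum_range_zero, sub_zero, zero_div, mul_zero, add_zero]
    unfold avg at this
    linarith
  | succ j ih =>
    intro hj h σ
    have hm := mm_pos (n := n) (d := j) hj
    have l0 := lamb_pos hq hb (d := j) (by omega)
    have l1 := lamb_pos hq hb hj
    set c := Fintype.card ι * f 0 + E0 + Fintype.card I *
      ((∑ d ∈ range j, (mm n d)⁻¹ * log (lamb n b q d / lamb n b q (d + 1))) / 2) with hc
    set X := XX (chain (fl s (none : Option ι) univ l)) (ex n) (ZU (gg ι f) fun _ => 0) (j + 1)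
      with hX
    show (mm n j)⁻¹ * log (lv (((fl s (none : Option ι) univ l).filter fun u => u.1 = j).map vec)
      (fun ω => exp (mm n j * X ω)) (th ι s h, σ)) ≤ _
    have hpos := Aa.epos (Cc.lv_mk (S := S)
      (((fl s (none : Option ι) univ l).filter fun u => u.1 = j).map vec))
      (fun ω => mm n j * X ω) (th ι s h, σ)
    have e1 := Cc.lv_map (th ι s) 0 id ((pr l j).map fun u => (Pi.single u.1 u.2 : I → ℝ))
      (fun ω => exp (mm n j * X ω)) (h, σ)
    simp only [add_zero, id] at e1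
    rw [steps, ← e1] at hpos ⊢
    have hv : ∀ i : I, lamb n b q j - mm n j * va (pr l j) i = lamb n b q (j + 1) := fun i => by
      rw [va_pr, hl j hj, lamb_succ]
    have h1 := level hm.le (lamb n b q j) σ (pr l j) (fun i => by rw [hv]; exact l1) h
    simp only [hv] at h1
    have h2 := Aa.mono' (Cc.lv_mk (S := S) ((pr l j).map fun u => (Pi.single u.1 u.2 : I → ℝ)))
      (g := fun x => exp (mm n j * X (th ι s x.1, x.2)))
      (h := fun x => exp (mm n j * c + Fintype.card I * (log (lamb n b q j) / 2)) *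
        exp (∑ i, eg (mm n j) (lamb n b q j) (x.1 i))) (fun x => by
        rw [← exp_add, exp_le_exp]
        refine (mul_le_mul_of_nonneg_left (ih (by omega) x.1 x.2) hm.le).trans (le_of_eq ?_)
        simp only [eg, sum_sub_distrib, sum_const, card_univ, nsmul_eq_mul, mul_add, mul_sum,
          mul_div_assoc]
        ring) (h, σ)
    rw [Aa.smul'] at h2
    have h3 := log_le_log hpos (h2.trans (mul_le_mul_of_nonneg_left h1 (exp_pos _).le))
    rw [← exp_add, log_exp] at h3
    rw [inv_mul_le_iff₀ hm]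
    refine h3.trans (le_of_eq ?_)
    rw [sum_range_succ, log_div l0.ne' l1.ne', hc]
    simp only [eg, sum_sub_distrib, sum_const, card_univ, nsmul_eq_mul, mul_div_assoc, ← mul_sum]
    field_simp
    ring

theorem pat (h1 : P1U) {n : ℕ} (hn : 1 ≤ n) (f : ℝ → ℝ) (lp : Multiset (ℕ × ℝ))
    (L : Multiset (St (Option ι) S)) (hL : ∀ u ∈ L, u.2.1 = none) (J : Finset (Option ι)) :
    none ∉ J → TU n (gg ι f) (fun _ => 0) (J.val.bind (fun a => lift a (fun _ => 1) lp) + L) =
      TU n (gg ι f) (fun _ => 0) L + J.card * (HD n f lp - f 0) := by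
  induction J using Finset.induction_on with
  | empty => simp
  | insert a J ha ih =>
    intro hJ
    rw [mem_insert, not_or] at hJ
    rw [insert_val_of_notMem ha, Multiset.cons_bind, add_assoc, add_comm (lift a _ lp)]
    have hne : ∀ u ∈ J.val.bind (fun a => (lift a (fun _ => 1) lp : Multiset (St _ S))) + L,
        u.2.1 ≠ a := by
      intro u hu e
      rcases Multiset.mem_add.1 hu with hu | hu
      · obtain ⟨j, hj, hu⟩ := Multiset.mem_bind.1 hu
        obtain ⟨x, -, rfl⟩ := Multiset.mem_map.1 hu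
        exact ha (e ▸ hj)
      · exact hJ.1 ((hL u hu).symm.trans e)
    rw [(h1 (Option ι) S n (gg ι f) _ _ a lp hn hne).1, ih hJ.2, card_insert_of_notMem ha]
    obtain ⟨a, rfl⟩ := Option.ne_none_iff_exists'.1 (Ne.symm hJ.1)
    show _ - f 0 + HD n f lp = _
    push_cast; ring

end EndUm

theorem endU (hP1U : P1U) : EndU := by
  intro S I _ _ _ _ n M f s lp l q b E0 hn hq hl hb h0
  rw [EndUm.pat hP1U hn f lp _ (fun u hu => by
    obtain ⟨i, -, hu⟩ := Multiset.mem_bind.1 hu
    obtain ⟨x, -, rfl⟩ := Multiset.mem_map.1 hu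
    rfl) (pats M) (notMem_erase _ _)]
  have h := EndUm.field (ι := Fin M) f s l hq hl hb h0 n le_rfl 0 default
  rw [map_zero] at h
  have e : ((pats M).card : ℝ) = M := by simp [pats]
  rw [e]
  simp only [Fintype.card_fin, Pi.zero_apply, ne_eq, OfNat.ofNat_ne_zero, not_false_eq_true,
    zero_pow, zero_div, sum_const_zero, add_zero] at h
  unfold TU qv
  linarith

end Vale.Agent.P157
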