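import Vale.Agent.P157.S.SoftS

/-! Module ExpS: exponential moments on the shell. -/

namespace Vale.Agent.P157

open Finset Real SoftSm

theorem expS : ExpS := by
  intro T _ _ v K η b1 ε b N hQ hN hb hb1 hε he hl hc h
  set ρ := avg fun t => v t ^ 2 with hρ
  have N0 : (0 : ℝ) < N := by exact_mod_cast hN
  have hT : (0 : ℝ) < Fintype.card T := by exact_mod_cast Fintype.card_pos
  have hS : 0 < Fintype.card (Sh v N ρ ε) := by
    have : 0 < Fintype.card (Fin N → T) := Fintype.card_pos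
    omega
  haveI := Fintype.card_pos_iff.1 hS
  have hS' : (0 : ℝ) < Fintype.card (Sh v N ρ ε) := by exact_mod_cast hS
  have hK := hQ.hK
  have η0 : 0 ≤ η := by nlinarith [hQ.hKη]
  set c := (b - 1) * (N * (ρ + ε)) / 2 with hcd
  have a1 : ∑ σ : Sh v N ρ ε, exp (∑ i, h i * shs v N ρ ε i σ) ≤
      exp c * ∑ σ : Fin N → T, ∏ i, exp (h i * v (σ i) + Uq v b (σ i)) := by
    rw [mul_sum]
    refine le_trans (sum_le_sum fun σ _ => ?_) ((sum_sh v N ρ ε fun σ =>
      exp c * ∏ i, exp (h i * v (σ i) + Uq v b (σ i))).trans_le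
      (sum_le_sum_of_subset_of_nonneg (subset_univ _) fun _ _ _ => by positivity))
    rw [← exp_sum, ← exp_add, exp_le_exp, sum_add_distrib]
    have h1 : ∑ i, v (σ.1 i) ^ 2 ≤ N * (ρ + ε) := by
      rw [mul_comm, ← div_le_iff₀ N0]; linarith [(abs_le.1 σ.2).2]
    have h2 : ∑ i, Uq v b (σ.1 i) = -((b - 1) * (∑ i, v (σ.1 i) ^ 2) / 2) := by
      simp only [Uq, sum_neg_distrib, mul_sum, sum_div]
    have h3 := mul_le_mul_of_nonneg_left h1 (sub_nonneg.2 hb)
    rw [h2, hcd]
    simp only [shs]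
    linarith
  have a2 : ∑ σ : Fin N → T, ∏ i, exp (h i * v (σ i) + Uq v b (σ i)) =
      Fintype.card (Fin N → T) * exp (∑ i, PhT v b (h i)) := by
    rw [← Fintype.prod_sum fun i t => exp (h i * v t + Uq v b t), exp_sum, Fintype.card_fun,
      Nat.cast_pow, ← card_univ (α := Fin N), ← prod_const, ← prod_mul_distrib]
    refine prod_congr rfl fun i _ => ?_
    rw [PhT, exp_log (avg_pos _), avg, mul_div_cancel₀ _ hT.ne']
  have a3 : (avg fun σ => exp (∑ i, h i * shs v N ρ ε i σ)) ≤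
      exp (log 2 + c + ∑ i, PhT v b (h i)) := by
    have : (Fintype.card (Fin N → T) : ℝ) ≤ 2 * Fintype.card (Sh v N ρ ε) := by exact_mod_cast hc
    rw [avg, div_le_iff₀ hS', exp_add, exp_add, exp_log two_pos]
    refine (a1.trans_eq (by rw [a2])).trans ?_
    calc _ ≤ exp c * (2 * Fintype.card (Sh v N ρ ε) * exp (∑ i, PhT v b (h i))) := by gcongr
      _ = _ := by ring
  have a4 : ∑ i, PhT v b (h i) ≤ ∑ i, h i ^ 2 / (2 * b) + N * (η - log b / 2) := by
    have : η / K ^ 2 ≤ η := div_le_self η0 (one_le_pow₀ hK)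
    refine (sum_le_sum fun i _ => show _ ≤ h i ^ 2 / (2 * b) + (η - log b / 2) by
      linarith [hQ.up b (h i) (by linarith) hb1,
        show PhG b (h i) = h i ^ 2 / (2 * b) - log b / 2 from rfl]).trans_eq ?_
    rw [sum_add_distrib, sum_const, card_univ, Fintype.card_fin, nsmul_eq_mul]
  have a5 : (b - 1) * (ρ + ε) ≤ b - 1 + 2 * η := by
    have h1 := hQ.var'
    rw [← hρ] at h1
    rcases le_total ρ 1 with h2 | h2 <;> nlinarith
  have a6 := mul_le_mul_of_nonneg_left a5 N0.le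
  refine ((log_le_iff_le_exp (avg_pos _)).2 a3).trans ?_
  rw [hcd]
  linarith

end Vale.Agent.P157
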