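import Vale.Agent.P157.StmS
import Vale.Agent.P157.G1
import Vale.Agent.P157.Lin
import Vale.Agent.P157.A
import Vale.Agent.P157.C

/-! P157, sphere: passing from sign steps to Gaussian patterns. -/

namespace Vale.Agent.P157

open MeasureTheory ProbabilityTheory Finset Real Filter

set_option linter.unusedSectionVars false

namespace G1U

open G1 (Lp lse Apx)

variable {S : Type} [Fintype S] [Inhabited S]

noncomputable def FF (f : ℝ → ℝ) (M : ℕ) (U : S → ℝ) (x : Option (Fin M) → S → ℝ) : ℝ :=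
  log (avg fun σ => exp (ZU (gg (Fin M) f) U (x, σ)))

theorem FF_lp {B : ℝ} (hB : 0 ≤ B) {f : ℝ → ℝ} (hf : ∀ t h, |f (t + h) - f t| ≤ B * |h|)
    (M : ℕ) (U : S → ℝ) : Lp (1 + M * B) (FF f M U) := by
  have key : ∀ x y : Option (Fin M) → S → ℝ, ∀ σ,
      ZU (gg (Fin M) f) U (x, σ) ≤ ZU (gg (Fin M) f) U (y, σ) + (1 + M * B) * ‖x - y‖ := by
    intro x y σ
    have h1 : ∀ o, |x o σ - y o σ| ≤ ‖x - y‖ := fun o =>
      (norm_le_pi_norm ((x - y) o) σ).trans (norm_le_pi_norm (x - y) o)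
    unfold ZU ZZ
    rw [Fintype.sum_option, Fintype.sum_option]
    have h2 : ∑ a : Fin M, f (x (some a) σ) ≤ ∑ a : Fin M, (f (y (some a) σ) + B * ‖x - y‖) := by
      refine sum_le_sum fun a _ => ?_
      have h3 := hf (y (some a) σ) (x (some a) σ - y (some a) σ)
      rw [add_sub_cancel] at h3
      have h4 := mul_le_mul_of_nonneg_left (h1 (some a)) hB
      linarith [(abs_le.1 h3).2]
    rw [sum_add_distrib, sum_const, card_univ, Fintype.card_fin, nsmul_eq_mul] at h2
    have h5 := (abs_le.1 (h1 none)).2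
    simp only [gg, Option.elim, id]
    linarith
  intro x y
  have hc : (0 : ℝ) < Fintype.card S := by exact_mod_cast Fintype.card_pos
  have a1 := lse _ hc _ _ _ (key x y)
  have a2 := lse _ hc _ _ _ (key y x)
  rw [norm_sub_rev] at a2
  unfold FF avg
  rw [abs_le]
  constructor <;> linarith

noncomputable def ww {N : ℕ} (M : ℕ) (s : Fin N → S → ℝ) (a : Fin M) (i : Fin N) :
    Option (Fin M) → S → ℝ :=
  Pi.single (some a) ((1 / √(N : ℝ)) • s i)

theorem ww_norm {N : ℕ} (hN : 1 ≤ N) (M : ℕ) {s : Fin N → S → ℝ} {K : ℝ} (hK : 0 ≤ K)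
    (hs : ∀ i σ, |s i σ| ≤ K) (a : Fin M) (i : Fin N) : ‖ww M s a i‖ ≤ K := by
  unfold ww
  rw [Pi.norm_single, norm_smul]
  have h1 : ‖s i‖ ≤ K := (pi_norm_le_iff_of_nonneg hK).2 fun σ => hs i σ
  have h2 : ‖1 / √(N : ℝ)‖ ≤ 1 := by
    have : (1 : ℝ) ≤ √(N : ℝ) := Real.one_le_sqrt.2 (by exact_mod_cast hN)
    rw [Real.norm_eq_abs, abs_of_nonneg (by positivity), div_le_one (by linarith)]
    exact this
  exact (mul_le_mul h2 h1 (norm_nonneg _) zero_le_one).trans_eq (one_mul K)

theorem sys_eq {N : ℕ} (M D : ℕ) (s : Fin N → S → ℝ) :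
    (sy 1 s (univ : Finset (Fin N)) (pats M) D (1 / √((N : ℝ) * D))).map vec =
      ∑ a : Fin M, ∑ i : Fin N, D • ({(1 / √(D : ℝ)) • ww M s a i} : Multiset _) := by
  unfold sy
  rw [Multiset.map_bind]
  have e : pats M = univ.map Function.Embedding.some := by
    ext o; cases o <;> simp [pats]
  show ∑ a ∈ pats M, _ = _
  rw [e, sum_map]
  refine sum_congr rfl fun a _ => ?_
  rw [← smul_sum, Multiset.map_nsmul]
  congr 1
  unfold rd
  rw [Multiset.map_map, ← Multiset.bind_singleton]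
  show ∑ i : Fin N, _ = _
  refine sum_congr rfl fun i _ => ?_
  congr 1
  unfold ww
  rw [← Pi.single_smul, smul_smul, Real.sqrt_mul (Nat.cast_nonneg N)]
  show (Pi.single (some a) ((1 / (√(N : ℝ) * √(D : ℝ))) • s i) : Option (Fin M) → S → ℝ) = _
  congr 2
  rw [one_div_mul_one_div, mul_comm]

theorem FF_val {N : ℕ} (f : ℝ → ℝ) (M : ℕ) (s : Fin N → S → ℝ) (U : S → ℝ)
    (g : Fin M → Fin N → ℝ) :
    FF f M U (0 + ∑ a, ∑ i, g a i • ww M s a i) =
      log (avg fun σ => exp (∑ a, f ((∑ i, g a i * s i σ) / √(N : ℝ)) + U σ)) := by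
  unfold FF
  rw [zero_add]
  congr 2
  funext σ
  congr 1
  unfold ZU ZZ
  rw [Fintype.sum_option]
  have h0 : ∀ a i, ww M s a i none = 0 := fun a i =>
    Pi.single_eq_of_ne (Option.some_ne_none a).symm _
  have h1 : ∀ b a i, ww M s a i (some b) σ = if a = b then s i σ / √(N : ℝ) else 0 := by
    intro b a i
    unfold ww
    split_ifs with h
    · subst h
      rw [Pi.single_eq_same]
      simp only [Pi.smul_apply, smul_eq_mul]
      ring
    · rw [Pi.single_eq_of_ne (fun h' => h (Option.some_injective _ h').symm)]; rfl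
  simp only [gg, Option.elim, id, Finset.sum_apply, Pi.smul_apply, h0, h1, Pi.zero_apply,
    smul_eq_mul, mul_zero, sum_const_zero, zero_add]
  congr 1
  refine sum_congr rfl fun b _ => ?_
  congr 1
  rw [sum_eq_single b (fun a _ h => by simp [h]) (by simp), sum_div]
  refine sum_congr rfl fun i _ => ?_
  rw [if_pos rfl, mul_div_assoc]

theorem base {E : Type} [NormedAddCommGroup E] [NormedSpace ℝ E] {K R ε : ℝ} (hK : 0 ≤ K)
    (hR : 0 < R) (hε : 0 < ε) : ∀ᶠ D : ℕ in atTop, ∀ w : E, ‖w‖ ≤ R →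
      Apx K ε (D • ({(1 / √(D : ℝ)) • w} : Multiset E)) (gaussianReal 0 1) (fun z => z • w) := by
  filter_upwards [G1.base (E := E) cApi (linStmt aApi cApi) (K := K * R) (by positivity) hε]
    with D hD w hw
  have h1 := hD (R⁻¹ • w) (by
    rw [norm_smul, norm_inv, Real.norm_eq_abs, abs_of_pos hR, inv_mul_le_iff₀ hR, mul_one]
    exact hw)
  refine ⟨((memLp_id_gaussianReal 1).integrable le_rfl).smul_const w, fun F hF x => ?_⟩
  have h2 := h1.bd (fun y => F (R • y + x)) (fun y z => by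
    refine (hF _ _).trans (le_of_eq ?_)
    rw [add_sub_add_right_eq_sub, ← smul_sub, norm_smul, Real.norm_eq_abs, abs_of_pos hR, mul_assoc])
    0
  have h3 := cApi.lv_map (DistribSMul.toAddMonoidHom E R) x (fun u : Unit => u)
    (D • ({(1 / √(D : ℝ)) • R⁻¹ • w} : Multiset E)) (fun ω : E × Unit => F ω.1) (0, ())
  have e1 : ∀ t : ℝ, R • t • R⁻¹ • w = t • w := fun t => by
    rw [smul_comm R t, smul_smul R, mul_inv_cancel₀ hR.ne', one_smul]
  simp only [DistribSMul.toAddMonoidHom_apply, smul_zero, zero_add, Multiset.map_nsmul,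
    Multiset.map_singleton, e1] at h3
  rw [h3] at h2
  simpa only [zero_add, e1, add_comm _ x] using h2

end G1U

theorem g1U : G1U := by
  intro B K ε f N M S _ _ s U hε hN hb hf hs
  have hA := aApi
  have hC := cApi
  have hB : 0 ≤ B := (abs_nonneg _).trans (hb 0)
  have hK : 0 ≤ 1 + M * B := by positivity
  have hε' : 0 < ε / (M * N + 1) := by positivity
  have hR : 0 < |K| + 1 := by positivity
  filter_upwards [G1U.base (E := Option (Fin M) → S → ℝ) hK hR hε'] with D hD
  have h1 := G1.pi hA hC hK _ M _ _ (fun a => G1.pi hA hC hK (gaussianReal 0 1) N _ _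
    (fun i => hD (G1U.ww M s a i) (G1U.ww_norm hN M hR.le
      (fun i σ => (hs i σ).trans (by linarith [le_abs_self K])) a i)))
  have h2 := h1.bd _ (G1U.FF_lp hB hf M U) 0
  simp only [G1U.FF_val] at h2
  rw [← G1U.sys_eq] at h2
  have h3 := hC.lv_map (AddMonoidHom.id _) 0 (fun _ : S => ())
    ((sy 1 s (univ : Finset (Fin N)) (pats M) D (1 / √((N : ℝ) * D))).map vec)
    (fun ω => G1U.FF f M U ω.1) (0, default)
  simp only [AddMonoidHom.id_apply, add_zero, Multiset.map_id'] at h3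
  rw [← h3] at h2
  refine le_trans h2 ?_
  rw [← mul_assoc, mul_div_assoc', div_le_iff₀ (by positivity)]
  nlinarith

end Vale.Agent.P157
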