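import Vale.Agent.P157.StmS
import Vale.Agent.P157.G
import Vale.Agent.P157.A
import Vale.Agent.P157.C

/-! P157, sphere, module GUApi: bookkeeping for steps with a potential. -/

namespace Vale.Agent.P157

open Finset Real

namespace GUA

section
variable {O S I : Type} [Fintype O] [DecidableEq O] [Fintype S] [Inhabited S]

omit [Fintype S] in
theorem K0 {w : S → ℝ} {K : ℝ} (hw : ∀ σ, |w σ| ≤ K) : 0 ≤ K :=
  (abs_nonneg _).trans (hw default)

theorem nw {w : S → ℝ} {K : ℝ} (hw : ∀ σ, |w σ| ≤ K) (c : ℝ) : ‖c • w‖ ≤ K * |c| := by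
  have : ‖w‖ ≤ K := (pi_norm_le_iff_of_nonneg (K0 hw)).2 fun σ => by
    rw [Real.norm_eq_abs]; exact hw σ
  rw [norm_smul, Real.norm_eq_abs, mul_comm K]
  exact mul_le_mul_of_nonneg_left this (abs_nonneg _)

theorem nw2 {w : S → ℝ} {K : ℝ} (hw : ∀ σ, |w σ| ≤ K) (c : ℝ) : ‖c • w‖ ^ 2 ≤ K ^ 2 * c ^ 2 := by
  rw [← sq_abs c, ← mul_pow]
  exact pow_le_pow_left₀ (norm_nonneg _) (nw hw c) 2

omit [Fintype O] [DecidableEq O] in
theorem lift_vr (n : ℕ) (B K : ℝ) (o : O) (w : S → ℝ) (l : Multiset (ℕ × ℝ)) (hB : 0 ≤ B)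
    (hw : ∀ σ, |w σ| ≤ K) :
    vr (lift o w l) ≤ K ^ 2 * (l.map (fun s => s.2 ^ 2)).sum ∧
    sz (lift o w l) ≤ K * (l.map (fun s => |s.2|)).sum ∧
    ((∀ s ∈ l, s.1 < n ∧ B * K * |s.2| ≤ 1) → Small n B (lift o w l)) ∧
    ∀ s ∈ lift o w l, s.2.1 = o := by
  refine ⟨?_, ?_, fun h s hs => ?_, fun s hs => ?_⟩
  · simp only [vr, lift, Multiset.map_map, Function.comp_def]
    rw [← Multiset.sum_map_mul_left]
    exact Multiset.sum_map_le_sum_map _ _ fun s _ => nw2 hw s.2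
  · simp only [sz, lift, Multiset.map_map, Function.comp_def]
    rw [← Multiset.sum_map_mul_left]
    exact Multiset.sum_map_le_sum_map _ _ fun s _ => nw hw s.2
  · obtain ⟨s', hs', rfl⟩ := Multiset.mem_map.1 hs
    refine ⟨(h s' hs').1, le_trans ?_ (h s' hs').2⟩
    rw [mul_assoc]
    exact mul_le_mul_of_nonneg_left (nw hw s'.2) hB
  · obtain ⟨s', _, rfl⟩ := Multiset.mem_map.1 hs
    rfl

omit [Fintype O] [DecidableEq O] in
theorem rd_vr (n : ℕ) (B K : ℝ) (s : I → S → ℝ) (o : O) (A : Finset I) (κ : ℕ) (c : ℝ)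
    (hB : 0 ≤ B) (hs : ∀ i σ, |s i σ| ≤ K) :
    vr (rd s o A κ c) ≤ K ^ 2 * (A.card * c ^ 2) ∧
    (κ < n → B * K * |c| ≤ 1 → Small n B (rd s o A κ c)) ∧ ∀ t ∈ rd s o A κ c, t.2.1 = o := by
  refine ⟨?_, fun h1 h2 t ht => ?_, fun t ht => ?_⟩
  · simp only [vr, rd, Multiset.map_map, Function.comp_def]
    change ∑ i ∈ A, ‖c • s i‖ ^ 2 ≤ _
    refine (sum_le_sum fun i _ => nw2 (hs i) c).trans (le_of_eq ?_)
    rw [sum_const, nsmul_eq_mul]; ring
  · obtain ⟨i, _, rfl⟩ := Multiset.mem_map.1 ht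
    refine ⟨h1, le_trans ?_ h2⟩
    rw [mul_assoc]
    exact mul_le_mul_of_nonneg_left (nw (hs i) c) hB
  · obtain ⟨i, _, rfl⟩ := Multiset.mem_map.1 ht
    rfl

omit [Fintype O] [DecidableEq O] in
theorem fl_vr (n : ℕ) (B K : ℝ) (s : I → S → ℝ) (o : O) (A : Finset I)
    (l l' : Multiset (ℕ × ℝ)) (hB : 0 ≤ B) (hs : ∀ i σ, |s i σ| ≤ K) :
    vr (fl s o A l) ≤ K ^ 2 * (A.card * (l.map (fun s => s.2 ^ 2)).sum) ∧
    sz (fl s o A l) ≤ K * (A.card * (l.map (fun s => |s.2|)).sum) ∧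
    ((∀ s ∈ l, s.1 < n ∧ B * K * |s.2| ≤ 1) → Small n B (fl s o A l)) ∧
    fl s o A (l + l') = fl s o A l + fl s o A l' ∧ ∀ t ∈ fl s o A l, t.2.1 = o := by
  have hl := fun i : I => lift_vr n B K o (s i) l hB (hs i)
  refine ⟨?_, ?_, fun h t ht => ?_, ?_, fun t ht => ?_⟩
  · simp only [vr, fl, Multiset.map_bind, Multiset.sum_bind]
    change ∑ i ∈ A, vr (lift o (s i) l) ≤ _
    refine (sum_le_sum fun i _ => (hl i).1).trans (le_of_eq ?_)
    rw [sum_const, nsmul_eq_mul]; ring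
  · simp only [sz, fl, Multiset.map_bind, Multiset.sum_bind]
    change ∑ i ∈ A, sz (lift o (s i) l) ≤ _
    refine (sum_le_sum fun i _ => (hl i).2.1).trans (le_of_eq ?_)
    rw [sum_const, nsmul_eq_mul]; ring
  · obtain ⟨i, _, hi⟩ := Multiset.mem_bind.1 ht
    exact (hl i).2.2.1 h t hi
  · simp only [fl, lift, Multiset.map_add, Multiset.bind_add]
  · obtain ⟨i, _, hi⟩ := Multiset.mem_bind.1 ht
    exact (hl i).2.2.2 t hi

theorem eu_smul (n : ℕ) (g : O → ℝ → ℝ) (U : S → ℝ) (L : Multiset (St O S)) (d : ℕ) (c : ℝ)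
    (φ : Om O S → Om O S → ℝ) :
    EU n g U L d (fun ω ω' => c * φ ω ω') = c * EU n g U L d φ := by
  have := Aa.e2add (chain L) (ex n) (ZU g U) (d + 1) (n + 1) φ φ c 0 (0, default)
  simpa [EU] using this

theorem e1_smul (n : ℕ) (g : O → ℝ → ℝ) (U : S → ℝ) (L : Multiset (St O S)) (c : ℝ)
    (V : Om O S → ℝ) : E1U n g U L (fun ω => c * V ω) = c * E1U n g U L V :=
  Aa.smul' _ c V _

theorem e1_sum (n : ℕ) (g : O → ℝ → ℝ) (U : S → ℝ) (L : Multiset (St O S)) (A : Finset I)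
    (V : I → Om O S → ℝ) :
    E1U n g U L (fun ω => ∑ i ∈ A, V i ω) = ∑ i ∈ A, E1U n g U L (V i) := by
  have : (fun ω => ∑ i ∈ A, V i ω) = ∑ i ∈ A, V i := by
    funext ω; rw [Finset.sum_apply]
  simp only [E1U]
  rw [this, map_sum, Finset.sum_apply]

theorem gam_one (n : ℕ) (g g1 g2 : O → ℝ → ℝ) (U : S → ℝ) (L : Multiset (St O S)) (o : O)
    (w : S → ℝ) (κ : ℕ) (c : ℝ) : GU n g g1 g2 U L (κ, o, c • w) =
      c ^ 2 * (E1U n g U L (ob (gq g1 g2 o) o (fun σ => w σ ^ 2)) -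
        (1 / (n : ℝ)) * ∑ d ∈ Icc 1 κ,
          EU n g U L d (fun ω ω' => ob (g1 o) o w ω * ob (g1 o) o w ω')) / 2 := by
  have h1 : ob (gq g1 g2 o) o (fun σ => (c • w) σ ^ 2) =
      fun ω => c ^ 2 * ob (gq g1 g2 o) o (fun σ : S => w σ ^ 2) ω := by
    funext ω
    simp only [ob, Pi.smul_apply, smul_eq_mul, mul_pow]
    ring
  have h2 : ∀ d, EU n g U L d (fun ω ω' => ob (g1 o) o (c • w) ω * ob (g1 o) o (c • w) ω') =
      c ^ 2 * EU n g U L d (fun ω ω' => ob (g1 o) o w ω * ob (g1 o) o w ω') := by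
    intro d
    rw [← eu_smul]
    congr 1
    funext ω ω'
    simp only [ob, Pi.smul_apply, smul_eq_mul]
    ring
  simp only [GU, h1, h2, e1_smul, ← mul_sum]
  ring

theorem gam_prof (n : ℕ) (g g1 g2 : O → ℝ → ℝ) (U : S → ℝ) (L : Multiset (St O S)) (o : O)
    (w : S → ℝ) (p : ℕ → ℝ) (c2 : ℝ) (hp : Path n p) (hc : 0 ≤ c2) :
    ((lift o w (sprof n p c2)).map (GU n g g1 g2 U L)).sum =
      c2 * (p 0 * E1U n g U L (ob (gq g1 g2 o) o (fun σ => w σ ^ 2)) -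
        (1 / (n : ℝ)) * ∑ d ∈ Ico 1 n, p d *
          EU n g U L d (fun ω ω' => ob (g1 o) o w ω * ob (g1 o) o w ω')) / 2 := by
  simp only [lift, sprof, Multiset.map_map, Function.comp_def, gam_one n g g1 g2 U L o w]
  change ∑ κ ∈ range n, _ = _
  have hs : ∀ κ ∈ range n, √(c2 * (p κ - p (κ + 1))) ^ 2 = c2 * (p κ - p (κ + 1)) :=
    fun κ hκ => sq_sqrt (mul_nonneg hc (sub_nonneg.2 (hp.1 κ (mem_range.1 hκ))))
  rw [sum_congr rfl fun κ hκ => by rw [hs κ hκ], ← Gm.swap n p _ hp.2]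
  have ht := Gm.tel p (Nat.zero_le n)
  rw [hp.2, sub_zero, ← range_eq_Ico] at ht
  rw [← ht, sum_mul, mul_sum, ← sum_sub_distrib, mul_sum, sum_div]
  refine sum_congr rfl fun κ _ => ?_
  ring

theorem eu_R (n : ℕ) (g : O → ℝ → ℝ) (U : S → ℝ) (L : Multiset (St O S)) (d : ℕ)
    (s : I → S → ℝ) (A : Finset I) (hne : A.Nonempty) (u : Om O S → ℝ) :
    ∑ i ∈ A, EU n g U L d (fun ω ω' => (u ω * s i ω.2) * (u ω' * s i ω'.2)) =
      A.card * EU n g U L d (fun ω ω' => u ω * u ω' * RR s A ω.2 ω'.2) := by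
  have hc : (A.card : ℝ) ≠ 0 := by exact_mod_cast hne.card_pos.ne'
  rw [← eu_smul]
  simp only [EU]
  rw [← Aa.e2sum]
  congr 1
  funext ω ω'
  simp only [RR]
  rw [mul_left_comm, mul_div_cancel₀ _ hc, mul_sum]
  refine sum_congr rfl fun i _ => ?_
  ring

theorem e1_R (n : ℕ) (g : O → ℝ → ℝ) (U : S → ℝ) (L : Multiset (St O S))
    (s : I → S → ℝ) (A : Finset I) (hne : A.Nonempty) (u : Om O S → ℝ) :
    ∑ i ∈ A, E1U n g U L (fun ω => u ω * s i ω.2 ^ 2) =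
      A.card * E1U n g U L (fun ω => u ω * RR s A ω.2 ω.2) := by
  have hc : (A.card : ℝ) ≠ 0 := by exact_mod_cast hne.card_pos.ne'
  rw [← e1_smul, ← e1_sum]
  congr 1
  funext ω
  simp only [RR]
  rw [mul_left_comm, mul_div_cancel₀ _ hc, mul_sum]
  refine sum_congr rfl fun i _ => ?_
  ring

theorem gam_rd (n : ℕ) (g g1 g2 : O → ℝ → ℝ) (U : S → ℝ) (L : Multiset (St O S))
    (s : I → S → ℝ) (o : O) (A : Finset I) (c : ℝ) (hn : 1 ≤ n) (hne : A.Nonempty) :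
    ((rd s o A (n - 1) c).map (GU n g g1 g2 U L)).sum =
      (A.card * c ^ 2) * (E1U n g U L (ob (gq g1 g2 o) o (fun σ => RR s A σ σ)) -
        (1 / (n : ℝ)) * ∑ d ∈ Ico 1 n, EU n g U L d
          (fun ω ω' => g1 o (ω.1 o ω.2) * g1 o (ω'.1 o ω'.2) * RR s A ω.2 ω'.2)) / 2 := by
  simp only [rd, Multiset.map_map, Function.comp_def, gam_one n g g1 g2 U L o]
  change ∑ i ∈ A, _ = _
  have hI : Icc 1 (n - 1) = Ico 1 n := by
    ext d
    simp only [mem_Icc, mem_Ico]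
    omega
  rw [hI, ← sum_div, ← mul_sum, sum_sub_distrib, ← mul_sum, sum_comm]
  have h1 := e1_R n g U L s A hne (fun ω => gq g1 g2 o (ω.1 o ω.2))
  have h2 : ∑ i ∈ A, E1U n g U L (ob (gq g1 g2 o) o fun σ => s i σ ^ 2) =
      A.card * E1U n g U L (ob (gq g1 g2 o) o fun σ => RR s A σ σ) := h1
  rw [h2]
  simp only [ob]
  rw [sum_congr rfl fun d _ => eu_R n g U L d s A hne (fun ω => g1 o (ω.1 o ω.2)), ← mul_sum]
  ring

theorem gam_fl (n : ℕ) (g g1 g2 : O → ℝ → ℝ) (U : S → ℝ) (L : Multiset (St O S))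
    (s : I → S → ℝ) (o0 : O) (A : Finset I) (p : ℕ → ℝ) (c2 : ℝ) (hne : A.Nonempty)
    (hp : Path n p) (hc : 0 ≤ c2) (e1 : g1 o0 = fun _ => 1) (e2 : g2 o0 = fun _ => 0) :
    ((fl s o0 A (sprof n p c2)).map (GU n g g1 g2 U L)).sum =
      (A.card * c2) * (p 0 * E1U n g U L (fun ω => RR s A ω.2 ω.2) -
        (1 / (n : ℝ)) * ∑ d ∈ Ico 1 n, p d * EU n g U L d (fun ω ω' => RR s A ω.2 ω'.2)) / 2 := by
  simp only [fl, Multiset.map_bind, Multiset.sum_bind, gam_prof n _ _ _ U L o0 _ p c2 hp hc]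
  change ∑ i ∈ A, _ = _
  have h1 : ∑ i ∈ A, E1U n g U L (ob (gq g1 g2 o0) o0 fun σ => s i σ ^ 2) =
      A.card * E1U n g U L (fun ω => RR s A ω.2 ω.2) := by
    have := e1_R n g U L s A hne (fun _ => 1)
    simp only [one_mul] at this
    rw [← this]
    refine sum_congr rfl fun i _ => ?_
    congr 1
    funext ω
    simp [ob, gq, e1, e2]
  rw [← sum_div, ← mul_sum, sum_sub_distrib, ← mul_sum, ← mul_sum, sum_comm, h1]
  have h2 : ∀ d, ∑ i ∈ A, p d * EU n g U L d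
      (fun ω ω' => ob (g1 o0) o0 (s i) ω * ob (g1 o0) o0 (s i) ω') =
      A.card * (p d * EU n g U L d (fun ω ω' => RR s A ω.2 ω'.2)) := by
    intro d
    have := eu_R n g U L d s A hne (fun _ => 1)
    simp only [one_mul] at this
    simp only [ob, e1, one_mul]
    rw [← mul_sum, this]
    ring
  rw [sum_congr rfl fun d _ => h2 d, ← mul_sum]
  ring

theorem w_path (n : ℕ) (g : O → ℝ → ℝ) (U : S → ℝ) (L : Multiset (St O S))
    (V : Om O S → ℝ) (K : ℝ) (hn : 1 ≤ n) (hV : ∀ ω, |V ω| ≤ K) :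
    Path n (fun d => if d < n then EU n g U L d (fun ω ω' => V ω * V ω') else 0) ∧
      EU n g U L 0 (fun ω ω' => V ω * V ω') ≤ K ^ 2 ∧ |E1U n g U L V| ≤ K := by
  have hok := Cc.ok n L hn
  refine ⟨⟨fun d hd => ?_, by simp⟩, ?_, ?_⟩
  · simp only [if_pos hd]
    split_ifs with h
    · exact (Aa.e2anti hok (ZU g U) V (d + 1) (d + 1 + 1) (by omega) (by omega) _).2
    · exact (Aa.e2anti hok (ZU g U) V (d + 1) (d + 1) le_rfl (by omega) _).1
  · rw [← Aa.e2const hok (ZU g U) (0 + 1) (by omega) (K ^ 2) (0, default)]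
    refine Aa.e2mono hok (ZU g U) (0 + 1) (by omega) (fun x x' => ?_) _
    have h1 := hV x
    have h2 := hV x'
    calc V x * V x' ≤ |V x| * |V x'| := by rw [← abs_mul]; exact le_abs_self _
      _ ≤ K * K := mul_le_mul h1 h2 (abs_nonneg _) ((abs_nonneg _).trans h1)
      _ = K ^ 2 := by ring
  · exact Aa.abs_le' (Aa.ce hok _ 0 (n + 1) le_rfl) hV _

theorem eu_le (n : ℕ) (g : O → ℝ → ℝ) (U : S → ℝ) (L : Multiset (St O S))
    (V : Om O S → ℝ) (hn : 1 ≤ n) {d : ℕ} (hd : d ≤ n) :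
    EU n g U L d (fun ω ω' => V ω * V ω') ≤ E1U n g U L (fun ω => V ω ^ 2) := by
  have hok := Cc.ok n L hn
  refine (Aa.e2anti hok (ZU g U) V 0 (d + 1) (by omega) (by omega) _).2.trans (le_of_eq ?_)
  simp only [E2, E1U, Aa.self _ _ _ (le_refl 0), sq]

theorem ov_path (n : ℕ) (K : ℝ) (g : O → ℝ → ℝ) (U : S → ℝ) (L : Multiset (St O S))
    (s : I → S → ℝ) (A : Finset I) (hn : 1 ≤ n) (hne : A.Nonempty) (hs : ∀ i σ, |s i σ| ≤ K) :
    Path n (ovU n g U L s A) ∧ ovU n g U L s A 0 ≤ K ^ 2 := by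
  have hc : (0 : ℝ) < A.card := by exact_mod_cast hne.card_pos
  have hok := Cc.ok n L hn
  have hw := fun i : I => w_path n g U L (fun ω => s i ω.2) K hn (fun ω => hs i ω.2)
  have hR : ∀ d, EU n g U L d (fun ω ω' => RR s A ω.2 ω'.2) =
      (∑ i ∈ A, EU n g U L d (fun ω ω' => s i ω.2 * s i ω'.2)) / A.card := by
    intro d
    have := eu_R n g U L d s A hne (fun _ => 1)
    simp only [one_mul] at this
    rw [this, mul_div_cancel_left₀ _ hc.ne']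
  have hR1 : E1U n g U L (fun ω => RR s A ω.2 ω.2) =
      (∑ i ∈ A, E1U n g U L (fun ω => s i ω.2 ^ 2)) / A.card := by
    have := e1_R n g U L s A hne (fun _ => 1)
    simp only [one_mul] at this
    rw [this, mul_div_cancel_left₀ _ hc.ne']
  have key : ∀ d, d < n → (if d + 1 < n then EU n g U L (d + 1)
      (fun ω ω' => RR s A ω.2 ω'.2) else 0) ≤ EU n g U L d (fun ω ω' => RR s A ω.2 ω'.2) := by
    intro d hd
    have h1 := fun i => (hw i).1.1 d hd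
    simp only [if_pos hd] at h1
    split_ifs with h
    · simp only [if_pos h] at h1
      rw [hR, hR]
      exact div_le_div_of_nonneg_right (sum_le_sum fun i _ => h1 i) hc.le
    · simp only [if_neg h] at h1
      rw [hR]
      exact div_nonneg (sum_nonneg fun i _ => h1 i) hc.le
  have k0 : ∀ d, d ≤ n → EU n g U L d (fun ω ω' => RR s A ω.2 ω'.2) ≤
      E1U n g U L (fun ω => RR s A ω.2 ω.2) := by
    intro d hd
    rw [hR, hR1]
    exact div_le_div_of_nonneg_right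
      (sum_le_sum fun i _ => eu_le n g U L (fun ω => s i ω.2) hn hd) hc.le
  refine ⟨⟨fun d hd => ?_, ?_⟩, ?_⟩
  · have h := key d hd
    simp only [ovU, Nat.succ_ne_zero, if_false, if_pos hd]
    by_cases h1 : d = 0
    · rw [if_pos h1]
      exact h.trans (k0 d hd.le)
    · rw [if_neg h1]
      exact h
  · have : n ≠ 0 := by omega
    simp [ovU, this]
  · simp only [ovU, if_true]
    rw [hR1, div_le_iff₀ hc]
    have h2 : ∀ i ∈ A, E1U n g U L (fun ω => s i ω.2 ^ 2) ≤ K ^ 2 := fun i _ => by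
      refine (le_abs_self _).trans (Aa.abs_le' (Aa.ce hok _ 0 (n + 1) le_rfl) (fun ω => ?_) _)
      rw [abs_pow]
      exact pow_le_pow_left₀ (abs_nonneg _) (hs i ω.2) 2
    refine (sum_le_sum h2).trans (le_of_eq ?_)
    rw [sum_const, nsmul_eq_mul, mul_comm]

theorem sqrt_bd {x K e : ℝ} (hK : 0 ≤ K) (h : x ^ 2 ≤ K ^ 2 * e) : x ≤ K * √e := by
  have h5 := Real.le_sqrt_of_sq_le h
  rwa [sqrt_mul (sq_nonneg K), sqrt_sq hK] at h5

theorem conc1 (n : ℕ) (g : O → ℝ → ℝ) (U : S → ℝ) (L : Multiset (St O S)) (s : I → S → ℝ)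
    (A : Finset I) (P : ℕ → ℝ) (e K : ℝ) (hn : 1 ≤ n) (hc : CU n g U L s A P e)
    (φ : ℕ → Om O S → Om O S → ℝ) (hφ : ∀ d ω ω', |φ d ω ω'| ≤ K) :
    (1 / (n : ℝ)) * ∑ d ∈ Ico 1 n,
      |EU n g U L d (fun ω ω' => φ d ω ω' * RR s A ω.2 ω'.2) - P d * EU n g U L d (φ d)| ≤
      K * √e := by
  have hok := Cc.ok n L hn
  have hK : 0 ≤ K := (abs_nonneg _).trans (hφ 0 (0, default) (0, default))
  have hn' : (0 : ℝ) < n := by exact_mod_cast hn
  set a : ℕ → ℝ := fun d => |EU n g U L d (fun ω ω' => φ d ω ω' * RR s A ω.2 ω'.2) -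
    P d * EU n g U L d (φ d)| with ha
  have h1 : ∀ d ∈ Ico 1 n, a d ^ 2 ≤
      K ^ 2 * EU n g U L d (fun ω ω' => (RR s A ω.2 ω'.2 - P d) ^ 2) := by
    intro d hd
    have hd' : d + 1 ≤ n + 1 := by have := (mem_Ico.1 hd).2; omega
    have e1 := Aa.e2add (chain L) (ex n) (ZU g U) (d + 1) (n + 1)
      (fun ω ω' => φ d ω ω' * RR s A ω.2 ω'.2) (φ d) 1 (-P d) (0, default)
    have e2 := Aa.e2sq hok (ZU g U) (d + 1) hd'
      (fun x x' => 1 * (φ d x x' * RR s A x.2 x'.2) + -P d * φ d x x') (0, default)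
    rw [e1] at e2
    rw [ha, sq_abs, ← eu_smul n _ U L d (K ^ 2)]
    simp only [EU]
    refine le_trans (le_of_eq (by ring)) (e2.trans (Aa.e2mono hok _ _ hd' (fun x x' => ?_) _))
    have h2 : φ d x x' ^ 2 ≤ K ^ 2 := by
      rw [← sq_abs]
      exact pow_le_pow_left₀ (abs_nonneg _) (hφ d x x') 2
    nlinarith [sq_nonneg (RR s A x.2 x'.2 - P d)]
  have h2 : (∑ d ∈ Ico 1 n, a d) ^ 2 ≤ (n : ℝ) * ∑ d ∈ Ico 1 n, a d ^ 2 := by
    refine sq_sum_le_card_mul_sum_sq.trans (mul_le_mul_of_nonneg_right ?_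
      (sum_nonneg fun d _ => sq_nonneg _))
    rw [Nat.card_Ico]
    exact_mod_cast Nat.sub_le n 1
  have h3 : ∑ d ∈ Ico 1 n, a d ^ 2 ≤ K ^ 2 * (n * e) := by
    refine (sum_le_sum h1).trans ?_
    rw [← mul_sum]
    refine mul_le_mul_of_nonneg_left ?_ (sq_nonneg K)
    have := mul_le_mul_of_nonneg_left hc.1 hn'.le
    rwa [← mul_assoc, mul_one_div_cancel hn'.ne', one_mul] at this
  refine sqrt_bd hK ?_
  rw [mul_pow, div_pow, one_pow, one_div, inv_mul_le_iff₀ (by positivity)]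
  nlinarith [mul_le_mul_of_nonneg_left h3 hn'.le]

theorem conc2 (n : ℕ) (g : O → ℝ → ℝ) (U : S → ℝ) (L : Multiset (St O S)) (s : I → S → ℝ)
    (A : Finset I) (P : ℕ → ℝ) (e K : ℝ) (hn : 1 ≤ n) (hc : CU n g U L s A P e)
    (V : Om O S → ℝ) (hV : ∀ ω, |V ω| ≤ K) :
    E1U n g U L (fun ω => |V ω * (RR s A ω.2 ω.2 - P 0)|) ≤ K * √e ∧
      |E1U n g U L (fun ω => V ω * RR s A ω.2 ω.2) - P 0 * E1U n g U L V| ≤ K * √e := by
  have hm := Aa.ce (Cc.ok n L hn) (ZU g U) 0 (n + 1) le_rfl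
  have hK : 0 ≤ K := (abs_nonneg _).trans (hV (0, default))
  have h1 : E1U n g U L (fun ω => |V ω * (RR s A ω.2 ω.2 - P 0)|) ≤ K * √e := by
    refine sqrt_bd hK ?_
    have h2 := Aa.sq1 hm (fun ω => |V ω * (RR s A ω.2 ω.2 - P 0)|) (0, default)
    rw [sq]
    refine h2.trans (le_trans ?_ (mul_le_mul_of_nonneg_left hc.2 (sq_nonneg K)))
    rw [← e1_smul]
    refine Aa.mono' hm (fun ω => ?_) _
    rw [abs_mul_abs_self]
    have h3 : V ω ^ 2 ≤ K ^ 2 := by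
      rw [← sq_abs]
      exact pow_le_pow_left₀ (abs_nonneg _) (hV ω) 2
    nlinarith [sq_nonneg (RR s A ω.2 ω.2 - P 0)]
  refine ⟨h1, le_trans ?_ h1⟩
  have h4 : E1U n g U L (fun ω => V ω * RR s A ω.2 ω.2) - P 0 * E1U n g U L V =
      E1U n g U L (fun ω => V ω * (RR s A ω.2 ω.2 - P 0)) := by
    have e : (fun ω => V ω * (RR s A ω.2 ω.2 - P 0)) =
        fun ω => V ω * RR s A ω.2 ω.2 + -P 0 * V ω := by
      funext ω; ring
    simp only [E1U]
    rw [e, Aa.add', Aa.smul']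
    ring
  rw [h4, abs_le]
  constructor
  · rw [neg_eq_neg_one_mul, ← e1_smul]
    exact Aa.mono' hm (fun ω => by rw [neg_one_mul]; exact neg_abs_le _) _
  · exact Aa.mono' hm (fun ω => le_abs_self _) _

end

theorem wf_path (hU : UApi) (n : ℕ) (B : ℝ) (f f1 u : ℝ → ℝ) (l : Multiset (ℕ × ℝ)) (hn : 1 ≤ n)
    (hf : ∀ t, |f1 t| ≤ B) :
    Path n (Wf n f f1 l) ∧ Wf n f f1 l 0 ≤ B ^ 2 ∧
      (∀ K, (∀ t, |u t| ≤ K) → |AD n f u l| ≤ K) ∧ AD n f (fun _ => 1) l = 1 ∧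
      ∀ d, d ≤ n → WD n f (fun _ => 1) l d = 1 := by
  have hz := hU.zero n (fun _ : Unit => f) (lift () (fun _ : Unit => (1 : ℝ)) l)
  have hok := Cc.ok n (lift () (fun _ : Unit => (1 : ℝ)) l) hn
  have hw := w_path n (fun _ : Unit => f) (fun _ => 0) (lift () (fun _ : Unit => (1 : ℝ)) l)
    (fun ω => f1 (ω.1 () ())) B hn (fun _ => hf _)
  simp only [hz.2.2] at hw
  refine ⟨hw.1, ?_, fun K hu => ?_, ?_, fun d hd => ?_⟩
  · simp only [Wf, if_pos (show 0 < n from hn)]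
    exact hw.2.1
  · exact Aa.abs_le' (Aa.ce hok _ 0 (n + 1) le_rfl) (fun _ => hu _) _
  · exact (Aa.ce hok _ 0 (n + 1) le_rfl).2 _
  · simp only [WD, EE, mul_one]
    exact Aa.e2const hok _ (d + 1) (by omega) 1 _

end GUA

theorem gUApi (hUApi : UApi) : GUApi where
  lift_vr := GUA.lift_vr
  rd_vr := GUA.rd_vr
  fl_vr := GUA.fl_vr
  gam_one := GUA.gam_one
  gam_prof := fun n g g1 g2 U L o w p c2 _ hp hc => GUA.gam_prof n g g1 g2 U L o w p c2 hp hc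
  gam_rd := GUA.gam_rd
  gam_fl := fun n g g1 g2 U L s o0 A p c2 _ hne hp hc e1 e2 =>
    GUA.gam_fl n g g1 g2 U L s o0 A p c2 hne hp hc e1 e2
  ov_path := GUA.ov_path
  w_path := GUA.w_path
  wf_path := GUA.wf_path hUApi
  conc_abs := fun n g U L s A P e K hn hc =>
    ⟨GUA.conc1 n g U L s A P e K hn hc, GUA.conc2 n g U L s A P e K hn hc⟩

end Vale.Agent.P157
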