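import Vale.Agent.P157.StmS
import Vale.Agent.P157.Gg
import Vale.Agent.P157.A
import Vale.Agent.P157.F

/-! P157, sphere: the approximate identities for bounded real spins. -/

namespace Vale.Agent.P157

open MeasureTheory ProbabilityTheory Finset Real Filter

noncomputable section

namespace GgU

open Gg (th th0 abel ce_chg e2_chg e2_neg dep_le avg_le ex_bd abs_sq bb WW L3 CC fl_inv spin_sq
  spin_not)

structure Flip {Ω : Type} (P : ℕ → Op Ω) (r : ℕ → Ω → Ω → Prop) (κ : ℕ) (F : Ω → Ω)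
    (e s Z0 : Ω → ℝ) : Prop where
  fl : Gg.Flip P r κ F e (fun _ => 1) Z0
  sF : ∀ ω, s (F ω) = s ω
  s1 : ∀ ω, |s ω| ≤ 1

section
variable {Ω : Type} {P : ℕ → Op Ω} {r : ℕ → Ω → Ω → Prop} {κ : ℕ} {F : Ω → Ω} {e s Z0 : Ω → ℝ}

theorem ce_low (hF : FApi) (hf : Fil P r) (h : Flip P r κ F e s Z0) (m : ℕ → ℝ) (y : ℝ) {d : ℕ}
    (hd : d ≤ κ) (ω : Ω) :
    Ce P m Z0 0 (d + 1) (fun x => y * e x * s x) ω = y * e ω * Ce P m Z0 0 (d + 1) s ω := by
  refine hF.pull hf m Z0 0 (d + 1) (fun x => y * e x) s ?_ ω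
  intro x x' hr
  have := dep_le hf (show d + 1 ≤ κ + 1 by omega) h.fl.dep x x' hr
  simp only [this]

theorem ce_high (hA : AApi) (h : Flip P r κ F e s Z0) (m : ℕ → ℝ) (y : ℝ) {d : ℕ}
    (hd : κ < d) (ω : Ω) : Ce P m Z0 0 (d + 1) (fun x => y * e x * s x) ω = 0 := by
  have h1 := Gg.ce_th hA h.fl m (d + 1) (fun x => y * e x * s x) ω
  have h2 : ¬ (d + 1 ≤ κ + 1) := by omega
  simp only [th, h2, if_false, id, h.fl.eF, h.sF] at h1
  have h3 : (fun x => y * -e x * s x) = -(fun x => y * e x * s x) := by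
    funext x; simp
  rw [h3, map_neg, Pi.neg_apply] at h1
  linarith

end

section
variable {Ω : Type}

theorem mul_bd {a b c : ℝ} (ha : |a| ≤ 1) (hb : |b| ≤ c) : |a * b| ≤ c := by
  rw [abs_mul]
  exact (mul_le_mul ha hb (abs_nonneg _) zero_le_one).trans_eq (one_mul c)

def psU (n κ : ℕ) (s : Ω → ℝ) (β : ℕ → Ω → ℝ) (x : Ω) : ℝ :=
  s x * s x - (1 / (n : ℝ)) * ∑ d ∈ Icc 1 κ, s x * β d x

def psS (n l : ℕ) (s : Ω → ℝ) (β : ℕ → Ω → ℝ) (x x' : Ω) : ℝ :=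
  s x * s x + s x * s x' - (1 / (n : ℝ)) * ∑ d ∈ Ico 1 l, (s x * β d x + s x * β d x') -
    (ex n l + 1 / (n : ℝ)) * (s x * β l x)

theorem psU_le {n κ : ℕ} (hn : 1 ≤ n) (hκ : κ < n) {s : Ω → ℝ} (hs : ∀ x, |s x| ≤ 1)
    {β β' : ℕ → Ω → ℝ} {δ : ℝ} (hδ : 0 ≤ δ) (h1 : ∀ d, d ≤ n → ∀ x, |β d x| ≤ 1)
    (h2 : ∀ d, d ≤ n → ∀ x, |β' d x - β d x| ≤ δ) (x : Ω) :
    |psU n κ s β x| ≤ 6 ∧ |psU n κ s β' x - psU n κ s β x| ≤ 4 * δ := by
  have hc : (Icc 1 κ).card ≤ n := by simp; omega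
  have a1 := abs_le.1 (avg_le hn _ hc (fun d => s x * β d x) 1 zero_le_one (fun d hd => by
    exact mul_bd (hs x) (h1 d (by have := (mem_Icc.1 hd).2; omega) x)))
  have a2 := abs_le.1 (avg_le hn _ hc (fun d => s x * β' d x - s x * β d x) δ hδ (fun d hd => by
    rw [← mul_sub]
    exact mul_bd (hs x) (h2 d (by have := (mem_Icc.1 hd).2; omega) x)))
  rw [sum_sub_distrib, mul_sub] at a2
  have a3 := abs_le.1 (mul_bd (hs x) (hs x))
  unfold psU
  constructor <;> rw [abs_le] <;> constructor <;> linarith [a1.1, a1.2, a2.1, a2.2, a3.1, a3.2]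

theorem psS_le {n l : ℕ} (hn : 1 ≤ n) (hl : l < n) {s : Ω → ℝ} (hs : ∀ x, |s x| ≤ 1)
    {β β' : ℕ → Ω → ℝ} {δ : ℝ} (hδ : 0 ≤ δ) (h1 : ∀ d, d ≤ n → ∀ x, |β d x| ≤ 1)
    (h2 : ∀ d, d ≤ n → ∀ x, |β' d x - β d x| ≤ δ) (x x' : Ω) :
    |psS n l s β x x'| ≤ 6 ∧ |psS n l s β' x x' - psS n l s β x x'| ≤ 4 * δ := by
  have hc : (Ico 1 l).card ≤ n := by simp; omega
  have b1 : ∀ d, d ≤ n → ∀ z, |s x * β d z| ≤ 1 := fun d hd z => by
    exact mul_bd (hs x) (h1 d hd z)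
  have b2 : ∀ d, d ≤ n → ∀ z, |s x * β' d z - s x * β d z| ≤ δ := fun d hd z => by
    rw [← mul_sub]; exact mul_bd (hs x) (h2 d hd z)
  have a1 := abs_le.1 (avg_le hn _ hc (fun d => s x * β d x + s x * β d x') 2 (by norm_num)
    (fun d hd => by
      have hd' : d ≤ n := by have := (mem_Ico.1 hd).2; omega
      exact (abs_add_le _ _).trans (by linarith [b1 d hd' x, b1 d hd' x'])))
  have a2 := abs_le.1 (avg_le hn _ hc
    (fun d => (s x * β' d x + s x * β' d x') - (s x * β d x + s x * β d x')) (2 * δ) (by linarith)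
    (fun d hd => by
      have hd' : d ≤ n := by have := (mem_Ico.1 hd).2; omega
      have e1 := abs_le.1 (b2 d hd' x)
      have e2 := abs_le.1 (b2 d hd' x')
      rw [abs_le]; constructor <;> linarith))
  rw [sum_sub_distrib, mul_sub] at a2
  have a3 : |s x * s x'| ≤ 1 := mul_bd (hs x) (hs x')
  have a6 := abs_le.1 (mul_bd (hs x) (hs x))
  have a3' := abs_le.1 a3
  obtain ⟨c0, c2⟩ := ex_bd hn hl
  have a4 : |(ex n l + 1 / (n : ℝ)) * (s x * β l x)| ≤ 2 := by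
    rw [abs_mul, abs_of_nonneg c0]
    nlinarith [b1 l hl.le x, abs_nonneg (s x * β l x)]
  have a5 : |(ex n l + 1 / (n : ℝ)) * (s x * β' l x) - (ex n l + 1 / (n : ℝ)) * (s x * β l x)| ≤
      2 * δ := by
    rw [← mul_sub, abs_mul, abs_of_nonneg c0]
    nlinarith [b2 l hl.le x, abs_nonneg (s x * β' l x - s x * β l x)]
  have a4' := abs_le.1 a4
  have a5' := abs_le.1 a5
  unfold psS
  constructor <;> rw [abs_le] <;> constructor <;>
    linarith [a1.1, a1.2, a2.1, a2.2, a3'.1, a3'.2, a4'.1, a4'.2, a5'.1, a5'.2, a6.1, a6.2]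

end

section
variable {Ω : Type} {P : ℕ → Op Ω} {r : ℕ → Ω → Ω → Prop} {κ n : ℕ} {F : Ω → Ω}
  {e s Z0 : Ω → ℝ}

theorem ww_high (hA : AApi) (hF : FApi) (hf : Fil P r) (h : Flip P r κ F e s Z0) (y : ℝ) {l : ℕ}
    (hl : κ < l) (x : Ω) :
    e x * s x * WW P n Z0 (fun x => y * e x * s x) (l + 1) x = y * psU n κ s (bb P n Z0 s) x := by
  unfold WW
  rw [abel n (fun j => Ce P (ex n) Z0 0 j (fun x => y * e x * s x) x) l, ce_high hA h _ y hl,
    hA.self P _ Z0 le_rfl]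
  have e1 : ∑ d ∈ Ico 1 l, Ce P (ex n) Z0 0 (d + 1) (fun x => y * e x * s x) x =
      ∑ d ∈ Icc 1 κ, y * e x * bb P n Z0 s d x := by
    rw [← sum_subset (s₁ := Icc 1 κ) (fun d hd => by
      rw [mem_Icc] at hd; rw [mem_Ico]; omega) (fun d hd hd' => by
      rw [mem_Ico] at hd; rw [mem_Icc] at hd'
      exact ce_high hA h _ y (by omega) x)]
    exact sum_congr rfl (fun d hd => ce_low hF hf h _ y (mem_Icc.1 hd).2 x)
  rw [e1, psU, ← mul_sum, ← mul_sum]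
  have h1 := h.fl.e2 x
  generalize ∑ d ∈ Icc 1 κ, bb P n Z0 s d x = T
  linear_combination (y * s x ^ 2 - y * (1 / (n : ℝ)) * s x * T) * h1

theorem ww_sh (hA : AApi) (hF : FApi) (hf : Fil P r) (h : Flip P r κ F e s Z0) (y : ℝ)
    (hκ1 : 1 ≤ κ) (hκ : κ < n) (x x' : Ω) (hr : r (κ + 1) x x') :
    e x * s x * (WW P n Z0 (fun x => y * e x * s x) (n + 1) x +
      WW P n Z0 (fun x => y * e x * s x) (κ + 1) x') = y * psS n κ s (bb P n Z0 s) x x' := by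
  rw [mul_add, ww_high hA hF hf h y hκ]
  unfold WW
  rw [abel n (fun j => Ce P (ex n) Z0 0 j (fun x => y * e x * s x) x') κ,
    ce_low hF hf h _ y le_rfl, hA.self P _ Z0 le_rfl]
  have e1 : ∑ d ∈ Ico 1 κ, Ce P (ex n) Z0 0 (d + 1) (fun x => y * e x * s x) x' =
      ∑ d ∈ Ico 1 κ, y * e x' * bb P n Z0 s d x' :=
    sum_congr rfl (fun d hd => ce_low hF hf h _ y (mem_Ico.1 hd).2.le x')
  have e2 : Ce P (ex n) Z0 0 (κ + 1) s x' = bb P n Z0 s κ x :=
    (hF.depC hf (ex n) Z0 (Nat.zero_le _) (fun a b hab => by rw [hf.zero a b hab]) x x' hr).symm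
  have e3 : Icc 1 κ = insert κ (Ico 1 κ) := by
    ext d; simp only [mem_Icc, mem_insert, mem_Ico]; omega
  rw [e1, e2, ← h.fl.dep x x' hr, psU, psS, e3, sum_insert (by simp), sum_add_distrib, ← mul_sum,
    ← mul_sum, ← mul_sum]
  have h1 := h.fl.e2 x
  generalize ∑ d ∈ Ico 1 κ, bb P n Z0 s d x = T
  generalize ∑ d ∈ Ico 1 κ, bb P n Z0 s d x' = T'
  linear_combination
    (y * s x * s x' - y * (1 / (n : ℝ)) * s x * T' - y * ex n κ * s x * bb P n Z0 s κ x) * h1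

theorem fin (hA : AApi) {C : ℝ} (hL : L3 C) (ho : Ok P (ex n) (n + 1)) (hf : Fil P r)
    (h : Flip P r κ F e s Z0) {y : ℝ} (hy0 : 0 < y) (hy : y ≤ 1) {l : ℕ} (hl : l ≤ n)
    (φ : Ω → Ω → ℝ) (hφ : ∀ x x', |φ x x'| ≤ 1) (ψ : (ℕ → Ω → ℝ) → Ω → Ω → ℝ)
    (hψ : ∀ (β β' : ℕ → Ω → ℝ) (δ : ℝ), 0 ≤ δ → (∀ d, d ≤ n → ∀ x, |β d x| ≤ 1) →
      (∀ d, d ≤ n → ∀ x, |β' d x - β d x| ≤ δ) → ∀ x x',
      |ψ β x x'| ≤ 6 ∧ |ψ β' x x' - ψ β x x'| ≤ 4 * δ) (ω0 : Ω)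
    (hid : E2 P (ex n) Z0 (l + 1) (n + 1) (fun x x' => φ x x' * (e x * s x) * (1 +
        WW P n Z0 (fun x => y * e x * s x) (n + 1) x +
        WW P n Z0 (fun x => y * e x * s x) (l + 1) x')) ω0 =
      y * E2 P (ex n) Z0 (l + 1) (n + 1) (fun x x' => φ x x' * ψ (bb P n Z0 s) x x') ω0) :
    |E2 P (ex n) (Z0 + fun x => y * e x * s x) (l + 1) (n + 1)
        (fun x x' => φ x x' * (e x * s x)) ω0 -
      y * E2 P (ex n) (Z0 + fun x => y * e x * s x) (l + 1) (n + 1)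
        (fun x x' => φ x x' * ψ (bb P n (Z0 + fun x => y * e x * s x) s) x x') ω0| ≤
      CC C * y ^ 2 := by
  have hb : ∀ x, |y * e x * s x| ≤ y := fun x => by
    rw [abs_mul, abs_mul, abs_sq (h.fl.e2 x), abs_of_pos hy0, mul_one]
    exact mul_le_of_le_one_right hy0.le (h.s1 x)
  have hs : ∀ x, |s x| ≤ 1 := h.s1
  have a1 := hL Ω P r (ex n) (n + 1) ho hf Z0 (fun x => y * e x * s x) y hb hy (l + 1) (by omega)
    (fun x x' => φ x x' * (e x * s x)) (fun x x' =>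
      mul_bd (hφ x x') (mul_bd (abs_sq (h.fl.e2 x)).le (h.s1 x))) ω0
  have hid' := hid
  unfold WW at hid'
  rw [hid'] at a1
  have hδ : 0 ≤ 4 * exp 2 * y := by positivity
  have a2 := hψ (bb P n Z0 s) (bb P n (Z0 + fun x => y * e x * s x) s) (4 * exp 2 * y) hδ
    (fun d hd x => hA.abs_le (hA.ce ho Z0 0 (d + 1) (by omega)) hs x)
    (fun d hd x => ce_chg hA ho Z0 _ y hb hy (by omega) s hs x)
  have a3 := e2_chg hA ho Z0 (fun x => y * e x * s x) y hb hy (l := l + 1) (by omega)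
    (fun x x' => φ x x' * ψ (bb P n (Z0 + fun x => y * e x * s x) s) x x')
    (fun x x' => φ x x' * ψ (bb P n Z0 s) x x') (4 * (4 * exp 2 * y)) 6
    (fun x x' => by
      rw [abs_mul]
      nlinarith [hφ x x', (a2 x x').1, abs_nonneg (φ x x'), abs_nonneg (ψ (bb P n Z0 s) x x')])
    (fun x x' => by
      rw [← mul_sub, abs_mul]
      exact (mul_le_mul (hφ x x') (a2 x x').2 (abs_nonneg _) zero_le_one).trans (by linarith)) ω0
  have a4 := mul_le_mul_of_nonneg_left a3 hy0.le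
  rw [← abs_of_pos hy0, ← abs_mul, abs_of_pos hy0, mul_sub] at a4
  have a5 : C * y ^ 2 ≤ |C| * y ^ 2 := mul_le_mul_of_nonneg_right (le_abs_self C) (sq_nonneg y)
  have b1 := abs_le.1 a1
  have b4 := abs_le.1 a4
  unfold CC
  rw [abs_le]; constructor <;> nlinarith [b1.1, b1.2, b4.1, b4.2]

theorem mainU (hA : AApi) (hF : FApi) {C : ℝ} (hL : L3 C) (ho : Ok P (ex n) (n + 1))
    (hf : Fil P r) (h : Flip P r κ F e s Z0) {y : ℝ} (hy0 : 0 < y) (hy : y ≤ 1) {l : ℕ}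
    (hκ : κ < l) (hl : l ≤ n) (φ : Ω → Ω → ℝ) (hφ : ∀ x x', |φ x x'| ≤ 1)
    (hφF : ∀ x x', φ (F x) x' = φ x x') (ω0 : Ω) :
    |E2 P (ex n) (Z0 + fun x => y * e x * s x) (l + 1) (n + 1)
        (fun x x' => φ x x' * (e x * s x)) ω0 -
      y * E2 P (ex n) (Z0 + fun x => y * e x * s x) (l + 1) (n + 1)
        (fun x x' => φ x x' * psU n κ s (bb P n (Z0 + fun x => y * e x * s x) s) x) ω0| ≤
      CC C * y ^ 2 := by
  refine fin hA hL ho hf h hy0 hy hl φ hφ (fun β x _ => psU n κ s β x)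
    (fun β β' δ hδ h1 h2 x _ => psU_le (by omega) (by omega) h.s1 hδ h1 h2 x) ω0 ?_
  set O : Ω → Ω → ℝ := fun x x' => φ x x' * (e x * s x) *
    (1 + WW P n Z0 (fun x => y * e x * s x) (l + 1) x') with hO
  have e0 : E2 P (ex n) Z0 (l + 1) (n + 1) O ω0 = 0 := by
    have e1 := Gg.e2_first hA h.fl (ex n) (l := l + 1) (n + 1) (by omega) O ω0
    have e2 : (fun x x' => O (F x) x') = fun x x' => - O x x' := by
      funext x x'; simp only [hO, hφF, h.fl.eF, h.sF]; ring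
    rw [e2, e2_neg hA] at e1
    linarith
  have e3 := hA.e2add P (ex n) Z0 (l + 1) (n + 1)
    (fun x x' => φ x x' * psU n κ s (bb P n Z0 s) x) O y 1 ω0
  rw [e0] at e3
  rw [mul_zero, add_zero] at e3
  rw [← e3]
  congr 1
  funext x x'
  have := ww_high (n := n) hA hF hf h y (l := n) (by omega) x
  simp only [hO]
  linear_combination φ x x' * this

theorem mainS (hA : AApi) (hF : FApi) {C : ℝ} (hL : L3 C) (ho : Ok P (ex n) (n + 1))
    (hf : Fil P r) (h : Flip P r κ F e s Z0) {y : ℝ} (hy0 : 0 < y) (hy : y ≤ 1)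
    (hκ1 : 1 ≤ κ) (hκ : κ < n) (φ : Ω → Ω → ℝ) (hφ : ∀ x x', |φ x x'| ≤ 1)
    (hφF : ∀ x x', φ (F x) (F x') = φ x x') (ω0 : Ω) :
    |E2 P (ex n) (Z0 + fun x => y * e x * s x) (κ + 1) (n + 1)
        (fun x x' => φ x x' * (e x * s x)) ω0 -
      y * E2 P (ex n) (Z0 + fun x => y * e x * s x) (κ + 1) (n + 1)
        (fun x x' => φ x x' * psS n κ s (bb P n (Z0 + fun x => y * e x * s x) s) x x') ω0| ≤
      CC C * y ^ 2 := by
  refine fin hA hL ho hf h hy0 hy hκ.le φ hφ (fun β x x' => psS n κ s β x x')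
    (fun β β' δ hδ h1 h2 x x' => psS_le (by omega) hκ h.s1 hδ h1 h2 x x') ω0 ?_
  set O : Ω → Ω → ℝ := fun x x' => φ x x' * (e x * s x) with hO
  have e0 : E2 P (ex n) Z0 (κ + 1) (n + 1) O ω0 = 0 := by
    have e1 := Gg.e2_both hA h.fl (ex n) (l := κ + 1) (t := n + 1) (by omega) (by omega) O ω0
    have e2 : (fun x x' => O (F x) (F x')) = fun x x' => - O x x' := by
      funext x x'; simp only [hO, hφF, h.fl.eF, h.sF]; ring
    rw [e2, e2_neg hA] at e1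
    linarith
  have e3 := hA.e2add P (ex n) Z0 (κ + 1) (n + 1)
    (fun x x' => φ x x' * psS n κ s (bb P n Z0 s) x x') O y 1 ω0
  rw [e0] at e3
  rw [mul_zero, add_zero] at e3
  rw [← e3]
  refine hF.e2supp hf _ _ _ _ _ _ (fun x x' hr => ?_) ω0
  have := ww_sh (n := n) hA hF hf h y hκ1 hκ x x' hr
  simp only [hO]
  linear_combination φ x x' * this

end

section
variable {O S I : Type} [Fintype O] [DecidableEq O] [Fintype S] [Inhabited S] [Fintype I]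
  [DecidableEq I]

def FF (κ : ℕ) (i : I) (ω : RsU O S I) : RsU O S I :=
  (ω.1, Function.update ω.2.1 κ (Gg.fl i (ω.2.1 κ)), ω.2.2)

omit [Fintype O] [DecidableEq O] [Fintype S] [Inhabited S] [Fintype I] in
theorem hh_FF (s : I → S → ℝ) (A : Finset I) {κ : ℕ} {i : I} (hi : i ∈ A) (k : ℕ) (ω : RsU O S I) :
    hhU s A k (FF κ i ω) = hhU s A k ω -
      if k = κ then 2 * (spin (ω.2.1 κ i) * s i ω.2.2) else 0 := by
  by_cases hk : k = κ
  · subst hk
    simp only [hhU, FF, Function.update_self, if_true]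
    rw [← add_sum_erase A _ hi, ← add_sum_erase A _ hi]
    have : ∑ j ∈ A.erase i, spin (Gg.fl i (ω.2.1 k) j) * s j ω.2.2 =
        ∑ j ∈ A.erase i, spin (ω.2.1 k j) * s j ω.2.2 :=
      sum_congr rfl (fun j hj => by simp [Gg.fl, Function.update_of_ne (ne_of_mem_erase hj)])
    rw [this]
    simp only [Gg.fl, Function.update_self, spin_not]
    ring
  · simp [hhU, FF, Function.update_of_ne hk, hk]

theorem flip (L : Multiset (St O S)) (n : ℕ) (g : O → ℝ → ℝ) (U : S → ℝ) (s : I → S → ℝ)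
    (hs : ∀ i σ, |s i σ| ≤ 1) (A : Finset I) (y : ℕ → ℝ) {κ : ℕ} (hκ : κ < n) {i : I} (hi : i ∈ A) :
    Flip (rchU I L) rrU κ (FF κ i) (fun ω => spin (ω.2.1 κ i)) (fun ω => s i ω.2.2)
      (fun ω => rZU n g U s A y ω - y κ * spin (ω.2.1 κ i) * s i ω.2.2) := by
  refine ⟨⟨?_, ?_, ?_, fun _ => rfl, ?_, fun ω => spin_sq _, fun _ => by simp, ?_⟩, fun _ => rfl,
    fun ω => hs _ _⟩
  · intro j hj g ω
    cases j with
    | zero => rfl
    | succ d =>
      have hd : d ≠ κ := by omega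
      have : rinU d ω (fun x => g (FF κ i x)) = rinU d (FF κ i ω) g := by
        funext ω'
        simp only [rinU, FF, Function.update_of_ne hd.symm, Function.update_comm hd]
      change chain L (d + 1) (rinU d ω (fun x => g (FF κ i x))) _ =
        chain L (d + 1) (rinU d (FF κ i ω) g) _
      rw [this]
      rfl
  · intro g ω
    have : rinU κ ω (fun x => g (FF κ i x)) = rinU κ ω g := by
      funext ω'
      simp only [rinU, FF, Function.update_self, Function.update_idem]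
      congr 1
      exact Equiv.sum_comp (fl_inv i).toPerm
        (fun e => g (Function.update ω.1 κ ω'.1, Function.update ω.2.1 κ e, ω.2.2))
    change chain L (κ + 1) (rinU κ ω (fun x => g (FF κ i x))) _ = chain L (κ + 1) (rinU κ ω g) _
    rw [this]
  · intro ω; simp [FF, Gg.fl, spin_not]
  · intro ω
    have e1 : spin ((FF κ i ω).2.1 κ i) = - spin (ω.2.1 κ i) := by simp [FF, Gg.fl, spin_not]
    have e2 : (FF κ i ω).2.2 = ω.2.2 := rfl
    have e3 : (FF κ i ω).1 = ω.1 := rfl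
    simp only [rZU, hh_FF s A hi, e1, e2, e3, mul_sub, sum_sub_distrib, mul_ite, mul_zero,
      sum_ite_eq', mem_range, hκ, if_true]
    ring
  · intro ω ω' hr
    have := (hr κ le_rfl).2
    simp only [this]

theorem zsplit {Ω : Type} (Z W : Ω → ℝ) : ((fun ω => Z ω - W ω) + fun ω => W ω) = Z := by
  funext ω; simp

end

section
variable {Ω I : Type}

theorem aR_le (s : I → Ω → ℝ) (hs : ∀ i x, |s i x| ≤ 1) (A : Finset I) (hA : A.Nonempty)
    (x x' : Ω) : |aR s A x x'| ≤ 1 := by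
  have hc : (0 : ℝ) < A.card := by exact_mod_cast hA.card_pos
  rw [aR, abs_div, abs_of_pos hc, div_le_one hc]
  exact (abs_sum_le_sum_abs _ _).trans ((sum_le_card_nsmul _ _ 1
    (fun i _ => mul_bd (hs _ _) (hs _ _))).trans (by simp))

theorem sumU (P : ℕ → Op Ω) (n κ : ℕ) (Z : Ω → ℝ) (s : I → Ω → ℝ) (A : Finset I)
    (hA : A.Nonempty) (c : ℝ) (x : Ω) :
    c * (aR s A x x - (1 / (n : ℝ)) * ∑ d ∈ Icc 1 κ, aρ P n Z s A d x x) =
      (∑ i ∈ A, c * psU n κ (s i) (bb P n Z (s i)) x) / A.card := by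
  have hc : (A.card : ℝ) ≠ 0 := by exact_mod_cast hA.card_pos.ne'
  simp only [psU, aρ, aR, bb, ← mul_sum, sum_sub_distrib, sum_const, nsmul_eq_mul, ← sum_div]
  rw [sum_comm]
  simp only [← mul_sum]
  field_simp

theorem sumS (P : ℕ → Op Ω) (n l : ℕ) (Z : Ω → ℝ) (s : I → Ω → ℝ) (A : Finset I)
    (hA : A.Nonempty) (c : ℝ) (x x' : Ω) :
    c * (aR s A x x + aR s A x x' - (1 / (n : ℝ)) * ∑ d ∈ Ico 1 l, (aρ P n Z s A d x x + aρ P n Z s A d x x')
          - (ex n l + 1 / (n : ℝ)) * aρ P n Z s A l x x) =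
      (∑ i ∈ A, c * psS n l (s i) (bb P n Z (s i)) x x') / A.card := by
  have hc : (A.card : ℝ) ≠ 0 := by exact_mod_cast hA.card_pos.ne'
  simp only [psS, aρ, aR, bb, ← mul_sum, sum_sub_distrib, sum_add_distrib, sum_const, nsmul_eq_mul,
    ← sum_div]
  rw [sum_comm (s := Ico 1 l), sum_comm (s := Ico 1 l)]
  simp only [← mul_sum]
  field_simp

theorem scale (hA : AApi) {P : ℕ → Op Ω} {n : ℕ} {Z : Ω → ℝ} {s : I → Ω → ℝ} {A : Finset I}
    {h : ℕ → Ω → ℝ} {ω0 : Ω} {ε K : ℝ} (hK : 1 ≤ K) (H : GGU P n Z s A h ω0 ε) :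
    GGU P n Z (fun i x => K * s i x) A (fun κ x => K ^ 2 * h κ x) ω0 (K ^ 4 * ε) := by
  have e1 : ∀ x x', aR (fun i x => K * s i x) A x x' = K ^ 2 * aR s A x x' := by
    intro x x'
    simp only [aR, mul_div_assoc', mul_sum]
    congr 1
    exact sum_congr rfl (fun i _ => by ring)
  have e2 : ∀ d x x', aρ P n Z (fun i x => K * s i x) A d x x' = K ^ 2 * aρ P n Z s A d x x' := by
    intro d x x'
    simp only [aρ, mul_div_assoc', mul_sum, Aa.smul']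
    congr 1
    exact sum_congr rfl (fun i _ => by ring)
  have hε : 0 ≤ ε := (abs_nonneg _).trans H.u0
  have c1 : ∀ (c : ℝ) (u v u' v' : Ω → ℝ), 0 ≤ c → c ≤ K ^ 4 → (∀ x, u' x = c * u x) →
      (∀ x, v' x = c * v x) →
      |Ce P (ex n) Z 0 (n + 1) u ω0 - Ce P (ex n) Z 0 (n + 1) v ω0| ≤ ε →
      |Ce P (ex n) Z 0 (n + 1) u' ω0 - Ce P (ex n) Z 0 (n + 1) v' ω0| ≤ K ^ 4 * ε := by
    intro c u v u' v' h0 h1 hu hv h2
    rw [funext hu, funext hv, Aa.smul', Aa.smul', ← mul_sub, abs_mul, abs_of_nonneg h0]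
    exact mul_le_mul h1 h2 (abs_nonneg _) (by positivity)
  have c2 : ∀ (l : ℕ) (u v u' v' : Ω → Ω → ℝ), (∀ x x', u' x x' = K ^ 4 * u x x') →
      (∀ x x', v' x x' = K ^ 4 * v x x') →
      |E2 P (ex n) Z l (n + 1) u ω0 - E2 P (ex n) Z l (n + 1) v ω0| ≤ ε →
      |E2 P (ex n) Z l (n + 1) u' ω0 - E2 P (ex n) Z l (n + 1) v' ω0| ≤ K ^ 4 * ε := by
    intro l u v u' v' hu hv h2
    have a1 := hA.e2add P (ex n) Z l (n + 1) u u (K ^ 4) 0 ω0
    have a2 := hA.e2add P (ex n) Z l (n + 1) v v (K ^ 4) 0 ω0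
    simp only [zero_mul, add_zero] at a1 a2
    rw [show u' = _ from funext₂ hu, show v' = _ from funext₂ hv, a1, a2, ← mul_sub, abs_mul,
      abs_of_nonneg (by positivity)]
    exact mul_le_mul_of_nonneg_left h2 (by positivity)
  refine ⟨c1 (K ^ 4) _ _ _ _ (by positivity) le_rfl (fun x => ?_) (fun x => ?_) H.u0,
    fun κ hκ => c1 (K ^ 2) _ _ _ _ (by positivity) (pow_le_pow_right₀ hK (by norm_num))
      (fun x => rfl) (fun x => ?_) (H.u1 κ hκ),
    fun κ l h1 h2 => c2 _ _ _ _ _ (fun x x' => ?_) (fun x x' => ?_) (H.u2 κ l h1 h2),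
    fun l h1 h2 => c2 _ _ _ _ _ (fun x x' => ?_) (fun x x' => ?_) (H.sh l h1 h2)⟩
  all_goals simp only [e1, e2, ← mul_add, ← mul_sum]
  all_goals ring

theorem congrH {P : ℕ → Op Ω} {n : ℕ} {Z : Ω → ℝ} {s : I → Ω → ℝ} {A : Finset I}
    {h h' : ℕ → Ω → ℝ} {ω0 : Ω} {ε : ℝ} (hn : 1 ≤ n) (hh : ∀ κ, κ < n → h' κ = h κ)
    (H : GGU P n Z s A h ω0 ε) : GGU P n Z s A h' ω0 ε :=
  ⟨by rw [hh 0 hn]; exact H.u0, fun κ hκ => by rw [hh κ hκ]; exact H.u1 κ hκ,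
    fun κ l h1 h2 => by rw [hh κ (by omega)]; exact H.u2 κ l h1 h2,
    fun l h1 h2 => by rw [hh l h2]; exact H.sh l h1 h2⟩

end

theorem one (hR : RecU) : ∃ C : ℝ, 0 ≤ C ∧ ∀ (O S I : Type) [Fintype O] [DecidableEq O]
    [Fintype S] [Inhabited S] [Fintype I] [DecidableEq I] (n : ℕ) (g : O → ℝ → ℝ) (U : S → ℝ)
    (L : Multiset (St O S)) (s : I → S → ℝ) (A : Finset I) (y : ℕ → ℝ) (Y : ℝ), 1 ≤ n →
    A.Nonempty → (∀ i σ, |s i σ| ≤ 1) → Y ≤ 1 → (∀ κ, κ < n → 0 < y κ ∧ y κ ≤ Y) →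
    GGU (rchU I L) n (rZU n g U s A y) (fun i ω => s i ω.2.2) A
      (fun κ ω => hhU s A κ ω / (y κ * A.card)) (r0U O S I) (C * Y) := by
  have hA := aApi
  have hF := fApi aApi
  obtain ⟨C, hL⟩ := hF.l3
  have hC : 0 ≤ CC C := by unfold CC; positivity
  refine ⟨CC C, hC, fun O S I _ _ _ _ _ _ n g U L s A y Y hn hAn hs hY hy => ?_⟩
  obtain ⟨ho, hf, -⟩ := hR O S I n L hn
  have hs' : ∀ i (x : RsU O S I), |s i x.2.2| ≤ 1 := fun i x => hs _ _
  have hU : ∀ κ l, κ < l → l ≤ n → ∀ φ : RsU O S I → RsU O S I → ℝ, (∀ x x', |φ x x'| ≤ 1) →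
      (∀ i x x', φ (FF κ i x) x' = φ x x') →
      |E2 (rchU I L) (ex n) (rZU n g U s A y) (l + 1) (n + 1)
          (fun ω1 ω2 => φ ω1 ω2 * (hhU s A κ ω1 / (y κ * A.card))) (r0U O S I) -
        E2 (rchU I L) (ex n) (rZU n g U s A y) (l + 1) (n + 1) (fun ω1 ω2 => φ ω1 ω2 *
          (aR (fun i (ω : RsU O S I) => s i ω.2.2) A ω1 ω1 - (1 / (n : ℝ)) * ∑ d ∈ Icc 1 κ,
            aρ (rchU I L) n (rZU n g U s A y) (fun i ω => s i ω.2.2) A d ω1 ω1)) (r0U O S I)| ≤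
        CC C * Y := by
    intro κ l hκ hl φ hφ hφF
    obtain ⟨y0, y1⟩ := hy κ (by omega)
    refine (Gg.avg hA _ _ _ _ A hAn y0 (fun i x x' => φ x x' * (spin (x.2.1 κ i) * s i x.2.2))
      (fun i x x' => φ x x' * psU n κ (fun ω => s i ω.2.2)
        (bb (rchU I L) n (rZU n g U s A y) (fun ω => s i ω.2.2)) x) _ _ _ (fun x x' => ?_)
      (fun x x' => sumU _ _ _ _ _ _ hAn _ _) (fun i hi => ?_)).trans
      (mul_le_mul_of_nonneg_left y1 hC)
    · rw [← mul_sum, hhU, mul_div_assoc]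
    · have := mainU hA hF hL ho hf (flip L n g U s hs A y (by omega : κ < n) hi) y0 (y1.trans hY)
        hκ hl φ hφ (hφF i) (r0U O S I)
      rwa [zsplit] at this
  refine ⟨?_, fun κ hκ => ?_,
    fun κ l hκ hl => hU κ l hκ hl _ (aR_le _ hs' A hAn) (fun _ _ _ => rfl), fun l hl1 hl => ?_⟩
  · have := hU 0 n hn le_rfl (fun x _ => aR (fun i (ω : RsU O S I) => s i ω.2.2) A x x)
      (fun x _ => aR_le _ hs' A hAn x x) (fun _ _ _ => rfl)
    rw [hA.e2one ho _ _ le_rfl, hA.e2one ho _ _ le_rfl] at this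
    simpa [sq] using this
  · have := hU κ n hκ le_rfl (fun _ _ => 1) (fun _ _ => by simp) (fun _ _ _ => rfl)
    simp only [one_mul] at this
    rwa [hA.e2one ho _ _ le_rfl, hA.e2one ho _ _ le_rfl] at this
  · obtain ⟨y0, y1⟩ := hy l hl
    refine (Gg.avg hA _ _ _ _ A hAn y0
      (fun i x x' => aR (fun i (ω : RsU O S I) => s i ω.2.2) A x x' *
        (spin (x.2.1 l i) * s i x.2.2))
      (fun i x x' => aR (fun i (ω : RsU O S I) => s i ω.2.2) A x x' *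
        psS n l (fun ω => s i ω.2.2)
          (bb (rchU I L) n (rZU n g U s A y) (fun ω => s i ω.2.2)) x x') _ _ _ (fun x x' => ?_)
      (fun x x' => sumS _ _ _ _ _ _ hAn _ _ _) (fun i hi => ?_)).trans
      (mul_le_mul_of_nonneg_left y1 hC)
    · rw [← mul_sum, hhU, mul_div_assoc]
    · have := mainS hA hF hL ho hf (flip L n g U s hs A y hl hi) y0 (y1.trans hY) hl1 hl _
        (aR_le _ hs' A hAn) (fun _ _ => rfl) (r0U O S I)
      rwa [zsplit] at this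

end GgU

theorem ggU (hRecU : RecU) : GgU := by
  intro K hK
  obtain ⟨C, hC, H⟩ := GgU.one hRecU
  have hK0 : 0 < K := by linarith
  refine ⟨K ^ 5 * C, by positivity, fun O S I _ _ _ _ _ _ n g U L s A y Y hn hAn hs hY hy => ?_⟩
  have e1 : ∀ κ (ω : RsU O S I), hhU (fun i σ => s i σ / K) A κ ω = hhU s A κ ω / K := by
    intro κ ω
    simp only [hhU, sum_div, mul_div_assoc]
  have e2 : (rZU n g U (fun i σ => s i σ / K) A (fun κ => y κ * K) : RsU O S I → ℝ) =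
      rZU n g U s A y := by
    funext ω
    simp only [rZU, e1]
    congr 1
    exact sum_congr rfl (fun κ _ => by field_simp)
  have H1 := GgU.scale aApi hK (H O S I n g U L (fun i σ => s i σ / K) A (fun κ => y κ * K) (Y * K)
    hn hAn (fun i σ => by rw [abs_div, abs_of_pos hK0, div_le_one hK0]; exact hs i σ) hY
    (fun κ hκ => ⟨mul_pos (hy κ hκ).1 hK0, mul_le_mul_of_nonneg_right (hy κ hκ).2 hK0.le⟩))
  rw [e2] at H1
  have e3 : (fun i (x : RsU O S I) => K * (s i x.2.2 / K)) = fun i x => s i x.2.2 := by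
    funext i x; field_simp
  have e4 : K ^ 4 * (C * (Y * K)) = K ^ 5 * C * Y := by ring
  rw [e3, e4] at H1
  refine GgU.congrH hn (fun κ hκ => ?_) H1
  funext ω
  rw [e1]
  field_simp

end

end Vale.Agent.P157
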