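import Vale.Agent.P157.StmS
import Vale.Agent.P157.A
import Vale.Agent.P157.C
import Vale.Agent.P157.Dom
import Vale.Agent.P157.Gr0

namespace Vale.Agent.P157

open Finset Real

noncomputable section

lemma Gr0U.zu_tr {O S : Type} [Fintype O] [DecidableEq O] (g : O → ℝ → ℝ) (U : S → ℝ)
    (s : St O S) (c : ℝ) (ω : Om O S) :
    ZU g U (ω.1 + c • vec s, ω.2) = ZU g U ω +
      (g s.2.1 (ω.1 s.2.1 ω.2 + c * s.2.2 ω.2) - g s.2.1 (ω.1 s.2.1 ω.2)) := by
  simp only [ZU, Gr0.zz_tr]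
  ring

open Gr0 in
theorem gr0U : Gr0U := by
  have hA := aApi
  have hC := cApi
  have hD := domStmt aApi
  intro B K hB hK
  refine ⟨2 * K + 20 * B ^ 2 + (K + 7 * B) ^ 2, ?_⟩
  intro O S _ _ _ _ n g U L s φ d hn hd hg hs hb hφ hL
  have hx : 0 ≤ ‖s.2.2‖ := norm_nonneg _
  have hw : ∀ σ, |s.2.2 σ| ≤ ‖s.2.2‖ := fun σ => norm_le_pi_norm s.2.2 σ
  have H : Set0 (chain L) (chain (s ::ₘ L)) (ex n) (n + 1) (s.1 + 1)
      (fun ω => (ω.1 + (1 : ℝ) • vec s, ω.2)) (fun ω => (ω.1 + (-1 : ℝ) • vec s, ω.2)) (ZU g U)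
      (B * ‖s.2.2‖) := by
    refine ⟨hC.ok n L hn, hC.ok n _ hn, by omega, fun j hj => ?_, fun G ω => ?_,
      fun j G ω => chain_tr hC L _ j G ω, fun j G ω => chain_tr hC L _ j G ω, by positivity, hb,
      fun ω => ?_, fun ω => ?_⟩
    · cases j with
      | zero => rfl
      | succ k =>
        simp only [chain]
        rw [Multiset.filter_cons_of_neg _ (fun h => hj (by rw [h]))]
    · simp only [chain]
      rw [Multiset.filter_cons_of_pos (p := fun s' : St O S => s'.1 = s.1) _ rfl, Multiset.map_cons,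
        hC.lv_cons]
      simp [sgo, sub_eq_add_neg]
    · rw [Gr0U.zu_tr, Gr0U.zu_tr]
      have h1 := ((hg s.2.1) (ω.1 s.2.1 ω.2 + -1 * s.2.2 ω.2) (2 * s.2.2 ω.2)).1
      rw [show ω.1 s.2.1 ω.2 + -1 * s.2.2 ω.2 + 2 * s.2.2 ω.2 =
        ω.1 s.2.1 ω.2 + 1 * s.2.2 ω.2 by ring, abs_mul, abs_two] at h1
      have h2 := mul_le_mul_of_nonneg_left (hw ω.2) (show 0 ≤ B by linarith)
      rw [show ∀ a b c e : ℝ, a + (b - c) - (a + (e - c)) = b - e from fun a b c e => by ring]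
      linarith
    · rw [Gr0U.zu_tr, Gr0U.zu_tr]
      have h1 := ((hg s.2.1) (ω.1 s.2.1 ω.2) (s.2.2 ω.2)).2
      rw [show ∀ a b c e : ℝ, a + (b - c) + (a + (e - c)) - 2 * a = b + e - 2 * c from
        fun a b c e => by ring, one_mul, neg_one_mul, ← sub_eq_add_neg]
      refine h1.trans ?_
      have h2 : s.2.2 ω.2 ^ 2 ≤ ‖s.2.2‖ ^ 2 := by
        rw [← sq_abs]; exact pow_le_pow_left₀ (abs_nonneg _) (hw ω.2) 2
      have h3 : B ≤ B ^ 2 := by nlinarith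
      rw [mul_pow]
      exact mul_le_mul h3 h2 (sq_nonneg _) (by positivity)
  have := main hA hD H (u := K * ‖s.2.2‖ ^ 2) (w := K * ‖s.2.2‖) (by positivity) (by positivity) hφ
    (fun x y => by
      have := hL x y 1 1 (Or.inr rfl) (Or.inr rfl)
      simpa [sub_eq_add_neg] using this)
    (fun x y => by
      have := hL x y 0 1 (Or.inl rfl) (Or.inr rfl)
      simpa [sub_eq_add_neg] using this)
    (fun x y => by
      have := hL x y 1 0 (Or.inr rfl) (Or.inl rfl)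
      simpa [sub_eq_add_neg] using this) (l := d + 1) (by omega) (0, default)
  rw [show 2 * (K * ‖s.2.2‖ ^ 2) + 20 * (B * ‖s.2.2‖) ^ 2 + (K * ‖s.2.2‖ + 7 * (B * ‖s.2.2‖)) ^ 2 =
    (2 * K + 20 * B ^ 2 + (K + 7 * B) ^ 2) * ‖s.2.2‖ ^ 2 by ring] at this
  exact this

end

end Vale.Agent.P157
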