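import Vale.Agent.P157.StmS
import Vale.Agent.P157.Gr1

namespace Vale.Agent.P157

open Finset Real

set_option linter.unusedSectionVars false
set_option linter.unusedVariables false

namespace Gr1U

open Gr1 (vr_cons)

section
variable {O S : Type} [Fintype O] [DecidableEq O] [Fintype S] [Inhabited S]

theorem ee_bd (n : ℕ) (g : O → ℝ → ℝ) (U : S → ℝ) (L : Multiset (St O S)) (d : ℕ) (hn : 1 ≤ n) (hd : d ≤ n)
    (φ : Om O S → Om O S → ℝ) (a b : ℝ) (h : ∀ ω ω', a ≤ φ ω ω' ∧ φ ω ω' ≤ b) :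
    a ≤ EU n g U L d φ ∧ EU n g U L d φ ≤ b := by
  have hk := Cc.ok n L hn
  constructor
  · have := Aa.e2mono hk (ZU g U) (d + 1) (by omega) (φ := fun _ _ => a) (ψ := φ)
      (fun x x' => (h x x').1) (0, default)
    rwa [Aa.e2const hk _ _ (by omega)] at this
  · have := Aa.e2mono hk (ZU g U) (d + 1) (by omega) (ψ := fun _ _ => b) (φ := φ)
      (fun x x' => (h x x').2) (0, default)
    rwa [Aa.e2const hk _ _ (by omega)] at this

theorem ee_nn (n : ℕ) (g : O → ℝ → ℝ) (U : S → ℝ) (L : Multiset (St O S)) (d : ℕ) (hn : 1 ≤ n) (hd : d ≤ n)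
    (φ : Om O S → Om O S → ℝ) (h : ∀ ω ω', 0 ≤ φ ω ω') : 0 ≤ EU n g U L d φ := by
  have hk := Cc.ok n L hn
  have := Aa.e2mono hk (ZU g U) (d + 1) (by omega) (φ := fun _ _ => 0) (ψ := φ) h (0, default)
  rwa [Aa.e2const hk _ _ (by omega)] at this

end

theorem multi (h : Gr0U) (B K : ℝ) (hB : 1 ≤ B) (hK : 0 ≤ K) : ∃ C : ℝ, 0 ≤ C ∧
    ∀ (O S : Type) [Fintype O] [DecidableEq O] [Fintype S] [Inhabited S] (n : ℕ)
    (g : O → ℝ → ℝ) (U : S → ℝ) (L L' : Multiset (St O S)) (φ : Om O S → Om O S → ℝ) (d : ℕ), 1 ≤ n → d ≤ n →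
    (∀ o, D2 B (g o)) → Small n B L' → (∀ ω ω', 0 ≤ φ ω ω') → (∀ s ∈ L', LG K s φ) →
    EU n g U (L + L') d φ ≤ exp (C * vr L') * EU n g U L d φ ∧
      EU n g U L d φ ≤ exp (C * vr L') * EU n g U (L + L') d φ := by
  obtain ⟨C, hC⟩ := h B K hB hK
  refine ⟨|C|, abs_nonneg _, ?_⟩
  intro O S _ _ _ _ n g U L L' φ d hn hd hg hs hφ hL
  induction L' using Multiset.induction_on with
  | empty => simp [vr]
  | cons s L' ih =>
    obtain ⟨i1, i2⟩ := ih (fun t ht => hs t (Multiset.mem_cons_of_mem ht))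
      (fun t ht => hL t (Multiset.mem_cons_of_mem ht))
    have hs' := hs s (Multiset.mem_cons_self _ _)
    obtain ⟨j1, j2⟩ := hC O S n g U (L + L') s φ d hn hd hg hs'.1 hs'.2 hφ
      (hL s (Multiset.mem_cons_self _ _))
    have he : exp (C * ‖s.2.2‖ ^ 2) ≤ exp (|C| * ‖s.2.2‖ ^ 2) := by
      rw [exp_le_exp]; exact mul_le_mul_of_nonneg_right (le_abs_self C) (by positivity)
    have n1 := ee_nn n g U (L + L') d hn hd φ hφ
    have n2 := ee_nn n g U (s ::ₘ (L + L')) d hn hd φ hφ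
    rw [Multiset.add_cons, vr_cons, mul_add, exp_add]
    constructor
    · calc _ ≤ exp (|C| * ‖s.2.2‖ ^ 2) * EU n g U (L + L') d φ :=
            j1.trans (mul_le_mul_of_nonneg_right he n1)
        _ ≤ exp (|C| * ‖s.2.2‖ ^ 2) * (exp (|C| * vr L') * EU n g U L d φ) :=
            mul_le_mul_of_nonneg_left i1 (exp_pos _).le
        _ = _ := by ring
    · calc _ ≤ exp (|C| * vr L') * EU n g U (L + L') d φ := i2
        _ ≤ exp (|C| * vr L') * (exp (|C| * ‖s.2.2‖ ^ 2) * EU n g U (s ::ₘ (L + L')) d φ) :=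
            mul_le_mul_of_nonneg_left (j2.trans (mul_le_mul_of_nonneg_right he n2)) (exp_pos _).le
        _ = _ := by ring

end Gr1U

theorem graU (h : Gr0U) : GraU := by
  intro B hB
  obtain ⟨C, hC0, hC⟩ := Gr1U.multi h B 0 hB le_rfl
  refine ⟨C, hC0, ?_⟩
  intro O S _ _ _ _ n g U L L' χ d hn hd hg hs hχ
  refine hC O S n g U L L' _ d hn hd hg hs (fun ω ω' => hχ _ _) ?_
  intro s _ ω ω' a a' _ _
  have := @Gr1.dm_exp 0 0 (χ ω.2 ω'.2) 0 0 (hχ _ _) (by simp) (by simp)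
  simpa using this

theorem grbU (h : Gr0U) : GrbU := by
  intro B K hB hK
  obtain ⟨C, hC0, hC⟩ := Gr1U.multi h B 36 hB (by norm_num)
  refine ⟨3 * K ^ 2 * (C * exp C), by positivity, ?_⟩
  intro O S _ _ _ _ n g U L L' o u u' χ d hn hd hg hs hv hu hu' hb hb' hχ
  have hr : ∀ ω ω' : Om O S,
      0 ≤ 2 * K ^ 2 + u (ω.1 o ω.2) * u' (ω'.1 o ω'.2) * χ ω.2 ω'.2 ∧
      2 * K ^ 2 + u (ω.1 o ω.2) * u' (ω'.1 o ω'.2) * χ ω.2 ω'.2 ≤ 3 * K ^ 2 := by
    intro ω ω'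
    have : |u (ω.1 o ω.2) * u' (ω'.1 o ω'.2) * χ ω.2 ω'.2| ≤ K * K * 1 := by
      rw [abs_mul, abs_mul]
      exact mul_le_mul (mul_le_mul (hb _) (hb' _) (abs_nonneg _) (by linarith)) (hχ _ _)
        (abs_nonneg _) (by positivity)
    have := abs_le.1 this
    constructor <;> nlinarith
  obtain ⟨i1, i2⟩ := hC O S n g U L L' _ d hn hd hg hs (fun ω ω' => (hr ω ω').1)
    (fun s _ => Gr1.lg_prod hK s o u u' χ hu hu' hb hb' hχ)
  have b1 := Gr1U.ee_bd n g U L d hn hd _ _ _ hr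
  have b2 := Gr1U.ee_bd n g U (L + L') d hn hd _ _ _ hr
  have e : ∀ M : Multiset (St O S), EU n g U M d (fun ω ω' => 2 * K ^ 2 +
      u (ω.1 o ω.2) * u' (ω'.1 o ω'.2) * χ ω.2 ω'.2) = 2 * K ^ 2 +
      EU n g U M d (fun ω ω' => u (ω.1 o ω.2) * u' (ω'.1 o ω'.2) * χ ω.2 ω'.2) := by
    intro M
    have := Aa.e2add (chain M) (ex n) (ZU g U) (d + 1) (n + 1) (fun _ _ => 2 * K ^ 2)
      (fun ω ω' => u (ω.1 o ω.2) * u' (ω'.1 o ω'.2) * χ ω.2 ω'.2) 1 1 (0, default)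
    rw [Aa.e2const (Cc.ok n M hn) _ _ (by omega)] at this
    simpa [EU] using this
  rw [e] at b1 b2
  rw [e, e] at i1 i2
  have hx := Gr1.exp_sub hC0 (Gr1.vr_nn L') hv
  have hx0 : 0 ≤ exp (C * vr L') - 1 := by
    have := add_one_le_exp (C * vr L')
    have := mul_nonneg hC0 (Gr1.vr_nn L')
    linarith
  have k1 := mul_le_mul hx b1.2 b1.1 (hx0.trans hx)
  have k2 := mul_le_mul hx b2.2 b2.1 (hx0.trans hx)
  rw [abs_le]
  constructor <;> nlinarith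

end Vale.Agent.P157
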