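import Vale.Agent.P157.StmS
import Vale.Agent.P157.A
import Vale.Agent.P157.Bdd
import Vale.Agent.P157.C
import Vale.Agent.P157.Dom
import Vale.Agent.P157.G
import Vale.Agent.P157.G2
import Vale.Agent.P157.Gr0
import Vale.Agent.P157.Gr1
import Vale.Agent.P157.Hl
import Vale.Agent.P157.L1
import Vale.Agent.P157.Lin
import Vale.Agent.P157.Link
import Vale.Agent.P157.Ms
import Vale.Agent.P157.St1

namespace Vale.Agent.P157

open Finset Real Filter Topology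

namespace HlS

theorem swap (hA : AApi) (hG : GApi) (hM : MsStmt) (B : ℝ) (hB : 1 ≤ B) : ∃ C : ℝ, 0 ≤ C ∧
    ∀ (n : ℕ) (f f1 f2 : ℝ → ℝ) (p p' : ℕ → ℝ) (τ c Q : ℝ), 1 ≤ n → Sm B f f1 f2 → Path n p →
      Path n p' → p 0 ≤ Q → p' 0 ≤ Q → 0 ≤ τ → 0 ≤ c → B * √(c * Q) ≤ 1 → c * Q ≤ 1 →
      (∀ κ, κ < n → |(1 / (n : ℝ)) * ∑ d ∈ Icc 1 κ, (p d - p' d)| ≤ τ) → ∀ l,
      |HD n f (l + sprof n p c) - HD n f (l + sprof n p' c)| ≤
        c * (B ^ 2 * τ + B ^ 2 * |p 0 - p' 0|) + C * (c * Q * √(c * Q)) := by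
  obtain ⟨C, hC, hM⟩ := hM B hB
  refine ⟨2 * C, by positivity,
    fun n f f1 f2 p p' τ c Q hn hf hp hp' h0 h0' hτ hc hc1 hc2 hs l => ?_⟩
  set L : Multiset (St Unit Unit) := lift () (fun _ => 1) l
  set W : ℕ → ℝ := fun d => EE n (fun _ : Unit => f) L d
    (fun ω ω' => ob f1 () (fun _ => 1) ω * ob f1 () (fun _ => 1) ω')
  set E := E1 n (fun _ : Unit => f) L (ob (fun t => f2 t + f1 t ^ 2) () (fun _ => 1)) with hE
  have key : ∀ p : ℕ → ℝ, Path n p → p 0 ≤ Q → |HD n f (l + sprof n p c) - HD n f l -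
      c * (p 0 * E - (1 / (n : ℝ)) * ∑ d ∈ Ico 1 n, p d * W d) / 2| ≤
      C * (c * Q * √(c * Q)) := fun p hp h0 => by
    obtain ⟨v1, -, v3⟩ := hG.sprof_var n p c hp hc
    have h1 : c * p 0 ≤ c * Q := mul_le_mul_of_nonneg_left h0 hc
    have h2 : 0 ≤ c * p 0 := mul_nonneg hc (Bdd.path_nonneg hp (Nat.zero_le n))
    have e1 : vr (lift () (fun _ : Unit => (1 : ℝ)) (sprof n p c)) = c * p 0 := by
      rw [(hG.lift_vr _ _ _ (by simp)).1, v1]
    have e2 := (hM Unit Unit n (fun _ => f) (fun _ => f1) (fun _ => f2) L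
      (lift () (fun _ => 1) (sprof n p c)) hn (fun _ => hf)
      (hG.lift_small n B _ _ _ (by simp) fun s hs => ⟨(v3 s hs).1,
        (mul_le_mul_of_nonneg_left ((v3 s hs).2.trans (sqrt_le_sqrt h1)) (by linarith)).trans
          hc1⟩)).2 (by rw [e1]; linarith)
    rw [e1, hG.gam_prof n _ _ _ _ _ _ p c hn hp hc (by simp)] at e2
    rw [HD, lift, Multiset.map_add]
    refine e2.trans (mul_le_mul_of_nonneg_left ?_ hC)
    exact mul_le_mul h1 (sqrt_le_sqrt h1) (sqrt_nonneg _) (h2.trans h1)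
  obtain ⟨w1, w2⟩ := hG.w_path n (fun _ : Unit => f) L (ob f1 () (fun _ => 1)) B hn
    fun ω => by simpa [ob] using hf.b1 _
  have h3 := hA.abel n _ (fun d => (1 / (n : ℝ)) * (p d - p' d)) τ w1 hτ fun κ hκ => by
    rw [← mul_sum]; exact hs κ hκ
  have h4 : ∑ d ∈ Ico 1 n, (if d < n then W d else 0) * ((1 / (n : ℝ)) * (p d - p' d)) =
      (1 / (n : ℝ)) * ∑ d ∈ Ico 1 n, p d * W d - (1 / (n : ℝ)) * ∑ d ∈ Ico 1 n, p' d * W d := by
    rw [mul_sum, mul_sum, ← sum_sub_distrib]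
    refine sum_congr rfl fun d hd => ?_
    rw [if_pos (mem_Ico.1 hd).2]
    ring
  simp only [if_pos (show 0 < n from hn)] at h3
  rw [h4] at h3
  have h5 : |E| ≤ 2 * B ^ 2 := hA.abs_le (hA.ce (Cc.ok n L hn) _ 0 (n + 1) le_rfl) (fun ω => by
    simp only [ob, mul_one]
    have a1 := abs_le.1 (hf.b1 (ω.1 () ω.2))
    have a2 := abs_le.1 (hf.b2 (ω.1 () ω.2))
    have a3 := sq_le_sq' a1.1 a1.2
    have a4 := sq_nonneg (f1 (ω.1 () ω.2))
    exact abs_le.2 ⟨by nlinarith, by nlinarith⟩) _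
  have h6 : |(p 0 - p' 0) * E| ≤ |p 0 - p' 0| * (2 * B ^ 2) := by
    rw [abs_mul]; exact mul_le_mul_of_nonneg_left h5 (abs_nonneg _)
  obtain ⟨a1, a2⟩ := abs_le.1 (h3.trans (mul_le_mul_of_nonneg_right w2 hτ))
  obtain ⟨b1, b2⟩ := abs_le.1 (key p hp h0)
  obtain ⟨c1, c2⟩ := abs_le.1 (key p' hp' h0')
  obtain ⟨d1, d2⟩ := abs_le.1 h6
  have a1' := mul_le_mul_of_nonneg_left a1 hc
  have a2' := mul_le_mul_of_nonneg_left a2 hc
  have d1' := mul_le_mul_of_nonneg_left d1 hc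
  have d2' := mul_le_mul_of_nonneg_left d2 hc
  have : 0 ≤ c * (B ^ 2 * τ) := by positivity
  exact abs_le.2 ⟨by linarith, by linarith⟩

end HlS

theorem hlU : HlU := by
  refine ⟨fun B n f f1 f2 p p' τ hB hn hf hp hp' hτ hs => ?_, fun B n f p _ _ hB => ?_⟩
  swap
  · have h0 : 0 ≤ B := (abs_nonneg _).trans (hB 0)
    exact abs_le.2 ⟨Bdd.casc_low n p (by linarith) (fun x => (abs_le.1 (hB x)).1) n le_rfl 0,
      Bdd.casc_up n p h0 (fun x => (abs_le.1 (hB x)).2) n le_rfl 0⟩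
  have hG : GApi := gApi aApi cApi
  have hM : MsStmt := msStmt aApi cApi (st1Stmt aApi cApi (l1Stmt aApi))
    (grbStmt aApi cApi (gr0Stmt aApi cApi (domStmt aApi)))
  have h2 : G2Stmt := g2Stmt aApi cApi (linStmt aApi cApi) (linkStmt aApi cApi)
  obtain ⟨C, hC, hsw⟩ := HlS.swap aApi hG hM B hB
  refine le_of_forall_pos_le_add fun ε hε => ?_
  set Q := max (p 0) (p' 0) with hQ
  obtain ⟨η, hη, hg⟩ := h2 n B Q (ε / 3) hn (by positivity)
  have t0 : Tendsto (fun D : ℕ => 1 / (D : ℝ) * Q) atTop (𝓝 0) := by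
    simpa using tendsto_one_div_atTop_nhds_zero_nat.mul_const Q
  have t : Tendsto (fun D : ℕ => √(1 / (D : ℝ) * Q)) atTop (𝓝 0) := by
    simpa only [sqrt_zero] using t0.sqrt
  have t1 := t.eventually (ge_mem_nhds hη)
  have t2 := (t.const_mul B).eventually (ge_mem_nhds (show B * 0 < 1 by simp))
  have t3 := (t.const_mul (C * Q)).eventually
    (ge_mem_nhds (show C * Q * 0 < ε / 3 by simpa using hε))
  have t4 := t0.eventually (ge_mem_nhds one_pos)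
  obtain ⟨D, e1, e2, e3, e5, e4⟩ :=
    (t1.and (t2.and (t3.and (t4.and (eventually_ge_atTop 1))))).exists
  have hD : (1 : ℝ) ≤ D := by exact_mod_cast e4
  have hc : (0 : ℝ) ≤ 1 / D := by positivity
  have key : ∀ p : ℕ → ℝ, Path n p → p 0 ≤ Q →
      |HD n f (D • sprof n p (1 / D)) - Hf n f p| ≤ ε / 3 := fun p hp h0 => by
    obtain ⟨-, v2, v3⟩ := hG.sprof_var n p _ hp hc
    refine (hg p _ hp h0 (fun s hs => ((v3 s (Multiset.mem_of_mem_nsmul hs)).2.trans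
      (sqrt_le_sqrt (mul_le_mul_of_nonneg_left h0 hc))).trans e1)
      fun d hd => ?_).1 f fun t h => (hf.d0 t h).1
    rw [(hG.lvar_add _ 0 D d).2, v2 d hd, ← mul_assoc, mul_one_div_cancel (by linarith), one_mul,
      sub_self, abs_zero]
    exact hη.le
  have h3 := Hl.many (hsw n f f1 f2 p p' τ _ Q hn hf hp hp' (le_max_left _ _) (le_max_right _ _)
    hτ hc e2 e5 hs) D 0
  rw [zero_add, zero_add, show (D : ℝ) * (1 / D * (B ^ 2 * τ + B ^ 2 * |p 0 - p' 0|) +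
    C * (1 / D * Q * √(1 / D * Q))) = B ^ 2 * τ + B ^ 2 * |p 0 - p' 0| +
      C * Q * √(1 / D * Q) by field_simp] at h3
  obtain ⟨a1, a2⟩ := abs_le.1 h3
  obtain ⟨b1, b2⟩ := abs_le.1 (key p hp (le_max_left _ _))
  obtain ⟨c1, c2⟩ := abs_le.1 (key p' hp' (le_max_right _ _))
  exact abs_le.2 ⟨by linarith, by linarith⟩

end Vale.Agent.P157
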