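import Vale.Agent.P157.S.UbU
import Vale.Agent.P157.Lb

namespace Vale.Agent.P157

open Finset Real Filter

noncomputable section

namespace LbUm

open Lb (ini ini_card ini_mono ini_top climb floor_step step_arith)
open UbUm (fl_crude md path1)

/-- the first `m` patterns -/
def JJ (M m : ℕ) : Finset (Option (Fin M)) := (ini M m).map Function.Embedding.some

lemma JJ_card {M m : ℕ} (h : m ≤ M) : (JJ M m).card = m := by
  rw [JJ, card_map, ini_card h]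

lemma JJ_mono (M : ℕ) {m m' : ℕ} (h : m ≤ m') : JJ M m ⊆ JJ M m' :=
  map_subset_map.2 (ini_mono M h)

lemma JJ_top (M : ℕ) : JJ M M = pats M := by
  rw [JJ, ini_top]
  ext a
  cases a <;> simp [pats]

lemma JJ_pt (M m : ℕ) {B : ℝ} {f : ℝ → ℝ} (f1 f2 : ℝ → ℝ) (hf : ∀ t, |f t| ≤ B) :
    Pt (gg (Fin M) f) (gg1 (Fin M) f1) (gg2 (Fin M) f2) none (JJ M m) B f f1 f2 := by
  refine ⟨by simp [JJ], hf, fun a ha => ?_⟩
  obtain ⟨i, -, rfl⟩ := mem_map.1 ha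
  exact ⟨rfl, rfl, rfl⟩

lemma rho {T : Type} [Fintype T] [Inhabited T] {K η b1 : ℝ} {v : T → ℝ} (h : QS K η b1 v)
    (hη : 0 < η) (hb : 1 ≤ b1) : |avg (fun t => v t ^ 2) - 1| ≤ η := by
  have h1 := h.var
  have h2 := h.var'
  rw [abs_le]
  refine ⟨by linarith, ?_⟩
  rcases le_total (avg fun t => v t ^ 2) 1 with h4 | h4 <;> nlinarith

lemma vs_le (hc : CsApi) (hl : HlU) {n : ℕ} (hn : 1 ≤ n) {α B : ℝ} (hα : 0 < α) {f : ℝ → ℝ}
    (hm : Measurable f) (hf : ∀ t, |f t| ≤ B) : Vs n α f ≤ α * B := by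
  have hbdd : BddBelow (valS n α f) := by
    refine ⟨-(α * B), ?_⟩
    rintro t ⟨p, hp, hp0, hp1, rfl⟩
    have h0 := hc.nn n p hn hp hp0 hp1
    have := mul_le_mul_of_nonneg_left (abs_le.1 (hl.2 B n f p hn hm hf)).1 hα.le
    linarith
  refine (csInf_le hbdd ⟨_, path1 hn, if_pos rfl, by simp, rfl⟩).trans ?_
  rw [hc.one n hn, add_zero]
  exact mul_le_mul_of_nonneg_left (abs_le.1 (hl.2 B n f _ hn hm hf)).2 hα.le

lemma e_mono {δ K lam N j X : ℝ} (hδ : 0 < δ) (hδ1 : δ ≤ 1) (hK : 0 ≤ K) (hl : 0 < lam)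
    (hN : 0 < N) (hj : δ * N ≤ j) :
    K * (lam + √X / (lam * j)) ≤ K / δ * (lam + √X / (lam * N)) := by
  have h1 : K * lam ≤ K / δ * lam :=
    mul_le_mul_of_nonneg_right (le_div_self hK hδ hδ1) hl.le
  have h2 : √X / (lam * j) ≤ √X / (lam * (δ * N)) :=
    div_le_div_of_nonneg_left (sqrt_nonneg _) (by positivity)
      (mul_le_mul_of_nonneg_left hj hl.le)
  have h3 : K * (√X / (lam * (δ * N))) = K / δ * (√X / (lam * N)) := by
    field_simp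
  have h4 := mul_le_mul_of_nonneg_left h2 hK
  rw [mul_add, mul_add]
  linarith

lemma apr_arith {B α K k n lam η j m x : ℝ} (hB : 1 ≤ B) (hη : 0 < η) (hk : 0 < k)
    (hj : 0 < j) (hm : m ≤ α * j) (hk1 : 64 * α * B ≤ k * η ^ 2)
    (hl : 96 * K * n * lam ≤ k * η ^ 2) (hj1 : 8 * K ^ 4 ≤ η ^ 2 * j)
    (h : x ^ 2 ≤ (8 * B * m / j + 4 * K * n * (3 * lam)) / k + 2 * (η / 2) ^ 2 + 2 * K ^ 4 / j) :
    |x| ≤ η := by
  refine abs_le_of_sq_le_sq' (h.trans ?_) hη.le |> abs_le.2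
  have a1 : 8 * B * m / j ≤ 8 * B * α := by
    rw [div_le_iff₀ hj]
    nlinarith
  have a2 : (8 * B * m / j + 4 * K * n * (3 * lam)) / k ≤ η ^ 2 / 4 := by
    rw [div_le_iff₀ hk]
    linarith
  have a3 : 2 * K ^ 4 / j ≤ η ^ 2 / 4 := by
    rw [div_le_iff₀ hj]
    linarith
  linarith

lemma fin_arith {B α ε δ lam K k η n N M M0 j0 rb V e2 f0 R G0 GN : ℝ} (hα : 0 < α) (hB : 1 ≤ B)
    (hK : 0 < K) (hk : 0 ≤ k)
    (hn : 0 < n) (hN : 0 < N) (hl : 0 < lam) (hj : 0 ≤ j0) (hj1 : j0 ≤ 2 * δ * N) (hjN : j0 ≤ N)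
    (hrb : j0 + rb = N) (hM0 : 0 ≤ M0) (hM1 : M0 ≤ α * j0) (hV : V ≤ α * B) (he0 : 0 ≤ e2)
    (he2 : e2 ≤ ε / 2) (hδ : 2 * (4 * α * B + k * η ^ 2) * δ ≤ ε / 8)
    (hl2 : 20 * n * K * lam ≤ ε) (hN1 : 8 * (k * K ^ 4) ≤ ε * N) (hf : |f0| ≤ B)
    (h1 : M * f0 - 2 * B * M0 - K * n * (2 * lam) * j0 - k * (j0 * η ^ 2 + K ^ 4) ≤ G0)
    (h2 : G0 + rb * (V - e2) - (M * f0 - M0 * f0) ≤ GN) (h3 : GN ≤ R + 3 * n * (N * K) * lam) :
    N * (V - ε) ≤ R := by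
  have a1 : -(B * M0) ≤ M0 * f0 := by nlinarith [(abs_le.1 hf).1]
  have a2 : B * M0 ≤ B * (α * j0) := mul_le_mul_of_nonneg_left hM1 (by linarith)
  have a3 : j0 * (V - e2) ≤ j0 * (α * B) := mul_le_mul_of_nonneg_left (by linarith) hj
  have a4 : (4 * α * B + k * η ^ 2) * j0 ≤ (4 * α * B + k * η ^ 2) * (2 * δ * N) :=
    mul_le_mul_of_nonneg_left hj1 (by positivity)
  have a5 : N * (2 * (4 * α * B + k * η ^ 2) * δ) ≤ N * (ε / 8) :=
    mul_le_mul_of_nonneg_left hδ hN.le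
  have a6 : K * n * (2 * lam) * j0 ≤ K * n * (2 * lam) * N :=
    mul_le_mul_of_nonneg_left hjN (by positivity)
  have a7 : N * (20 * n * K * lam) ≤ N * ε := mul_le_mul_of_nonneg_left hl2 hN.le
  have a8 : N * e2 ≤ N * (ε / 2) := mul_le_mul_of_nonneg_left he2 hN.le
  have a9 : rb = N - j0 := by linarith
  subst a9
  nlinarith

variable {T : Type} [Fintype T] [Inhabited T]

/-- the penalised value with `j` sites -/
def GG (n : ℕ) (f : ℝ → ℝ) (v : T → ℝ) (k α c lam K : ℝ) (N M D j : ℕ) (y : ℕ → ℝ) : ℝ :=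
  TU n (gg (Fin M) f) (Uk v k (ini N j)) (sy n (sv v) (ini N j) (JJ M ⌊α * (j : ℝ)⌋₊) (N * D / j) c +
    fl (sv v) none (ini N j) (ys n y)) - pen n lam (N * K / lam) y

lemma fixed (hU : UApi) (hG : GUApi) (hA : AprU) (hc : CsApi) (hl : HlU) {B α ε δ e2 K k η c lam : ℝ}
    {n N D b m : ℕ} {f f1 f2 : ℝ → ℝ} {v : T → ℝ} (hB : 1 ≤ B) (hα : 0 < α) (hn : 1 ≤ n)
    (hN : 1 ≤ N) (hb : 1 ≤ b) (hK : 1 ≤ K) (hk : 0 < k) (hl0 : 0 < lam) (hδ0 : 0 < δ)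
    (hS : Sm B f f1 f2) (hf : ∀ t, |f t| ≤ B) (hv : ∀ t, |v t| ≤ K)
    (hρ : |avg (fun t => v t ^ 2) - 1| ≤ η) (hm1 : δ * N ≤ m) (hm2 : (m : ℝ) < δ * N + 1)
    (hm3 : m ≤ N) (hN4 : 1 + b ≤ N * δ) (he0 : 0 ≤ e2) (he2 : e2 ≤ ε / 2)
    (hδ : 2 * (4 * α * B + k * η ^ 2) * δ ≤ ε / 8) (hl2 : 20 * n * K * lam ≤ ε)
    (hN1 : 8 * (k * K ^ 4) ≤ ε * N)
    (hstep : ∀ j, m ≤ j → j + b ≤ N → ∀ y', ∃ y, GG n f v k α c lam K N ⌊α * N⌋₊ D j y' +
      b * (Vs n α f - e2) -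
      ((⌊α * ((j + b : ℕ) : ℝ)⌋₊ : ℝ) * f 0 - (⌊α * (j : ℝ)⌋₊ : ℝ) * f 0) ≤
        GG n f v k α c lam K N ⌊α * N⌋₊ D (j + b) y) :
    N * (Vs n α f - ε) ≤ TU n (gg (Fin ⌊α * N⌋₊) f) (Uk v k (univ : Finset (Fin N)))
      (sy n (sv v) univ (pats ⌊α * N⌋₊) D c) := by
  have hN0 : (0 : ℝ) < N := by exact_mod_cast hN
  have hn0 : (0 : ℝ) < n := by exact_mod_cast hn
  have hs : ∀ (i : Fin N) σ, |sv v i σ| ≤ K := fun i σ => hv _
  set M := ⌊α * (N : ℝ)⌋₊ with hM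
  have hMj : ∀ j, j ≤ N → ⌊α * (j : ℝ)⌋₊ ≤ M := fun j hj =>
    Nat.floor_le_floor (mul_le_mul_of_nonneg_left (by exact_mod_cast hj) hα.le)
  have hr1 : (N - m) / b * b ≤ N - m := Nat.div_mul_le_self _ _
  have hr2 : N - m < (N - m) / b * b + b := Nat.lt_div_mul_add hb
  generalize (N - m) / b = r at hr1 hr2
  have hj0 : N - r * b + r * b = N := by omega
  have hjm : m ≤ N - r * b := by omega
  obtain ⟨y, hy⟩ := climb (GG n f v k α c lam K N M D) (fun j => (⌊α * (j : ℝ)⌋₊ : ℝ) * f 0) m b N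
    (N - r * b) (Vs n α f - e2) hjm hstep (fun _ => 2 * lam) r hj0.le
  rw [hj0] at hy
  have hj1 : N - r * b ≤ m + b := by omega
  have hjN : N - r * b ≤ N := Nat.sub_le _ _
  generalize N - r * b = j0 at hj0 hy hj1 hjN hjm
  have hj2 : (0 : ℝ) < j0 := lt_of_lt_of_le (by positivity) (hm1.trans (by exact_mod_cast hjm))
  have hne : (ini N j0).Nonempty := by
    rw [← card_pos, ini_card hjN]; exact_mod_cast hj2
  have s1 := (hA (Option (Fin M)) (Fin N) T n B K η k (2 * lam) _ _ _ f f1 f2 v none (ini N j0)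
    (JJ M ⌊α * (j0 : ℝ)⌋₊) (N * D / j0) c (fun _ => 2 * lam) hn (md hB hK hS (Fin M) hs)
    (JJ_pt M _ f1 f2 hf) hne hk hρ (fun _ _ => le_of_eq (abs_of_pos (by positivity)))).2
  have e0 : ∑ o, gg (Fin M) f o 0 = M * f 0 := by
    rw [Fintype.sum_option]
    simp [gg]
  rw [e0, ini_card hjN, JJ_card (hMj j0 hjN)] at s1
  have s3 := (abs_le.1 (fl_crude hU hG hn (g := gg (Fin M) f) (Uk v k (univ : Finset (Fin N)))
    (o0 := none) rfl (sy n (sv v) univ (pats M) D c) hs univ y)).2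
  have s4 := Ub.pen_bound n hl0 (show 0 ≤ N * K by positivity) y
  rw [card_univ, Fintype.card_fin] at s3
  refine fin_arith (G0 := GG n f v k α c lam K N M D j0 (fun _ => 2 * lam))
    (GN := GG n f v k α c lam K N M D N y) (M := M)
    (M0 := (⌊α * (j0 : ℝ)⌋₊ : ℕ)) (j0 := j0) (rb := (r * b : ℕ)) (f0 := f 0) hα hB (by linarith)
    hk.le hn0 hN0 hl0 hj2.le ?_ (by exact_mod_cast hjN) (by exact_mod_cast hj0) (by positivity)
    (Nat.floor_le (by positivity)) (vs_le hc hl hn hα (Ub.meas hS.d0) hf) he0 he2 hδ hl2 hN1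
    (hf 0) ?_ hy ?_
  · have : (j0 : ℝ) ≤ m + b := by exact_mod_cast hj1
    linarith
  · have e3 : pen n lam (N * K / lam) (fun _ => 2 * lam) = 0 := by simp [pen]
    unfold GG
    rw [e3, sub_zero]
    exact s1
  · unfold GG
    rw [← hM, ini_top, JJ_top, Nat.mul_div_cancel_left D hN]
    linarith

lemma exD {N : ℕ} (hN : 1 ≤ N) {η : ℝ} (hη0 : 0 < η) (D1 : ℕ) : ∃ D, D1 ≤ D ∧
    (∀ j, 1 ≤ j → j ≤ N → j * (j + 1) ∣ N * D) ∧
    ((N * D : ℕ) : ℝ) * (1 / √((N : ℝ) * D)) ^ 2 = 1 ∧ (N : ℝ) * (1 / √((N : ℝ) * D)) ^ 2 ≤ η := by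
  have hN0 : (0 : ℝ) < N := by exact_mod_cast hN
  obtain ⟨F, hF⟩ : N ∣ (N + 1).factorial := Nat.dvd_factorial hN (Nat.le_succ N)
  have hF1 : 1 ≤ F := by
    rcases Nat.eq_zero_or_pos F with h | h
    · rw [h, mul_zero] at hF; exact absurd hF (Nat.factorial_ne_zero _)
    · exact h
  obtain ⟨t, ht1, ht2, ht3⟩ : ∃ t : ℕ, D1 ≤ t ∧ 1 ≤ t ∧ 1 / η ≤ t :=
    ⟨D1 + 1 + ⌈1 / η⌉₊, by omega, by omega, (Nat.le_ceil _).trans (by exact_mod_cast by omega)⟩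
  have hD1 : t ≤ t * F := Nat.le_mul_of_pos_right _ hF1
  have hdvd : ∀ j, 1 ≤ j → j ≤ N → j * (j + 1) ∣ N * (t * F) := by
    intro j h1 h2
    rw [show N * (t * F) = (N + 1).factorial * t by rw [hF]; ring]
    refine Dvd.dvd.mul_right (dvd_trans ?_ (Nat.factorial_dvd_factorial (Nat.succ_le_succ h2))) _
    rw [Nat.factorial_succ, mul_comm j]
    exact Nat.mul_dvd_mul_left _ (Nat.dvd_factorial h1 le_rfl)
  have hDη : 1 / η ≤ ((t * F : ℕ) : ℝ) := ht3.trans (by exact_mod_cast hD1)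
  have hDpos : 1 ≤ t * F := ht2.trans hD1
  refine ⟨t * F, ht1.trans hD1, hdvd, ?_⟩
  generalize t * F = D at hdvd hDη hDpos ⊢
  have hD0 : (0 : ℝ) < D := by exact_mod_cast hDpos
  constructor
  · rw [div_pow, one_pow, sq_sqrt (by positivity)]; push_cast; field_simp
  · rw [div_pow, one_pow, sq_sqrt (by positivity), show (N : ℝ) * (1 / (N * D)) = 1 / D by
      field_simp, div_le_iff₀ hD0]
    rw [div_le_iff₀ hη0] at hDη
    linarith

lemma exlam {a1 a2 a3 a4 a5 : ℝ} (h1 : 0 < a1) (h2 : 0 < a2) (h3 : 0 < a3) (h4 : 0 < a4)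
    (h5 : 0 < a5) : ∃ l : ℝ, 0 < l ∧ l ≤ a1 ∧ l ≤ a2 ∧ l ≤ a3 ∧ l ≤ a4 ∧ l ≤ a5 :=
  ⟨min (min a1 a2) (min a3 (min a4 a5)), by positivity,
    (min_le_left _ _).trans (min_le_left _ _), (min_le_left _ _).trans (min_le_right _ _),
    (min_le_right _ _).trans (min_le_left _ _),
    (min_le_right _ _).trans ((min_le_right _ _).trans (min_le_left _ _)),
    (min_le_right _ _).trans ((min_le_right _ _).trans (min_le_right _ _))⟩

end LbUm

open LbUm in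
open Lb (ini ini_card ini_mono floor_step step_arith) in
theorem lbU (hUApi : UApi) (hGUApi : GUApi) (hMaxU : MaxU) (hConU : ConU) (hBlockU : BlockU)
    (hAprU : AprU) (hCsApi : CsApi) (hHlU : HlU) : LbU := by
  intro B α ε hB hα hε
  obtain ⟨b, hb1, hb2⟩ : ∃ b : ℕ, 1 ≤ b ∧ B / b ≤ ε / 4 := by
    refine ⟨⌈4 * B / ε⌉₊ + 1, by omega, ?_⟩
    have h1 := Nat.le_ceil (4 * B / ε)
    rw [div_le_iff₀ hε] at h1
    rw [div_le_iff₀ (by positivity)]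
    push_cast
    nlinarith
  obtain ⟨ε', hε'0, hε'1⟩ : ∃ ε' : ℝ, 0 < ε' ∧ (2 + α) * ε' ≤ ε / 4 :=
    ⟨ε / (4 * (2 + α)), by positivity, le_of_eq (by field_simp)⟩
  obtain ⟨η0, b1, hη00, hb11, hk⟩ := hBlockU B α α ε' hB hα.le hα hε'0
  refine ⟨η0 / 2, b1, 64 * α * B / η0 ^ 2, by positivity, hb11, ?_⟩
  intro K k f f1 f2 T _ _ v hk1 hS hf hq
  have hK := hq.hK
  have hk0 : 0 < k := lt_of_lt_of_le (by positivity) hk1
  rw [div_le_iff₀ (by positivity)] at hk1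
  have hρ := rho hq (by positivity) hb11
  obtain ⟨e0, he0, hk⟩ := hk K k b (⌊α * (b : ℝ)⌋₊ + 2) hk0.le
  replace hk := hk T v (hq.mono (by linarith) le_rfl (by linarith))
  obtain ⟨δ, hδ0, hδ1, hδ2⟩ : ∃ δ : ℝ, 0 < δ ∧ δ ≤ 1 ∧
      2 * (4 * α * B + k * (η0 / 2) ^ 2) * δ ≤ ε / 8 := by
    obtain ⟨δ, h1, h2, h3⟩ := UbUm.small (2 * (4 * α * B + k * (η0 / 2) ^ 2)) (by positivity)
      (show 0 < min 1 (ε / 8) by positivity)
    exact ⟨δ, h1, h2.trans (min_le_left _ _), h3.trans (min_le_right _ _)⟩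
  obtain ⟨C1, hn⟩ := hConU K hK
  filter_upwards [Ub.ev_sqrt (3 * C1 / e0), eventually_ge_atTop 1] with n hn1 hn2
  obtain ⟨K', hK0, hn⟩ := hn n hn2
  obtain ⟨η, hη0, hk⟩ := hk n hn2
  have hn0 : (0 : ℝ) < n := by exact_mod_cast hn2
  obtain ⟨lam, hl0, hl1, hl2, hl3, hl4, hl5⟩ := exlam (a1 := 1 / (3 * K)) (a2 := ε / (20 * n * K))
    (a3 := e0 / (3 * (K' / δ + 1))) (a4 := η / 3) (a5 := k * η0 ^ 2 / (96 * K * n))
    (by positivity) (by positivity) (by positivity) (by positivity) (by positivity)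
  rw [le_div_iff₀ (by positivity)] at hl1 hl2 hl5
  filter_upwards [Ub.ev_sqrt (3 * (K' / δ * √K) / (√lam * lam * e0)), eventually_ge_atTop 1,
    tendsto_natCast_atTop_atTop.eventually_ge_atTop (1 / (e0 * δ)),
    tendsto_natCast_atTop_atTop.eventually_ge_atTop ((1 + b : ℝ) / δ),
    tendsto_natCast_atTop_atTop.eventually_ge_atTop (8 * (k * K ^ 4) / ε),
    tendsto_natCast_atTop_atTop.eventually_ge_atTop (8 * K ^ 4 / (η0 ^ 2 * δ))]
    with N hN1 hN2 hN3 hN4 hN5 hN6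
  have hN0 : (0 : ℝ) < N := by exact_mod_cast hN2
  have he1 := UbUm.e_small he0 (by positivity) (by linarith) hl0 hn0 hN0 hn1 hl3 hN1
  rw [div_le_iff₀ (by positivity)] at hN3 hN4 hN5 hN6
  rw [frequently_atTop]
  intro D1
  obtain ⟨D, hD, hdvd, hc1, hc2⟩ := exD hN2 hη0 D1
  refine ⟨D, hD, ?_⟩
  unfold RVU
  generalize 1 / √((N : ℝ) * D) = c at hc1 hc2 ⊢
  have hs : ∀ (i : Fin N) σ, |sv v i σ| ≤ K := fun i σ => hq.bd _
  refine fixed hUApi hGUApi hAprU hCsApi hHlU (δ := δ) (e2 := B / b + (2 + α) * ε') (lam := lam)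
    (m := ⌈δ * N⌉₊) hB hα hn2 hN2 hb1 hK hk0 hl0 hδ0 hS hf hq.bd hρ (Nat.le_ceil _)
    (Nat.ceil_lt_add_one (by positivity)) (Nat.ceil_le.2 (mul_le_of_le_one_left hN0.le hδ1)) hN4
    (by positivity) (by linarith) hδ2 (by linarith) (by linarith) ?_
  set M := ⌊α * (N : ℝ)⌋₊ with hM
  have hMj : ∀ j, j ≤ N → ⌊α * (j : ℝ)⌋₊ ≤ M := fun j hj =>
    Nat.floor_le_floor (mul_le_mul_of_nonneg_left (by exact_mod_cast hj) hα.le)
  intro j hj hjb y'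
  have hjN : j ≤ N := by omega
  have hjδ : δ * N ≤ j := (Nat.le_ceil _).trans (by exact_mod_cast hj)
  have hj0 : (0 : ℝ) < j := lt_of_lt_of_le (by positivity) hjδ
  have hne : (ini N j).Nonempty := by
    rw [← card_pos, ini_card hjN]; exact_mod_cast hj0
  have hmd := UbUm.md hB hK hS (Fin M) hs
  obtain ⟨y, hy⟩ := hMaxU (Option (Fin M)) _ (Fin N) n (gg (Fin M) f) (Uk v k (ini N j))
    (sy n (sv v) (ini N j) (JJ M ⌊α * (j : ℝ)⌋₊) (N * D / j) c) (sv v) none (ini N j) K lam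
    (N * K / lam) hn2 rfl (by linarith) hs hl0
    (by
      rw [div_mul_cancel₀ _ hl0.ne', ini_card hjN]
      exact mul_le_mul_of_nonneg_right (by exact_mod_cast hjN) (by linarith))
  have hcon := hn _ _ (Fin N) _ _ _ _ _ _ lam _ y rfl hs hne hl0 (by linarith) (by positivity) hy
  have hy3 : ∀ κ, κ < n → |y κ| ≤ 3 * lam := fun κ hκ => by
    rw [abs_of_pos (hl0.trans_le (hy.1 κ hκ).1)]
    exact (hy.1 κ hκ).2
  obtain ⟨p1, p2⟩ := hGUApi.ov_path n K (gg (Fin M) f) (Uk v k (ini N j))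
    (sy n (sv v) (ini N j) (JJ M ⌊α * (j : ℝ)⌋₊) (N * D / j) c + fl (sv v) none (ini N j) (ys n y))
    (sv v) (ini N j) hn2 hne hs
  have p3 := (hAprU (Option (Fin M)) (Fin N) T n B K (η0 / 2) k (3 * lam) _ _ _ f f1 f2 v none
    (ini N j) (JJ M ⌊α * (j : ℝ)⌋₊) (N * D / j) c y hn2 hmd (JJ_pt M _ f1 f2 hf) hne hk0 hρ hy3).1
  rw [ini_card hjN, JJ_card (hMj j hjN)] at p3
  have hfl : ((⌊α * (j : ℝ)⌋₊ : ℕ) : ℝ) ≤ α * j := Nat.floor_le (by positivity)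
  have p4 := apr_arith hB hη00 hk0 hj0 hfl hk1 (by linarith)
    (hN6.trans (by
      have := mul_le_mul_of_nonneg_left hjδ (sq_nonneg η0)
      linarith)) p3
  obtain ⟨f1', f2', f3'⟩ := floor_step hα j b
  have key := hk (Option (Fin M)) (Fin N) _ _ _ f f1 f2 none (ini N j) (ini N (j + b))
    (JJ M ⌊α * (j : ℝ)⌋₊) (JJ M ⌊α * ((j + b : ℕ) : ℝ)⌋₊) (N * D) c y _ hmd (JJ_pt M _ f1 f2 hf) hS
    (ini_mono N (Nat.le_add_right j b)) (by rw [ini_card hjN, ini_card hjb]) (JJ_mono M f1')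
    (by rw [JJ_card (hMj j hjN), JJ_card (hMj _ hjb)]; exact f2')
    (by
      rw [ini_card hjN]
      have := mul_le_mul_of_nonneg_left hjδ he0.le
      linarith)
    (by rw [ini_card hjN, JJ_card (hMj j hjN)]; exact hfl)
    (fun i h1 h2 => hdvd i h1 (by rw [ini_card hjb] at h2; omega)) hc1
    (by
      rw [ini_card hjb]
      exact le_trans (mul_le_mul_of_nonneg_right (by exact_mod_cast hjb) (sq_nonneg c)) hc2)
    (fun κ hκ => by linarith [hy3 κ hκ]) p1 p4 p2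
    (by
      rw [ini_card hjN] at hcon ⊢
      have := e_mono (X := N * K / lam) hδ0 hδ1 hK0 hl0 hN0 hjδ
      exact ⟨hcon.1.trans (by linarith), hcon.2.trans (by linarith)⟩)
  rw [ini_card hjN, ini_card hjb, JJ_card (hMj j hjN), JJ_card (hMj _ hjb)] at key
  have a1 := step_arith (V := Vs n α f) (f0 := f 0) hε'0 (by exact_mod_cast hb1)
    (hHlU.2 B n f (ovU n (gg (Fin M) f) (Uk v k (ini N j))
      (sy n (sv v) (ini N j) (JJ M ⌊α * (j : ℝ)⌋₊) (N * D / j) c +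
        fl (sv v) none (ini N j) (ys n y)) (sv v) (ini N j)) hn2 (Ub.meas hS.d0) hf) f3'
  have a2 := hy.2 y'
  refine ⟨y, ?_⟩
  unfold GG
  linarith

end

end Vale.Agent.P157
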