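import Vale.Agent.P157.StmS
import Vale.Agent.P157.A
import Vale.Agent.P157.C

namespace Vale.Agent.P157

open Finset Real

namespace LinkS

theorem ok (n : ℕ) (l : Multiset (ℕ × ℝ)) (hn : 1 ≤ n) : Ok (sch l) (mm n) n := by
  have h0 : (0 : ℝ) < n := by exact_mod_cast hn
  refine ⟨fun j => Cc.lv_mk _, fun j hj => ?_, fun j _ => ?_, fun j _ => ?_⟩
  · have : (j : ℝ) < n := by exact_mod_cast hj
    rw [mm, sub_pos, div_lt_one h0]; exact this
  · have : 0 ≤ (j : ℝ) / n := by positivity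
    rw [mm]; linarith
  · simp only [mm]
    push_cast
    gcongr
    linarith

variable {T : Type} [Fintype T] [Inhabited T]

/-- the field `x • v` -/
noncomputable def th (v : T → ℝ) (x : ℝ × Unit) : Om Unit T := (Pi.single () (x.1 • v), default)

omit [Fintype T] in
theorem th0 (v : T → ℝ) : th v (0, ()) = (0, default) := by simp [th]

theorem step (v : T → ℝ) (l : Multiset (ℕ × ℝ)) (j : ℕ) (g : Om Unit T → ℝ) (ω : ℝ × Unit) :
    sch l j (fun x => g (th v x)) ω = chain (lift () v l) (1 + j) g (th v ω) := by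
  let φ : ℝ →+ (Unit → T → ℝ) :=
    { toFun := fun t => Pi.single () (t • v)
      map_zero' := by simp
      map_add' := fun a b => by rw [add_smul, Pi.single_add] }
  have e : ((lift () v l).filter (fun s => s.1 = j)).map vec =
      ((l.filter (fun s => s.1 = j)).map Prod.snd).map φ := by
    rw [lift, Multiset.filter_map, Multiset.map_map, Multiset.map_map]
    rfl
  have e2 := cApi.lv_map φ 0 (fun _ : Unit => (default : T))
    ((l.filter (fun s => s.1 = j)).map Prod.snd) g ω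
  simp only [add_zero] at e2
  rw [add_comm, chain, e]
  exact e2

theorem x1 (n : ℕ) (v : T → ℝ) (b : ℝ) (L : Multiset (St Unit T)) (x : ℝ × Unit) :
    XX (chain L) (ex n) (ZU (fun _ : Unit => id) (Uq v b)) 1 (th v x) = PhT v b x.1 := by
  simp [XX, chain, ex, res, ZU, ZZ, PhT, avg, th]

theorem c1 (n : ℕ) (v : T → ℝ) (b : ℝ) (L : Multiset (St Unit T)) (F : T → ℝ) (x : ℝ × Unit) :
    Ce (chain L) (ex n) (ZU (fun _ : Unit => id) (Uq v b)) 0 1 (fun ω => F ω.2) (th v x) =
      mT v b F x.1 := by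
  have hc : (0 : ℝ) < Fintype.card T := by exact_mod_cast Fintype.card_pos
  have hp : 0 < avg fun t => exp (x.1 * v t + Uq v b t) :=
    div_pos (sum_pos (fun _ _ => exp_pos _) univ_nonempty) hc
  rw [Aa.ce_succ _ le_rfl, Aa.self _ _ _ le_rfl, Aa.qq_apply, x1, PhT]
  simp only [ex, one_mul]
  rw [exp_neg, exp_log hp, mT, div_eq_inv_mul]
  simp [XX, chain, res, ZU, ZZ, avg, th]

end LinkS

open LinkS in
theorem linkU : LinkU := by
  intro n l hn
  refine ⟨LinkS.ok n l hn, fun T _ _ v b => ?_⟩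
  set P := chain (lift () v l) with hP
  set Z := ZU (fun _ : Unit => id) (Uq v b) with hZ
  obtain ⟨s1, s2⟩ := aApi.shift P (ex n) Z 1
  have hm : (fun k => ex n (1 + k)) = mm n := funext fun k => by rw [add_comm]; rfl
  rw [hm] at s1 s2
  obtain ⟨t1, t2, t3⟩ := aApi.tw (P := fun k => P (1 + k)) (P' := sch l) (mm n) n
    (fun _ => th v) (fun j _ g ω => step v l j g ω) (XX P (ex n) Z 1)
  simp only [hP, hZ, x1] at t1 t2 t3
  rw [← hP, ← hZ] at t1 t2 t3
  have hc : ∀ (d : ℕ) (u : Om Unit T → ℝ), Ce P (ex n) Z 0 (d + 1) u =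
      Ce (fun k => P (1 + k)) (mm n) (XX P (ex n) Z 1) 0 d (Ce P (ex n) Z 0 1 u) := fun d u => by
    rw [s2, add_comm 1 d]
    exact (aApi.comp P (ex n) Z (Nat.zero_le 1) (by omega) u).symm
  refine ⟨?_, ?_, fun d hd => ?_⟩
  · rw [t1 n le_rfl, s1, th0, add_comm]; rfl
  · have h := t2 0 n (Nat.zero_le n) le_rfl (Ce P (ex n) Z 0 1 fun ω => v ω.2 ^ 2) (0, ())
    rw [← hc, th0] at h
    simp only [hP, hZ, c1 n v b _ fun t => v t ^ 2] at h
    exact h.symm
  · have h := t3 d hd (fun ω ω' => Ce P (ex n) Z 0 1 (fun ω => v ω.2) ω *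
      Ce P (ex n) Z 0 1 (fun ω => v ω.2) ω') (0, ())
    rw [aApi.e2mul (fun k => P (1 + k)), ← hc, s2, th0, add_comm 1 d, add_comm 1 n,
      ← aApi.e2mul] at h
    simp only [hP, hZ, c1 n v b _ v] at h
    exact h.symm

end Vale.Agent.P157
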