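import Vale.Agent.P157.StmS

/-! Module LlnS: most configurations lie in the shell. -/

namespace Vale.Agent.P157

open Finset Real Filter

namespace LlnSm

variable {T : Type} [Fintype T]

theorem var_sum (u : T → ℝ) (hu : ∑ t, u t = 0) (N : ℕ) :
    (Fintype.card T : ℝ) * ∑ σ : Fin N → T, (∑ i, u (σ i)) ^ 2 =
      N * (Fintype.card T : ℝ) ^ N * ∑ t, u t ^ 2 := by
  induction N with
  | zero => simp
  | succ N ih =>
    rw [← (Fin.consEquiv fun _ : Fin (N + 1) => T).sum_comp, Fintype.sum_prod_type]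
    simp only [Fin.consEquiv_apply, Fin.sum_univ_succ, Fin.cons_zero, Fin.cons_succ, add_sq,
      sum_add_distrib, sum_const, card_univ, Fintype.card_fun, Fintype.card_fin, nsmul_eq_mul,
      ← mul_sum, ← sum_mul, hu]
    push_cast
    linear_combination (Fintype.card T : ℝ) * ih

end LlnSm

open LlnSm in
theorem llnS : LlnS := by
  intro T _ _ v c0 ε hε hc
  set m := avg fun t => v t ^ 2 with hm
  have hT : (0 : ℝ) < Fintype.card T := by exact_mod_cast Fintype.card_pos
  have hu : ∑ t, (v t ^ 2 - m) = 0 := by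
    rw [sum_sub_distrib, sum_const, card_univ, nsmul_eq_mul, hm, avg]; field_simp; ring
  set V := ∑ t, (v t ^ 2 - m) ^ 2
  have hV : 0 ≤ V := sum_nonneg fun _ _ => sq_nonneg _
  filter_upwards [eventually_ge_atTop 1,
    tendsto_natCast_atTop_atTop.eventually_ge_atTop (8 * V / (Fintype.card T * ε ^ 2))] with N h1 hN
  classical
  have N0 : (0 : ℝ) < N := by exact_mod_cast h1
  set p : (Fin N → T) → Prop := fun σ => |(∑ i, v (σ i) ^ 2) / N - c0| ≤ ε
  have e1 : Fintype.card (Sh v N c0 ε) = #(univ.filter p) := by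
    rw [← Fintype.card_subtype]; exact Fintype.card_congr (Equiv.refl _)
  have e2 := card_filter_add_card_filter_not (s := univ) p
  have e3 : (#(univ.filter fun σ => ¬ p σ) : ℝ) * (N * ε / 2) ^ 2 ≤
      ∑ σ : Fin N → T, (∑ i, (v (σ i) ^ 2 - m)) ^ 2 := by
    rw [← nsmul_eq_mul]
    refine (card_nsmul_le_sum _ _ _ fun σ hσ => ?_).trans
      (sum_le_sum_of_subset_of_nonneg (subset_univ _) fun _ _ _ => sq_nonneg _)
    have h := not_le.1 (mem_filter.1 hσ).2
    have h2 : ε / 2 ≤ |(∑ i, v (σ i) ^ 2) / N - m| := by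
      linarith [abs_sub_le ((∑ i, v (σ i) ^ 2) / N) m c0, abs_sub_comm m c0]
    rw [sum_sub_distrib, sum_const, card_univ, Fintype.card_fin, nsmul_eq_mul,
      show ∑ i, v (σ i) ^ 2 - N * m = N * ((∑ i, v (σ i) ^ 2) / N - m) by field_simp,
      mul_div_assoc, mul_pow, mul_pow, ← sq_abs (_ - m)]
    gcongr
  have e4 := var_sum (fun t => v t ^ 2 - m) hu N
  have e5 : 8 * V ≤ N * (Fintype.card T * ε ^ 2) := (div_le_iff₀ (by positivity)).1 hN
  have e6 : (2 : ℝ) * #(univ.filter fun σ => ¬ p σ) ≤ (Fintype.card T : ℝ) ^ N := by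
    have a1 := (mul_le_mul_of_nonneg_left e3 hT.le).trans_eq e4
    have a2 := mul_le_mul_of_nonneg_left e5 (by positivity : 0 ≤ N * (Fintype.card T : ℝ) ^ N)
    refine le_of_mul_le_mul_left ?_ (by positivity : 0 < (N : ℝ) ^ 2 * (Fintype.card T * ε ^ 2))
    linarith
  have e7 : 2 * #(univ.filter fun σ => ¬ p σ) ≤ Fintype.card (Fin N → T) := by
    rw [Fintype.card_fun, Fintype.card_fin]; exact_mod_cast e6
  rw [card_univ] at e2
  omega

end Vale.Agent.P157
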