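import Vale.Agent.P157.StmS
import Vale.Agent.P157.Main

namespace Vale.Agent.P157

open MeasureTheory ProbabilityTheory Finset Real Filter Topology

namespace MnS

theorem bddB (hc : CsApi) (hl : HlU) (n : ℕ) (hn : 1 ≤ n) {α B : ℝ} (hα : 0 < α) {f : ℝ → ℝ}
    (hf : Measurable f) (hB : ∀ t, |f t| ≤ B) : BddBelow (valS n α f) := by
  refine ⟨-(α * B), ?_⟩
  rintro t ⟨p, hp, hp0, hp1, rfl⟩
  have h0 := hc.nn n p hn hp hp0 hp1
  have := (abs_le.1 (hl.2 B n f p hn hf hB)).1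
  nlinarith

theorem ne (n : ℕ) (hn : 1 ≤ n) (α : ℝ) (g : ℝ → ℝ) : (valS n α g).Nonempty :=
  ⟨_, _, (Mn.path1 n hn).1, (Mn.path1 n hn).2, by simp, rfl⟩

theorem vs_le (hc : CsApi) (hl : HlU) (n : ℕ) (hn : 1 ≤ n) {α B c : ℝ} (hα : 0 < α) {f g : ℝ → ℝ}
    (hf : Measurable f) (hB : ∀ t, |f t| ≤ B)
    (h : ∀ p, Path n p → p 0 = 1 → Hf n f p ≤ Hf n g p + c) :
    Vs n α f ≤ Vs n α g + α * c := by
  have : Vs n α f - α * c ≤ Vs n α g := by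
    refine le_csInf (ne n hn α g) ?_
    rintro t ⟨p, hp, hp0, hp1, rfl⟩
    have h1 : Vs n α f ≤ α * Hf n f p + CS n p :=
      csInf_le (bddB hc hl n hn hα hf hB) ⟨p, hp, hp0, hp1, rfl⟩
    have := h p hp hp0
    nlinarith
  linarith

theorem rho {T : Type} [Fintype T] [Inhabited T] {K η b1 : ℝ} {v : T → ℝ} (h : QS K η b1 v)
    (hη : 0 < η) (hb : 1 ≤ b1) : |avg (fun t => v t ^ 2) - 1| ≤ η := by
  have h1 := h.var
  have h2 := h.var'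
  rw [abs_le]
  refine ⟨by linarith, ?_⟩
  rcases le_total (avg fun t => v t ^ 2) 1 with h4 | h4 <;> nlinarith

theorem shne {T : Type} [Fintype T] [Inhabited T] {v : T → ℝ} {N : ℕ} {c0 ε1 : ℝ}
    (h : Fintype.card (Fin N → T) ≤ 2 * Fintype.card (Sh v N c0 ε1)) : Nonempty (Sh v N c0 ε1) := by
  have : 0 < Fintype.card (Fin N → T) := Fintype.card_pos
  exact Fintype.card_pos_iff.1 (by omega)

theorem tl {C α ε : ℝ} {n N : ℕ} (hα : 0 < α) (hn : 1 ≤ n) (h3 : |C| * α / n ≤ ε) :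
    C * ⌊α * N⌋₊ / n ≤ N * ε := by
  have hn' : (0 : ℝ) < n := by exact_mod_cast hn
  have hM : (⌊α * N⌋₊ : ℝ) ≤ α * N := Nat.floor_le (by positivity)
  calc C * ⌊α * N⌋₊ / n ≤ |C| * (α * N) / n := by
        gcongr
        exact le_abs_self C
    _ = N * (|C| * α / n) := by ring
    _ ≤ N * ε := by gcongr

theorem ev0 (C α : ℝ) {ε : ℝ} (hε : 0 < ε) : ∀ᶠ n : ℕ in atTop, |C| * α / n ≤ ε := by
  have : Tendsto (fun n : ℕ => |C| * α / (n : ℝ)) atTop (𝓝 0) :=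
    tendsto_const_div_atTop_nhds_zero_nat _
  exact this.eventually (ge_mem_nhds hε)

theorem evl {η : ℝ} (hη : 0 < η) : ∀ᶠ N : ℕ in atTop, log 2 ≤ η * N :=
  (tendsto_natCast_atTop_atTop.const_mul_atTop hη).eventually_ge_atTop _

theorem upper (hU : UbU) (hT : TiltU) (hG : G1U) (hQ : QuantS) (hN : LlnS) (hR : RS) (hE : ExpS)
    {B α ε : ℝ} {f f1 f2 : ℝ → ℝ} (hB : 1 ≤ B) (hα : 0 < α) (hε : 0 < ε) (hs : Sm B f f1 f2)
    (hb : ∀ t, |f t| ≤ B) :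
    ∀ᶠ n : ℕ in atTop, ∀ᶠ N : ℕ in atTop, meanS f N ⌊α * N⌋₊ - Vs n α f ≤ 4 * ε := by
  obtain ⟨C, hC⟩ := hT B
  obtain ⟨ηU, hηU, h1⟩ := hU B α ε hB hα hε
  obtain ⟨ηR, hηR, h2⟩ := hR B α ε hα hε
  set η := min (ηU / 3) ηR with hη
  have hη0 : 0 < η := lt_min (by positivity) hηR
  have hη1 : η ≤ ηU / 3 := min_le_left _ _
  have hη2 : η ≤ ηR := min_le_right _ _
  obtain ⟨K, h3⟩ := hQ η hη0
  have hK : 1 ≤ K := by
    obtain ⟨L, v, τ, h, -⟩ := h3 1 le_rfl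
    exact h.hK
  filter_upwards [h1 K f f1 f2 hK hs hb, ev0 C α hε, eventually_ge_atTop 1] with n h4 h5 hn
  obtain ⟨b1, hb1, h4⟩ := h4
  obtain ⟨L, v, τ, hq, hcp⟩ := h3 b1 hb1
  have hρ := rho hq hη0 hb1
  have hb0 : 0 < b1 := by linarith
  have he0 : 0 < η / b1 := by positivity
  have he1 : η / b1 ≤ η := div_le_self hη0.le hb1
  have hz : |avg (fun t => v t ^ 2) - avg (fun t => v t ^ 2)| ≤ η / b1 / 2 := by
    rw [sub_self, abs_zero]; positivity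
  filter_upwards [h4, hN _ v _ _ he0 hz, evl hη0, eventually_ge_atTop 1,
    h2 _ v τ _ _ f hb (fun t h => (hs.d0 t h).1) (hcp.mono hη2) he0 (he1.trans hη2)
      (hρ.trans hη2) hz] with N h6 h7 h8 hN1 h9
  obtain ⟨σ0⟩ := shne h7
  letI : Inhabited (Sh v N (avg fun t => v t ^ 2) (η / b1)) := ⟨σ0⟩
  have hbd : ∀ i σ, |shs v N (avg fun t => v t ^ 2) (η / b1) i σ| ≤ K := fun i σ => hq.bd _
  have h10 := h6 _ (shs v N (avg fun t => v t ^ 2) (η / b1)) hbd (fun σ => by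
      have h11 := abs_le.1 σ.2
      have h12 := abs_le.1 hρ
      have : RR (shs v N (avg fun t => v t ^ 2) (η / b1)) univ σ σ =
          (∑ i, v (σ.1 i) ^ 2) / N := by
        simp [RR, shs, sq]
      rw [this, abs_le]
      constructor <;> linarith [h11.1, h11.2])
    (fun b hb' hb'' h => (hE _ v K η b1 (η / b1) b N hq hN1 hb' hb'' he0.le
      (by rw [mul_div_cancel₀ _ hb0.ne']) h8 h7 h).trans (by gcongr; linarith))
  have h11 := hG B K ε f N ⌊α * N⌋₊ _ _ (fun _ => 0) hε hN1 hb (fun t h => (hs.d0 t h).1) hbd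
  obtain ⟨D, h12, h13⟩ := (h10.and h11).exists
  have h14 := hC n f N ⌊α * N⌋₊ D _ (shs v N (avg fun t => v t ^ 2) (η / b1)) (fun _ => 0) hn hb
  have h15 := tl (N := N) hα hn h5
  have hN' : (1 : ℝ) ≤ N := by exact_mod_cast hN1
  have hNε : ε ≤ N * ε := by nlinarith
  rw [abs_le] at h9 h13 h14
  have : N * (meanS f N ⌊α * N⌋₊ - Vs n α f) ≤ N * (4 * ε) := by nlinarith
  exact le_of_mul_le_mul_left this (by linarith)

theorem lower (hL : LbU) (hT : TiltU) (hG : G1U) (hQ : QuantS) (hN : LlnS) (hR : RS) (hS : SoftS)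
    {B α ε : ℝ} {f f1 f2 : ℝ → ℝ} (hB : 1 ≤ B) (hα : 0 < α) (hε : 0 < ε) (hs : Sm B f f1 f2)
    (hb : ∀ t, |f t| ≤ B) :
    ∀ᶠ n : ℕ in atTop, ∀ᶠ N : ℕ in atTop, -(5 * ε) ≤ meanS f N ⌊α * N⌋₊ - Vs n α f := by
  obtain ⟨C, hC⟩ := hT B
  obtain ⟨ηL, b1, k0, hηL, hb1, h1⟩ := hL B α ε hB hα hε
  obtain ⟨ηR, hηR, h2⟩ := hR B α ε hα hε
  set η := min ηL (ηR / 2) with hη
  have hη0 : 0 < η := lt_min hηL (by positivity)
  have hη1 : η ≤ ηL := min_le_left _ _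
  have hη2 : η ≤ ηR / 2 := min_le_right _ _
  obtain ⟨K, h3⟩ := hQ η hη0
  obtain ⟨L, v, τ, hq, hcp⟩ := h3 b1 hb1
  have hρ := rho hq hη0 hb1
  set k := max k0 (2 * B * α / (2 * η) ^ 2) with hk
  have hk1 : 2 * B * α / (2 * η) ^ 2 ≤ k := le_max_right _ _
  have hk0 : 0 ≤ k := le_trans (by positivity) hk1
  rw [div_le_iff₀ (by positivity)] at hk1
  have he0 : 0 < 2 * η := by positivity
  have hz : |1 - avg (fun t => v t ^ 2)| ≤ 2 * η / 2 := by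
    rw [abs_sub_comm]; linarith
  filter_upwards [h1 K k f f1 f2 _ v (le_max_left _ _) hs hb (hq.mono hη1 le_rfl (by linarith)),
    ev0 C α hε, eventually_ge_atTop 1] with n h4 h5 hn
  filter_upwards [h4, hN _ v _ _ he0 hz, evl hε, eventually_ge_atTop 1,
    h2 _ v τ 1 _ f hb (fun t h => (hs.d0 t h).1) (hcp.mono (by linarith)) he0 (by linarith)
      (by simpa using hηR.le) hz] with N h6 h7 h8 hN1 h9
  have hbd : ∀ (i : Fin N) σ, |sv v i σ| ≤ K := fun i σ => hq.bd _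
  have h11 := hG B K ε f N ⌊α * N⌋₊ _ _ (Uk v k univ) hε hN1 hb (fun t h => (hs.d0 t h).1) hbd
  obtain ⟨D, h12, h13⟩ := (h6.and_eventually h11).exists
  have h14 := hC n f N ⌊α * N⌋₊ D _ (sv v) (Uk v k univ) hn hb
  have h15 := tl (N := N) hα hn h5
  have hN' : (1 : ℝ) ≤ N := by exact_mod_cast hN1
  have hM : (⌊α * N⌋₊ : ℝ) ≤ α * N := Nat.floor_le (by positivity)
  have h16 := hS _ v B k (2 * η) f N ⌊α * N⌋₊ hN1 (Mn.sm_meas hs) hb hk0 he0.le (shne h7) (by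
    calc 2 * B * (⌊α * N⌋₊ : ℝ) ≤ 2 * B * (α * N) := by gcongr
      _ = 2 * B * α * N := by ring
      _ ≤ k * (2 * η) ^ 2 * N := by gcongr)
  have hNε : ε ≤ N * ε := by nlinarith
  rw [abs_le] at h9 h13 h14
  have : N * (-(5 * ε)) ≤ N * (meanS f N ⌊α * N⌋₊ - Vs n α f) := by nlinarith
  exact le_of_mul_le_mul_left this (by linarith)

theorem general (hU : UbU) (hL : LbU) (hT : TiltU) (hG : G1U) (hQ : QuantS) (hN : LlnS) (hR : RS)
    (hE : ExpS) (hS : SoftS) (hc : CsApi) (hl : HlU)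
    (hf' : SmfStmt) (hh' : SmhStmt) (hn' : SmnS) {α B ε : ℝ} (hα : 0 < α) (hε : 0 < ε)
    {f : ℝ → ℝ} (hf : Measurable f) (hB : ∀ t, |f t| ≤ B) :
    ∀ᶠ n : ℕ in atTop, ∀ᶠ N : ℕ in atTop, |meanS f N ⌊α * N⌋₊ - Vs n α f| ≤ ε := by
  obtain ⟨C1, hC1, h1⟩ := hh' B
  obtain ⟨C2, hC2, h2⟩ := hn' B
  set δ : ℝ := ε / (4 * (α * (C1 + C2) + 1)) with hδ
  have hpos : 0 < α * (C1 + C2) + 1 := by positivity
  have hδ0 : 0 < δ := by positivity
  have hδ1 : α * (C1 + C2) * δ ≤ ε / 4 := by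
    rw [hδ, mul_div_assoc', div_le_div_iff₀ (by positivity) (by positivity)]
    nlinarith
  obtain ⟨B', g, g1, g2, hB', hs, hgB, hBB, hI⟩ := hf' B δ f hδ0 hf hB
  have hgm := Mn.sm_meas hs
  have hI0 : 0 ≤ ∫ z, |f z - g z| ∂gaussianReal 0 1 := integral_nonneg fun z => abs_nonneg _
  filter_upwards [upper hU hT hG hQ hN hR hE hB' hα (by positivity : 0 < ε / 8) hs
    (fun t => (hgB t).trans hBB), lower hL hT hG hQ hN hR hS hB' hα (by positivity : 0 < ε / 8) hs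
    (fun t => (hgB t).trans hBB), eventually_ge_atTop 1] with n h3 h3' hn
  filter_upwards [h3, h3', eventually_ge_atTop 1] with N h4 h4' hN
  have hN' : (0 : ℝ) < N := by exact_mod_cast hN
  have hM : (⌊α * N⌋₊ : ℝ) / N ≤ α := by
    rw [div_le_iff₀ hN']; exact Nat.floor_le (by positivity)
  have h5 := h2 N ⌊α * N⌋₊ f g hN hf hgm hB hgB
  have h6 : C2 * (⌊α * N⌋₊ / N) * ∫ z, |f z - g z| ∂gaussianReal 0 1 ≤ C2 * α * δ := by
    gcongr
  have hH : ∀ p, Path n p → p 0 = 1 → |Hf n f p - Hf n g p| ≤ C1 * δ := fun p hp hp0 =>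
    (h1 n f g p hn hf hgm hB hgB hp hp0).trans (by gcongr)
  have h7 := vs_le hc hl n hn (c := C1 * δ) (g := g) hα hf hB
    (fun p hp hp0 => by have := (abs_le.1 (hH p hp hp0)).2; linarith)
  have h8 := vs_le hc hl n hn (c := C1 * δ) (g := f) hα hgm hgB
    (fun p hp hp0 => by have := (abs_le.1 (hH p hp hp0)).1; linarith)
  rw [abs_le] at h5 ⊢
  constructor <;> nlinarith

end MnS

theorem mainS (hU : UbU) (hL : LbU) (hT : TiltU) (hG : G1U) (hQ : QuantS) (hN : LlnS) (hR : RS)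
    (hE : ExpS) (hS : SoftS) (hc : CsApi) (hl : HlU)
    (hf' : SmfStmt) (hh' : SmhStmt) (hn' : SmnS) (α : ℝ) (hα : 0 < α) (f : ℝ → ℝ)
    (hf : Measurable f) (hB : ∃ B, ∀ t, |f t| ≤ B) :
    (∀ n, 1 ≤ n → (valS n α f).Nonempty ∧ BddBelow (valS n α f)) ∧
    ∃ l : ℝ, Tendsto (fun n => Vs n α f) atTop (𝓝 l) ∧
      Tendsto (fun N : ℕ => meanS f N ⌊α * N⌋₊) atTop (𝓝 l) := by
  obtain ⟨B, hB⟩ := hB
  refine ⟨fun n hn => ⟨MnS.ne n hn α f, MnS.bddB hc hl n hn hα hf hB⟩, ?_⟩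
  exact Mn.lim_of fun ε hε => MnS.general hU hL hT hG hQ hN hR hE hS hc hl hf' hh' hn' hα hε hf hB

end Vale.Agent.P157
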