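import Vale.Agent.P157.StmS
import Vale.Agent.P157.Max

namespace Vale.Agent.P157

open Finset Real Filter Topology

set_option linter.unusedSectionVars false

namespace MaxUm

variable {O S I : Type} [Fintype O] [DecidableEq O] [Fintype S] [Inhabited S]

theorem lip0 (hU : UApi) (n : ℕ) (hn : 1 ≤ n) (g : O → ℝ → ℝ) (U : S → ℝ) (o0 : O)
    (h0 : g o0 = id) {α : Type} (T : Multiset α) (κ : α → ℕ) (u v : α → S → ℝ)
    (L : Multiset (St O S)) :
    |TU n g U (L + T.map fun a => (κ a, o0, u a)) -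
      TU n g U (L + T.map fun a => (κ a, o0, v a))| ≤ (T.map fun a => ‖u a - v a‖).sum := by
  induction T using Multiset.induction_on generalizing L with
  | empty => simp
  | cons a T ih =>
    have h1 := hU.rep n g U 1 (L + T.map fun a => (κ a, o0, u a)) (κ a) o0 (u a) (v a) hn
      (fun t h => by simp [h0])
    have h2 := ih ((κ a, o0, v a) ::ₘ L)
    simp only [Multiset.map_cons, Multiset.sum_cons, Multiset.add_cons, Multiset.cons_add] at h2 ⊢
    exact (abs_sub_le _ _ _).trans (add_le_add (by simpa using h1) h2)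

theorem fl_eq (n : ℕ) (s : I → S → ℝ) (o0 : O) (A : Finset I) (y : ℕ → ℝ) : fl s o0 A (ys n y) =
    (A ×ˢ range n).val.map fun p => (p.2, o0, y p.2 • s p.1) := by
  rw [fl, product_val, SProd.sprod, Multiset.instSProd]
  simp only [Multiset.product, Multiset.map_bind, Multiset.map_map, lift, ys, Function.comp_def]

theorem lip (hU : UApi) (n : ℕ) (hn : 1 ≤ n) (g : O → ℝ → ℝ) (U : S → ℝ) (o0 : O)
    (h0 : g o0 = id) (L : Multiset (St O S)) (s : I → S → ℝ) (A : Finset I) (K : ℝ) (hK : 0 ≤ K)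
    (hs : ∀ i σ, |s i σ| ≤ K) (y z : ℕ → ℝ) :
    |TU n g U (L + fl s o0 A (ys n y)) - TU n g U (L + fl s o0 A (ys n z))| ≤
      A.card * K * ∑ κ ∈ range n, |y κ - z κ| := by
  rw [fl_eq, fl_eq]
  refine (lip0 hU n hn g U o0 h0 _ _ _ _ L).trans ?_
  rw [mul_assoc, mul_sum, ← nsmul_eq_mul, ← sum_const, ← sum_product']
  refine sum_le_sum fun p _ => ?_
  refine (pi_norm_le_iff_of_nonneg (by positivity)).2 fun σ => ?_
  rw [← sub_smul, Pi.smul_apply, smul_eq_mul, Real.norm_eq_abs, abs_mul, mul_comm]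
  exact mul_le_mul_of_nonneg_right (hs _ _) (abs_nonneg _)

end MaxUm

theorem maxU (hUApi : UApi) : MaxU := by
  intro O S I _ _ _ _ n g U L s o0 A K lam k hn h0 hK hs hl hk
  have lip := MaxUm.lip hUApi n hn g U o0 h0 L s A K hK hs
  have hc : Continuous fun y : ℕ → ℝ => TU n g U (L + fl s o0 A (ys n y)) := by
    refine continuous_iff_continuousAt.2 fun z => tendsto_iff_norm_sub_tendsto_zero.2 ?_
    refine squeeze_zero (fun _ => norm_nonneg _) (fun y => lip y z) ?_
    have : Continuous fun y : ℕ → ℝ => (A.card : ℝ) * K * ∑ κ ∈ range n, |y κ - z κ| := by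
      fun_prop
    simpa using this.tendsto z
  have hp : Continuous fun y : ℕ → ℝ => pen n lam k y := by unfold pen; fun_prop
  obtain ⟨y, hy, hm⟩ := (isCompact_univ_pi fun _ : ℕ => isCompact_Icc (a := lam)
    (b := 3 * lam)).exists_isMaxOn ⟨fun _ => lam, fun _ _ => ⟨le_rfl, by linarith⟩⟩
    (hc.sub hp).continuousOn
  refine ⟨y, fun κ _ => hy κ trivial, fun y' => le_trans ?_
    (hm (a := fun κ => max lam (min (y' κ) (3 * lam))) fun κ _ =>
      ⟨le_max_left _ _, max_le (by linarith) (min_le_right _ _)⟩)⟩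
  have h1 := (abs_le.1 (lip y' fun κ => max lam (min (y' κ) (3 * lam)))).2
  have h2 := sum_le_sum fun κ (_ : κ ∈ range n) =>
    Max.clamp hl (mul_nonneg (Nat.cast_nonneg A.card) hK) hk (y' κ)
  rw [← mul_sum, ← mul_sum, sum_sub_distrib, mul_sub] at h2
  simp only [pen, Pi.sub_apply]
  linarith

end Vale.Agent.P157
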