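import Vale.Agent.P157.StmS

namespace Vale.Agent.P157

open MeasureTheory ProbabilityTheory Real

namespace Mgf

variable {E : Type} [MeasurableSpace E] (ν : Measure E) [IsProbabilityMeasure ν]

theorem one (Z : E → ℝ) (c m : ℝ) (hZ : Measurable Z) (h : ∀ x y, |Z x - Z y| ≤ c) :
    ∫ x, exp (m * Z x) ∂ν ≤ exp (m * ∫ x, Z x ∂ν + c ^ 2 / 2 * m ^ 2) := by
  obtain ⟨x0⟩ := nonempty_of_isProbabilityMeasure ν
  have hc : 0 ≤ c := (abs_nonneg _).trans (h x0 x0)
  have h1 := (hasSubgaussianMGF_of_mem_Icc (μ := ν) (a := Z x0 - c) (b := Z x0 + c) hZ.aemeasurable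
    (Filter.Eventually.of_forall fun x => by
      have := abs_le.1 (h x x0)
      exact ⟨by linarith [this.1], by linarith [this.2]⟩)).mgf_le m
  have h2 : ((((‖Z x0 + c - (Z x0 - c)‖₊ / 2) ^ 2 : NNReal)) : ℝ) = c ^ 2 := by
    push_cast
    rw [Real.norm_eq_abs, abs_of_nonneg (by linarith)]; ring
  rw [h2, mgf] at h1
  have h3 : ∀ x, exp (m * Z x) = exp (m * ∫ x, Z x ∂ν) * exp (m * (Z x - ∫ x, Z x ∂ν)) :=
    fun x => by rw [← exp_add]; congr 1; ring
  simp only [h3]
  rw [integral_const_mul, exp_add]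
  refine mul_le_mul_of_nonneg_left (h1.trans (le_of_eq ?_)) (exp_pos _).le
  congr 1; ring

theorem intg {Ω : Type} [MeasurableSpace Ω] (μ : Measure Ω) [IsFiniteMeasure μ] {F : Ω → ℝ}
    (hF : Measurable F) (B : ℝ) (h : ∀ x, |F x| ≤ B) : Integrable F μ :=
  Integrable.of_bound hF.aestronglyMeasurable B (Filter.Eventually.of_forall h)

theorem ebd {t B m : ℝ} (h : |t| ≤ B) (hm : 0 ≤ m) : |exp (m * t)| ≤ exp (m * B) := by
  rw [abs_of_pos (exp_pos _)]
  exact exp_le_exp.2 (mul_le_mul_of_nonneg_left (le_of_abs_le h) hm)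

theorem main (c B m : ℝ) (hm : 0 ≤ m) : ∀ (M : ℕ) (X : (Fin M → E) → ℝ), Measurable X →
    (∀ g, |X g| ≤ B) → (∀ g a x, |X (Function.update g a x) - X g| ≤ c) →
    ∫ g, exp (m * X g) ∂(Measure.pi fun _ : Fin M => ν) ≤
      exp (m * ∫ g, X g ∂(Measure.pi fun _ : Fin M => ν) + c ^ 2 / 2 * m ^ 2 * M)
  | 0, X, _, _, _ => by
      simp [integral_unique]
  | M + 1, X, hX, hB, hc => by
      have hp := (measurePreserving_piFinSuccAbove (fun _ : Fin (M + 1) => ν) 0).symm
      set e := (MeasurableEquiv.piFinSuccAbove (fun _ : Fin (M + 1) => E) 0).symm with he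
      have he' : ∀ x g, e (x, g) = Fin.cons x g := fun x g => by
        simp [he, MeasurableEquiv.piFinSuccAbove, Fin.insertNthEquiv]
      have hm1 : Measurable fun p : E × (Fin M → E) => X (e p) := hX.comp e.measurable
      have hi1 := intg (ν.prod (Measure.pi fun _ : Fin M => ν)) hm1 B fun p => hB _
      have hi2 := intg (ν.prod (Measure.pi fun _ : Fin M => ν))
        (measurable_exp.comp (hm1.const_mul m)) _ fun p => ebd (hB (e p)) hm
      have hx : ∀ g, Measurable fun x => X (e (x, g)) := fun g => hm1.comp measurable_prodMk_right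
      have hY : Measurable fun g => ∫ x, X (e (x, g)) ∂ν :=
        (hm1.stronglyMeasurable.integral_prod_left' (μ := ν)).measurable
      have hYB : ∀ g, |∫ x, X (e (x, g)) ∂ν| ≤ B := fun g => by
        simpa using norm_integral_le_of_norm_le_const (μ := ν) (f := fun x => X (e (x, g)))
          (Filter.Eventually.of_forall fun x => hB _)
      have ih := main c B m hm M (fun g => ∫ x, X (e (x, g)) ∂ν) hY hYB fun g a y => by
        rw [← integral_sub (intg ν (hx _) B fun _ => hB _) (intg ν (hx _) B fun _ => hB _)]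
        simpa using norm_integral_le_of_norm_le_const (μ := ν) (C := c)
          (f := fun x => X (e (x, Function.update g a y)) - X (e (x, g)))
          (Filter.Eventually.of_forall fun x => by
            rw [he', he', Fin.cons_update]; exact hc _ _ _)
      rw [← hp.integral_comp' fun g => exp (m * X g), ← hp.integral_comp' X,
        integral_prod_symm _ hi1]
      erw [integral_prod_symm _ hi2]
      have h1 : ∀ g, ∫ x, exp (m * X (e (x, g))) ∂ν ≤
          exp (c ^ 2 / 2 * m ^ 2) * exp (m * ∫ x, X (e (x, g)) ∂ν) := fun g => by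
        rw [← exp_add, add_comm (c ^ 2 / 2 * m ^ 2)]
        refine one ν _ c m (hx g) fun x y => ?_
        have h2 := hc (Fin.cons y g) 0 x
        rw [Fin.update_cons_zero] at h2
        rw [he', he']; exact h2
      refine (integral_mono hi2.integral_prod_right ((intg _ (measurable_exp.comp
        (hY.const_mul m)) _ fun g => ebd (hYB g) hm).const_mul _) h1).trans ?_
      rw [integral_const_mul]
      refine (mul_le_mul_of_nonneg_left ih (exp_pos _).le).trans (le_of_eq ?_)
      rw [← exp_add]; congr 1; push_cast; ring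

end Mgf

theorem mgfS : MgfS := by
  intro c
  refine ⟨c ^ 2 / 2, by positivity, fun E _ ν _ M X B m hX hB hc hm _ => ?_⟩
  refine (log_le_iff_le_exp ?_).2 (Mgf.main ν c B m hm M X hX hB hc)
  exact integral_exp_pos (Mgf.intg _ (measurable_exp.comp (hX.const_mul m)) _
    fun g => Mgf.ebd (hB g) hm)

end Vale.Agent.P157
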