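import Vale.Agent.P157.StmS
import Vale.Agent.P157.Ms

/-! P157, sphere: many small steps with a potential. -/

namespace Vale.Agent.P157

open Finset Real

set_option linter.unusedSectionVars false
set_option linter.unusedVariables false

namespace MsU

open Ms (m1 d2_mono d2_one d2_U U_bd ch ch_le ch_mul avg_le)

variable {O S : Type} [Fintype O] [DecidableEq O] [Fintype S] [Inhabited S]

theorem ee_bd (n : ℕ) (g : O → ℝ → ℝ) (U : S → ℝ) (L : Multiset (St O S)) (d : ℕ) (hn : 1 ≤ n)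
    (hd : d ≤ n) (φ : Om O S → Om O S → ℝ) (a b : ℝ) (h : ∀ ω ω', a ≤ φ ω ω' ∧ φ ω ω' ≤ b) :
    a ≤ EU n g U L d φ ∧ EU n g U L d φ ≤ b := by
  have ho := Cc.ok n L hn
  have h1 := aApi.e2mono ho (ZU g U) (d + 1) (by omega) (φ := fun _ _ => a) (ψ := φ)
    (fun x x' => (h x x').1) (0, default)
  have h2 := aApi.e2mono ho (ZU g U) (d + 1) (by omega) (φ := φ) (ψ := fun _ _ => b)
    (fun x x' => (h x x').2) (0, default)
  rw [aApi.e2const ho _ _ (by omega)] at h1 h2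
  exact ⟨h1, h2⟩

theorem ee_smul (n : ℕ) (g : O → ℝ → ℝ) (U : S → ℝ) (L : Multiset (St O S)) (d : ℕ) (c : ℝ)
    (φ : Om O S → Om O S → ℝ) :
    EU n g U L d (fun ω ω' => c * φ ω ω') = c * EU n g U L d φ := by
  have := Aa.e2add (chain L) (ex n) (ZU g U) (d + 1) (n + 1) φ φ c 0 (0, default)
  simpa [EU] using this

noncomputable def t1 (n : ℕ) (g g1 g2 : O → ℝ → ℝ) (U : S → ℝ) (L : Multiset (St O S)) (s : St O S) : ℝ :=
  EU n g U L 0 (fun ω ω' => (g2 s.2.1 (ω.1 s.2.1 ω.2) + g1 s.2.1 (ω.1 s.2.1 ω.2) ^ 2) * 1 *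
    ch s.2.2 ω.2 ω.2)

noncomputable def t2 (n : ℕ) (g g1 : O → ℝ → ℝ) (U : S → ℝ) (L : Multiset (St O S)) (s : St O S) (d : ℕ) : ℝ :=
  EU n g U L d (fun ω ω' => g1 s.2.1 (ω.1 s.2.1 ω.2) * g1 s.2.1 (ω'.1 s.2.1 ω'.2) *
    ch s.2.2 ω.2 ω'.2)

theorem gam_eq (n : ℕ) (g g1 g2 : O → ℝ → ℝ) (U : S → ℝ) (L : Multiset (St O S)) (s : St O S) (hn : 1 ≤ n) :
    GU n g g1 g2 U L s = ‖s.2.2‖ ^ 2 *
      ((t1 n g g1 g2 U L s - (1 / (n : ℝ)) * ∑ d ∈ Icc 1 s.1, t2 n g g1 U L s d) / 2) := by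
  have h1 : E1U n g U L (ob (gq g1 g2 s.2.1) s.2.1 (fun σ => s.2.2 σ ^ 2)) =
      ‖s.2.2‖ ^ 2 * t1 n g g1 g2 U L s := by
    unfold t1
    rw [← ee_smul]
    unfold E1U EU
    rw [← Aa.e2one (Cc.ok n L hn) _ (0 + 1) (by omega)]
    congr 1
    funext ω ω'
    unfold ob gq
    linear_combination (-(g2 s.2.1 (ω.1 s.2.1 ω.2) + g1 s.2.1 (ω.1 s.2.1 ω.2) ^ 2)) *
      ch_mul s.2.2 ω.2 ω.2
  have h2 : ∀ d, EU n g U L d
      (fun ω ω' => ob (g1 s.2.1) s.2.1 s.2.2 ω * ob (g1 s.2.1) s.2.1 s.2.2 ω') =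
      ‖s.2.2‖ ^ 2 * t2 n g g1 U L s d := by
    intro d
    unfold t2
    rw [← ee_smul]
    congr 1
    funext ω ω'
    unfold ob
    linear_combination (-(g1 s.2.1 (ω.1 s.2.1 ω.2) * g1 s.2.1 (ω'.1 s.2.1 ω'.2))) *
      ch_mul s.2.2 ω.2 ω'.2
  unfold GU
  simp only [h1, h2, ← mul_sum]
  ring

theorem gam_bd {B : ℝ} (hB : 1 ≤ B) (n : ℕ) (g g1 g2 : O → ℝ → ℝ) (U : S → ℝ) (L : Multiset (St O S))
    (s : St O S) (hn : 1 ≤ n) (hg : ∀ o, Sm B (g o) (g1 o) (g2 o)) (hs : s.1 < n) :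
    |GU n g g1 g2 U L s| ≤ 5 * B ^ 2 * ‖s.2.2‖ ^ 2 := by
  have h1 : |t1 n g g1 g2 U L s| ≤ 5 * B ^ 2 := by
    refine abs_le.2 (ee_bd n g U L 0 hn (by omega) _ _ _ fun ω ω' => abs_le.1 ?_)
    have := m1 (U_bd hB (hg s.2.1) (ω.1 s.2.1 ω.2)) (ch_le s.2.2 ω.2 ω.2)
    simpa using this
  have h2 : ∀ d, d ≤ n → |t2 n g g1 U L s d| ≤ 5 * B ^ 2 := by
    intro d hd
    refine abs_le.2 (ee_bd n g U L d hn hd _ _ _ fun ω ω' => abs_le.1 ?_)
    have := m1 (m1 ((hg s.2.1).b1 (ω.1 s.2.1 ω.2)) ((hg s.2.1).b1 (ω'.1 s.2.1 ω'.2)))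
      (ch_le s.2.2 ω.2 ω'.2)
    nlinarith
  have h3 := abs_le.1 (avg_le n s.1 _ _ hn hs (by positivity) h2)
  have h4 := abs_le.1 h1
  rw [gam_eq n g g1 g2 U L s hn, abs_mul, abs_of_nonneg (sq_nonneg _), mul_comm]
  refine mul_le_mul_of_nonneg_right ?_ (sq_nonneg _)
  rw [abs_le]; constructor <;> linarith

theorem gam_diff (hb : GrbU) {B : ℝ} (hB : 1 ≤ B) : ∃ C : ℝ, 0 ≤ C ∧
    ∀ (O S : Type) [Fintype O] [DecidableEq O] [Fintype S] [Inhabited S] (n : ℕ)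
    (g g1 g2 : O → ℝ → ℝ) (U : S → ℝ) (L L' : Multiset (St O S)) (s : St O S), 1 ≤ n →
    (∀ o, Sm B (g o) (g1 o) (g2 o)) → Small n B L' → vr L' ≤ 1 → s.1 < n →
    |GU n g g1 g2 U (L + L') s - GU n g g1 g2 U L s| ≤ C * vr L' * ‖s.2.2‖ ^ 2 := by
  have hK : 1 ≤ 5 * B ^ 2 := by nlinarith
  have hK' : B ≤ 5 * B ^ 2 := by nlinarith
  obtain ⟨C, hC0, hC⟩ := hb B (5 * B ^ 2) hB hK
  refine ⟨C, hC0, ?_⟩
  intro O S _ _ _ _ n g g1 g2 U L L' s hn hg hs hv hsn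
  have hv0 := Gr1.vr_nn L'
  have h1 : |t1 n g g1 g2 U (L + L') s - t1 n g g1 g2 U L s| ≤ C * vr L' :=
    hC O S n g U L L' s.2.1 (fun t => g2 s.2.1 t + g1 s.2.1 t ^ 2) (fun _ => 1)
      (fun σ _ => ch s.2.2 σ σ) 0 hn (by omega) (fun o => (hg o).d0) hs hv (d2_U hB (hg _))
      (d2_one (by linarith)) (U_bd hB (hg _)) (fun _ => by simpa using hK)
      (fun σ _ => ch_le _ _ _)
  have h2 : ∀ d, d ≤ n → |t2 n g g1 U (L + L') s d - t2 n g g1 U L s d| ≤ C * vr L' := fun d hd =>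
    hC O S n g U L L' s.2.1 (g1 s.2.1) (g1 s.2.1) (ch s.2.2) d hn hd (fun o => (hg o).d0) hs hv
      (d2_mono (hg _).d1 hK') (d2_mono (hg _).d1 hK') (fun t => ((hg _).b1 t).trans hK')
      (fun t => ((hg _).b1 t).trans hK') (ch_le _)
  have h3 := abs_le.1 (avg_le n s.1 _ _ hn hsn (by positivity) h2)
  have h4 := abs_le.1 h1
  rw [sum_sub_distrib, mul_sub] at h3
  rw [gam_eq n g g1 g2 U L s hn, gam_eq n g g1 g2 U (L + L') s hn, ← mul_sub, abs_mul,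
    abs_of_nonneg (sq_nonneg _), mul_comm]
  refine mul_le_mul_of_nonneg_right ?_ (sq_nonneg _)
  rw [abs_le]; constructor <;> linarith

end MsU

theorem msU (h1 : St1U) (hb : GrbU) : MsU := by
  intro B hB
  obtain ⟨C1, hC1⟩ := h1 B hB
  obtain ⟨C2, hC20, hC2⟩ := MsU.gam_diff hb hB
  have ha := abs_nonneg C1
  refine ⟨|C1| + 5 * B ^ 2 + C2, by positivity, ?_⟩
  intro O S _ _ _ _ n g g1 g2 U L L' hn hg hs
  have st : ∀ (M : Multiset (St O S)) (s : St O S), s.1 < n → B * ‖s.2.2‖ ≤ 1 →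
      |TU n g U (s ::ₘ M) - TU n g U M - GU n g g1 g2 U M s| ≤ |C1| * ‖s.2.2‖ ^ 3 := fun M s h h' =>
    (hC1 O S n g g1 g2 U M s hn hg h h').trans
      (mul_le_mul_of_nonneg_right (le_abs_self _) (by positivity))
  constructor
  · induction L' using Multiset.induction_on with
    | empty => simp [vr]
    | cons s L' ih =>
      have i1 := abs_le.1 (ih (fun t ht => hs t (Multiset.mem_cons_of_mem ht)))
      have hs' := hs s (Multiset.mem_cons_self _ _)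
      have i2 := abs_le.1 (st (L + L') s hs'.1 hs'.2)
      have i3 := abs_le.1 (MsU.gam_bd hB n g g1 g2 U (L + L') s hn hg hs'.1)
      have hδ := norm_nonneg s.2.2
      have hδ1 : ‖s.2.2‖ ≤ 1 := by nlinarith [hs'.2]
      have i4 : |C1| * ‖s.2.2‖ ^ 3 ≤ |C1| * ‖s.2.2‖ ^ 2 :=
        mul_le_mul_of_nonneg_left (pow_le_pow_of_le_one hδ hδ1 (by norm_num)) ha
      have i5 : 0 ≤ C2 * ‖s.2.2‖ ^ 2 := by positivity
      rw [Multiset.add_cons, Gr1.vr_cons, abs_le]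
      constructor <;> linarith
  · intro hv
    have key : ∀ V : ℝ, V ≤ 1 → vr L' ≤ V →
        |TU n g U (L + L') - TU n g U L - (L'.map (GU n g g1 g2 U L)).sum| ≤
          (|C1| + C2) * (vr L' * √V) := by
      intro V hV1
      clear hv
      induction L' using Multiset.induction_on with
      | empty => simp [vr]
      | cons s L' ih =>
        intro hV
        rw [Gr1.vr_cons] at hV
        have hv0 := Gr1.vr_nn L'
        have hδ := norm_nonneg s.2.2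
        have hδ2 := sq_nonneg ‖s.2.2‖
        have hsm : Small n B L' := fun t ht => hs t (Multiset.mem_cons_of_mem ht)
        have i1 := abs_le.1 (ih hsm (by linarith))
        have hs' := hs s (Multiset.mem_cons_self _ _)
        have i2 := abs_le.1 (st (L + L') s hs'.1 hs'.2)
        have i3 := abs_le.1 (hC2 O S n g g1 g2 U L L' s hn hg hsm (by linarith) hs'.1)
        have j1 : ‖s.2.2‖ ≤ √V := le_sqrt_of_sq_le (by linarith)
        have j2 : vr L' ≤ √V := by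
          refine le_sqrt_of_sq_le ?_
          nlinarith
        have i4 : |C1| * ‖s.2.2‖ ^ 3 ≤ |C1| * (‖s.2.2‖ ^ 2 * √V) := by
          refine mul_le_mul_of_nonneg_left ?_ ha
          rw [pow_succ]; gcongr
        have i5 : C2 * vr L' * ‖s.2.2‖ ^ 2 ≤ C2 * (‖s.2.2‖ ^ 2 * √V) := by
          rw [mul_assoc, mul_comm (vr L')]; gcongr
        rw [Multiset.add_cons, Gr1.vr_cons, Multiset.map_cons, Multiset.sum_cons, abs_le]
        constructor <;> linarith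
    refine (key _ hv le_rfl).trans (mul_le_mul_of_nonneg_right (by nlinarith) ?_)
    have := Gr1.vr_nn L'
    positivity

end Vale.Agent.P157
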