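import Vale.Agent.P157.StmS
import Vale.Agent.P157.P1
import Vale.Agent.P157.C

namespace Vale.Agent.P157

open Finset Real

set_option linter.unusedSectionVars false

namespace P1Um

open P1

variable {O S : Type} [Fintype O] [DecidableEq O] [Fintype S] [Inhabited S]

theorem dec (hA : AApi) (hC : CApi) (n : ℕ) (g : O → ℝ → ℝ) (U : S → ℝ) (L : Multiset (St O S))
    (o : O) (l : Multiset (ℕ × ℝ)) (hn : 1 ≤ n) (hL : ∀ s ∈ L, s.2.1 ≠ o) :
    TU n g U (L + lift o (fun _ => 1) l) =
      XX (chain L) (ex n) (fun ω => Z1 g o ω + U ω.2) (n + 1) (0, default) + HD n (g o) l ∧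
    (∀ (u : ℝ → ℝ) (w : S → ℝ), E1U n g U (L + lift o (fun _ => 1) l) (ob u o w) =
      Ce (chain L) (ex n) (fun ω => Z1 g o ω + U ω.2) 0 (n + 1) (fun ω => w ω.2) (0, default) *
        AD n (g o) u l) ∧
    ∀ (u : ℝ → ℝ) (w : S → ℝ) (d : ℕ), d ≤ n →
      EU n g U (L + lift o (fun _ => 1) l) d (fun ω ω' => ob u o w ω * ob u o w ω') =
        E2 (chain L) (ex n) (fun ω => Z1 g o ω + U ω.2) (d + 1) (n + 1)
          (fun ω ω' => w ω.2 * w ω'.2) (0, default) * WD n (g o) u l d := by
  have h1 := hA.tw (P := chain (L + lift o (fun _ => 1) l))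
    (P' := chain (L + lift o (fun _ => 1) l)) (ex n) (n + 1) (fun _ ω => (p0 S o ω.1, ω.2))
    (fun j _ G ω => by
      cases j with
      | zero => rfl
      | succ j =>
        refine (lv_map0 hC (p0 S o) id _ G ω).trans ?_
        rw [Multiset.map_map]
        refine lv_congr (fun s hs => ?_) _ _
        rcases Multiset.mem_add.1 (Multiset.mem_of_mem_filter hs) with h | h
        · exact (ne_vec (hL s h)).1
        · obtain ⟨t, -, rfl⟩ := Multiset.mem_map.1 h
          exact (eq_vec o t.1 t.2).1) (ZU g U)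
  have h2 := hA.prod (P := chain (L + lift o (fun _ => 1) l)) (hC.ok n L hn)
    (hC.ok n (lift () (fun _ : Unit => 1) l) hn) (fun ω => (p1 S o ω.1, ω.2))
    (fun ω => (p2 S o ω.1, ())) (fun j _ g1 g2 ω => by
      cases j with
      | zero =>
        show (∑ σ, g1 (p1 S o ω.1, σ) * g2 (p2 S o ω.1, ())) / _ =
          (∑ σ, g1 (p1 S o ω.1, σ)) / _ * ((∑ _σ : Unit, g2 (p2 S o ω.1, ())) / _)
        rw [← sum_mul]
        simp
        ring
      | succ j =>
        show lv _ _ _ = lv _ _ _ * lv _ _ _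
        rw [Multiset.filter_add, Multiset.map_add, hC.lv_add, filter_lift, filter_lift,
          LinearMap.comp_apply]
        have e1 : lv ((l.filter fun s => s.1 = j).map fun s => vec (s.1, o, s.2 • fun _ : S => 1))
            (fun x : Om O S => g1 (p1 S o x.1, x.2) * g2 (p2 S o x.1, ())) = fun x =>
            lv ((l.filter fun s => s.1 = j).map fun s => vec (s.1, (), s.2 • fun _ : Unit => 1))
              g2 (p2 S o x.1, ()) * g1 (p1 S o x.1, x.2) := by
          ext x
          rw [pull hC (p1 S o) _ (fun v hv => by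
            obtain ⟨s, -, rfl⟩ := Multiset.mem_map.1 hv
            exact (eq_vec o s.1 s.2).2.1) (fun a b => g1 (a, b)), mul_comm,
            lv_map0 hC (p2 S o) (fun _ => ()), Multiset.map_map]
          exact congrArg (· * _) (lv_congr (fun s _ => (eq_vec o s.1 s.2).2.2) _ _)
        rw [e1, pull hC (p2 S o) _ (fun v hv => by
            obtain ⟨s, hs, rfl⟩ := Multiset.mem_map.1 hv
            exact (ne_vec (hL s (Multiset.mem_of_mem_filter hs))).2.2)
          (fun a _ => lv _ g2 (a, ())), mul_comm]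
        congr 1
        refine (lv_map0 hC (p1 S o) id _ g1 ω).trans ?_
        rw [Multiset.map_map]
        exact lv_congr (fun s hs => (ne_vec (hL s (Multiset.mem_of_mem_filter hs))).2.1) _ _)
    (fun ω => Z1 g o ω + U ω.2) (ZZ fun _ : Unit => g o)
  have hz : (fun x : Om O S => ZU g U (p0 S o x.1, x.2)) = fun x =>
      (Z1 g o (p1 S o x.1, x.2) + U x.2) + ZZ (fun _ : Unit => g o) (p2 S o x.1, ()) := by
    ext x
    rw [ZU, add_right_comm, ZZ, ← sum_erase_add _ _ (mem_univ o)]
    congr 2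
    · exact sum_congr rfl fun a ha => by simp [p0, p1, ne_of_mem_erase ha]
    · simp [ZZ, p0, p2]
  rw [hz] at h1
  refine ⟨?_, fun u w => ?_, fun u w d hd => ?_⟩
  · have e1 := h1.1 (n + 1) le_rfl (0, default)
    have e2 := h2.1 (n + 1) le_rfl (0, default)
    simp only [map_zero] at e1 e2
    exact e1.symm.trans e2
  · have e1 := h1.2.1 0 (n + 1) (by omega) le_rfl (ob u o w) (0, default)
    have e2 := h2.2.1 0 (n + 1) le_rfl (fun ω => w ω.2) (fun ω => u (ω.1 () ())) (0, default)
    simp only [map_zero] at e1 e2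
    refine e1.symm.trans (Eq.trans ?_ e2)
    refine congrArg (fun F => Ce _ _ _ 0 (n + 1) F _) ?_
    ext x
    simp only [ob, p0, p2, AddMonoidHom.coe_mk, ZeroHom.coe_mk, Function.update_self]
    ring
  · have e1 := h1.2.2 (d + 1) (by omega) (fun ω ω' => ob u o w ω * ob u o w ω') (0, default)
    have e2 := h2.2.2 (d + 1) (by omega) (fun ω ω' => w ω.2 * w ω'.2)
      (fun ω ω' => u (ω.1 () ()) * u (ω'.1 () ())) (0, default)
    simp only [map_zero] at e1 e2
    refine e1.symm.trans (Eq.trans ?_ e2)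
    congr 1
    ext x x'
    simp only [ob, p0, p2, AddMonoidHom.coe_mk, ZeroHom.coe_mk, Function.update_self]
    ring

end P1Um

theorem p1U (_hUApi : UApi) : P1U := by
  have hA := aApi
  have hC := cApi
  intro O S _ _ _ _ n g U L o l hn hL
  obtain ⟨h1, h1', h2⟩ := P1Um.dec hA hC n g U L o l hn hL
  obtain ⟨h3, h3', h4⟩ := P1Um.dec hA hC n g U L o 0 hn hL
  have e0 : L + lift o (fun _ => 1) 0 = L := add_zero L
  rw [e0] at h3 h3' h4
  refine ⟨?_, fun u w => ?_, fun u w d hd => ?_⟩
  · have e1 : HD n (g o) 0 = g o 0 := (hC.tt0 n (fun _ : Unit => g o) hn).trans (by simp)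
    rw [h1, h3, e1]
    ring
  · have e1 : AD n (g o) (fun _ => 1) 0 = 1 :=
      hA.const (hA.ce (hC.ok n _ hn) _ 0 (n + 1) le_rfl) 1 _
    have e2 := h3' (fun _ => 1) w
    have e3 : ob (fun _ => (1 : ℝ)) o w = fun ω => w ω.2 := funext fun ω => one_mul _
    rw [e1, mul_one, e3] at e2
    rw [h1' u w, e2, mul_comm]
  · have e1 : WD n (g o) (fun _ => 1) 0 d = 1 * 1 :=
      hA.e2const (hC.ok n _ hn) _ (d + 1) (by omega) _ _
    have e2 := h4 (fun _ => 1) w d hd
    simp only [e1, ob, one_mul, mul_one] at e2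
    rw [h2 u w d hd, e2, mul_comm]

end Vale.Agent.P157
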