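import Vale.Agent.P157.StmS
import Vale.Agent.P157.P2
import Vale.Agent.P157.A
import Vale.Agent.P157.C

/-! P157, sphere: an independent site factorises. -/

namespace Vale.Agent.P157

open Finset Real

set_option linter.unusedSectionVars false

namespace P2U

open P2 (tens tens_mul)

variable {O I T : Type} [Fintype O] [DecidableEq O] [Fintype I] [DecidableEq I] [Fintype T]
  [Inhabited T]

/-- forget the dependence on the spin `i` -/
def f1 (O T : Type) [Inhabited T] (i : I) : (O → (I → T) → ℝ) →+ (O → (I → T) → ℝ) where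
  toFun x := fun o s => x o (Function.update s i default)
  map_zero' := rfl
  map_add' _ _ := rfl

/-- the field of the spin `i` -/
noncomputable def f2 (T : Type) (o0 : O) (i : I) : (Unit → T → ℝ) →+ (O → (I → T) → ℝ) where
  toFun t := Pi.single o0 (fun s => t () (s i))
  map_zero' := Pi.single_zero _
  map_add' a b := by
    rw [← Pi.single_add]; rfl

noncomputable def Th (o0 : O) (i : I) (ω : Om O (I → T) × Om Unit T) : Om O (I → T) :=
  (f1 O T i ω.1.1 + f2 T o0 i ω.2.1, Function.update ω.1.2 i ω.2.2)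

def t1 (i : I) (ω : Om O (I → T)) : Om O (I → T) := (f1 O T i ω.1, ω.2)

theorem map1 {i : I} {L : Multiset (St O (I → T))} {U : (I → T) → ℝ} (h : IndU i L U) (d : ℕ) :
    ((L.filter (fun s => s.1 = d)).map vec).map (f1 O T i) =
      (L.filter (fun s => s.1 = d)).map vec := by
  rw [Multiset.map_map]
  refine Multiset.map_congr rfl fun s hs => ?_
  have hs' := h.1 s (Multiset.mem_of_mem_filter hs)
  ext o σ
  show vec s o (Function.update σ i default) = vec s o σ
  unfold vec
  by_cases ho : o = s.2.1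
  · subst ho; simp only [Pi.single_eq_same]; exact hs' σ default
  · simp only [Pi.single_eq_of_ne ho]; rfl

theorem map2 (v : T → ℝ) (o0 : O) (i : I) (l : Multiset (ℕ × ℝ)) (d : ℕ) :
    (((lift () v l).filter (fun s => s.1 = d)).map vec).map (f2 T o0 i) =
      ((lift o0 (sv v i) l).filter (fun s => s.1 = d)).map vec := by
  unfold lift
  rw [Multiset.filter_map, Multiset.filter_map, Multiset.map_map, Multiset.map_map,
    Multiset.map_map]
  refine Multiset.map_congr rfl fun s _ => ?_
  show (Pi.single o0 (fun σ : I → T => vec (s.1, (), s.2 • v) () (σ i)) :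
      O → (I → T) → ℝ) = Pi.single o0 (s.2 • sv v i)
  congr 1

/-- exchange of the spin `i` with an extra spin -/
def sw (i : I) : (I → T) × T ≃ (I → T) × T :=
  Function.Involutive.toPerm (fun p => (Function.update p.1 i p.2, p.1 i)) (by
    intro p; simp)

theorem sum_upd (i : I) (F : (I → T) → ℝ) :
    ∑ s : I → T, (∑ b : T, F (Function.update s i b)) / (Fintype.card T : ℝ) = ∑ s, F s := by
  have hc : (0 : ℝ) < Fintype.card T := by exact_mod_cast Fintype.card_pos
  have h := Equiv.sum_comp (sw (T := T) i) (fun p => F p.1)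
  rw [Fintype.sum_prod_type, Fintype.sum_prod_type] at h
  rw [← sum_div, div_eq_iff hc.ne', sum_mul]
  refine h.trans (sum_congr rfl fun s _ => ?_)
  simp [mul_comm]

theorem stepA (hC : CApi) {i : I} {L : Multiset (St O (I → T))} {U : (I → T) → ℝ} (h : IndU i L U)
    (v : T → ℝ) (o0 : O) (l : Multiset (ℕ × ℝ)) (j : ℕ)
    (g : Om O (I → T) → ℝ) (ω : Om O (I → T) × Om Unit T) :
    tens (chain L j) (chain (lift () v l) j) (fun x => g (Th o0 i x)) ω =
      chain (L + lift o0 (sv v i) l) j g (Th o0 i ω) := by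
  cases j with
  | zero =>
    show (∑ s : I → T, (∑ b : T, g (f1 O T i ω.1.1 + f2 T o0 i ω.2.1, Function.update s i b)) /
      (Fintype.card T : ℝ)) / _ = (∑ s, g (f1 O T i ω.1.1 + f2 T o0 i ω.2.1, s)) / _
    rw [sum_upd i (fun s => g (f1 O T i ω.1.1 + f2 T o0 i ω.2.1, s))]
  | succ d =>
    show lv _ (fun x : Om O (I → T) => lv _ (fun y : Om Unit T =>
        g (f1 O T i x.1 + f2 T o0 i y.1, Function.update x.2 i y.2)) ω.2) ω.1 =
      lv (((L + lift o0 (sv v i) l).filter (fun s => s.1 = d)).map vec) g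
        (f1 O T i ω.1.1 + f2 T o0 i ω.2.1, Function.update ω.1.2 i ω.2.2)
    rw [Multiset.filter_add, Multiset.map_add, hC.lv_add, LinearMap.comp_apply, ← map2]
    have h0 := fun G => hC.lv_map (f1 O T i) (f2 T o0 i ω.2.1)
      (fun s : I → T => Function.update s i ω.2.2) ((L.filter (fun s => s.1 = d)).map vec) G ω.1
    rw [map1 h d] at h0
    rw [← h0]
    refine congrFun (congrArg _ ?_) _
    ext x
    have := hC.lv_map (f2 T o0 i) (f1 O T i x.1) (fun b : T => Function.update x.2 i b)
      (((lift () v l).filter (fun s => s.1 = d)).map vec) g ω.2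
    simp only [add_comm (f2 T o0 i _) (f1 O T i x.1)] at this
    exact this

theorem stepB (hC : CApi) {i : I} {L : Multiset (St O (I → T))} {U : (I → T) → ℝ} (h : IndU i L U)
    (j : ℕ) (g : Om O (I → T) → ℝ) (ω : Om O (I → T)) :
    chain L j (fun x => g (t1 i x)) ω = chain L j g (t1 i ω) := by
  cases j with
  | zero => rfl
  | succ d =>
    have := hC.lv_map (f1 O T i) 0 (fun s : I → T => s)
      ((L.filter (fun s => s.1 = d)).map vec) g ω
    simp only [add_zero] at this
    rw [map1 h d] at this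
    exact this

theorem term {g : O → ℝ → ℝ} {o0 : O} (hg : g o0 = id) (V : T → ℝ) {i : I}
    {L : Multiset (St O (I → T))} {U : (I → T) → ℝ} (h : IndU i L U) :
    (fun x : Om O (I → T) × Om Unit T => ZU g (fun σ => U σ + V (σ i)) (Th o0 i x)) =
      fun x => ZU g U (t1 i x.1) + ZU (fun _ : Unit => id) V x.2 := by
  ext ω
  unfold ZU ZZ
  rw [← add_sum_erase univ _ (mem_univ o0), ← add_sum_erase univ _ (mem_univ o0),
    Fintype.sum_unique (M := ℝ) (ι := Unit)]
  have h1 : ∀ a, a ≠ o0 → f2 T o0 i ω.2.1 a = 0 := fun a ha =>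
    Pi.single_eq_of_ne (M := fun _ : O => (I → T) → ℝ) ha (fun s => ω.2.1 () (s i))
  have h2 : f2 T o0 i ω.2.1 o0 = fun s => ω.2.1 () (s i) :=
    Pi.single_eq_same (M := fun _ : O => (I → T) → ℝ) o0 (fun s => ω.2.1 () (s i))
  have h3 : ∀ o, f1 O T i ω.1.1 o (Function.update ω.1.2 i ω.2.2) = f1 O T i ω.1.1 o ω.1.2 := by
    intro o
    show ω.1.1 o (Function.update (Function.update ω.1.2 i ω.2.2) i default) =
      ω.1.1 o (Function.update ω.1.2 i default)
    rw [Function.update_idem]
  have h4 : ∀ o ∈ univ.erase o0, g o ((Th o0 i ω).1 o (Th o0 i ω).2) =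
      g o ((t1 i ω.1).1 o (t1 i ω.1).2) := by
    intro o ho
    simp only [Th, t1, Pi.add_apply, h1 o (ne_of_mem_erase ho), h3, Pi.zero_apply, add_zero]
  rw [sum_congr rfl h4]
  simp only [Th, t1, hg, id, Pi.add_apply, h2, h3, Function.update_self, h.2]
  ring

theorem top (o0 : O) (i : I) :
    Th o0 i (((0, default), (0, default)) : Om O (I → T) × Om Unit T) = (0, default) := by
  unfold Th
  simp only [map_zero, add_zero]
  congr 1
  exact Function.update_eq_self i _

theorem top1 (i : I) : t1 i ((0, default) : Om O (I → T)) = (0, default) := rfl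

end P2U

theorem p2U : P2U := by
  intro O I T _ _ _ _ _ _ n g v V U L o0 i l hn hg hI
  have hA := aApi
  have hC := cApi
  have h1 := hA.tw (P' := fun j => P2.tens (chain L j) (chain (lift () v l) j)) (ex n) (n + 1)
    (fun _ => P2U.Th o0 i) (fun j _ g ω => P2U.stepA hC hI v o0 l j g ω)
    (ZU g (fun σ => U σ + V (σ i)))
  have h2 := hA.tw (ex n) (n + 1) (fun _ => P2U.t1 i) (fun j _ g ω => P2U.stepB hC hI j g ω)
    (ZU g U)
  have o2 := hC.ok n (lift () v l) hn
  have h3 := hA.prod (P := fun j => P2.tens (chain L j) (chain (lift () v l) j))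
    (hC.ok n L hn) o2 Prod.fst Prod.snd (fun j _ g1 g2 ω => P2.tens_mul _ _ g1 g2 ω)
    (fun x => ZU g U (P2U.t1 i x)) (ZU (fun _ : Unit => id) V)
  rw [P2U.term hg V hI] at h1
  refine ⟨?_, fun χ d hd hχ => ?_⟩
  · have a1 := h1.1 (n + 1) le_rfl ((0, default), (0, default))
    have a2 := h2.1 (n + 1) le_rfl (0, default)
    have a3 := h3.1 (n + 1) le_rfl ((0, default), (0, default))
    rw [P2U.top] at a1
    rw [P2U.top1] at a2
    unfold PW TU
    rw [← a1, a3, a2]
  · have a1 := h1.2.2 (d + 1) (by omega) (fun ω ω' => χ ω.2 ω'.2) ((0, default), (0, default))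
    have a2 := h2.2.2 (d + 1) (by omega) (fun ω ω' => χ ω.2 ω'.2) (0, default)
    have a3 := h3.2.2 (d + 1) (by omega) (fun ω ω' => χ ω.2 ω'.2) (fun _ _ => 1)
      ((0, default), (0, default))
    rw [P2U.top] at a1
    rw [P2U.top1] at a2
    rw [hA.e2const o2 _ _ (by omega), mul_one] at a3
    unfold EU
    rw [← a1, ← a2]
    refine Eq.trans ?_ a3
    congr 1
    ext x x'
    rw [mul_one]
    exact hχ _ _ _ _

end Vale.Agent.P157
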