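import Vale.Agent.P157.StmS
import Vale.Agent.P157.Pat

namespace Vale.Agent.P157

open Finset Real

set_option linter.unusedSectionVars false
set_option linter.unusedVariables false

namespace PatUm

open Pat (pc th tw1 th0)

variable {O S : Type} [Fintype O] [DecidableEq O] [Fintype S] [Inhabited S]

theorem zu_th (g : O → ℝ → ℝ) (U : S → ℝ) (o : O) :
    (fun x : Om O S => ZU (Function.update g o (fun _ => 0)) U (th o x)) =
      ZU (Function.update g o (fun _ => 0)) U := by
  funext x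
  have := congrFun (Pat.zz_th (S := S) g o) x
  simp only [ZU] at this ⊢
  rw [this]; rfl

theorem zu_split (g : O → ℝ → ℝ) (U : S → ℝ) (o : O) :
    (ZU g U : Om O S → ℝ) = ZU (Function.update g o (fun _ => 0)) U + fun ω => g o (ω.1 o ω.2) := by
  funext ω
  have := congrFun (Pat.zz_split (S := S) g o) ω
  simp only [ZU, Pi.add_apply] at this ⊢
  linarith

theorem zu_split' (g : O → ℝ → ℝ) (U : S → ℝ) (o : O) :
    (ZU (Function.update g o (fun _ => 0)) U : Om O S → ℝ) = ZU g U + fun ω => -g o (ω.1 o ω.2) := by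
  rw [zu_split g U o]
  funext ω
  simp

theorem tt_eq (n : ℕ) (g : O → ℝ → ℝ) (U : S → ℝ) (o : O) (L : Multiset (St O S)) :
    TU n (Function.update g o (fun _ => 0)) U L =
      XX (pc o L) (ex n) (ZU (Function.update g o (fun _ => 0)) U) (n + 1) (0, default) := by
  have := Aa.twX (P := pc o L) (P' := chain L) (ex n) (n + 1) (fun _ => th o)
    (fun j _ g ω => tw1 o L j g ω) (ZU (Function.update g o (fun _ => 0)) U) (n + 1) le_rfl
    (0, default)
  rw [zu_th, th0] at this
  exact this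

theorem ee_eq (n : ℕ) (g : O → ℝ → ℝ) (U : S → ℝ) (o : O) (L : Multiset (St O S)) (χ : S → S → ℝ) (d : ℕ)
    (hd : d ≤ n) :
    EU n (Function.update g o (fun _ => 0)) U L d (fun ω ω' => χ ω.2 ω'.2) =
      E2 (pc o L) (ex n) (ZU (Function.update g o (fun _ => 0)) U) (d + 1) (n + 1)
        (fun ω ω' => χ ω.2 ω'.2) (0, default) := by
  have := (aApi.tw (P := pc o L) (P' := chain L) (ex n) (n + 1) (fun _ => th o)
    (fun j _ g ω => tw1 o L j g ω) (ZU (Function.update g o (fun _ => 0)) U)).2.2 (d + 1) (by omega)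
    (fun ω ω' => χ ω.2 ω'.2) (0, default)
  rw [zu_th, th0] at this
  exact this

theorem tt_bd (n : ℕ) (g : O → ℝ → ℝ) (U : S → ℝ) (o : O) (B : ℝ) (L : Multiset (St O S)) (hn : 1 ≤ n)
    (hg : ∀ t, |g o t| ≤ B) : |TU n g U L - TU n (Function.update g o (fun _ => 0)) U L| ≤ B := by
  have hk := Cc.ok n L hn
  have h1 := Aa.xle hk (Z := ZU g U) (Z' := ZU (Function.update g o (fun _ => 0)) U) (c := B)
    (fun ω => by
      rw [zu_split g U o]; have := (abs_le.1 (hg (ω.1 o ω.2))).2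
      simp only [Pi.add_apply]; linarith) (n + 1) le_rfl (0, default)
  have h2 := Aa.xle hk (Z' := ZU g U) (Z := ZU (Function.update g o (fun _ => 0)) U) (c := B)
    (fun ω => by
      rw [zu_split' g U o]; have := (abs_le.1 (hg (ω.1 o ω.2))).1
      simp only [Pi.add_apply]; linarith) (n + 1) le_rfl (0, default)
  unfold TU
  rw [abs_le]; constructor <;> linarith

theorem ee_bd (n : ℕ) (g : O → ℝ → ℝ) (U : S → ℝ) (o : O) (B : ℝ) (L : Multiset (St O S)) (hn : 1 ≤ n)
    (hg : ∀ t, |g o t| ≤ B) (d : ℕ) (hd : d ≤ n) (φ : Om O S → Om O S → ℝ)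
    (hφ : ∀ ω ω', 0 ≤ φ ω ω') :
    EU n g U L d φ ≤ exp (6 * B) * EU n (Function.update g o (fun _ => 0)) U L d φ ∧
      EU n (Function.update g o (fun _ => 0)) U L d φ ≤ exp (6 * B) * EU n g U L d φ := by
  have hk := Cc.ok n L hn
  constructor
  · have := Aa.chg2 hk (ZU (Function.update g o (fun _ => 0)) U) (fun ω => g o (ω.1 o ω.2)) B
      (fun ω => hg _) (d + 1) (by omega) φ hφ (0, default)
    rw [← zu_split g U o] at this
    exact this
  · have := Aa.chg2 hk (ZU g U) (fun ω => -g o (ω.1 o ω.2)) B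
      (fun ω => by rw [abs_neg]; exact hg _) (d + 1) (by omega) φ hφ (0, default)
    rw [← zu_split' g U o] at this
    exact this

end PatUm

theorem patU : PatU := by
  intro O S _ _ _ _ n g U L L' o B hn hg hL
  constructor
  · have h1 := abs_le.1 (PatUm.tt_bd n g U o B L hn hg)
    have h2 := abs_le.1 (PatUm.tt_bd n g U o B (L + L') hn hg)
    rw [PatUm.tt_eq, Pat.pc_add o L L' hL, ← PatUm.tt_eq] at h2
    rw [abs_le]; constructor <;> linarith
  · intro χ d hd hχ
    obtain ⟨h1, h2⟩ := PatUm.ee_bd n g U o B L hn hg d hd (fun ω ω' => χ ω.2 ω'.2) (fun _ _ => hχ _ _)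
    obtain ⟨h3, h4⟩ := PatUm.ee_bd n g U o B (L + L') hn hg d hd (fun ω ω' => χ ω.2 ω'.2)
      (fun _ _ => hχ _ _)
    rw [PatUm.ee_eq _ _ _ _ _ _ _ hd, Pat.pc_add o L L' hL, ← PatUm.ee_eq _ _ _ _ _ _ _ hd] at h3 h4
    have e : exp (12 * B) = exp (6 * B) * exp (6 * B) := by rw [← exp_add]; congr 1; ring
    have p := (exp_pos (6 * B)).le
    rw [e, mul_assoc, mul_assoc]
    exact ⟨h3.trans (mul_le_mul_of_nonneg_left h2 p), h1.trans (mul_le_mul_of_nonneg_left h4 p)⟩

end Vale.Agent.P157
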