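import Vale.Agent.P157.StmS
import Vale.Agent.P157.C
import Vale.Agent.P157.G

namespace Vale.Agent.P157

open Finset Real

namespace PcUm

variable {O S I : Type} [Fintype O] [DecidableEq O] [Fintype S] [Inhabited S]

theorem gq_abs {B : ℝ} {g g1 g2 : O → ℝ → ℝ} {a : O} (hB : 1 ≤ B) (hs : Sm B (g a) (g1 a) (g2 a))
    (t : ℝ) : |gq g1 g2 a t| ≤ 2 * B ^ 2 := by
  have h1 := hs.b2 t
  have h2 := sq_le_sq' (abs_le.1 (hs.b1 t)).1 (abs_le.1 (hs.b1 t)).2
  have h3 : B ≤ B ^ 2 := by nlinarith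
  refine (abs_add_le _ _).trans ?_
  rw [abs_of_nonneg (sq_nonneg (g1 a t))]
  linarith

theorem gam_diff (hG : GUApi) {B : ℝ} {n : ℕ} {g g1 g2 : O → ℝ → ℝ} {U : S → ℝ}
    {L : Multiset (St O S)} {s : I → S → ℝ} {A : Finset I} (a : O) {P : ℕ → ℝ} {e : ℝ} (c : ℝ)
    (hn : 1 ≤ n) (hB : 1 ≤ B) (hs : Sm B (g a) (g1 a) (g2 a)) (hA : A.Nonempty) (hp : Path n P)
    (hc : CU n g U L s A P e) :
    |((rd s a A (n - 1) c).map (GU n g g1 g2 U L)).sum -
      ((lift a (fun _ => 1) (sprof n P (A.card * c ^ 2))).map (GU n g g1 g2 U L)).sum| ≤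
      (A.card * c ^ 2) * (2 * B ^ 2 * √e) := by
  have hv : (0 : ℝ) ≤ A.card * c ^ 2 := by positivity
  rw [hG.gam_rd n _ _ _ U L s a A c hn hA, hG.gam_prof n _ _ _ U L a (fun _ => 1) P _ hn hp hv]
  have key := (hG.conc_abs n g U L s A P e (B ^ 2) hn hc).1
    (fun _ ω ω' => g1 a (ω.1 a ω.2) * g1 a (ω'.1 a ω'.2)) (fun _ ω ω' => by
      rw [abs_mul, sq]
      exact mul_le_mul (hs.b1 _) (hs.b1 _) (abs_nonneg _) (by linarith))
  have key2 := ((hG.conc_abs n g U L s A P e (2 * B ^ 2) hn hc).2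
    (fun ω => gq g1 g2 a (ω.1 a ω.2)) fun ω => gq_abs hB hs _).2
  have e1 : (fun ω ω' : Om O S => ob (g1 a) a (fun _ => 1) ω * ob (g1 a) a (fun _ => 1) ω') =
      fun ω ω' => g1 a (ω.1 a ω.2) * g1 a (ω'.1 a ω'.2) := by
    ext ω ω'; simp [ob]
  have e2 : (ob (gq g1 g2 a) a (fun σ => (fun _ : S => (1 : ℝ)) σ ^ 2) : Om O S → ℝ) =
      fun ω => gq g1 g2 a (ω.1 a ω.2) := by
    ext ω; simp [ob]
  have e3 : (ob (gq g1 g2 a) a (fun σ => RR s A σ σ) : Om O S → ℝ) =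
      fun ω => gq g1 g2 a (ω.1 a ω.2) * RR s A ω.2 ω.2 := rfl
  rw [e1, e2, e3]
  set x : ℕ → ℝ := fun d => EU n g U L d
    (fun ω ω' => g1 a (ω.1 a ω.2) * g1 a (ω'.1 a ω'.2) * RR s A ω.2 ω'.2) with hx
  set y : ℕ → ℝ := fun d => P d * EU n g U L d
    (fun ω ω' => g1 a (ω.1 a ω.2) * g1 a (ω'.1 a ω'.2)) with hy
  have h1 : |(1 / (n : ℝ)) * ∑ d ∈ Ico 1 n, x d - (1 / (n : ℝ)) * ∑ d ∈ Ico 1 n, y d| ≤
      B ^ 2 * √e := by
    rw [← mul_sub, ← sum_sub_distrib, abs_mul, abs_of_nonneg (by positivity : 0 ≤ 1 / (n : ℝ))]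
    exact le_trans (mul_le_mul_of_nonneg_left (abs_sum_le_sum_abs _ _) (by positivity)) key
  have h2 : 0 ≤ B ^ 2 * √e := by positivity
  generalize (1 / (n : ℝ)) * ∑ d ∈ Ico 1 n, x d = X at h1 ⊢
  generalize (1 / (n : ℝ)) * ∑ d ∈ Ico 1 n, y d = Y at h1 ⊢
  generalize E1U n g U L (fun ω => gq g1 g2 a (ω.1 a ω.2) * RR s A ω.2 ω.2) = E at key2 ⊢
  generalize P 0 * E1U n g U L (fun ω => gq g1 g2 a (ω.1 a ω.2)) = E' at key2 ⊢
  generalize (A.card : ℝ) * c ^ 2 = v at hv ⊢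
  rw [show v * (E - X) / 2 - v * (E' - Y) / 2 = v * (((E - E') - (X - Y)) / 2) by ring, abs_mul,
    abs_of_nonneg hv, abs_div, abs_two]
  exact mul_le_mul_of_nonneg_left (by linarith [abs_sub (E - E') (X - Y)]) hv

theorem cube {K v x : ℝ} (hK : 0 ≤ K) (hv : 0 ≤ v) (h : x ≤ K ^ 2 * v) :
    x * √x ≤ K ^ 3 * (v * √v) := by
  have h1 : √x ≤ K * √v := by
    rw [sqrt_le_left (by positivity), mul_pow, sq_sqrt hv]; exact h
  calc _ ≤ (K ^ 2 * v) * (K * √v) := mul_le_mul h h1 (sqrt_nonneg _) (by positivity)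
    _ = _ := by ring

end PcUm

theorem pcU (hUApi : UApi) (hGUApi : GUApi) (hMsU : MsU) (hPatU : PatU) : PcU := by
  intro B K
  by_cases hB : 1 ≤ B
  swap
  · exact ⟨0, le_rfl, fun _ _ _ _ _ _ _ _ _ _ _ _ _ _ _ _ _ _ _ _ _ _ hS => (hB hS.hB).elim⟩
  obtain ⟨C, hC0, hM⟩ := hMsU B hB
  refine ⟨2 * (C * |K| ^ 3) + 2 * B ^ 2 * √(exp (12 * B)), by positivity, ?_⟩
  intro O S I _ _ _ _ n g g1 g2 U L s o0 a A P e c D hn hS hf hA hp h0 hv1 hc
  have hK := hS.hK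
  have hK0 : 0 ≤ K := by linarith
  have hB0 : 0 ≤ B := by linarith
  rw [abs_of_nonneg hK0]
  set v : ℝ := A.card * c ^ 2 with hv
  have hv0 : 0 ≤ v := by positivity
  have hB2 : 1 ≤ B ^ 2 := one_le_pow₀ hB
  have hv2 : K ^ 2 * v ≤ 1 := by
    rw [mul_assoc] at hv1
    exact (le_mul_of_one_le_left (by positivity) hB2).trans hv1
  have hcard : (1 : ℝ) ≤ A.card := by exact_mod_cast hA.card_pos
  have hBc : B * K * |c| ≤ 1 := by
    have : (B * K * |c|) ^ 2 ≤ 1 := by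
      rw [mul_pow, mul_pow, sq_abs]
      refine le_trans (mul_le_mul_of_nonneg_left ?_ (by positivity)) hv1
      exact le_mul_of_one_le_left (sq_nonneg c) hcard
    exact (sq_le_one_iff₀ (by positivity)).1 this
  have hr := hGUApi.rd_vr n B K s a A (n - 1) c hB0 hS.bd
  have hsp := (gApi aApi cApi).sprof_var n P v hp hv0
  have hvP : v * P 0 ≤ K ^ 2 * v := by rw [mul_comm]; exact mul_le_mul_of_nonneg_right h0 hv0
  obtain ⟨hk1, -, hk2, hk3⟩ := hGUApi.lift_vr n B 1 a (fun _ : S => (1 : ℝ)) (sprof n P v) hB0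
    (fun _ => by simp)
  rw [hsp.1, one_pow, one_mul] at hk1
  replace hk1 := hk1.trans hvP
  replace hk2 := hk2 fun s hs' => by
    refine ⟨(hsp.2.2 s hs').1, ?_⟩
    have h1 : (B * √(K ^ 2 * v)) ^ 2 ≤ 1 := by
      rw [mul_pow, sq_sqrt (by positivity), ← mul_assoc]; exact hv1
    have h2 : B * √(K ^ 2 * v) ≤ 1 := (sq_le_one_iff₀ (by positivity)).1 h1
    rw [mul_one]
    exact le_trans (mul_le_mul_of_nonneg_left ((hsp.2.2 s hs').2.trans (sqrt_le_sqrt hvP)) hB0) h2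
  set F : Multiset (St O S) := lift a (fun _ => 1) (sprof n P v) with hF
  have one : ∀ L' : Multiset (St O S), (∀ t ∈ L', t.2.1 = a) →
      |TU n g U (L + L' + rd s a A (n - 1) c) - TU n g U (L + L' + F)| ≤
        (2 * (C * K ^ 3) + 2 * B ^ 2 * √(exp (12 * B))) * v * (√e + √v) := by
    intro L' hL'
    have h1 := ((hM _ _ n _ _ _ U (L + L') _ hn hS.sm (hr.2.1 (by omega) hBc)).2
      (hr.1.trans hv2)).trans (mul_le_mul_of_nonneg_left (PcUm.cube hK0 hv0 hr.1) hC0)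
    have h2 := ((hM _ _ n _ _ _ U (L + L') _ hn hS.sm hk2).2 (hk1.trans hv2)).trans
      (mul_le_mul_of_nonneg_left (PcUm.cube hK0 hv0 hk1) hC0)
    have h3 := PcUm.gam_diff hGUApi a c hn hB (hS.sm a) hA hp
      (hUApi.cumul n g U U L (L + L') s A P e _ hn (exp_pos _).le
        (fun χ d hd hχ => ((hPatU O S n g U L L' a B hn hf hL').2 χ d hd hχ).1) hc)
    rw [sqrt_mul (exp_pos _).le, ← hv, ← hF] at h3
    have h4 : 0 ≤ C * K ^ 3 * v * √e := by positivity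
    have h5 : 0 ≤ B ^ 2 * √(exp (12 * B)) * v * √v := by positivity
    rw [abs_le] at h1 h2 h3 ⊢
    constructor <;> nlinarith [h1.1, h1.2, h2.1, h2.2, h3.1, h3.2]
  have main : ∀ (D : ℕ) (L' : Multiset (St O S)), (∀ t ∈ L', t.2.1 = a) →
      |TU n g U (L + L' + D • rd s a A (n - 1) c) - TU n g U (L + L' + D • F)| ≤
        (2 * (C * K ^ 3) + 2 * B ^ 2 * √(exp (12 * B))) * (D * v) * (√e + √v) := by
    intro D
    induction D with
    | zero => intro L' _; simp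
    | succ D ih =>
      intro L' hL'
      have h1 := ih (L' + rd s a A (n - 1) c) fun s hs => by
        rcases Multiset.mem_add.1 hs with hs | hs
        · exact hL' s hs
        · exact hr.2.2 s hs
      have h2 := one (L' + D • F) fun s hs => by
        rcases Multiset.mem_add.1 hs with hs | hs
        · exact hL' s hs
        · exact hk3 s (Multiset.mem_of_mem_nsmul hs)
      have e1 : L + L' + (D + 1) • rd s a A (n - 1) c =
          L + (L' + rd s a A (n - 1) c) + D • rd s a A (n - 1) c := by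
        rw [succ_nsmul]; abel
      have e2 : L + L' + (D + 1) • F = L + (L' + D • F) + F := by
        rw [succ_nsmul]; abel
      have e3 : L + (L' + rd s a A (n - 1) c) + D • F = L + (L' + D • F) + rd s a A (n - 1) c := by
        abel
      rw [e3] at h1
      rw [e1, e2]
      refine le_trans (abs_sub_le _ _ _) (le_trans (add_le_add h1 h2) (le_of_eq ?_))
      push_cast; ring
  simpa using main D 0 (by simp)

end Vale.Agent.P157
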