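import Vale.Agent.P157.StmS
import Vale.Agent.P157.C

namespace Vale.Agent.P157

open Real Finset

namespace QGm

noncomputable def LX (m : ℝ) (s : Multiset ℝ) (X : ℝ → ℝ) (h : ℝ) : ℝ :=
  m⁻¹ * log (lv s (fun ω : ℝ × Unit => exp (m * X ω.1)) (h, ()))

noncomputable def LQ (m : ℝ) (s : Multiset ℝ) (X g : ℝ → ℝ) (h : ℝ) : ℝ :=
  exp (-(m * LX m s X h)) * lv s (fun ω : ℝ × Unit => exp (m * X ω.1) * g ω.1) (h, ())

theorem exp_lx {m : ℝ} (hm : 0 < m) (s : Multiset ℝ) (X : ℝ → ℝ) (h : ℝ) :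
    exp (m * LX m s X h) = lv s (fun ω : ℝ × Unit => exp (m * X ω.1)) (h, ()) := by
  unfold LX
  rw [mul_inv_cancel_left₀ hm.ne', exp_log (Aa.epos (Cc.lv_mk s) (fun ω => m * X ω.1) _)]

theorem lx_zero {m : ℝ} (hm : 0 < m) (X : ℝ → ℝ) : LX m 0 X = X := by
  funext h
  show m⁻¹ * log (exp (m * X h)) = _
  rw [log_exp, inv_mul_cancel_left₀ hm.ne']

theorem lq_zero {m : ℝ} (hm : 0 < m) (X g : ℝ → ℝ) : LQ m 0 X g = g := by
  funext h
  unfold LQ
  rw [lx_zero hm]
  show exp (-(m * X h)) * (exp (m * X h) * g h) = _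
  rw [← mul_assoc, ← exp_add]; simp

theorem lx_cons {m : ℝ} (hm : 0 < m) (a : ℝ) (s : Multiset ℝ) (X : ℝ → ℝ) :
    LX m (a ::ₘ s) X = stX m a (LX m s X) := by
  funext h
  unfold stX
  rw [exp_lx hm, exp_lx hm, LX, Cc.cons_apply]

theorem lq_cons {m : ℝ} (hm : 0 < m) (a : ℝ) (s : Multiset ℝ) (X g : ℝ → ℝ) :
    LQ m (a ::ₘ s) X g = stQ m a (LX m s X) (LQ m s X g) := by
  funext h
  have h1 : exp (m * LX m (a ::ₘ s) X h) =
      (exp (m * LX m s X (h + a)) + exp (m * LX m s X (h - a))) / 2 := by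
    rw [exp_lx hm, exp_lx hm, exp_lx hm, Cc.cons_apply]
  unfold stQ
  rw [LQ, exp_neg, h1, Cc.cons_apply, LQ, LQ, exp_neg, exp_neg]
  field_simp

theorem stq_mono {m a : ℝ} {X g g' : ℝ → ℝ} (H : ∀ x, g x ≤ g' x) (h : ℝ) :
    stQ m a X g h ≤ stQ m a X g' h := by
  unfold stQ; gcongr <;> exact H _

theorem stq_lin (m a : ℝ) (X g g' : ℝ → ℝ) (α β γ h : ℝ) :
    stQ m a X (fun x => α * g x + β * g' x + γ) h = α * stQ m a X g h + β * stQ m a X g' h + γ := by
  unfold stQ; field_simp; ring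

noncomputable def ee (C η T : ℝ) : ℝ := C * η ^ 2 * T * exp (C * T)

def I2 (C κ : ℝ) (g : ℝ → ℝ) (lam Γ T : ℝ) : Prop :=
  ∀ h, |g h - (h ^ 2 / lam ^ 2 + Γ)| ≤ κ * (1 + T) * exp (C * T) * (1 + h ^ 4)

def I3 (C : ℝ) (w : ℝ → ℝ) (T : ℝ) : Prop := ∀ h, w h ≤ exp (C * T) * (1 + h ^ 4)

def QS' (C : ℝ) : Prop := ∀ (X u : ℝ → ℝ) (m a lam c e : ℝ), 0 < m → m ≤ 1 → |a| ≤ 1 →
  1 / 4 ≤ lam - m * a ^ 2 → 0 ≤ e → e ≤ 1 → QI X u lam c e →
    QI (stX m a X) (stQ m a X u) (lam - m * a ^ 2) (c + (2 * m)⁻¹ * log (lam / (lam - m * a ^ 2)))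
      (e * (1 + C * a ^ 2) + C * a ^ 4) ∧
    (∀ h, stQ m a X (fun x => 1 + x ^ 4) h ≤ (1 + C * a ^ 2) * (1 + h ^ 4)) ∧
    (∀ h, |stQ m a X (fun x => x ^ 2) h -
      ((lam / (lam - m * a ^ 2)) ^ 2 * h ^ 2 + a ^ 2 * (lam / (lam - m * a ^ 2)))| ≤
        C * a ^ 2 * (√e + |a|) * (1 + h ^ 4)) ∧
    ∀ h, |u h ^ 2 - h ^ 2 / lam ^ 2| ≤ C * √e * (1 + h ^ 4)

theorem qi_mono {X u : ℝ → ℝ} {lam c e e' : ℝ} (H : QI X u lam c e) (h : e ≤ e') : QI X u lam c e' :=
  ⟨H.ev, H.od, H.sub, H.smo, H.up, fun x => le_trans (by gcongr) (H.low x)⟩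

variable {C η κ Q : ℝ}

theorem step (hC : 0 ≤ C) (hS : QS' C) (hη : η ≤ 1) (hκ : 0 ≤ κ)
    (hE : ∀ T, 0 ≤ T → T ≤ Q → ee C η T ≤ 1 ∧ 16 * C * (√(ee C η T) + η) ≤ κ)
    {X u : ℝ → ℝ} {m a lam c T : ℝ} (hm : 0 < m) (hm1 : m ≤ 1) (ha : |a| ≤ η)
    (hl : 1 / 4 ≤ lam - m * a ^ 2) (hT : 0 ≤ T) (hQ : T ≤ Q) (H : QI X u lam c (ee C η T)) :
    QI (stX m a X) (stQ m a X u) (lam - m * a ^ 2) (c + (2 * m)⁻¹ * log (lam / (lam - m * a ^ 2)))
      (ee C η (T + a ^ 2)) ∧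
    (∀ g Γ, I2 C κ g lam Γ T → I2 C κ (stQ m a X g) (lam - m * a ^ 2)
      (Γ + a ^ 2 / (lam * (lam - m * a ^ 2))) (T + a ^ 2)) ∧
    ∀ w, I3 C w T → I3 C (stQ m a X w) (T + a ^ 2) := by
  have he : 0 ≤ ee C η T := by unfold ee; positivity
  obtain ⟨e1, e2⟩ := hE T hT hQ
  obtain ⟨h1, h2, h3, -⟩ := hS X u m a lam c _ hm hm1 (ha.trans hη) hl he e1 H
  have hx : exp (C * T) * (1 + C * a ^ 2) ≤ exp (C * (T + a ^ 2)) := by
    rw [mul_add C, exp_add]; gcongr; linarith [add_one_le_exp (C * a ^ 2)]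
  have hx1 : 1 ≤ exp (C * (T + a ^ 2)) := one_le_exp (by positivity)
  have ha2 : a ^ 2 ≤ η ^ 2 := by rw [← sq_abs]; gcongr
  have hl1 : 1 / 4 ≤ lam := by nlinarith [mul_nonneg hm.le (sq_nonneg a)]
  refine ⟨qi_mono h1 ?_, fun g Γ hg h => ?_, fun w hw h => ?_⟩
  · unfold ee
    have a1 : C * η ^ 2 * T * (exp (C * T) * (1 + C * a ^ 2)) ≤ C * η ^ 2 * T * exp (C * (T + a ^ 2)) := by
      gcongr
    have a2 : C * a ^ 2 * a ^ 2 * 1 ≤ C * η ^ 2 * a ^ 2 * exp (C * (T + a ^ 2)) := by gcongr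
    linarith
  · set δ := κ * (1 + T) * exp (C * T) with hδ
    have hδ0 : 0 ≤ δ := by positivity
    have u1 := stq_mono (m := m) (a := a) (X := X) (g := g)
      (g' := fun x => (1 / lam ^ 2) * x ^ 2 + δ * (1 + x ^ 4) + Γ)
      (fun x => by have := (abs_le.1 (hg x)).2; rw [div_eq_mul_one_div] at this; linarith) h
    have u2 := stq_mono (m := m) (a := a) (X := X) (g' := g)
      (g := fun x => (1 / lam ^ 2) * x ^ 2 + (-δ) * (1 + x ^ 4) + Γ)
      (fun x => by have := (abs_le.1 (hg x)).1; rw [div_eq_mul_one_div] at this; linarith) h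
    rw [stq_lin m a X (fun x => x ^ 2) (fun x => 1 + x ^ 4)] at u1 u2
    have hi : 1 / lam ^ 2 ≤ 16 := by rw [div_le_iff₀ (by positivity)]; nlinarith
    have v1 : |1 / lam ^ 2 * stQ m a X (fun x => x ^ 2) h - (h ^ 2 / (lam - m * a ^ 2) ^ 2 +
        a ^ 2 / (lam * (lam - m * a ^ 2)))| ≤ κ * a ^ 2 * exp (C * (T + a ^ 2)) * (1 + h ^ 4) := by
      have : h ^ 2 / (lam - m * a ^ 2) ^ 2 + a ^ 2 / (lam * (lam - m * a ^ 2)) = 1 / lam ^ 2 *
          ((lam / (lam - m * a ^ 2)) ^ 2 * h ^ 2 + a ^ 2 * (lam / (lam - m * a ^ 2))) := by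
        have : lam ≠ 0 := by linarith
        have : lam - m * a ^ 2 ≠ 0 := by linarith
        field_simp
      rw [this, ← mul_sub, abs_mul, abs_of_nonneg (by positivity)]
      calc _ ≤ 16 * (C * a ^ 2 * (√(ee C η T) + η) * (1 + h ^ 4)) := by
            gcongr
            exact (h3 h).trans (by gcongr)
        _ = 16 * C * (√(ee C η T) + η) * a ^ 2 * 1 * (1 + h ^ 4) := by ring
        _ ≤ _ := by gcongr
    have v2 : δ * stQ m a X (fun x => 1 + x ^ 4) h ≤
        κ * (1 + T) * exp (C * (T + a ^ 2)) * (1 + h ^ 4) := by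
      calc _ ≤ δ * ((1 + C * a ^ 2) * (1 + h ^ 4)) := by gcongr; exact h2 h
        _ = κ * (1 + T) * (exp (C * T) * (1 + C * a ^ 2)) * (1 + h ^ 4) := by rw [hδ]; ring
        _ ≤ _ := by gcongr
    rw [abs_le] at v1 ⊢
    constructor <;> linarith [v1.1, v1.2]
  · have u1 := stq_mono (m := m) (a := a) (X := X) (g := w)
      (g' := fun x => exp (C * T) * (1 + x ^ 4) + 0 * (1 + x ^ 4) + 0)
      (fun x => by have := hw x; linarith) h
    rw [stq_lin m a X (fun x => 1 + x ^ 4) (fun x => 1 + x ^ 4)] at u1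
    calc _ ≤ exp (C * T) * ((1 + C * a ^ 2) * (1 + h ^ 4)) := by
          have := mul_le_mul_of_nonneg_left (h2 h) (exp_pos (C * T)).le
          linarith
      _ = exp (C * T) * (1 + C * a ^ 2) * (1 + h ^ 4) := by ring
      _ ≤ _ := by gcongr

theorem level (hC : 0 ≤ C) (hS : QS' C) (hη : η ≤ 1) (hκ : 0 ≤ κ)
    (hE : ∀ T, 0 ≤ T → T ≤ Q → ee C η T ≤ 1 ∧ 16 * C * (√(ee C η T) + η) ≤ κ)
    {X u : ℝ → ℝ} {m lam c T : ℝ} (hm : 0 < m) (hm1 : m ≤ 1) (hT : 0 ≤ T)
    (H : QI X u lam c (ee C η T)) (s : Multiset ℝ) (S : ℝ) (hs : (s.map (· ^ 2)).sum = S)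
    (ha : ∀ a ∈ s, |a| ≤ η) (hl : 1 / 4 ≤ lam - m * S) (hQ : T + S ≤ Q) :
    0 ≤ S ∧ QI (LX m s X) (LQ m s X u) (lam - m * S) (c + (2 * m)⁻¹ * log (lam / (lam - m * S)))
      (ee C η (T + S)) ∧
    (∀ g Γ, I2 C κ g lam Γ T → I2 C κ (LQ m s X g) (lam - m * S)
      (Γ + S / (lam * (lam - m * S))) (T + S)) ∧
    ∀ w, I3 C w T → I3 C (LQ m s X w) (T + S) := by
  induction s using Multiset.induction_on generalizing S with
  | empty =>
    obtain rfl : 0 = S := by simpa using hs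
    have : lam ≠ 0 := by linarith
    simp only [lx_zero hm, lq_zero hm, mul_zero, sub_zero, add_zero, div_self this, log_one, zero_div]
    exact ⟨le_rfl, H, fun _ _ h => h, fun _ h => h⟩
  | cons a s ih =>
    rw [Multiset.map_cons, Multiset.sum_cons] at hs
    set S' := (s.map (· ^ 2)).sum
    subst hs
    have hma : 0 ≤ m * a ^ 2 := by positivity
    obtain ⟨h0, h1, h2, h3⟩ := ih S' rfl (fun a h => ha a (Multiset.mem_cons_of_mem h))
      (by linarith) (by linarith [sq_nonneg a])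
    have hmS : 0 ≤ m * S' := by positivity
    obtain ⟨k1, k2, k3⟩ := step hC hS hη hκ hE hm hm1 (ha a (Multiset.mem_cons_self _ _))
      (by linarith) (by linarith) (by linarith [sq_nonneg a]) h1
    have e1 : lam - m * S' - m * a ^ 2 = lam - m * (a ^ 2 + S') := by ring
    have e2 : T + S' + a ^ 2 = T + (a ^ 2 + S') := by ring
    have p0 : lam ≠ 0 := by linarith
    have p1 : lam - m * S' ≠ 0 := by linarith
    have p2 : lam - m * (a ^ 2 + S') ≠ 0 := by linarith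
    rw [e1, e2] at k1 k2
    rw [e2] at k3
    simp only [lx_cons hm, lq_cons hm]
    refine ⟨by positivity, ?_, fun g Γ hg => ?_, fun w hw => k3 _ (h3 w hw)⟩
    · convert k1 using 1
      rw [log_div p0 p1, log_div p0 p2, log_div p1 p2]; ring
    · convert k2 _ _ (h2 g Γ hg) using 1
      have : ∀ x y : ℝ, x ≠ 0 → y ≠ 0 → x = lam - m * S' → y = x - m * a ^ 2 →
          (a ^ 2 + S') / (lam * y) = S' / (lam * x) + a ^ 2 / (x * y) := fun x y hx hy e e' => by
        field_simp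
        rw [e', e]; ring
      rw [this _ _ p1 p2 rfl e1.symm, add_assoc]

theorem q_anti {n : ℕ} {q : ℕ → ℝ} (hq : Path n q) {j : ℕ} (hj : j ≤ n) : q j ≤ q 0 ∧ 0 ≤ q j := by
  constructor
  · induction j with
    | zero => exact le_rfl
    | succ j ih => exact (hq.1 j (by omega)).trans (ih (by omega))
  · induction hj using Nat.decreasingInduction with
    | self => exact hq.2.ge
    | of_succ k hk ih => exact ih.trans (hq.1 k hk)

theorem mm_pos {n j : ℕ} (hj : j < n) : 0 < mm n j ∧ mm n j ≤ 1 := by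
  have hn : (0 : ℝ) < n := by exact_mod_cast (by omega : 0 < n)
  have : (j : ℝ) < n := by exact_mod_cast hj
  unfold mm
  refine ⟨by rw [sub_pos, div_lt_one hn]; exact this, sub_le_self _ (by positivity)⟩

theorem lamb_succ (n : ℕ) (b : ℝ) (q : ℕ → ℝ) (j : ℕ) :
    lamb n b q (j + 1) = lamb n b q j - mm n j * (q j - q (j + 1)) := by
  unfold lamb Dk mm; rw [sum_range_succ]; ring

theorem lamb_ge {n : ℕ} {q : ℕ → ℝ} (hq : Path n q) (b : ℝ) {j : ℕ} (hj : j ≤ n) :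
    lamb n b q n ≤ lamb n b q j := by
  induction hj using Nat.decreasingInduction with
  | self => exact le_rfl
  | of_succ k hk ih =>
    rw [lamb_succ] at ih
    have := mul_nonneg (mm_pos hk).1.le (sub_nonneg.2 (hq.1 k hk))
    linarith

end QGm

open QGm in
theorem qG (hQStep : QStep) : QG := by
  obtain ⟨C, hC, hS⟩ := hQStep
  intro Q b1
  refine ⟨exp (C * |Q|), fun ε hε => ?_⟩
  set A := C * |Q| * exp (C * |Q|) + 1 with hA
  set D := A + 16 * C * (A + 1) * (1 + |Q|) * exp (C * |Q|) with hD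
  have hA1 : 1 ≤ A := le_add_of_nonneg_left (by positivity)
  have hAD : A ≤ D := le_add_of_nonneg_right (by positivity)
  have hμ : 0 < min 1 ε := lt_min one_pos hε
  set η := min 1 ε / D with hη
  have hη0 : 0 < η := div_pos hμ (by linarith)
  have hηD : η * D = min 1 ε := div_mul_cancel₀ _ (by linarith)
  have hηA : η * A ≤ min 1 ε := by rw [← hηD]; gcongr
  have hη1 : η ≤ 1 := by nlinarith [min_le_left 1 ε]
  set κ := 16 * C * (η * A + η) with hκ
  have hκ0 : 0 ≤ κ := by positivity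
  have hee : ∀ T, 0 ≤ T → T ≤ |Q| → ee C η T ≤ η ^ 2 * A := fun T h0 h1 => by
    unfold ee
    calc _ ≤ C * η ^ 2 * |Q| * exp (C * |Q|) := by gcongr
      _ ≤ _ := by rw [hA]; nlinarith [sq_nonneg η]
  have hee' : η ^ 2 * A ≤ min 1 ε := by nlinarith
  have hE : ∀ T, 0 ≤ T → T ≤ |Q| → ee C η T ≤ 1 ∧ 16 * C * (√(ee C η T) + η) ≤ κ := fun T h0 h1 => by
    refine ⟨(hee T h0 h1).trans (hee'.trans (min_le_left _ _)), ?_⟩
    rw [hκ]; gcongr
    rw [sqrt_le_iff]
    refine ⟨by positivity, (hee T h0 h1).trans ?_⟩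
    rw [mul_pow]; gcongr; nlinarith
  refine ⟨η, hη0, fun n b q l hn ⟨hq, hl, hv⟩ hQ _ hb => ?_⟩
  have hQ' : q 0 ≤ |Q| := hQ.trans (le_abs_self Q)
  have hb0 : 1 / 4 ≤ b := by simpa [lamb, Dk] using hb.trans (lamb_ge hq b (Nat.zero_le n))
  set Z : ℝ × Unit → ℝ := fun ω => PhG b ω.1
  let X : ℕ → ℝ → ℝ := fun j h => XX (sch l) (mm n) Z j (h, ())
  let G : ℕ → ℕ → (ℝ × Unit → ℝ) → ℝ → ℝ := fun a j g h => Ce (sch l) (mm n) Z a j g (h, ())
  let s : ℕ → Multiset ℝ := fun j => (l.filter (fun s => s.1 = j)).map Prod.snd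
  have hX : ∀ j, X (j + 1) = LX (mm n j) (s j) (X j) := fun j => rfl
  have hG : ∀ a j g, a ≤ j → G a (j + 1) g = LQ (mm n j) (s j) (X j) (G a j g) := fun a j g h => by
    funext x
    simp only [G]
    rw [Aa.ce_succ Z h, Aa.qq_apply]; rfl
  let cc : ℕ → ℝ := fun j => -(log b / 2) +
    (∑ d ∈ range j, (mm n d)⁻¹ * log (lamb n b q d / lamb n b q (d + 1))) / 2
  have hlev := fun (j : ℕ) (hj : j < n) (u : ℝ → ℝ)
      (H : QI (X j) u (lamb n b q j) (cc j) (ee C η (q 0 - q j))) =>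
    level hC hS hη1 hκ0 hE (mm_pos hj).1 (mm_pos hj).2 (sub_nonneg.2 (q_anti hq hj.le).1) H (s j)
      (q j - q (j + 1)) (by rw [← hv j hj]; simp only [s, lvar, Multiset.map_map]; rfl)
      (fun a ha => by
        obtain ⟨t, ht, rfl⟩ := Multiset.mem_map.1 ha
        exact hl t (Multiset.mem_of_mem_filter ht))
      (by rw [← lamb_succ]; exact hb.trans (lamb_ge hq b hj))
      (by linarith [(q_anti hq (j := j + 1) hj).2])
  have e3 : ∀ j, q 0 - q j + (q j - q (j + 1)) = q 0 - q (j + 1) := fun j => by ring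
  have hI : ∀ j, j ≤ n → QI (X j) (G 0 j fun ω => ω.1 / b) (lamb n b q j) (cc j)
      (ee C η (q 0 - q j)) := by
    intro j
    induction j with
    | zero =>
      intro _
      have hb' : b ≠ 0 := by linarith
      have e : lamb n b q 0 = b := by simp [lamb, Dk]
      have hb1 : 0 < b := by linarith
      simp only [e, cc, ee, sub_self, mul_zero, zero_mul, range_zero, sum_empty, zero_div, add_zero]
      refine ⟨fun h => ?_, fun h => ?_, fun h h' => ?_, fun h h' => ?_,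
        fun h => ?_, fun h => ?_⟩
      · show PhG b (-h) = PhG b h
        simp [PhG]
      · exact neg_div b h
      · show PhG b h + (h' - h) * (h / b) ≤ PhG b h'
        have : PhG b h' = PhG b h + (h' - h) * (h / b) + (h' - h) ^ 2 / (2 * b) := by
          unfold PhG; field_simp; ring
        rw [this]; exact le_add_of_nonneg_right (by positivity)
      · show PhG b h' ≤ PhG b h + (h' - h) * (h / b) + _
        refine le_of_eq ?_
        unfold PhG; field_simp; ring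
      · show PhG b h ≤ _
        unfold PhG; linarith
      · show _ ≤ PhG b h
        unfold PhG; linarith
    | succ j ih =>
      intro hj
      have := (hlev j hj _ (ih (by omega))).2.1
      rw [← lamb_succ, e3, ← hX, ← hG _ _ _ (Nat.zero_le j)] at this
      convert this using 1
      simp only [cc]; rw [sum_range_succ, mul_inv]; ring
  have hT : ∀ j, j ≤ n → 0 ≤ q 0 - q j ∧ q 0 - q j ≤ |Q| := fun j hj =>
    ⟨sub_nonneg.2 (q_anti hq hj).1, by linarith [(q_anti hq hj).2]⟩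
  refine ⟨?_, fun d hd => ?_, ?_⟩
  · have h1 := (hI n le_rfl).low 0
    have h2 := (hee _ (hT n le_rfl).1 (hT n le_rfl).2).trans (hee'.trans (min_le_right _ _))
    simp only [cc] at h1
    unfold qv
    refine le_trans ?_ h1
    norm_num; linarith
  · rw [aApi.e2mul (sch l) (mm n) Z d n (fun ω => ω.1 / b) (fun ω => ω.1 / b)]
    set g : ℝ × Unit → ℝ := fun x => Ce (sch l) (mm n) Z 0 d (fun ω => ω.1 / b) x *
      Ce (sch l) (mm n) Z 0 d (fun ω => ω.1 / b) x
    have key : ∀ j, d ≤ j → j ≤ n → I2 C κ (G d j g) (lamb n b q j)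
        (∑ k ∈ Ico d j, (q k - q (k + 1)) / (lamb n b q k * lamb n b q (k + 1))) (q 0 - q j) := by
      intro j hdj
      induction j, hdj using Nat.le_induction with
      | base =>
        intro _ h
        obtain ⟨t0, t1⟩ := hT d hd
        have he : 0 ≤ ee C η (q 0 - q d) := by unfold ee; positivity
        have h1 := (hS _ _ 1 0 _ _ _ one_pos le_rfl (by simp)
          (by simpa using hb.trans (lamb_ge hq b hd)) he (hE _ t0 t1).1 (hI d hd)).2.2.2 h
        have h2 := (hE _ t0 t1).2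
        simp only [G, Aa.self _ _ _ le_rfl, Ico_self, sum_empty, add_zero, g, ← sq]
        refine h1.trans ?_
        have h3 : 1 ≤ exp (C * (q 0 - q d)) := one_le_exp (by positivity)
        have h4 : C * √(ee C η (q 0 - q d)) ≤ κ := by
          nlinarith [mul_nonneg hC (sqrt_nonneg (ee C η (q 0 - q d))), mul_nonneg hC hη0.le]
        calc _ ≤ κ * 1 * 1 * (1 + h ^ 4) := by rw [mul_one, mul_one]; gcongr
          _ ≤ _ := by gcongr; linarith
      | succ j hdj ih =>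
        intro hj
        have := (hlev j hj _ (hI j (by omega))).2.2.1 _ _ (ih (by omega))
        rw [← lamb_succ, e3, ← hG _ _ _ hdj] at this
        rwa [sum_Ico_succ_top hdj]
    have h1 := key n hd le_rfl 0
    obtain ⟨t0, t1⟩ := hT n le_rfl
    have h2 : κ * (1 + (q 0 - q n)) * exp (C * (q 0 - q n)) ≤ ε := by
      calc _ ≤ κ * (1 + |Q|) * exp (C * |Q|) := by gcongr
        _ ≤ η * D := by rw [hκ, hD]; nlinarith
        _ ≤ ε := hηD ▸ min_le_right _ _
    simp only [G] at h1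
    norm_num at h1
    exact h1.trans (by simpa using h2)
  · have key : ∀ j, j ≤ n → I3 C (G 0 j fun ω => ω.1 ^ 4) (q 0 - q j) := by
      intro j
      induction j with
      | zero => intro _ h; show h ^ 4 ≤ _; simp
      | succ j ih =>
        intro hj
        have := (hlev j hj _ (hI j (by omega))).2.2.2 _ (ih (by omega))
        rwa [e3, ← hG _ _ _ (Nat.zero_le j)] at this
    have h1 := key n le_rfl 0
    obtain ⟨t0, t1⟩ := hT n le_rfl
    refine h1.trans ?_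
    norm_num; gcongr

end Vale.Agent.P157
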