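import Vale.Agent.P157.StmS

namespace Vale.Agent.P157

open Real

namespace QSt

theorem hoeff0 {p q : ℝ} (hp : 0 < p) (hq : 0 < q) (h1 : p + q = 1) (x : ℝ) :
    log (p * exp x + q) ≤ p * x + x ^ 2 / 8 := by
  have hd : ∀ y, 0 < p * exp y + q := fun y => by positivity
  let G : ℝ → ℝ := fun y => p * exp y / (p * exp y + q) - p - y / 4
  have hG : ∀ y, HasDerivAt G (p * exp y * q / (p * exp y + q) ^ 2 - 1 / 4) y := fun y => by
    have h := ((((hasDerivAt_exp y).const_mul p).div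
      (((hasDerivAt_exp y).const_mul p).add_const q) (hd y).ne').sub_const p).sub
      ((hasDerivAt_id y).div_const 4)
    refine h.congr_deriv ?_
    congr 2; ring
  have hA : Antitone G := antitone_of_hasDerivAt_nonpos hG fun y => by
    show _ - _ ≤ (0 : ℝ)
    rw [sub_nonpos, div_le_iff₀ (by have := hd y; positivity)]
    nlinarith [sq_nonneg (p * exp y - q)]
  have hG0 : G 0 = 0 := by simp [G, h1]
  let F : ℝ → ℝ := fun y => log (p * exp y + q) - p * y - y ^ 2 / 8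
  have hF : ∀ y, HasDerivAt F (G y) y := fun y => by
    have h := (((((hasDerivAt_exp y).const_mul p).add_const q).log (hd y).ne').sub
      ((hasDerivAt_id y).const_mul p)).sub ((hasDerivAt_pow 2 y).div_const 8)
    refine h.congr_deriv ?_
    simp only [G]; norm_num; ring
  have hF0 : F 0 = 0 := by simp [F, h1]
  have : F x ≤ 0 := by
    rcases lt_trichotomy x 0 with hx | hx | hx
    · obtain ⟨c, hc, hc'⟩ := exists_hasDerivAt_eq_slope F G hx
        (fun y _ => (hF y).continuousAt.continuousWithinAt) (fun y _ => hF y)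
      have := hA hc.2.le
      rw [hG0, hc', hF0, le_div_iff₀ (by linarith)] at this
      linarith
    · rw [hx, hF0]
    · obtain ⟨c, hc, hc'⟩ := exists_hasDerivAt_eq_slope F G hx
        (fun y _ => (hF y).continuousAt.continuousWithinAt) (fun y _ => hF y)
      have := hA hc.1.le
      rw [hG0, hc', hF0, div_le_iff₀ (by linarith)] at this
      linarith
  simp only [F] at this
  linarith

theorem hoeff {p q : ℝ} (hp : 0 < p) (hq : 0 < q) (h1 : p + q = 1) (x y : ℝ) :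
    log (p * exp x + q * exp y) ≤ p * x + q * y + (x - y) ^ 2 / 8 := by
  have h := hoeff0 hp hq h1 (x - y)
  have : p * exp x + q * exp y = exp y * (p * exp (x - y) + q) := by
    rw [exp_sub]; field_simp
  rw [this, log_mul (exp_pos _).ne' (by positivity), log_exp]
  have : q = 1 - p := by linarith
  subst this
  linarith

theorem jens {p q : ℝ} (hp : 0 < p) (hq : 0 < q) (h1 : p + q = 1) (x y : ℝ) :
    p * x + q * y ≤ log (p * exp x + q * exp y) := by
  rw [le_log_iff_exp_le (by positivity)]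
  simpa using convexOn_exp.2 (Set.mem_univ x) (Set.mem_univ y) hp.le hq.le h1

/-- up weight -/
noncomputable def wp (α β : ℝ) : ℝ := exp α / (exp α + exp β)

theorem wp_pos (α β : ℝ) : 0 < wp α β := by unfold wp; positivity

theorem wp_add (α β : ℝ) : wp α β + wp β α = 1 := by
  unfold wp; rw [add_comm (exp β)]; field_simp

theorem lse (α β x y : ℝ) : log ((exp (α + x) + exp (β + y)) / 2) =
    log ((exp α + exp β) / 2) + log (wp α β * exp x + wp β α * exp y) := by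
  have := wp_pos α β
  have := wp_pos β α
  rw [← log_mul (by positivity) (by positivity)]
  congr 1
  unfold wp
  rw [exp_add, exp_add, add_comm (exp β) (exp α)]
  field_simp

theorem th0 {y : ℝ} (hy : 0 ≤ y) : y - y ^ 3 ≤ wp y (-y) - wp (-y) y ∧ wp y (-y) - wp (-y) y ≤ y := by
  have hc : 0 < exp y + exp (-y) := by positivity
  have e : wp y (-y) - wp (-y) y = (exp y - exp (-y)) / (exp y + exp (-y)) := by
    unfold wp; rw [add_comm (exp (-y))]; ring
  rw [e]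
  constructor
  · have h1 : y ≤ sinh y := self_le_sinh_iff.2 hy
    have h2 := cosh_le_exp_half_sq y
    have h3 := add_one_le_exp (-(y ^ 2 / 2))
    have h4 : exp (-(y ^ 2 / 2)) * exp (y ^ 2 / 2) = 1 := by rw [← exp_add]; simp
    rw [sinh_eq] at h1
    rw [cosh_eq] at h2
    rw [le_div_iff₀ hc]
    rcases le_total (y - y ^ 3) 0 with h5 | h5
    · nlinarith
    · have h6 : (y - y ^ 3) * (exp y + exp (-y)) ≤ (y - y ^ 3) * (2 * exp (y ^ 2 / 2)) := by
        gcongr; linarith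
      have h7 : (y - y ^ 3) * exp (y ^ 2 / 2) ≤ (y * exp (-(y ^ 2 / 2))) * exp (y ^ 2 / 2) := by
        gcongr; nlinarith [pow_nonneg hy 3]
      rw [mul_assoc, h4] at h7
      nlinarith
  · rw [div_le_iff₀ hc]
    rcases le_or_gt 1 y with h | h
    · nlinarith [exp_pos y, exp_pos (-y)]
    · have h1 := exp_le_two_add_div_two_sub (x := 2 * y) (by linarith) (by linarith)
      rw [le_div_iff₀ (by linarith)] at h1
      have h2 : exp (2 * y) * exp (-y) = exp y := by rw [← exp_add]; ring_nf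
      nlinarith [exp_pos (-y)]

theorem wp_sh (α β : ℝ) : wp α β = wp ((α - β) / 2) (-((α - β) / 2)) := by
  unfold wp
  have h1 : exp α = exp ((α + β) / 2) * exp ((α - β) / 2) := by rw [← exp_add]; ring_nf
  have h2 : exp β = exp ((α + β) / 2) * exp (-((α - β) / 2)) := by rw [← exp_add]; ring_nf
  rw [h1, h2]; field_simp

theorem th (α β : ℝ) : |wp α β - wp β α - (α - β) / 2| ≤ |(α - β) / 2| ^ 3 ∧
    |wp α β - wp β α| ≤ |(α - β) / 2| := by
  rw [wp_sh α β, wp_sh β α, show (β - α) / 2 = -((α - β) / 2) by ring, neg_neg]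
  generalize (α - β) / 2 = y
  rcases le_total 0 y with h | h
  · obtain ⟨h1, h2⟩ := th0 h
    have h3 := wp_add y (-y)
    have h4 : wp (-y) y ≤ wp y (-y) := by
      unfold wp; rw [add_comm (exp (-y))]; gcongr; linarith
    rw [abs_of_nonneg h, abs_le, abs_le]
    refine ⟨⟨by linarith, by nlinarith [pow_nonneg h 3]⟩, by linarith, h2⟩
  · obtain ⟨h1, h2⟩ := th0 (neg_nonneg.2 h)
    rw [neg_neg] at h1 h2
    have h4 : wp y (-y) ≤ wp (-y) y := by
      unfold wp; rw [add_comm (exp (-y))]; gcongr; linarith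
    rw [abs_of_nonpos h, abs_le, abs_le]
    refine ⟨⟨by nlinarith [pow_nonneg (neg_nonneg.2 h) 3], by linarith⟩, by linarith, by linarith⟩

theorem stq (m a : ℝ) (X g : ℝ → ℝ) (h : ℝ) : stQ m a X g h =
    wp (m * X (h + a)) (m * X (h - a)) * g (h + a) + wp (m * X (h - a)) (m * X (h + a)) * g (h - a) := by
  unfold stQ wp
  rw [add_comm (exp (m * X (h - a))) (exp (m * X (h + a)))]; ring

theorem lcosh (x : ℝ) : x ^ 2 / 2 - x ^ 4 / 4 ≤ log ((exp x + exp (-x)) / 2) ∧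
    log ((exp x + exp (-x)) / 2) ≤ x ^ 2 / 2 := by
  rw [← cosh_eq]
  refine ⟨?_, (log_le_iff_le_exp (cosh_pos x)).2 (cosh_le_exp_half_sq x)⟩
  have h1 : 1 + x ^ 2 / 2 ≤ cosh x := by
    have h2 : cosh x = 1 + 2 * sinh (x / 2) ^ 2 := by
      rw [show x = 2 * (x / 2) by ring, cosh_two_mul, cosh_sq]; ring_nf
    have h3 : |x / 2| ≤ |sinh (x / 2)| := by rw [abs_sinh]; exact self_le_sinh_iff.2 (abs_nonneg _)
    have := sq_le_sq.2 h3
    nlinarith
  have h4 := one_sub_inv_le_log_of_pos (by positivity : 0 < 1 + x ^ 2 / 2)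
  have h5 := log_le_log (by positivity) h1
  have h6 : (1 + x ^ 2 / 2)⁻¹ ≤ 1 - x ^ 2 / 2 + x ^ 4 / 4 := by
    rw [inv_le_iff_one_le_mul₀ (by positivity)]
    nlinarith [sq_nonneg (x ^ 3)]
  linarith

variable {X u : ℝ → ℝ} {lam c e m a : ℝ}

theorem lip (H : QI X u lam c e) (hl : 0 < lam) (h h' : ℝ) : |u h - u h'| ≤ |h - h'| / lam := by
  have h1 := H.sub h h'
  have h2 := H.sub h' h
  have h3 := H.smo h h'
  have h4 := H.smo h' h
  have h5 : (h' - h) ^ 2 / (2 * lam) + (h - h') ^ 2 / (2 * lam) = (h - h') * ((h - h') / lam) := by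
    field_simp; ring
  rcases lt_trichotomy h h' with hh | hh | hh
  · have a1 : 0 ≤ u h' - u h := by nlinarith
    have a2 : u h' - u h ≤ (h' - h) / lam := by
      have : (h - h') / lam = -((h' - h) / lam) := by ring
      nlinarith
    rw [abs_sub_comm, abs_sub_comm h, abs_of_nonneg a1, abs_of_pos (by linarith)]; exact a2
  · simp [hh]
  · have a1 : 0 ≤ u h - u h' := by nlinarith
    have a2 : u h - u h' ≤ (h - h') / lam := by nlinarith
    rw [abs_of_nonneg a1, abs_of_pos (by linarith)]; exact a2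

theorem ub (H : QI X u lam c e) (hl : 0 < lam) (h : ℝ) : |u h| ≤ |h| / lam := by
  have h0 : u 0 = 0 := by have := H.od 0; rw [neg_zero] at this; linarith
  simpa [h0] using lip H hl h 0

theorem dv4 (hl : 1 / 4 ≤ lam) {x : ℝ} (hx : 0 ≤ x) : x / lam ≤ 4 * x := by
  rw [div_le_iff₀ (by linarith)]; nlinarith

theorem cl (H : QI X u lam c e) (hl : 1 / 4 ≤ lam) (he : 0 ≤ e) (h : ℝ) :
    |u h - h / lam| ≤ 3 * √e * (1 + h ^ 2) := by
  have hl0 : 0 < lam := by linarith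
  set w := u h - h / lam with hw
  have h1 := H.sub h (h + lam * w)
  have h2 := H.up (h + lam * w)
  have h3 := H.low h
  have h4 : (h + lam * w) ^ 2 / (2 * lam) = h ^ 2 / (2 * lam) + h * w + lam * w ^ 2 / 2 := by
    field_simp; ring
  have h5 : (h + lam * w - h) * u h = lam * w ^ 2 + h * w := by
    rw [show u h = w + h / lam by ring]; field_simp; ring
  have h6 : w ^ 2 ≤ 8 * (e * (1 + h ^ 4)) := by nlinarith [sq_nonneg w]
  refine abs_le_of_sq_le_sq' ?_ (by positivity) |> abs_le.2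
  rw [mul_pow, mul_pow, sq_sqrt he]
  nlinarith [mul_nonneg he (sq_nonneg h), mul_nonneg he (sq_nonneg (h ^ 2))]

theorem dx (H : QI X u lam c e) (hl : 1 / 4 ≤ lam) (h a : ℝ) :
    |(X (h + a) - X (h - a)) / 2 - a * u h| ≤ a ^ 2 := by
  have h1 := H.sub h (h + a)
  have h2 := H.sub h (h - a)
  have h3 := H.smo h (h + a)
  have h4 := H.smo h (h - a)
  have h5 : a ^ 2 / (2 * lam) ≤ 2 * a ^ 2 := by
    rw [div_le_iff₀ (by linarith)]; nlinarith [sq_nonneg a]
  rw [show h + a - h = a by ring] at h1 h3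
  rw [show h - a - h = -a by ring] at h2 h4
  rw [neg_sq] at h4
  rw [abs_le]; constructor <;> linarith

theorem p4 (h : ℝ) : |h| ≤ 1 + h ^ 4 ∧ h ^ 2 ≤ 1 + h ^ 4 ∧ |h| ^ 3 ≤ 1 + h ^ 4 ∧ |h| ^ 4 = h ^ 4 ∧
    |h| ^ 2 = h ^ 2 := by
  have h4 : |h| ^ 4 = h ^ 4 := by rw [← abs_pow, abs_of_nonneg (by positivity)]
  rw [← h4, ← sq_abs h]
  have := abs_nonneg h
  generalize |h| = t at *
  refine ⟨?_, ?_, ?_, rfl, rfl⟩
  · nlinarith [sq_nonneg (t ^ 2 - 1), sq_nonneg (t - 1), sq_nonneg (t ^ 2 - 1 / 2), sq_nonneg (t - 1 / 2)]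
  · nlinarith [sq_nonneg (t ^ 2 - 1)]
  · nlinarith [sq_nonneg (t ^ 2 - 1), sq_nonneg (t ^ 2 - t), sq_nonneg (t - 1), sq_nonneg (t ^ 2 - t / 2)]

/-- fourth moment under a nearly balanced two point law -/
theorem four {p q h a : ℝ} (h1 : p + q = 1) (ha : |a| ≤ 1) (hD : |p - q| ≤ |a| * (4 * |h| + 1)) :
    p * (1 + (h + a) ^ 4) + q * (1 + (h - a) ^ 4) ≤ (1 + 60 * a ^ 2) * (1 + h ^ 4) := by
  have e1 : p * (1 + (h + a) ^ 4) + q * (1 + (h - a) ^ 4) =
      1 + h ^ 4 + 6 * h ^ 2 * a ^ 2 + a ^ 4 + (p - q) * (4 * h * a * (h ^ 2 + a ^ 2)) := by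
    have : q = 1 - p := by linarith
    subst this; ring
  obtain ⟨b1, b2, b3, b4, b5⟩ := p4 h
  have ha2 : a ^ 2 ≤ 1 := by rw [← sq_abs]; nlinarith [abs_nonneg a]
  have e2 : (p - q) * (4 * h * a * (h ^ 2 + a ^ 2)) ≤
      |a| * (4 * |h| + 1) * (4 * |h| * |a| * (|h| ^ 2 + 1)) := by
    refine (le_abs_self _).trans ?_
    rw [abs_mul, abs_mul, abs_mul, abs_mul, abs_of_nonneg (by positivity : 0 ≤ h ^ 2 + a ^ 2), b5,
      abs_of_pos (by norm_num : (0 : ℝ) < 4)]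
    gcongr
  have e3 : |a| * (4 * |h| + 1) * (4 * |h| * |a| * (|h| ^ 2 + 1)) =
      a ^ 2 * (16 * |h| ^ 4 + 4 * |h| ^ 3 + 16 * |h| ^ 2 + 4 * |h|) := by
    rw [← sq_abs a]; ring
  rw [e3, b4, b5] at e2
  have e4 : a ^ 2 * (16 * h ^ 4 + 4 * |h| ^ 3 + 16 * h ^ 2 + 4 * |h| + 6 * h ^ 2 + a ^ 2) ≤
      a ^ 2 * (60 * (1 + h ^ 4)) := by
    gcongr; nlinarith [sq_nonneg (h ^ 2)]
  rw [e1]; nlinarith

theorem yb (H : QI X u lam c e) (hl : 1 / 4 ≤ lam) (hm : 0 < m) (hm1 : m ≤ 1) (ha : |a| ≤ 1) (h : ℝ) :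
    |(m * X (h + a) - m * X (h - a)) / 2 - m * a * u h| ≤ a ^ 2 ∧
    |(m * X (h + a) - m * X (h - a)) / 2| ≤ |a| * (4 * |h| + 1) := by
  have h1 := dx H hl h a
  have h2 := (ub H (by linarith) h).trans (dv4 hl (abs_nonneg h))
  have h3 : |(m * X (h + a) - m * X (h - a)) / 2 - m * a * u h| ≤ a ^ 2 := by
    rw [show (m * X (h + a) - m * X (h - a)) / 2 - m * a * u h =
      m * ((X (h + a) - X (h - a)) / 2 - a * u h) by ring, abs_mul, abs_of_pos hm]
    nlinarith [abs_nonneg ((X (h + a) - X (h - a)) / 2 - a * u h)]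
  refine ⟨h3, ?_⟩
  have h4 : |m * a * u h| ≤ 1 * |a| * (4 * |h|) := by
    rw [abs_mul, abs_mul, abs_of_pos hm]; gcongr
  have h5 := abs_sub_abs_le_abs_sub ((m * X (h + a) - m * X (h - a)) / 2) (m * a * u h)
  rw [← sq_abs a] at h3
  nlinarith [abs_nonneg a]

theorem stx_diff (m a : ℝ) (X Y : ℝ → ℝ) (h h' : ℝ) : stX m a Y h' = stX m a X h + m⁻¹ *
    log (wp (m * X (h + a)) (m * X (h - a)) * exp (m * (Y (h' + a) - X (h + a))) +
      wp (m * X (h - a)) (m * X (h + a)) * exp (m * (Y (h' - a) - X (h - a)))) := by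
  unfold stX
  rw [← mul_add, ← lse]
  congr 4 <;> ring_nf

theorem stx_quad (hm : 0 < m) (hl : 0 < lam) (c h : ℝ) :
    stX m a (fun x => x ^ 2 / (2 * lam) + c) h = c + (h ^ 2 + a ^ 2) / (2 * lam) +
      m⁻¹ * log ((exp (m * h * a / lam) + exp (-(m * h * a / lam))) / 2) := by
  unfold stX
  have e1 : m * ((h + a) ^ 2 / (2 * lam) + c) =
      m * (c + (h ^ 2 + a ^ 2) / (2 * lam)) + m * h * a / lam := by field_simp; ring
  have e2 : m * ((h - a) ^ 2 / (2 * lam) + c) =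
      m * (c + (h ^ 2 + a ^ 2) / (2 * lam)) + -(m * h * a / lam) := by field_simp; ring
  rw [e1, e2, exp_add, exp_add, ← mul_add, mul_div_assoc, log_mul (exp_pos _).ne' (by positivity),
    log_exp, mul_add, inv_mul_cancel_left₀ hm.ne']

theorem stx_ge (hm : 0 < m) (X Y : ℝ → ℝ) (h h' : ℝ) : stX m a X h +
    (wp (m * X (h + a)) (m * X (h - a)) * (Y (h' + a) - X (h + a)) +
      wp (m * X (h - a)) (m * X (h + a)) * (Y (h' - a) - X (h - a))) ≤ stX m a Y h' := by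
  rw [stx_diff m a X Y h h', add_le_add_iff_left, le_inv_mul_iff₀ hm]
  refine le_trans (le_of_eq ?_) (jens (wp_pos _ _) (wp_pos _ _) (wp_add _ _) _ _)
  ring

theorem stx_mono (hm : 0 < m) {X Y : ℝ → ℝ} (H : ∀ h, X h ≤ Y h) (h : ℝ) :
    stX m a X h ≤ stX m a Y h := by
  have := stx_ge (a := a) hm X Y h h
  have h1 := mul_nonneg (wp_pos (m * X (h + a)) (m * X (h - a))).le (sub_nonneg.2 (H (h + a)))
  have h2 := mul_nonneg (wp_pos (m * X (h - a)) (m * X (h + a))).le (sub_nonneg.2 (H (h - a)))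
  linarith

theorem qi_step (H : QI X u lam c e) (hm : 0 < m) (hm1 : m ≤ 1) (ha : |a| ≤ 1)
    (hl : 1 / 4 ≤ lam - m * a ^ 2) (he : 0 ≤ e) :
    QI (stX m a X) (stQ m a X u) (lam - m * a ^ 2) (c + (2 * m)⁻¹ * log (lam / (lam - m * a ^ 2)))
      (e * (1 + 400 * a ^ 2) + 400 * a ^ 4) := by
  have hma : 0 ≤ m * a ^ 2 := by positivity
  have hl1 : 1 / 4 ≤ lam := by linarith
  have hl0 : 0 < lam := by linarith
  have hl' : 0 < lam - m * a ^ 2 := by linarith
  have k1 : 1 / (2 * lam) + m * a ^ 2 / (2 * lam ^ 2) ≤ 1 / (2 * (lam - m * a ^ 2)) := by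
    rw [div_add_div _ _ (by positivity) (by positivity), div_le_div_iff₀ (by positivity) (by positivity)]
    nlinarith [mul_nonneg hl0.le (sq_nonneg (m * a ^ 2))]
  refine ⟨fun h => ?_, fun h => ?_, fun h h' => ?_, fun h h' => ?_, fun h => ?_, fun h => ?_⟩
  · unfold stX
    rw [show -h + a = -(h - a) by ring, show -h - a = -(h + a) by ring, H.ev, H.ev, add_comm]
  · unfold stQ
    rw [show -h + a = -(h - a) by ring, show -h - a = -(h + a) by ring, H.ev, H.ev, H.od, H.od,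
      add_comm (exp (m * X (h - a))) (exp (m * X (h + a)))]
    ring
  · refine le_trans ?_ (stx_ge hm X X h h')
    have h1 := mul_le_mul_of_nonneg_left (H.sub (h + a) (h' + a))
      (wp_pos (m * X (h + a)) (m * X (h - a))).le
    have h2 := mul_le_mul_of_nonneg_left (H.sub (h - a) (h' - a))
      (wp_pos (m * X (h - a)) (m * X (h + a))).le
    rw [stq]; linarith
  · rw [stx_diff m a X X h h', stq]
    set p := wp (m * X (h + a)) (m * X (h - a))
    set q := wp (m * X (h - a)) (m * X (h + a))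
    have hp : 0 < p := wp_pos _ _
    have hq : 0 < q := wp_pos _ _
    have hpq : p + q = 1 := wp_add _ _
    set t := h' - h with ht
    have h1 := H.smo (h + a) (h' + a)
    have h2 := H.smo (h - a) (h' - a)
    rw [show h' + a - (h + a) = t by ring] at h1
    rw [show h' - a - (h - a) = t by ring] at h2
    have h3 : log (p * exp (m * (X (h' + a) - X (h + a))) + q * exp (m * (X (h' - a) - X (h - a)))) ≤
        log (p * exp (m * (t * u (h + a) + t ^ 2 / (2 * lam))) +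
          q * exp (m * (t * u (h - a) + t ^ 2 / (2 * lam)))) := by
      gcongr <;> linarith
    have h4 := h3.trans (hoeff hp hq hpq _ _)
    have h5 : (u (h + a) - u (h - a)) ^ 2 ≤ (2 * a / lam) ^ 2 := by
      rw [sq_le_sq, abs_div, abs_of_pos hl0, show 2 * a = h + a - (h - a) by ring]
      exact lip H hl0 _ _
    have h6 : m * t ^ 2 * (u (h + a) - u (h - a)) ^ 2 / 8 ≤ t ^ 2 * (m * a ^ 2 / (2 * lam ^ 2)) := by
      calc _ ≤ m * t ^ 2 * (2 * a / lam) ^ 2 / 8 := by gcongr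
        _ = _ := by field_simp; ring
    have h7 := mul_le_mul_of_nonneg_left k1 (sq_nonneg t)
    rw [add_assoc, add_le_add_iff_left, inv_mul_le_iff₀ hm]
    refine h4.trans ?_
    have e1 : p * (m * (t * u (h + a) + t ^ 2 / (2 * lam))) + q * (m * (t * u (h - a) +
        t ^ 2 / (2 * lam))) + (m * (t * u (h + a) + t ^ 2 / (2 * lam)) -
        m * (t * u (h - a) + t ^ 2 / (2 * lam))) ^ 2 / 8 = m * (t * (p * u (h + a) + q * u (h - a)) +
          (p + q) * (t ^ 2 * (1 / (2 * lam))) + m * t ^ 2 * (u (h + a) - u (h - a)) ^ 2 / 8) := by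
      ring
    rw [e1, hpq]
    refine mul_le_mul_of_nonneg_left ?_ hm.le
    rw [div_eq_mul_one_div (t ^ 2) (2 * (lam - m * a ^ 2))]
    linarith
  · refine (stx_mono hm H.up h).trans ?_
    rw [stx_quad hm hl0]
    have h1 : m⁻¹ * log ((exp (m * h * a / lam) + exp (-(m * h * a / lam))) / 2) ≤
        h ^ 2 * (m * a ^ 2 / (2 * lam ^ 2)) := by
      rw [inv_mul_le_iff₀ hm]
      exact (lcosh _).2.trans (le_of_eq (by field_simp))
    have h2 : a ^ 2 / (2 * lam) ≤ (2 * m)⁻¹ * log (lam / (lam - m * a ^ 2)) := by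
      rw [le_inv_mul_iff₀ (by positivity)]
      refine le_trans (le_of_eq ?_) (one_sub_inv_le_log_of_pos (by positivity))
      field_simp; ring
    have h7 := mul_le_mul_of_nonneg_left k1 (sq_nonneg h)
    rw [div_eq_mul_one_div (h ^ 2) (2 * (lam - m * a ^ 2)), add_div,
      div_eq_mul_one_div (h ^ 2) (2 * lam)]
    linarith
  · have h0 := stx_ge (a := a) hm (fun x => x ^ 2 / (2 * lam) + c) X h h
    refine le_trans ?_ h0
    rw [stx_quad hm hl0]
    set p := wp (m * ((h + a) ^ 2 / (2 * lam) + c)) (m * ((h - a) ^ 2 / (2 * lam) + c))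
    set q := wp (m * ((h - a) ^ 2 / (2 * lam) + c)) (m * ((h + a) ^ 2 / (2 * lam) + c))
    have hp : 0 < p := wp_pos _ _
    have hq : 0 < q := wp_pos _ _
    have hpq : p + q = 1 := wp_add _ _
    have hD : |p - q| ≤ |a| * (4 * |h| + 1) := by
      refine (th _ _).2.trans ?_
      rw [show (m * ((h + a) ^ 2 / (2 * lam) + c) - m * ((h - a) ^ 2 / (2 * lam) + c)) / 2 =
        m * (a * (h / lam)) by field_simp; ring, abs_mul, abs_mul, abs_div, abs_of_pos hm,
        abs_of_pos hl0]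
      have := dv4 hl1 (abs_nonneg h)
      calc m * (|a| * (|h| / lam)) ≤ 1 * (|a| * (4 * |h| + 1)) := by gcongr; linarith
        _ = _ := one_mul _
    have h1 := mul_le_mul_of_nonneg_left (four hpq ha hD) he
    have h2 := mul_le_mul_of_nonneg_left (H.low (h + a)) hp.le
    have h3 := mul_le_mul_of_nonneg_left (H.low (h - a)) hq.le
    have hi : 1 / lam ≤ 4 := by simpa using dv4 hl1 zero_le_one
    have hi' : 1 / (lam - m * a ^ 2) ≤ 4 := by simpa using dv4 hl zero_le_one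
    have h4 : h ^ 2 * (m * a ^ 2 / (2 * lam ^ 2)) - 64 * a ^ 4 * h ^ 4 ≤
        m⁻¹ * log ((exp (m * h * a / lam) + exp (-(m * h * a / lam))) / 2) := by
      rw [le_inv_mul_iff₀ hm]
      refine le_trans ?_ (lcosh _).1
      have : m ^ 3 * (1 / lam) ^ 4 * (a ^ 4 * h ^ 4) ≤ 1 ^ 3 * 4 ^ 4 * (a ^ 4 * h ^ 4) := by gcongr
      have e2 : (m * h * a / lam) ^ 2 / 2 - (m * h * a / lam) ^ 4 / 4 =
          m * (h ^ 2 * (m * a ^ 2 / (2 * lam ^ 2)) - m ^ 3 * (1 / lam) ^ 4 * (a ^ 4 * h ^ 4) / 4) := by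
        field_simp
      rw [e2]
      gcongr; linarith
    have h5 : (2 * m)⁻¹ * log (lam / (lam - m * a ^ 2)) ≤ a ^ 2 / (2 * lam) + 8 * a ^ 4 := by
      rw [inv_mul_le_iff₀ (by positivity)]
      refine (log_le_sub_one_of_pos (by positivity)).trans ?_
      have : m * (1 / lam) * (1 / (lam - m * a ^ 2)) * a ^ 4 ≤ 1 * 4 * 4 * a ^ 4 := by gcongr
      have e2 : lam / (lam - m * a ^ 2) - 1 = 2 * m * (a ^ 2 / (2 * lam) +
          m * (1 / lam) * (1 / (lam - m * a ^ 2)) * a ^ 4 / 2) := by field_simp; ring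
      rw [e2]
      gcongr 2 * m * (_ + ?_); linarith
    have h6 : h ^ 2 / (2 * (lam - m * a ^ 2)) ≤
        h ^ 2 / (2 * lam) + h ^ 2 * (m * a ^ 2 / (2 * lam ^ 2)) + 32 * a ^ 4 * h ^ 2 := by
      have : m ^ 2 * (1 / lam) ^ 2 * (1 / (lam - m * a ^ 2)) * (a ^ 4 * h ^ 2) ≤
          1 ^ 2 * 4 ^ 2 * 4 * (a ^ 4 * h ^ 2) := by gcongr
      have e2 : h ^ 2 / (2 * (lam - m * a ^ 2)) = h ^ 2 / (2 * lam) + h ^ 2 * (m * a ^ 2 / (2 * lam ^ 2)) +
          m ^ 2 * (1 / lam) ^ 2 * (1 / (lam - m * a ^ 2)) * (a ^ 4 * h ^ 2) / 2 := by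
        field_simp; ring
      linarith
    have h7 := mul_le_mul_of_nonneg_left (p4 h).2.1 (by positivity : 0 ≤ a ^ 4)
    have h8 : 0 ≤ e * a ^ 2 * (1 + h ^ 4) := by positivity
    have h9 : 0 ≤ a ^ 4 * h ^ 4 := by positivity
    have h10 : 0 ≤ a ^ 4 := by positivity
    rw [add_div]
    nlinarith

theorem sq_step (H : QI X u lam c e) (hm : 0 < m) (hm1 : m ≤ 1) (ha : |a| ≤ 1)
    (hl : 1 / 4 ≤ lam - m * a ^ 2) (he : 0 ≤ e) (h : ℝ) :
    |stQ m a X (fun x => x ^ 2) h -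
      ((lam / (lam - m * a ^ 2)) ^ 2 * h ^ 2 + a ^ 2 * (lam / (lam - m * a ^ 2)))| ≤
        400 * a ^ 2 * (√e + |a|) * (1 + h ^ 4) := by
  have hma : 0 ≤ m * a ^ 2 := by positivity
  have hl1 : 1 / 4 ≤ lam := by linarith
  have hl0 : 0 < lam := by linarith
  have hl' : 0 < lam - m * a ^ 2 := by linarith
  have hi : 1 / lam ≤ 4 := by simpa using dv4 hl1 zero_le_one
  have hi' : 1 / (lam - m * a ^ 2) ≤ 4 := by simpa using dv4 hl zero_le_one
  obtain ⟨y1, y2⟩ := yb H hl1 hm hm1 ha h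
  have y3 := (th (m * X (h + a)) (m * X (h - a))).1
  have y4 := cl H hl1 he h
  rw [stq]
  set p := wp (m * X (h + a)) (m * X (h - a))
  set q := wp (m * X (h - a)) (m * X (h + a))
  have hpq : p + q = 1 := wp_add _ _
  set y := (m * X (h + a) - m * X (h - a)) / 2
  have e1 : p * (h + a) ^ 2 + q * (h - a) ^ 2 -
      ((lam / (lam - m * a ^ 2)) ^ 2 * h ^ 2 + a ^ 2 * (lam / (lam - m * a ^ 2))) =
      2 * h * a * (p - q - y) + 2 * h * a * (y - m * a * u h) + 2 * m * a ^ 2 * h * (u h - h / lam) -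
      (2 * m ^ 2 * (1 / lam) * (1 / (lam - m * a ^ 2)) * (a ^ 4 * h ^ 2) +
        m ^ 2 * (1 / (lam - m * a ^ 2)) ^ 2 * (a ^ 4 * h ^ 2) + m * (1 / (lam - m * a ^ 2)) * a ^ 4) := by
    have r1 : lam / (lam - m * a ^ 2) = 1 + m * a ^ 2 * (1 / (lam - m * a ^ 2)) := by
      field_simp; ring
    have r2 : 1 / (lam - m * a ^ 2) = 1 / lam + m * a ^ 2 * (1 / lam) * (1 / (lam - m * a ^ 2)) := by
      field_simp; ring
    rw [show q = 1 - p by linarith, r1, div_eq_mul_one_div h lam]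
    linear_combination (-2 * m * a ^ 2 * h ^ 2) * r2
  obtain ⟨b1, b2, b3, b4, b5⟩ := p4 h
  have t1 : |2 * h * a * (p - q - y)| ≤ 2 * |h| * |a| * (|a| * (4 * |h| + 1)) ^ 3 := by
    rw [abs_mul, abs_mul, abs_mul, abs_two]
    gcongr
    exact y3.trans (by gcongr)
  have t2 : |2 * h * a * (y - m * a * u h)| ≤ 2 * |h| * |a| * a ^ 2 := by
    rw [abs_mul, abs_mul, abs_mul, abs_two]; gcongr
  have t3 : |2 * m * a ^ 2 * h * (u h - h / lam)| ≤ 2 * 1 * a ^ 2 * |h| * (3 * √e * (1 + h ^ 2)) := by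
    rw [abs_mul, abs_mul, abs_mul, abs_mul, abs_two, abs_of_pos hm, abs_of_nonneg (sq_nonneg a)]
    gcongr
  have t4 : 2 * m ^ 2 * (1 / lam) * (1 / (lam - m * a ^ 2)) * (a ^ 4 * h ^ 2) +
        m ^ 2 * (1 / (lam - m * a ^ 2)) ^ 2 * (a ^ 4 * h ^ 2) + m * (1 / (lam - m * a ^ 2)) * a ^ 4 ≤
      2 * 1 ^ 2 * 4 * 4 * (a ^ 4 * h ^ 2) + 1 ^ 2 * 4 ^ 2 * (a ^ 4 * h ^ 2) + 1 * 4 * a ^ 4 := by
    gcongr
  have t5 : 0 ≤ 2 * m ^ 2 * (1 / lam) * (1 / (lam - m * a ^ 2)) * (a ^ 4 * h ^ 2) +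
        m ^ 2 * (1 / (lam - m * a ^ 2)) ^ 2 * (a ^ 4 * h ^ 2) + m * (1 / (lam - m * a ^ 2)) * a ^ 4 := by
    positivity
  have a4 : a ^ 4 ≤ a ^ 2 * |a| := by
    rw [show a ^ 4 = a ^ 2 * |a| * |a| by rw [mul_assoc, ← sq, sq_abs]; ring]
    exact mul_le_of_le_one_right (by positivity) ha
  have hW : 0 ≤ 1 + h ^ 4 := by positivity
  have s1 : 2 * |h| * |a| * (|a| * (4 * |h| + 1)) ^ 3 ≤ a ^ 2 * |a| * (250 * (1 + h ^ 4)) := by
    have : 2 * |h| * |a| * (|a| * (4 * |h| + 1)) ^ 3 =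
        a ^ 4 * (128 * |h| ^ 4 + 96 * |h| ^ 3 + 24 * |h| ^ 2 + 2 * |h|) := by
      rw [← (p4 a).2.2.2.1]; ring
    rw [this, b4, b5]
    gcongr; linarith
  have s2 : 2 * |h| * |a| * a ^ 2 ≤ a ^ 2 * |a| * (2 * (1 + h ^ 4)) := by
    rw [show 2 * |h| * |a| * a ^ 2 = a ^ 2 * |a| * (2 * |h|) by ring]; gcongr
  have s3 : 2 * 1 * a ^ 2 * |h| * (3 * √e * (1 + h ^ 2)) ≤ a ^ 2 * √e * (12 * (1 + h ^ 4)) := by
    rw [show 2 * 1 * a ^ 2 * |h| * (3 * √e * (1 + h ^ 2)) = a ^ 2 * √e * (6 * |h| + 6 * |h| ^ 3) by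
      rw [← b5]; ring]
    gcongr; linarith
  have s4 : a ^ 4 * (48 * h ^ 2 + 4) ≤ a ^ 2 * |a| * (52 * (1 + h ^ 4)) := by
    gcongr; nlinarith [sq_nonneg (h ^ 2)]
  have s5 : 0 ≤ a ^ 2 * |a| * (1 + h ^ 4) := by positivity
  have s6 : 0 ≤ a ^ 2 * √e * (1 + h ^ 4) := by positivity
  rw [e1, abs_le]
  rw [abs_le] at t1 t2 t3
  constructor <;> linarith [t1.1, t1.2, t2.1, t2.2, t3.1, t3.2]

end QSt

theorem qStep : QStep := by
  refine ⟨400, by norm_num, fun X u m a lam c e hm hm1 ha hl he _ H => ?_⟩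
  have hl1 : 1 / 4 ≤ lam := by nlinarith [mul_nonneg hm.le (sq_nonneg a)]
  refine ⟨QSt.qi_step H hm hm1 ha hl he, fun h => ?_, QSt.sq_step H hm hm1 ha hl he, fun h => ?_⟩
  · rw [QSt.stq]
    refine (QSt.four (QSt.wp_add _ _) ha ((QSt.th _ _).2.trans (QSt.yb H hl1 hm hm1 ha h).2)).trans ?_
    gcongr; norm_num
  · have h1 := QSt.cl H hl1 he h
    have h2 := (QSt.ub H (by linarith) h).trans (QSt.dv4 hl1 (abs_nonneg h))
    have h3 : |h / lam| ≤ 4 * |h| := by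
      rw [abs_div, abs_of_pos (by linarith : 0 < lam)]; exact QSt.dv4 hl1 (abs_nonneg h)
    have h4 : |u h + h / lam| ≤ 8 * |h| := (abs_add_le _ _).trans (by linarith)
    obtain ⟨b1, b2, b3, b4, b5⟩ := QSt.p4 h
    rw [show u h ^ 2 - h ^ 2 / lam ^ 2 = (u h - h / lam) * (u h + h / lam) by ring, abs_mul]
    calc _ ≤ 3 * √e * (1 + h ^ 2) * (8 * |h|) := by gcongr
      _ = √e * (24 * |h| + 24 * |h| ^ 3) := by rw [← b5]; ring
      _ ≤ √e * (400 * (1 + h ^ 4)) := by gcongr; nlinarith [sq_nonneg (h ^ 2)]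
      _ = _ := by ring

end Vale.Agent.P157
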