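import Vale.Agent.P157.StmS

namespace Vale.Agent.P157

open MeasureTheory ProbabilityTheory Finset Real
open scoped NNReal

namespace QuantSm

theorem setInt (m : ℝ) {s : ℝ≥0} (hs : s ≠ 0) (S : Set ℝ) (G : ℝ → ℝ) :
    ∫ y in S, G y ∂gaussianReal m s = ∫ y in S, gaussianPDFReal m s y * G y := by
  rw [gaussianReal_of_var_ne_zero _ hs, setIntegral_withDensity_eq_setIntegral_toReal_smul' S
    (measurable_gaussianPDF _ _) (ae_of_all _ fun _ => gaussianPDF_lt_top)]
  simp

/-- density of the tilted law -/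
noncomputable def rho (b h y : ℝ) : ℝ := exp (h * y - (b - 1) * y ^ 2 / 2 - PhG b h)

theorem pdf_tilt {b : ℝ} (hb : 0 < b) (h y : ℝ) :
    gaussianPDFReal 0 1 y * rho b h y = gaussianPDFReal (h / b) (1 / b).toNNReal y := by
  have h1 : ((1 / b).toNNReal : ℝ) = 1 / b := Real.coe_toNNReal _ (by positivity)
  have h2 : (√(2 * π * (1 / b)))⁻¹ = (√(2 * π))⁻¹ * exp (log b / 2) := by
    rw [exp_half, exp_log hb, sqrt_mul (by positivity), mul_inv, one_div, sqrt_inv, inv_inv]
  rw [gaussianPDFReal, gaussianPDFReal, h1, h2]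
  simp only [rho, PhG, NNReal.coe_one, mul_one, mul_assoc, ← exp_add]
  congr 2
  field_simp
  ring

theorem tilt {b : ℝ} (hb : 0 < b) (h : ℝ) (S : Set ℝ) (G : ℝ → ℝ) :
    ∫ y in S, rho b h y * G y ∂gaussianReal 0 1 =
      ∫ y in S, G y ∂gaussianReal (h / b) (1 / b).toNNReal := by
  rw [setInt 0 one_ne_zero, setInt _ (by simpa using hb)]
  simp only [← mul_assoc, pdf_tilt hb]

theorem pow4_le (x : ℝ) : x ^ 4 ≤ 24 * (exp x + exp (-x)) := by
  have h1 := Real.pow_div_factorial_le_exp _ (abs_nonneg x) 4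
  have h2 : |x| ^ 4 = x ^ 4 := by rw [← abs_pow]; exact abs_of_nonneg (by positivity)
  have h3 : exp |x| ≤ exp x + exp (-x) := by
    rcases abs_choice x with h | h <;> rw [h] <;> linarith [exp_pos x, exp_pos (-x)]
  rw [h2] at h1
  norm_num [Nat.factorial] at h1
  linarith

theorem int4 (m : ℝ) (s : ℝ≥0) (hs : (s : ℝ) ≤ 4) :
    Integrable (fun y => (y - m) ^ 4) (gaussianReal m s) ∧
      ∫ y, (y - m) ^ 4 ∂gaussianReal m s ≤ 48 * exp 2 := by
  have e : ∀ t : ℝ, (fun y => exp (t * (y - m))) = fun y => exp (-(t * m)) * exp (t * y) :=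
    fun t => funext fun y => by rw [← exp_add]; congr 1; ring
  have i1 : ∀ t : ℝ, Integrable (fun y => exp (t * (y - m))) (gaussianReal m s) := fun t => by
    rw [e]; exact (integrable_exp_mul_gaussianReal t).const_mul _
  have v1 : ∀ t : ℝ, t ^ 2 = 1 → ∫ y, exp (t * (y - m)) ∂gaussianReal m s ≤ exp 2 := fun t ht => by
    have := congrFun (mgf_fun_id_gaussianReal (μ := m) (v := s)) t
    rw [mgf] at this
    rw [e, integral_const_mul, this, ← exp_add, ht]
    exact exp_le_exp.2 (by linarith)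
  have i2 := ((i1 1).add (i1 (-1))).const_mul 24
  have hb : ∀ y, (y - m) ^ 4 ≤ 24 * (exp (1 * (y - m)) + exp (-1 * (y - m))) := fun y => by
    simpa using pow4_le (y - m)
  have i3 : Integrable (fun y => (y - m) ^ 4) (gaussianReal m s) :=
    i2.mono' (by fun_prop) (ae_of_all _ fun y => by
      rw [Real.norm_eq_abs, abs_of_nonneg (by positivity)]; exact hb y)
  refine ⟨i3, (integral_mono i3 i2 hb).trans ?_⟩
  simp only [Pi.add_apply]
  rw [integral_const_mul, integral_add (i1 1) (i1 (-1))]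
  linarith [v1 1 (by norm_num), v1 (-1) (by norm_num)]

theorem tail (m : ℝ) (s : ℝ≥0) (hs : (s : ℝ) ≤ 4) (I : Set ℝ) (hI : MeasurableSet I) (G : ℝ → ℝ)
    (hG : Integrable G (gaussianReal m s)) (c : ℝ) (hc : 0 ≤ c)
    (h : ∀ y, y ∉ I → |G y| ≤ c * (y - m) ^ 4) :
    |∫ y in I, G y ∂gaussianReal m s - ∫ y, G y ∂gaussianReal m s| ≤ c * (48 * exp 2) := by
  obtain ⟨i4, h4⟩ := int4 m s hs
  rw [← integral_add_compl hI hG, sub_add_cancel_left, abs_neg]
  have i5 := i4.const_mul c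
  refine (norm_integral_le_of_norm_le (f := G) i5.restrict
    (ae_restrict_of_forall_mem hI.compl fun y hy => h y hy)).trans ?_
  refine (setIntegral_le_integral i5 (ae_of_all _ fun y => by positivity)).trans ?_
  rw [integral_const_mul]
  exact mul_le_mul_of_nonneg_left h4 hc

theorem mom (m : ℝ) (s : ℝ≥0) :
    (Integrable (fun y => y - m) (gaussianReal m s) ∧ ∫ y, (y - m) ∂gaussianReal m s = 0) ∧
    Integrable (fun y => y ^ 2 - (s + m ^ 2)) (gaussianReal m s) ∧
      ∫ y, (y ^ 2 - (s + m ^ 2)) ∂gaussianReal m s = 0 := by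
  have h2 : MemLp id 2 (gaussianReal m s) := memLp_id_gaussianReal' 2 (by simp)
  have i1 : Integrable (fun y : ℝ => y) (gaussianReal m s) := h2.integrable (by norm_num)
  have i2 : Integrable (fun y : ℝ => y ^ 2) (gaussianReal m s) := h2.integrable_sq
  refine ⟨⟨i1.sub (integrable_const _), ?_⟩, i2.sub (integrable_const _), ?_⟩
  · rw [integral_sub i1 (integrable_const _)]; simp
  · have := variance_eq_sub h2
    rw [variance_id_gaussianReal] at this
    simp only [Pi.pow_apply, id, integral_id_gaussianReal] at this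
    rw [integral_sub i2 (integrable_const _)]
    simp only [integral_const, probReal_univ, smul_eq_mul, one_mul]
    linarith

theorem tails (K m : ℝ) (s : ℝ≥0) (hK : 4 ≤ K) (hm : |m| ≤ K / 2) (hs : (s : ℝ) ≤ 4) :
    1 - 16 * (48 * exp 2) / K ^ 2 / K ^ 2 ≤ ∫ _y in Set.Ioc (-K) K, (1 : ℝ) ∂gaussianReal m s ∧
    |∫ y in Set.Ioc (-K) K, (y - m) ∂gaussianReal m s| ≤ 16 * (48 * exp 2) / K ^ 2 ∧
    |∫ y in Set.Ioc (-K) K, (y ^ 2 - (s + m ^ 2)) ∂gaussianReal m s| ≤
      16 * (48 * exp 2) / K ^ 2 := by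
  have hK2 : 0 < K ^ 2 := by positivity
  have far : ∀ y, y ∉ Set.Ioc (-K) K → K / 2 ≤ |y - m| := fun y hy => by
    rw [Set.mem_Ioc, not_and_or, not_lt, not_le] at hy
    have := abs_le.1 hm
    rcases hy with hy | hy
    · exact le_abs.2 (Or.inr (by linarith))
    · exact le_abs.2 (Or.inl (by linarith))
  have far2 : ∀ y, y ∉ Set.Ioc (-K) K → K ^ 2 ≤ 4 * (y - m) ^ 2 := fun y hy => by
    have := far y hy
    rw [← sq_abs (y - m)]; nlinarith
  obtain ⟨⟨i1, v1⟩, i2, v2⟩ := mom m s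
  refine ⟨?_, ?_, ?_⟩
  · have := tail m s hs _ measurableSet_Ioc (fun _ => 1) (integrable_const _) (16 / K ^ 2 / K ^ 2)
      (by positivity) fun y hy => by
        have h1 := far2 y hy
        rw [abs_one, div_div, div_mul_eq_mul_div, le_div_iff₀ (by positivity)]
        nlinarith
    simp only [integral_const (μ := gaussianReal m s), probReal_univ, smul_eq_mul, one_mul] at this
    have h1 := (abs_le.1 this).1
    have h2 : 16 / K ^ 2 / K ^ 2 * (48 * exp 2) = 16 * (48 * exp 2) / K ^ 2 / K ^ 2 := by ring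
    linarith
  · have := tail m s hs _ measurableSet_Ioc _ i1 (16 / K ^ 2) (by positivity) fun y hy => by
      have h1 := far y hy
      have h3 : (y - m) ^ 4 = |y - m| ^ 4 := by
        rw [← abs_pow]; exact (abs_of_nonneg (by positivity)).symm
      rw [h3, div_mul_eq_mul_div, le_div_iff₀ hK2]
      set a := |y - m|
      have h4 : K ^ 2 ≤ 4 * a ^ 2 := by nlinarith
      have h5 : 1 ≤ a := by linarith
      have h6 : a * K ^ 2 ≤ a * (4 * a ^ 2) := mul_le_mul_of_nonneg_left h4 (by linarith)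
      have h7 : a ^ 3 * 1 ≤ a ^ 3 * a := mul_le_mul_of_nonneg_left h5 (by positivity)
      nlinarith [pow_pos (lt_of_lt_of_le one_pos h5) 3]
    rw [v1, sub_zero] at this
    exact this.trans (le_of_eq (by ring))
  · have := tail m s hs _ measurableSet_Ioc _ i2 (16 / K ^ 2) (by positivity) fun y hy => by
      have h1 := far2 y hy
      have h2 : m ^ 2 ≤ K ^ 2 / 4 := by rw [← sq_abs m]; nlinarith [abs_nonneg m]
      have h3 : |y ^ 2 - (s + m ^ 2)| ≤ 4 * (y - m) ^ 2 := by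
        have := s.coe_nonneg
        rw [abs_le]; constructor <;> nlinarith [sq_nonneg (y - 2 * m), sq_nonneg y]
      refine h3.trans ?_
      rw [div_mul_eq_mul_div, le_div_iff₀ hK2]
      nlinarith [sq_nonneg (y - m)]
    rw [v2, sub_zero] at this
    exact this.trans (le_of_eq (by ring))

theorem cells (K δ : ℝ) (hK : 0 < K) (hδ : 0 < δ) : ∃ (L : ℕ) (v : Fin (L + 1) → ℝ)
    (τ : ℝ → Option (Fin (L + 1))), (∀ t, |v t| ≤ K) ∧ (∀ t, MeasurableSet {y | τ y = some t}) ∧
    (∀ t, (gaussianReal 0 1).real {y | τ y = some t} =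
      (gaussianReal 0 1).real (Set.Ioc (-K) K) / (L + 1)) ∧ (∀ y t, τ y = some t → |y - v t| ≤ δ) ∧
    ∀ (Ψ : ℝ → ℝ) (ε : ℝ), Continuous Ψ →
      (∀ y y', |y| ≤ K → |y'| ≤ K → |y - y'| ≤ δ → |Ψ y - Ψ y'| ≤ ε) →
      |avg (fun t => Ψ (v t)) * (gaussianReal 0 1).real (Set.Ioc (-K) K) -
        ∫ y in Set.Ioc (-K) K, Ψ y ∂gaussianReal 0 1| ≤
        ε * (gaussianReal 0 1).real (Set.Ioc (-K) K) := by
  classical
  have ii : ∀ a b, IntervalIntegrable (gaussianPDFReal 0 1) volume a b := fun a b =>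
    (integrable_gaussianPDFReal 0 1).intervalIntegrable
  set u : ℝ → ℝ := fun y => ∫ x in (-K)..y, gaussianPDFReal 0 1 x with hu
  have uc : Continuous u := intervalIntegral.continuous_primitive ii _
  have hγ : ∀ a b, a ≤ b → (gaussianReal 0 1).real (Set.Ioc a b) = u b - u a := fun a b hab => by
    have := setInt 0 one_ne_zero (Set.Ioc a b) fun _ => 1
    simp only [integral_const, smul_eq_mul, mul_one, measureReal_restrict_apply_univ] at this
    rw [this, hu, intervalIntegral.integral_interval_sub_left (ii _ _) (ii _ _),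
      intervalIntegral.integral_of_le hab]
  set m0 := gaussianPDFReal 0 1 K with hm0
  have m0p : 0 < m0 := gaussianPDFReal_pos _ _ _ one_ne_zero
  have gap : ∀ a b, -K ≤ a → a ≤ b → b ≤ K → m0 * (b - a) ≤ u b - u a := fun a b ha hab hb => by
    rw [hu, intervalIntegral.integral_interval_sub_left (ii _ _) (ii _ _)]
    refine le_trans (le_of_eq ?_) (intervalIntegral.integral_mono_on (f := fun _ => m0) hab
      intervalIntegrable_const (ii _ _) fun x hx => ?_)
    · simp [mul_comm]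
    · simp only [hm0, gaussianPDFReal]
      refine mul_le_mul_of_nonneg_left (exp_le_exp.2 ?_) (by positivity)
      have : x ^ 2 ≤ K ^ 2 := sq_le_sq' (by linarith [hx.1]) (by linarith [hx.2])
      simp only [NNReal.coe_one, sub_zero]
      linarith
  have u0 : u (-K) = 0 := intervalIntegral.integral_same
  have hp : (gaussianReal 0 1).real (Set.Ioc (-K) K) = u K := by
    rw [hγ _ _ (by linarith), u0, sub_zero]
  have p1 : u K ≤ 1 := hp ▸ measureReal_le_one
  have p0 : 0 < u K := by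
    have := gap (-K) K le_rfl (by linarith) le_rfl
    have : 0 < m0 * (K - -K) := mul_pos m0p (by linarith)
    linarith
  obtain ⟨L, hL⟩ := exists_nat_ge (1 / (m0 * δ))
  have hL1 : (0 : ℝ) < L + 1 := by positivity
  have hq : ∀ j : ℕ, ∃ q ∈ Set.Icc (-K) K, j ≤ L + 1 → u q = j * (u K / (L + 1)) := fun j => by
    by_cases hj : j ≤ L + 1
    · have hj' : (j : ℝ) ≤ L + 1 := by exact_mod_cast hj
      obtain ⟨q, h1, h2⟩ := intermediate_value_Icc (by linarith : -K ≤ K) uc.continuousOn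
        (show j * (u K / (L + 1)) ∈ Set.Icc (u (-K)) (u K) from ⟨by rw [u0]; positivity, by
          rw [← mul_div_assoc, div_le_iff₀ hL1]; nlinarith⟩)
      exact ⟨q, h1, fun _ => h2⟩
    · exact ⟨K, ⟨by linarith, le_rfl⟩, fun h => absurd h hj⟩
  choose q hqI hqu using hq
  have cp : 0 < u K / (L + 1) := by positivity
  have mono : ∀ j j', j ≤ j' → j' ≤ L + 1 → q j ≤ q j' := fun j j' h h' => by
    rcases h.eq_or_lt with rfl | h
    · exact le_rfl
    by_contra hc
    have h1 := gap _ _ (hqI j').1 (not_le.1 hc).le (hqI j).2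
    rw [hqu j (by omega), hqu j' h'] at h1
    have h2 : (j : ℝ) < j' := by exact_mod_cast h
    have h3 : 0 ≤ m0 * (q j - q j') := mul_nonneg m0p.le (by linarith [not_le.1 hc])
    nlinarith
  have q0 : q 0 = -K := by
    have h1 := gap _ _ le_rfl (hqI 0).1 (hqI 0).2
    rw [hqu 0 (by omega), u0] at h1
    simp only [Nat.cast_zero, zero_mul, sub_zero] at h1
    have := nonpos_of_mul_nonpos_right h1 m0p
    linarith [(hqI 0).1]
  have qL : q (L + 1) = K := by
    have h1 := gap _ _ (hqI (L + 1)).1 (hqI (L + 1)).2 le_rfl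
    rw [hqu _ le_rfl] at h1
    push_cast at h1
    rw [mul_div_cancel₀ _ hL1.ne', sub_self] at h1
    have := nonpos_of_mul_nonpos_right h1 m0p
    linarith [(hqI (L + 1)).2]
  have cell : ∀ j, j < L + 1 →
      (gaussianReal 0 1).real (Set.Ioc (q j) (q (j + 1))) = u K / (L + 1) := fun j hj => by
    rw [hγ _ _ (mono _ _ (by omega) hj), hqu _ hj, hqu _ hj.le]; push_cast; ring
  have mesh : ∀ j, j < L + 1 → q (j + 1) - q j ≤ δ := fun j hj => by
    have h1 := gap _ _ (hqI j).1 (mono _ _ (by omega) hj) (hqI (j + 1)).2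
    rw [← hγ _ _ (mono _ _ (by omega) hj), cell j hj] at h1
    rw [div_le_iff₀ (by positivity)] at hL
    have h2 : u K / (L + 1) ≤ m0 * δ := by
      rw [div_le_iff₀ hL1]; nlinarith [mul_pos m0p hδ]
    exact le_of_mul_le_mul_left (h1.trans h2) m0p
  set τ : ℝ → Option (Fin (L + 1)) := fun y =>
    if h : ∃ t : Fin (L + 1), y ∈ Set.Ioc (q t) (q (t + 1)) then some h.choose else none with hτ
  have hτs : ∀ t : Fin (L + 1), {y | τ y = some t} = Set.Ioc (q t) (q (t + 1)) := fun t => by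
    ext y
    simp only [hτ, Set.mem_ofPred_eq]
    constructor
    · intro h
      split_ifs at h with h1
      have := h1.choose_spec
      rwa [Option.some.inj h] at this
    · intro h
      have h1 : ∃ t : Fin (L + 1), y ∈ Set.Ioc (q t) (q (t + 1)) := ⟨t, h⟩
      rw [dif_pos h1]
      have h2 := h1.choose_spec
      generalize h1.choose = t' at h2 ⊢
      refine congrArg _ (Fin.ext ?_)
      rcases lt_trichotomy (t' : ℕ) t with h3 | h3 | h3
      · have := mono (t' + 1) t h3 t.2.le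
        linarith [h.1, h2.2]
      · exact h3
      · have := mono (t + 1) t' h3 t'.2.le
        linarith [h.2, h2.1]
  refine ⟨L, fun t => q (t + 1), τ, fun t => abs_le.2 (hqI _), fun t => ?_, fun t => ?_,
    fun y t h => ?_, fun Ψ ε hΨ hε => ?_⟩
  · rw [hτs]; exact measurableSet_Ioc
  · rw [hτs, cell _ t.2, hp]
  · have h1 : y ∈ {y | τ y = some t} := h
    rw [hτs] at h1
    have := mesh t t.2
    rw [abs_le]; constructor <;> linarith [h1.1, h1.2]
  · have s1 := intervalIntegral.sum_integral_adjacent_intervals (f := Ψ) (μ := gaussianReal 0 1)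
      (a := q) (n := L + 1) fun k _ => hΨ.intervalIntegrable _ _
    rw [q0, qL, intervalIntegral.integral_of_le (by linarith)] at s1
    have s2 : avg (fun t : Fin (L + 1) => Ψ (q (t + 1))) * u K =
        ∑ k ∈ range (L + 1), Ψ (q (k + 1)) * (u K / (L + 1)) := by
      rw [avg, Finset.sum_range fun k => Ψ (q (k + 1)) * (u K / (L + 1)), ← sum_mul]
      simp only [Fintype.card_fin]
      push_cast; ring
    rw [hp, s2, ← s1, ← sum_sub_distrib]
    refine (abs_sum_le_sum_abs _ _).trans ((sum_le_sum (g := fun _ => ε * (u K / (L + 1)))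
      fun k hk => ?_).trans (le_of_eq ?_))
    · have hk' := mem_range.1 hk
      rw [intervalIntegral.integral_of_le (mono _ _ (by omega) hk'), ← cell k hk']
      have s3 := norm_setIntegral_le_of_norm_le_const (μ := gaussianReal 0 1)
        (s := Set.Ioc (q k) (q (k + 1))) (f := fun y => Ψ (q (k + 1)) - Ψ y) (C := ε)
        (measure_lt_top _ _) fun y hy => hε _ _ (abs_le.2 (hqI _))
          (abs_le.2 ⟨by linarith [(hqI k).1, hy.1], by linarith [(hqI (k + 1)).2, hy.2]⟩)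
          (by have := mesh k hk'; rw [abs_le]; constructor <;> linarith [hy.1, hy.2])
      rw [integral_sub (integrable_const _) (hΨ.integrableOn_Icc.mono_set Set.Ioc_subset_Icc_self)]
        at s3
      simp only [integral_const, smul_eq_mul, measureReal_restrict_apply_univ] at s3
      rw [mul_comm (Ψ _)]
      exact s3
    · rw [sum_const, card_range, nsmul_eq_mul]; push_cast; field_simp

theorem uc (F : ℝ × ℝ × ℝ → ℝ) (hF : ContinuousOn F {p | 0 < p.1}) (b1 H K ε : ℝ) (hε : 0 < ε) :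
    ∃ δ, 0 < δ ∧ ∀ b h, 1 / 4 ≤ b → b ≤ b1 → |h| ≤ H → ∀ y y', |y| ≤ K → |y'| ≤ K →
      |y - y'| ≤ δ → |F (b, h, y) - F (b, h, y')| ≤ ε := by
  have hc : IsCompact (Set.Icc (1 / 4 : ℝ) b1 ×ˢ Set.Icc (-H) H ×ˢ Set.Icc (-K) K) :=
    isCompact_Icc.prod (isCompact_Icc.prod isCompact_Icc)
  obtain ⟨δ, hδ, h⟩ := Metric.uniformContinuousOn_iff_le.1 (hc.uniformContinuousOn_of_continuous
    (hF.mono fun p hp => lt_of_lt_of_le (by norm_num) hp.1.1)) ε hε
  refine ⟨δ, hδ, fun b x h1 h2 h3 y y' h4 h5 h6 =>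
    h (b, x, y) ⟨⟨h1, h2⟩, abs_le.1 h3, abs_le.1 h4⟩ (b, x, y')
      ⟨⟨h1, h2⟩, abs_le.1 h3, abs_le.1 h5⟩ ?_⟩
  simp only [Prod.dist_eq, dist_self, Real.dist_eq y y']
  exact max_le hδ.le (max_le hδ.le h6)

theorem rho_cont : ContinuousOn (fun p : ℝ × ℝ × ℝ => rho p.1 p.2.1 p.2.2) {p | 0 < p.1} := by
  unfold rho PhG
  refine ContinuousOn.rexp (ContinuousOn.sub (by fun_prop) (ContinuousOn.sub
    (ContinuousOn.div (by fun_prop) (by fun_prop) fun p hp => ?_)
    (ContinuousOn.div_const (ContinuousOn.log (by fun_prop) fun p hp => ne_of_gt hp) _)))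
  exact mul_ne_zero two_ne_zero (ne_of_gt hp)

theorem inv_cont : ContinuousOn (fun p : ℝ × ℝ × ℝ => p.1⁻¹) {p | 0 < p.1} :=
  ContinuousOn.inv₀ (by fun_prop) fun _ hp => ne_of_gt hp

section
variable {T : Type} [Fintype T] [Inhabited T]

theorem avg_pos {F : T → ℝ} (h : ∀ t, 0 < F t) : 0 < avg F :=
  div_pos (sum_pos (fun t _ => h t) univ_nonempty) (by exact_mod_cast Fintype.card_pos)

theorem avg_le {F : T → ℝ} {c : ℝ} (h : ∀ t, F t ≤ c) : avg F ≤ c := by
  rw [avg, div_le_iff₀ (by exact_mod_cast Fintype.card_pos)]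
  refine (sum_le_sum fun t _ => h t).trans (le_of_eq ?_)
  rw [sum_const, card_univ, nsmul_eq_mul, mul_comm]

omit [Inhabited T] in
theorem avg_lin (F G : T → ℝ) (a c : ℝ) :
    avg (fun t => a * F t + c * G t) = a * avg F + c * avg G := by
  simp only [avg, sum_add_distrib, ← mul_sum]; ring

theorem avg_one : avg (fun _ : T => (1 : ℝ)) = 1 := by
  rw [avg, sum_const, card_univ, nsmul_eq_mul, mul_one, div_self]
  exact_mod_cast Fintype.card_ne_zero

omit [Inhabited T] in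
theorem avg_rho (v : T → ℝ) (b h : ℝ) (G : T → ℝ) :
    avg (fun t => exp (h * v t + Uq v b t) * G t) =
      exp (PhG b h) * avg fun t => rho b h (v t) * G t := by
  have := avg_lin (fun t => rho b h (v t) * G t) G (exp (PhG b h)) 0
  simp only [zero_mul, add_zero] at this
  rw [← this]
  congr 1
  funext t
  rw [rho, ← mul_assoc, ← exp_add, Uq]
  congr 2
  ring

theorem pht (v : T → ℝ) (b h : ℝ) :
    PhT v b h = PhG b h + log (avg fun t => rho b h (v t) * 1) := by
  have := avg_rho v b h fun _ => 1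
  simp only [mul_one] at this ⊢
  have h4 : 0 < avg fun t => rho b h (v t) := avg_pos fun t => exp_pos _
  rw [PhT, this, log_mul (exp_pos _).ne' h4.ne', log_exp]

theorem mt (v : T → ℝ) (b h c : ℝ) (G : T → ℝ) : mT v b G h - c =
    (avg fun t => rho b h (v t) * (G t - c)) / avg fun t => rho b h (v t) * 1 := by
  have h1 := avg_rho v b h fun _ => 1
  have h2 := avg_lin (fun t => rho b h (v t) * G t) (fun t => rho b h (v t) * 1) 1 (-c)
  have h3 : (fun t => 1 * (rho b h (v t) * G t) + -c * (rho b h (v t) * 1)) =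
      fun t => rho b h (v t) * (G t - c) := funext fun t => by ring
  have h4 : 0 < avg fun t => rho b h (v t) * 1 := avg_pos fun t => mul_pos (exp_pos _) one_pos
  rw [h3] at h2
  simp only [mul_one] at h1
  rw [mT, avg_rho, h1, h2]
  simp only [mul_one] at h4 ⊢
  field_simp
  ring

end

theorem divp {a J p ε : ℝ} (hp : 0 < p) (h : |a * p - J| ≤ ε * p) : |a - J / p| ≤ ε := by
  have : a - J / p = (a * p - J) / p := by field_simp
  rw [this, abs_div, abs_of_pos hp, div_le_iff₀ hp]; exact h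

/-- the three discrete averages are close to their Gaussian values -/
def Apx {T : Type} [Fintype T] (K ε : ℝ) (v : T → ℝ) (b h : ℝ) : Prop :=
  |avg (fun t => rho b h (v t) * 1) -
    (∫ _y in Set.Ioc (-K) K, (1 : ℝ) ∂gaussianReal (h / b) (1 / b).toNNReal) /
      (gaussianReal 0 1).real (Set.Ioc (-K) K)| ≤ ε ∧
  |avg (fun t => rho b h (v t) * (v t - h / b)) -
    (∫ y in Set.Ioc (-K) K, (y - h / b) ∂gaussianReal (h / b) (1 / b).toNNReal) /
      (gaussianReal 0 1).real (Set.Ioc (-K) K)| ≤ ε ∧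
  |avg (fun t => rho b h (v t) * (v t ^ 2 - (b⁻¹ + (h / b) ^ 2))) -
    (∫ y in Set.Ioc (-K) K, (y ^ 2 - (b⁻¹ + (h / b) ^ 2)) ∂gaussianReal (h / b) (1 / b).toNNReal) /
      (gaussianReal 0 1).real (Set.Ioc (-K) K)| ≤ ε

theorem apx (K b1 H ε η : ℝ) (hK : 0 < K) (ε0 : 0 < ε) (hη : 0 < η)
    (p0 : 0 < (gaussianReal 0 1).real (Set.Ioc (-K) K)) : ∃ (L : ℕ) (v : Fin (L + 1) → ℝ)
    (τ : ℝ → Option (Fin (L + 1))), (∀ t, |v t| ≤ K) ∧ (∀ t, MeasurableSet {y | τ y = some t}) ∧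
    (∀ t, (gaussianReal 0 1).real {y | τ y = some t} =
      (gaussianReal 0 1).real (Set.Ioc (-K) K) / (L + 1)) ∧ (∀ y t, τ y = some t → |y - v t| ≤ η) ∧
    ∀ b h, 1 / 4 ≤ b → b ≤ b1 → |h| ≤ H → Apx K ε v b h := by
  obtain ⟨δ0, d0, u0⟩ := uc (fun p => rho p.1 p.2.1 p.2.2 * 1) (rho_cont.mul continuousOn_const)
    b1 H K ε ε0
  obtain ⟨δ1, d1, u1⟩ := uc (fun p => rho p.1 p.2.1 p.2.2 * (p.2.2 - p.2.1 * p.1⁻¹))
    (rho_cont.mul (ContinuousOn.sub (by fun_prop) (ContinuousOn.mul (by fun_prop) inv_cont)))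
    b1 H K ε ε0
  obtain ⟨δ2, d2, u2⟩ := uc
    (fun p => rho p.1 p.2.1 p.2.2 * (p.2.2 ^ 2 - (p.1⁻¹ + (p.2.1 * p.1⁻¹) ^ 2)))
    (rho_cont.mul (ContinuousOn.sub (by fun_prop)
      (inv_cont.add ((ContinuousOn.mul (by fun_prop) inv_cont).pow 2)))) b1 H K ε ε0
  obtain ⟨L, v, τ, hv, hm, hu, hn, ha⟩ := cells K (min η (min δ0 (min δ1 δ2))) hK (by positivity)
  have rc : ∀ b h, Continuous (rho b h) := fun b h => by unfold rho; fun_prop
  refine ⟨L, v, τ, hv, hm, hu, fun y t h => (hn y t h).trans (min_le_left _ _),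
    fun b h h1 h2 h3 => ⟨?_, ?_, ?_⟩⟩
  · rw [← tilt (by linarith) h _ fun _ => 1]
    exact divp p0 (ha (fun y => rho b h y * 1) ε ((rc b h).mul continuous_const)
      fun y y' a1 a2 a3 => u0 b h h1 h2 h3 y y' a1 a2
        (a3.trans ((min_le_right _ _).trans (min_le_left _ _))))
  · rw [← tilt (by linarith) h _ fun y => y - h / b]
    exact divp p0 (ha (fun y => rho b h y * (y - h / b)) ε ((rc b h).mul (by fun_prop))
      fun y y' a1 a2 a3 => u1 b h h1 h2 h3 y y' a1 a2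
        (a3.trans ((min_le_right _ _).trans ((min_le_right _ _).trans (min_le_left _ _)))))
  · rw [← tilt (by linarith) h _ fun y => y ^ 2 - (b⁻¹ + (h / b) ^ 2)]
    exact divp p0 (ha (fun y => rho b h y * (y ^ 2 - (b⁻¹ + (h / b) ^ 2))) ε
      ((rc b h).mul (by fun_prop)) fun y y' a1 a2 a3 => u2 b h h1 h2 h3 y y' a1 a2
        (a3.trans ((min_le_right _ _).trans ((min_le_right _ _).trans (min_le_right _ _)))))

theorem quo {a J p ε θ x : ℝ} (hp : 1 / 2 ≤ p) (h1 : |a - J / p| ≤ ε) (h2 : |J| ≤ θ)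
    (h3 : θ ≤ x / 8) (h4 : ε ≤ x / 8) : |a| ≤ x / 2 := by
  have p0 : 0 < p := by linarith
  have h0 := (abs_nonneg _).trans h2
  have h5 : |J / p| ≤ 2 * θ := by
    rw [abs_div, abs_of_pos p0, div_le_iff₀ p0]; nlinarith
  have := abs_sub_abs_le_abs_sub a (J / p)
  linarith

/-- the numerical setting -/
structure Num (K η x ε : ℝ) : Prop where
  k4 : 4 ≤ K
  x0 : 0 < x
  x1 : x ≤ η
  x2 : x ≤ 1
  th : 16 * (48 * exp 2) / K ^ 2 ≤ x / 8
  ep : ε ≤ x / K ^ 2 / 8

theorem Num.w {K η x ε : ℝ} (N : Num K η x ε) : 0 < x / K ^ 2 ∧ x / K ^ 2 ≤ x ∧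
    x / K ^ 2 ≤ η / K ^ 2 ∧ 16 * (48 * exp 2) / K ^ 2 / K ^ 2 ≤ x / K ^ 2 / 8 ∧
    1 - x / K ^ 2 / 8 ≤ (gaussianReal 0 1).real (Set.Ioc (-K) K) := by
  have k4 := N.k4
  have hK2 : 16 ≤ K ^ 2 := by nlinarith
  have hK0 : 0 ≤ K ^ 2 := by linarith
  have w3 : 16 * (48 * exp 2) / K ^ 2 / K ^ 2 ≤ x / K ^ 2 / 8 := by
    rw [div_right_comm x]; exact div_le_div_of_nonneg_right N.th hK0
  refine ⟨div_pos N.x0 (by linarith), div_le_self N.x0.le (by linarith),
    div_le_div_of_nonneg_right N.x1 hK0, w3, ?_⟩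
  have := (tails K 0 1 k4 (by simp; linarith) (by simp)).1
  simp only [integral_const, smul_eq_mul, mul_one, measureReal_restrict_apply_univ] at this
  linarith

section
variable {T : Type} [Fintype T] [Inhabited T] {K η x ε : ℝ} {v : T → ℝ}

theorem lowL (N : Num K η x ε) {b h : ℝ} (h1 : 1 / 4 ≤ b) (h3 : |h| ≤ K / 8)
    (A : Apx K ε v b h) : PhG b h - η / K ^ 2 ≤ PhT v b h ∧ |mT v b v h - h / b| ≤ η ∧
      |mT v b (fun t => v t ^ 2) h - (1 / b + h ^ 2 / b ^ 2)| ≤ η := by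
  obtain ⟨w0, w1, w2, w3, p2⟩ := N.w
  obtain ⟨k4, x0, x1, x2, -, ep⟩ := id N
  have hb : 0 < b := by linarith
  have hi : b⁻¹ ≤ 4 := by rw [inv_le_comm₀ hb (by norm_num)]; linarith
  have cs : ((1 / b).toNNReal : ℝ) = b⁻¹ := by
    rw [one_div]; exact Real.coe_toNNReal _ (by positivity)
  obtain ⟨t0, t1, t2⟩ := tails K (h / b) (1 / b).toNNReal k4
    (by rw [abs_div, abs_of_pos hb, div_le_iff₀ hb]; nlinarith) (by rw [cs]; exact hi)
  rw [cs] at t2
  obtain ⟨A0, A1, A2⟩ := A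
  have p1 : (gaussianReal 0 1).real (Set.Ioc (-K) K) ≤ 1 := measureReal_le_one
  have q1 := quo (by linarith) A1 t1 N.th (by linarith)
  have q2 := quo (by linarith) A2 t2 N.th (by linarith)
  have a0 := (abs_le.1 A0).1
  rw [pht, mt, one_div b, ← div_pow, mt]
  generalize (∫ _y in Set.Ioc (-K) K, (1 : ℝ) ∂gaussianReal (h / b) (1 / b).toNNReal) = J at t0 a0
  generalize (gaussianReal 0 1).real (Set.Ioc (-K) K) = p at p1 p2 a0
  generalize (avg fun t => rho b h (v t) * 1) = a at a0 ⊢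
  generalize x / K ^ 2 = w at w0 w1 w2 w3 p2 ep
  have a1 : J ≤ J / p := le_div_self (by linarith) (by linarith) p1
  have a2 : 1 - w / 4 ≤ a := by linarith
  have a3 : 0 < a := by linarith
  have fin : ∀ y : ℝ, |y| ≤ x / 2 → |y / a| ≤ η := fun y hy => by
    rw [abs_div, abs_of_pos a3, div_le_iff₀ a3]; nlinarith
  refine ⟨?_, fin _ q1, fin _ q2⟩
  have a4 := one_sub_inv_le_log_of_pos a3
  have a5 : a⁻¹ ≤ 1 + w := by
    rw [inv_le_iff_one_le_mul₀ a3]; nlinarith
  linarith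

theorem upL (N : Num K η x ε) {b h : ℝ} (A : Apx K ε v b h) :
    PhT v b h ≤ PhG b h + η / K ^ 2 := by
  obtain ⟨w0, w1, w2, w3, p2⟩ := N.w
  obtain ⟨k4, x0, x1, x2, -, ep⟩ := id N
  have a0 := (abs_le.1 A.1).2
  have a1 : (∫ _y in Set.Ioc (-K) K, (1 : ℝ) ∂gaussianReal (h / b) (1 / b).toNNReal) /
      (gaussianReal 0 1).real (Set.Ioc (-K) K) ≤ 1 + x / K ^ 2 / 4 := by
    simp only [integral_const, smul_eq_mul, mul_one, measureReal_restrict_apply_univ]
    rw [div_le_iff₀ (by linarith)]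
    refine measureReal_le_one.trans ?_
    nlinarith
  have a3 := log_le_sub_one_of_pos
    (avg_pos (F := fun t => rho b h (v t) * 1) fun t => mul_pos (exp_pos _) one_pos)
  rw [pht]
  linarith

theorem upH {b b1 h : ℝ} (hK : 1 ≤ K) (hb1 : 1 ≤ b1) (hv : ∀ t, |v t| ≤ K) (h1 : 1 / 4 ≤ b)
    (h2 : b ≤ b1) (h3 : 2 * b1 * (K + K ^ 2 + b1) ≤ |h|) : PhT v b h ≤ PhG b h := by
  have hb : 0 < b := by linarith
  have a0 : PhT v b h ≤ |h| * K + K ^ 2 := by
    rw [PhT, log_le_iff_le_exp (avg_pos fun t => exp_pos _)]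
    refine avg_le fun t => exp_le_exp.2 (add_le_add ?_ ?_)
    · refine (le_abs_self _).trans ?_
      rw [abs_mul]; exact mul_le_mul_of_nonneg_left (hv t) (abs_nonneg _)
    · have : v t ^ 2 ≤ K ^ 2 := by rw [← sq_abs (v t)]; gcongr; exact hv t
      rw [Uq]; nlinarith [sq_nonneg (v t)]
  have a2 : 1 ≤ K + K ^ 2 + b1 := by nlinarith
  have a1 : |h| * (K + K ^ 2 + b1) ≤ h ^ 2 / (2 * b) := by
    rw [le_div_iff₀ (by positivity), ← sq_abs h, sq |h|, mul_assoc]
    refine mul_le_mul_of_nonneg_left (le_trans ?_ h3) (abs_nonneg _)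
    nlinarith
  have a3 := log_le_sub_one_of_pos hb
  have a5 : 1 * (K ^ 2 + b1) ≤ |h| * (K ^ 2 + b1) :=
    mul_le_mul_of_nonneg_right (by nlinarith) (by positivity)
  rw [PhG]; nlinarith

theorem varL (N : Num K η x ε) (A : Apx K ε v 1 0) :
    1 - η ≤ avg (fun t => v t ^ 2) ∧ avg (fun t => v t ^ 2) - 1 ≤ ε := by
  obtain ⟨w0, w1, w2, w3, p2⟩ := N.w
  obtain ⟨k4, x0, x1, x2, -, ep⟩ := id N
  have r1 : ∀ y, rho 1 0 y = 1 := fun y => by simp [rho, PhG]
  have s1 : avg (fun t => v t ^ 2 - 1) = avg (fun t => v t ^ 2) - 1 := by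
    have := avg_lin (fun t => v t ^ 2) (fun _ => 1) 1 (-1)
    rw [avg_one] at this
    simpa [sub_eq_add_neg] using this
  have a2 := A.2.2
  simp only [r1, one_mul, inv_one, div_one, ne_eq, OfNat.ofNat_ne_zero, not_false_eq_true,
    zero_pow, add_zero, Real.toNNReal_one, s1] at a2
  constructor
  · have t2 := (tails K 0 1 k4 (by simp; linarith) (by simp)).2.2
    simp only [NNReal.coe_one, ne_eq, OfNat.ofNat_ne_zero, not_false_eq_true, zero_pow,
      add_zero] at t2
    have := (abs_le.1 (quo (by linarith) a2 t2 N.th (by linarith))).1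
    linarith
  · obtain ⟨-, i2, v2⟩ := mom 0 1
    simp only [NNReal.coe_one, ne_eq, OfNat.ofNat_ne_zero, not_false_eq_true, zero_pow,
      add_zero] at i2 v2
    rw [← integral_add_compl (measurableSet_Ioc (a := -K) (b := K)) i2] at v2
    have a3 : 0 ≤ ∫ y in (Set.Ioc (-K) K)ᶜ, (y ^ 2 - 1) ∂gaussianReal 0 1 :=
      setIntegral_nonneg measurableSet_Ioc.compl fun y hy => by
        rw [Set.mem_compl_iff, Set.mem_Ioc, not_and_or, not_lt, not_le] at hy
        rcases hy with hy | hy <;> nlinarith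
    have a4 : (∫ y in Set.Ioc (-K) K, (y ^ 2 - 1) ∂gaussianReal 0 1) /
        (gaussianReal 0 1).real (Set.Ioc (-K) K) ≤ 0 :=
      div_nonpos_of_nonpos_of_nonneg (by linarith) measureReal_nonneg
    linarith [(abs_le.1 a2).2]

end

theorem exK {η x c : ℝ} (hη : 0 < η) (e0 : 0 < x) (c0 : 0 < c) :
    ∃ K : ℝ, 4 ≤ K ∧ 1 ≤ K * η ∧ c / K ^ 2 ≤ x / 8 := by
  have a1 : 0 < 1 / η := by positivity
  have a2 : 0 < 8 * c / x := by positivity
  refine ⟨4 + 1 / η + 8 * c / x, by linarith, ?_, ?_⟩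
  · have : 1 / η * η = 1 := by field_simp
    nlinarith
  · set K := 4 + 1 / η + 8 * c / x
    have a3 : 8 * c / x ≤ K ^ 2 := by nlinarith
    rw [div_le_iff₀ e0] at a3
    rw [div_le_iff₀ (by positivity)]
    linarith

end QuantSm

open QuantSm in
theorem quantS : QuantS := by
  intro η hη
  have e0 : 0 < min η 1 := lt_min hη one_pos
  obtain ⟨K, hK4, hKη, hKC⟩ := exK (c := 16 * (48 * exp 2)) hη e0 (by positivity)
  refine ⟨K, fun b1 hb1 => ?_⟩
  have N : Num K η (min η 1) (min η 1 / K ^ 2 / 8 / b1) :=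
    ⟨hK4, e0, min_le_left _ _, min_le_right _ _, hKC, div_le_self (by positivity) hb1⟩
  obtain ⟨w0, w1, w2, w3, p2⟩ := N.w
  have x1 := N.x1
  have x2 := N.x2
  obtain ⟨L, v, τ, hv, hm, hu, hn, ha⟩ := apx K b1 (2 * b1 * (K + K ^ 2 + b1))
    (min η 1 / K ^ 2 / 8 / b1) η (by linarith) (by positivity) hη (by linarith)
  have HK : K ≤ 2 * b1 * (K + K ^ 2 + b1) := by nlinarith
  obtain ⟨v1, v2⟩ := varL N (ha 1 0 (by norm_num) hb1 (by rw [abs_zero]; linarith))
  refine ⟨L, v, τ, ⟨by linarith, hKη, hv, fun b h h1 h2 => ?_,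
    fun b h h1 h2 h3 => lowL N h1 h3 (ha b h h1 h2 (by linarith)), v1, ?_⟩, hm,
    ⟨_, le_trans (by linarith) p2, fun t => by rw [hu]; simp⟩, hn⟩
  · rcases le_total |h| (2 * b1 * (K + K ^ 2 + b1)) with h3 | h3
    · exact upL N (ha b h h1 h2 h3)
    · exact (upH (by linarith) hb1 hv h1 h2 h3).trans (le_add_of_nonneg_right (by positivity))
  · rw [le_div_iff₀ (by linarith)] at v2
    linarith

end Vale.Agent.P157
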