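import Vale.Agent.P157.StmS
import Vale.Agent.P157.Smh

/-! P157, sphere: replacing the terminal function pattern by pattern. -/

namespace Vale.Agent.P157

open MeasureTheory ProbabilityTheory Finset Real Filter

noncomputable section

namespace R2S

open Smh

variable {X Sg : Type} [MeasurableSpace X] [MeasurableSpace Sg]

theorem exp_bd {a D : ℝ} (h : |a| ≤ D) : |exp a| ≤ exp D := by
  rw [abs_of_pos (exp_pos _)]; exact exp_le_exp.2 (abs_le.1 h).2

theorem z_bd (ν : Measure Sg) [IsProbabilityMeasure ν] {W : Sg → ℝ} (hW : Measurable W) {D : ℝ}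
    (hD : ∀ s, |W s| ≤ D) : exp (-D) ≤ ∫ s, exp (W s) ∂ν ∧ ∫ s, exp (W s) ∂ν ≤ exp D := by
  have hI := intg (μ := ν) hW.exp (exp D) (fun s => exp_bd (hD s))
  constructor
  · simpa using integral_mono (integrable_const (exp (-D))) hI
      (fun s => exp_le_exp.2 (abs_le.1 (hD s)).1)
  · simpa using integral_mono hI (integrable_const (exp D))
      (fun s => exp_le_exp.2 (abs_le.1 (hD s)).2)

theorem log_int (μ : Measure X) [IsProbabilityMeasure μ] (ν : Measure Sg) [IsProbabilityMeasure ν]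
    {W : X → Sg → ℝ} (hW : Measurable (Function.uncurry W)) {D : ℝ} (hD : ∀ x s, |W x s| ≤ D) :
    Integrable (fun x => log (∫ s, exp (W x s) ∂ν)) μ := by
  have h1 : StronglyMeasurable (Function.uncurry fun x s => exp (W x s)) :=
    hW.exp.stronglyMeasurable
  refine intg h1.integral_prod_right.measurable.log D (fun x => ?_)
  have h2 := z_bd ν (hW.of_uncurry_left (x := x)) (hD x)
  rw [abs_le]
  exact ⟨(le_log_iff_exp_le ((exp_pos _).trans_le h2.1)).2 h2.1,
    (log_le_iff_le_exp ((exp_pos _).trans_le h2.1)).2 h2.2⟩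

theorem ptw (ν : Measure Sg) [IsProbabilityMeasure ν] {B D : ℝ} {W u v : Sg → ℝ}
    (hW : Measurable W) (hu : Measurable u) (hv : Measurable v) (hD : ∀ s, |W s| ≤ D)
    (hub : ∀ s, |u s| ≤ B) (hvb : ∀ s, |v s| ≤ B) :
    log (∫ s, exp (v s + W s) ∂ν) - log (∫ s, exp (u s + W s) ∂ν) ≤
      exp (2 * B) / (∫ s, exp (W s) ∂ν) * ∫ s, |u s - v s| * exp (W s) ∂ν := by
  have b1 : ∀ s, |v s + W s| ≤ B + D := fun s => (abs_add_le _ _).trans (add_le_add (hvb s) (hD s))
  have b2 : ∀ s, |u s + W s| ≤ B + D := fun s => (abs_add_le _ _).trans (add_le_add (hub s) (hD s))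
  have hx := (exp_pos _).trans_le (z_bd ν (hv.add hW) b1).1
  have hy := (exp_pos _).trans_le (z_bd ν (hu.add hW) b2).1
  have hZ := (exp_pos _).trans_le (z_bd ν hW hD).1
  have i1 := intg (μ := ν) (hv.add hW).exp _ (fun s => exp_bd (b1 s))
  have i2 := intg (μ := ν) (hu.add hW).exp _ (fun s => exp_bd (b2 s))
  have i3 := intg (μ := ν) hW.exp _ (fun s => exp_bd (hD s))
  have i4 : Integrable (fun s => |u s - v s| * exp (W s)) ν :=
    intg ((hu.sub hv).abs.mul hW.exp) ((B + B) * exp D) (fun s => by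
      rw [abs_mul, abs_abs]
      exact mul_le_mul ((abs_sub _ _).trans (add_le_add (hub s) (hvb s))) (exp_bd (hD s))
        (abs_nonneg _) (by linarith [abs_nonneg (u s), hub s]))
  simp only [Pi.add_apply] at hx hy i1 i2
  rw [← log_div hx.ne' hy.ne']
  refine (log_le_sub_one_of_pos (by positivity)).trans ?_
  have h1 : (∫ s, exp (v s + W s) ∂ν) - ∫ s, exp (u s + W s) ∂ν ≤
      exp B * ∫ s, |u s - v s| * exp (W s) ∂ν := by
    rw [← integral_sub i1 i2, ← integral_const_mul]
    refine integral_mono (i1.sub i2) (i4.const_mul _) (fun s => ?_)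
    simp only [exp_add]
    rw [← sub_mul, ← mul_assoc]
    refine mul_le_mul_of_nonneg_right ?_ (exp_pos _).le
    have a1 := add_one_le_exp (u s - v s)
    have a2 : exp (u s) = exp (v s) * exp (u s - v s) := by rw [← exp_add]; congr 1; ring
    have a3 : exp (v s) ≤ exp B := exp_le_exp.2 (abs_le.1 (hvb s)).2
    have a4 := exp_pos (v s)
    have a5 : v s - u s ≤ |u s - v s| := by rw [abs_sub_comm]; exact le_abs_self _
    have a6 := mul_le_mul_of_nonneg_right a3 (abs_nonneg (u s - v s))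
    nlinarith
  have h2 : exp (-B) * ∫ s, exp (W s) ∂ν ≤ ∫ s, exp (u s + W s) ∂ν := by
    rw [← integral_const_mul]
    refine integral_mono (i3.const_mul _) i2 (fun s => ?_)
    simp only [exp_add]
    exact mul_le_mul_of_nonneg_right (exp_le_exp.2 (abs_le.1 (hub s)).1) (exp_pos _).le
  have h3 : 0 ≤ ∫ s, |u s - v s| * exp (W s) ∂ν := integral_nonneg (fun s => by positivity)
  rw [div_sub_one hy.ne']
  refine (div_le_div₀ (by positivity) h1 (by positivity) h2).trans (le_of_eq ?_)
  rw [exp_neg, two_mul, exp_add]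
  field_simp

theorem fib (μ : Measure X) [IsProbabilityMeasure μ] (ν : Measure Sg) [IsProbabilityMeasure ν]
    {B D ε : ℝ} {W : Sg → ℝ} {u v : X → Sg → ℝ} (hW : Measurable W)
    (hu : Measurable (Function.uncurry u)) (hv : Measurable (Function.uncurry v))
    (hD : ∀ s, |W s| ≤ D) (hub : ∀ x s, |u x s| ≤ B) (hvb : ∀ x s, |v x s| ≤ B)
    (hε : ∀ᵐ s ∂ν, ∫ x, |u x s - v x s| ∂μ ≤ ε) :
    ∫ x, (log (∫ s, exp (v x s + W s) ∂ν) - log (∫ s, exp (u x s + W s) ∂ν)) ∂μ ≤
      exp (2 * B) * ε := by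
  have hZ := (exp_pos _).trans_le (z_bd ν hW hD).1
  have i1 := log_int μ ν (W := fun x s => v x s + W s) (hv.add (hW.comp measurable_snd))
    (fun x s => (abs_add_le _ _).trans (add_le_add (hvb x s) (hD s)))
  have i2 := log_int μ ν (W := fun x s => u x s + W s) (hu.add (hW.comp measurable_snd))
    (fun x s => (abs_add_le _ _).trans (add_le_add (hub x s) (hD s)))
  have i3 := intg (μ := ν) hW.exp _ (fun s => exp_bd (hD s))
  have i4 : Integrable (Function.uncurry fun x s => |u x s - v x s| * exp (W s)) (μ.prod ν) :=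
    intg ((hu.sub hv).abs.mul (hW.comp measurable_snd).exp) ((B + B) * exp D) (fun z => by
      simp only [Function.uncurry]
      rw [abs_mul, abs_abs]
      exact mul_le_mul ((abs_sub _ _).trans (add_le_add (hub _ _) (hvb _ _))) (exp_bd (hD _))
        (abs_nonneg _) (by linarith [abs_nonneg (u z.1 z.2), hub z.1 z.2]))
  refine (integral_mono (i1.sub i2) (i4.integral_prod_left.const_mul
    (exp (2 * B) / ∫ s, exp (W s) ∂ν)) (fun x => ptw ν hW hu.of_uncurry_left hv.of_uncurry_left hD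
      (hub x) (hvb x))).trans ?_
  rw [integral_const_mul]
  have e1 := integral_integral_swap i4
  simp only [Function.uncurry_apply_pair] at e1 ⊢
  rw [e1]
  have h2 : ∫ s, ∫ x, |u x s - v x s| * exp (W s) ∂μ ∂ν ≤ ε * ∫ s, exp (W s) ∂ν := by
    rw [← integral_const_mul]
    refine integral_mono_ae i4.integral_prod_right (i3.const_mul _) ?_
    filter_upwards [hε] with s hs
    rw [integral_mul_const]
    exact mul_le_mul_of_nonneg_right hs (exp_pos _).le
  refine (mul_le_mul_of_nonneg_left h2 (by positivity)).trans (le_of_eq ?_)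
  field_simp

def Ph {M : ℕ} (ν : Measure Sg) (F : Fin M → X → Sg → ℝ) (G : Fin M → X) : ℝ :=
  log (∫ s, exp (∑ a, F a (G a) s) ∂ν)

theorem sum_meas {M : ℕ} {F : Fin M → X → Sg → ℝ} (hF : ∀ a, Measurable (Function.uncurry (F a))) :
    Measurable (Function.uncurry fun (G : Fin M → X) s => ∑ a, F a (G a) s) :=
  Finset.measurable_sum _ (fun a _ => by
    have := (hF a).comp (f := fun z : (Fin M → X) × Sg => (z.1 a, z.2)) (by fun_prop)
    exact this)

omit [MeasurableSpace X] [MeasurableSpace Sg] in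
theorem sum_bd {M : ℕ} {B : ℝ} {F : Fin M → X → Sg → ℝ} (hb : ∀ a x s, |F a x s| ≤ B)
    (G : Fin M → X) (s : Sg) : |∑ a, F a (G a) s| ≤ M * B := by
  refine (abs_sum_le_sum_abs _ _).trans ((sum_le_card_nsmul _ _ B (fun a _ => hb a _ _)).trans ?_)
  simp

theorem one {M : ℕ} {B ε : ℝ} (μ : Measure X) [IsProbabilityMeasure μ] (ν : Measure Sg)
    [IsProbabilityMeasure ν] {F F' : Fin (M + 1) → X → Sg → ℝ}
    (hF : ∀ a, Measurable (Function.uncurry (F a))) (hF' : ∀ a, Measurable (Function.uncurry (F' a)))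
    (hb : ∀ a x s, |F a x s| ≤ B) (hb' : ∀ a x s, |F' a x s| ≤ B) (a : Fin (M + 1))
    (he : ∀ b, b ≠ a → F' b = F b) (hε : ∀ᵐ s ∂ν, ∫ x, |F a x s - F' a x s| ∂μ ≤ ε) :
    ∫ G, Ph ν F' G ∂(Measure.pi fun _ => μ) - ∫ G, Ph ν F G ∂(Measure.pi fun _ => μ) ≤
      exp (2 * B) * ε := by
  have i1 := log_int (Measure.pi fun _ : Fin (M + 1) => μ) ν (sum_meas hF') (sum_bd hb')
  have i2 := log_int (Measure.pi fun _ : Fin (M + 1) => μ) ν (sum_meas hF) (sum_bd hb)
  have mp := measurePreserving_piFinSuccAbove (fun _ : Fin (M + 1) => μ) a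
  set Ψ : X × (Fin M → X) → ℝ := fun z =>
    log (∫ s, exp (F' a z.1 s + ∑ j, F (a.succAbove j) (z.2 j) s) ∂ν) -
      log (∫ s, exp (F a z.1 s + ∑ j, F (a.succAbove j) (z.2 j) s) ∂ν) with hΨ
  have e1 : ∀ G, Ph ν F' G - Ph ν F G = Ψ (MeasurableEquiv.piFinSuccAbove (fun _ => X) a G) := by
    intro G
    simp only [Ph, Fin.sum_univ_succAbove _ a, he _ (Fin.succAbove_ne a _), hΨ]
    rfl
  have i3 : Integrable Ψ (μ.prod (Measure.pi fun _ => μ)) := by
    rw [← mp.integrable_comp_emb (MeasurableEquiv.measurableEmbedding _)]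
    exact (i1.sub i2).congr (ae_of_all _ e1)
  have e2 : ∫ G, Ph ν F' G ∂(Measure.pi fun _ => μ) - ∫ G, Ph ν F G ∂(Measure.pi fun _ => μ) =
      ∫ z, Ψ z ∂(μ.prod (Measure.pi fun _ => μ)) := by
    rw [← mp.integral_comp' Ψ, ← funext e1]
    exact (integral_sub i1 i2).symm
  rw [e2, integral_prod_symm _ i3]
  have := integral_mono i3.integral_prod_right (integrable_const (exp (2 * B) * ε)) (fun H =>
    fib μ ν (W := fun s => ∑ j, F (a.succAbove j) (H j) s)
      (sum_meas (fun j => hF (a.succAbove j))).of_uncurry_left (hF a) (hF' a)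
      (sum_bd (fun j => hb (a.succAbove j)) H) (hb a) (hb' a) hε)
  simpa using this

theorem all {M : ℕ} {B ε : ℝ} (μ : Measure X) [IsProbabilityMeasure μ] (ν : Measure Sg)
    [IsProbabilityMeasure ν] {f g : X → Sg → ℝ} (hf : Measurable (Function.uncurry f))
    (hg : Measurable (Function.uncurry g)) (hfb : ∀ x s, |f x s| ≤ B) (hgb : ∀ x s, |g x s| ≤ B)
    (hε : ∀ᵐ s ∂ν, ∫ x, |f x s - g x s| ∂μ ≤ ε) :
    ∫ G, Ph ν (fun _ : Fin M => g) G ∂(Measure.pi fun _ => μ) -
      ∫ G, Ph ν (fun _ : Fin M => f) G ∂(Measure.pi fun _ => μ) ≤ M * (exp (2 * B) * ε) := by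
  cases M with
  | zero => simp [Ph]
  | succ M =>
    have key : ∀ s : Finset (Fin (M + 1)),
        ∫ G, Ph ν (fun a => if a ∈ s then g else f) G ∂(Measure.pi fun _ => μ) -
          ∫ G, Ph ν (fun _ : Fin (M + 1) => f) G ∂(Measure.pi fun _ => μ) ≤
        s.card * (exp (2 * B) * ε) := by
      intro s
      induction s using Finset.induction_on with
      | empty => simp
      | insert a s ha ih =>
        have := one μ ν (F := fun b => if b ∈ s then g else f)
          (F' := fun b => if b ∈ insert a s then g else f) (ε := ε)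
          (fun b => by split_ifs <;> assumption) (fun b => by split_ifs <;> assumption)
          (fun b => by split_ifs <;> assumption) (fun b => by split_ifs <;> assumption) a
          (fun b hb => by simp [hb]) (by simpa [ha] using hε)
        rw [card_insert_of_notMem ha]
        push_cast
        linarith
    simpa using key univ

end R2S

theorem r2S : R2S := by
  intro B
  refine ⟨exp (2 * B), (exp_pos _).le, fun N M Sg _ ν _ F F' ε hF hF' hb hb' hε => ?_⟩
  have h1 := R2S.all (M := M) (gN N) ν hF hF' hb hb' hε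
  have h2 := R2S.all (M := M) (gN N) ν hF' hF hb' hb (by simpa only [abs_sub_comm] using hε)
  simp only [R2S.Ph] at h1 h2
  rw [abs_le]
  constructor <;> linarith

end

end Vale.Agent.P157
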