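import Vale.Agent.P157.S.RotS

/-! P157, sphere: comparison of the spherical model with the discrete shell model. -/

namespace Vale.Agent.P157

open MeasureTheory ProbabilityTheory Finset Real Filter

noncomputable section

namespace RSM

open RotM

variable {N M : ℕ}

theorem intg {Ω : Type} [MeasurableSpace Ω] {μ : Measure Ω} [IsFiniteMeasure μ] {u : Ω → ℝ}
    (hu : Measurable u) (B : ℝ) (hB : ∀ x, |u x| ≤ B) : Integrable u μ :=
  Integrable.of_bound hu.aestronglyMeasurable B (ae_of_all _ hB)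

def Lf (f : ℝ → ℝ) (μ : Measure (Fin N → ℝ)) (g : Fin M → Fin N → ℝ) : ℝ :=
  log (∫ y, exp (Hn f g y) ∂μ)

section
variable {f : ℝ → ℝ} {B : ℝ} (μ : Measure (Fin N → ℝ)) [IsProbabilityMeasure μ]

theorem lf_meas (hf : Measurable f) : Measurable (Lf f μ : (Fin M → Fin N → ℝ) → ℝ) :=
  ((hn_meas hf).exp.stronglyMeasurable.integral_prod_right' (ν := μ)).measurable.log

theorem z_low (hf : Measurable f) (hB : ∀ t, |f t| ≤ B) (g : Fin M → Fin N → ℝ) :
    exp (-(M * B)) ≤ ∫ y, exp (Hn f g y) ∂μ := by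
  have := integral_mono (integrable_const (exp (-(M * B)))) (ex_int hf hB g μ)
    (fun y => exp_le_exp.2 (abs_le.1 (hn_bd hB g y)).1)
  simpa using this

theorem z_pos (hf : Measurable f) (hB : ∀ t, |f t| ≤ B) (g : Fin M → Fin N → ℝ) :
    0 < ∫ y, exp (Hn f g y) ∂μ := (exp_pos _).trans_le (z_low μ hf hB g)

theorem lf_bd (hf : Measurable f) (hB : ∀ t, |f t| ≤ B) (g : Fin M → Fin N → ℝ) :
    |Lf f μ g| ≤ M * B := by
  have h1 := integral_mono (ex_int hf hB g μ) (integrable_const (exp (M * B)))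
    (fun y => exp_le_exp.2 (abs_le.1 (hn_bd hB g y)).2)
  simp only [integral_const, probReal_univ, smul_eq_mul, one_mul] at h1
  rw [Lf, abs_le, le_log_iff_exp_le (z_pos μ hf hB g), log_le_iff_le_exp (z_pos μ hf hB g)]
  exact ⟨z_low μ hf hB g, h1⟩

theorem lf_le (hf : Measurable f) (hB : ∀ t, |f t| ≤ B) {g g' : Fin M → Fin N → ℝ} {c : ℝ}
    (h : ∀ y, Hn f g y ≤ Hn f g' y + c) : Lf f μ g ≤ Lf f μ g' + c := by
  have h1 := integral_mono (ex_int hf hB g μ) ((ex_int hf hB g' μ).mul_const (exp c))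
    (fun y => (exp_le_exp.2 (h y)).trans (le_of_eq (exp_add _ _)))
  rw [integral_mul_const] at h1
  rw [Lf, Lf, log_le_iff_le_exp (z_pos μ hf hB g), exp_add, exp_log (z_pos μ hf hB g')]
  exact h1

theorem hn_diff (hB : ∀ t, |f t| ≤ B) (g : Fin M → Fin N → ℝ) (a : Fin M) (x y : Fin N → ℝ) :
    |Hn f (Function.update g a x) y - Hn f g y| ≤ 2 * B := by
  unfold Hn
  rw [← sum_sub_distrib, sum_eq_single a (fun b _ hb => by simp [Function.update_of_ne hb])
    (by simp)]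
  have h1 := hB (∑ i, Function.update g a x a i * nz y i)
  have h2 := hB (∑ i, g a i * nz y i)
  exact (abs_sub _ _).trans (by linarith)

theorem lf_diff (hf : Measurable f) (hB : ∀ t, |f t| ≤ B) (g : Fin M → Fin N → ℝ) (a : Fin M)
    (x : Fin N → ℝ) : |Lf f μ (Function.update g a x) - Lf f μ g| ≤ 2 * B := by
  have h1 := lf_le μ hf hB (g := Function.update g a x) (g' := g) (c := 2 * B)
    (fun y => by linarith [(abs_le.1 (hn_diff hB g a x y)).2])
  have h2 := lf_le μ hf hB (g := g) (g' := Function.update g a x) (c := 2 * B)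
    (fun y => by linarith [(abs_le.1 (hn_diff hB g a x y)).1])
  rw [abs_le]
  constructor <;> linarith

end

theorem int_cond (A : Set (Fin N → ℝ)) (G : (Fin N → ℝ) → ℝ) :
    ∫ y, G y ∂(gN N)[|A] = (∫ y in A, G y ∂gN N) / (gN N).real A := by
  rw [ProbabilityTheory.cond, integral_smul_measure, ENNReal.toReal_inv, smul_eq_mul, div_eq_inv_mul]
  rfl

/-- conditioning on a set of not too small probability hardly changes the free energy -/
theorem conc (hRotS : RotS) {f : ℝ → ℝ} {B C m : ℝ} (hN : 1 ≤ N) (hf : Measurable f)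
    (hB : ∀ t, |f t| ≤ B) (hm : 0 < m) (hm1 : m ≤ 1)
    (hC : ∀ (X : (Fin M → Fin N → ℝ) → ℝ) (B' : ℝ), Measurable X → (∀ g, |X g| ≤ B') →
      (∀ g a x, |X (Function.update g a x) - X g| ≤ 4 * B) →
      log (∫ g, exp (m * X g) ∂gM M N) ≤ m * ∫ g, X g ∂gM M N + C * m ^ 2 * M)
    {A : Set (Fin N → ℝ)} (hA : MeasurableSet A) (h0 : 0 < (gN N).real A) (hC0 : 0 ≤ C) :
    |∫ g, Lf f (gN N) g ∂gM M N - ∫ g, Lf f ((gN N)[|A]) g ∂gM M N| ≤
      -log ((gN N).real A) / m + C * m * M := by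
  have hne : gN N A ≠ 0 := fun h => by simp [Measure.real, h] at h0
  have := cond_isProbabilityMeasure (μ := gN N) hne
  set Y : (Fin M → Fin N → ℝ) → ℝ := fun g => Lf f ((gN N)[|A]) g - Lf f (gN N) g with hY
  set l := -log ((gN N).real A) with hl
  have l0 : 0 ≤ l := by
    have : (gN N).real A ≤ 1 := measureReal_le_one
    linarith [log_nonpos h0.le this]
  have Ym : Measurable Y := (lf_meas _ hf).sub (lf_meas _ hf)
  have Yb : ∀ g, |Y g| ≤ 2 * (M * B) := fun g =>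
    (abs_sub _ _).trans (by linarith [lf_bd ((gN N)[|A]) hf hB g, lf_bd (gN N) hf hB g])
  have Yd : ∀ g a x, |Y (Function.update g a x) - Y g| ≤ 4 * B := fun g a x => by
    have h1 := abs_le.1 (lf_diff ((gN N)[|A]) hf hB g a x)
    have h2 := abs_le.1 (lf_diff (gN N) hf hB g a x)
    simp only [hY]
    rw [abs_le]
    constructor <;> linarith [h1.1, h1.2, h2.1, h2.2]
  have Ye : ∀ g, exp (Y g) = (∫ y in A, exp (Hn f g y) ∂gN N) / (∫ y, exp (Hn f g y) ∂gN N) /
      (gN N).real A := fun g => by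
    simp only [hY, Lf]
    rw [exp_sub, exp_log (z_pos _ hf hB g), exp_log (z_pos _ hf hB g), int_cond]
    ring
  have Y1 : ∫ g, exp (Y g) ∂gM M N = 1 := by
    simp only [Ye]
    rw [integral_div, hRotS N M f B A hN hf hB hA, div_self h0.ne']
  have Yl : ∀ g, Y g ≤ l := fun g => by
    rw [← exp_le_exp, Ye, hl, exp_neg, exp_log h0, div_eq_mul_inv]
    refine mul_le_of_le_one_left (inv_pos.2 h0).le ?_
    rw [div_le_one (z_pos _ hf hB g)]
    exact setIntegral_le_integral (ex_int hf hB g _) (ae_of_all _ (fun y => (exp_pos _).le))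
  have Yi : Integrable Y (gM M N) := intg Ym _ Yb
  have ei : ∀ c : ℝ, Integrable (fun g => exp (c * Y g)) (gM M N) := fun c =>
    intg (Ym.const_mul c).exp (exp (|c| * (2 * (M * B)))) (fun g => by
      rw [abs_of_pos (exp_pos _)]
      refine exp_le_exp.2 ((le_abs_self _).trans ?_)
      rw [abs_mul]
      exact mul_le_mul_of_nonneg_left (Yb g) (abs_nonneg _))
  have e1 : Integrable (fun g => exp (Y g)) (gM M N) := by simpa using ei 1
  have up : ∫ g, Y g ∂gM M N ≤ 0 := by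
    have := integral_mono Yi (e1.sub (integrable_const 1))
      (fun g => by simp only [Pi.sub_apply]; linarith [add_one_le_exp (Y g)])
    simp only [Pi.sub_apply] at this
    rw [integral_sub e1 (integrable_const 1), Y1] at this
    simpa using this
  have low : exp (-l) ≤ ∫ g, exp (m * Y g) ∂gM M N := by
    have := integral_mono (e1.const_mul (exp (-l))) (ei m) (fun g => by
      simp only
      rw [← exp_add]
      refine exp_le_exp.2 ?_
      nlinarith [Yl g])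
    rwa [integral_const_mul, Y1, mul_one] at this
  have h1 := hC Y _ Ym Yb Yd
  have h2 : -l ≤ log (∫ g, exp (m * Y g) ∂gM M N) :=
    (le_log_iff_exp_le ((exp_pos _).trans_le low)).2 low
  have h3 : ∫ g, Y g ∂gM M N = ∫ g, Lf f ((gN N)[|A]) g ∂gM M N - ∫ g, Lf f (gN N) g ∂gM M N :=
    integral_sub (intg (lf_meas _ hf) _ (lf_bd _ hf hB)) (intg (lf_meas _ hf) _ (lf_bd _ hf hB))
  rw [abs_sub_comm, ← h3, abs_of_nonpos up]
  have h4 : -∫ g, Y g ∂gM M N - C * m * M ≤ l / m := by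
    rw [le_div_iff₀ hm]
    nlinarith
  linarith

theorem mean_eq (hSph0 : Sph0) {f : ℝ → ℝ} {B : ℝ} (hN : 1 ≤ N) (hf : Measurable f)
    (hB : ∀ t, |f t| ≤ B) : N * meanS f N M = ∫ g, Lf f (gN N) g ∂gM M N := by
  have hN' : (0 : ℝ) < N := by exact_mod_cast hN
  have hs : √(N : ℝ) ≠ 0 := (sqrt_pos.2 hN').ne'
  unfold meanS pS
  rw [integral_const_mul, ← mul_assoc, mul_one_div_cancel hN'.ne', one_mul]
  refine integral_congr_ae (ae_of_all _ (fun g => ?_))
  have h1 := hSph0 N (fun x => exp (∑ a, f (∑ i, g a i * x i))) (exp (M * B)) hN (by fun_prop)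
    (fun x => by
      rw [abs_of_pos (exp_pos _)]
      refine exp_le_exp.2 ((sum_le_card_nsmul _ _ B (fun a _ => (abs_le.1 (hB _)).2)).trans ?_)
      simp)
  simp only [Lf, Hn]
  rw [← h1]
  congr 2
  funext u
  congr 1
  refine sum_congr rfl (fun a _ => ?_)
  congr 1
  rw [div_eq_iff hs, sum_mul]
  exact sum_congr rfl (fun i _ => by ring)

/-! ### Gaussian and geometric estimates -/

theorem sq_int (c : Fin N → ℝ) :
    Integrable (fun g : Fin N → ℝ => (∑ i, g i * c i) ^ 2) (gN N) ∧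
      ∫ g, (∑ i, g i * c i) ^ 2 ∂gN N = ∑ i, c i ^ 2 := by
  let v : EuclideanSpace ℝ (Fin N) := WithLp.toLp 2 c
  have e : ∀ g : Fin N → ℝ, innerSL ℝ v (WithLp.toLp 2 g) = ∑ i, g i * c i := fun g => by
    simp [v, PiLp.inner_apply]
  have h1 := variance_dual_stdGaussian (innerSL ℝ v)
  rw [variance_of_integral_eq_zero (by fun_prop) (integral_strongDual_stdGaussian _),
    innerSL_apply_norm, EuclideanSpace.real_norm_sq_eq, ← map_pi_eq_stdGaussian,
    integral_map (by fun_prop) (by fun_prop)] at h1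
  have h2 : Integrable (fun x => (innerSL ℝ v x) ^ 2) (stdGaussian (EuclideanSpace ℝ (Fin N))) :=
    (IsGaussian.memLp_dual _ (innerSL ℝ v) 2 (by simp)).integrable_sq
  rw [← map_pi_eq_stdGaussian, integrable_map_measure (by fun_prop) (by fun_prop)] at h2
  simp only [e] at h1
  refine ⟨?_, h1⟩
  simpa only [Function.comp_def, e] using h2

theorem abs_int (c : Fin N → ℝ) {δ : ℝ} (hδ : 0 < δ) (hc : ∑ i, c i ^ 2 ≤ δ ^ 2) :
    Integrable (fun g : Fin N → ℝ => |∑ i, g i * c i|) (gN N) ∧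
      ∫ g, |∑ i, g i * c i| ∂gN N ≤ δ := by
  obtain ⟨h1, h2⟩ := sq_int c
  have hp : ∀ g : Fin N → ℝ, |∑ i, g i * c i| ≤ (∑ i, g i * c i) ^ 2 / (2 * δ) + δ / 2 := fun g => by
    rw [← sq_abs, div_add_div _ _ (by positivity) (by norm_num), le_div_iff₀ (by positivity)]
    nlinarith [sq_nonneg (|∑ i, g i * c i| - δ)]
  have hi := (h1.div_const (2 * δ)).add (integrable_const (δ / 2))
  have h3 : Integrable (fun g : Fin N → ℝ => |∑ i, g i * c i|) (gN N) :=
    hi.mono' (Measurable.aestronglyMeasurable (by fun_prop)) (ae_of_all _ (fun g => by rw [Real.norm_eq_abs, abs_abs]; exact hp g))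
  refine ⟨h3, (integral_mono h3 hi hp).trans ?_⟩
  simp only [Pi.add_apply]
  rw [integral_add (h1.div_const _) (integrable_const _), integral_div, h2]
  simp only [integral_const, probReal_univ, smul_eq_mul, one_mul]
  have : (∑ i, c i ^ 2) / (2 * δ) ≤ δ / 2 := by
    rw [div_le_iff₀ (by positivity)]; nlinarith
  linarith

theorem geo (hN : 1 ≤ N) {y w : Fin N → ℝ} {η : ℝ} (hη : 0 ≤ η) (h1 : ∀ i, |y i - w i| ≤ η)
    (h2 : |(∑ i, w i ^ 2) / N - 1| ≤ 2 * η) :
    ∑ i, (nz y i - w i / √(N : ℝ)) ^ 2 ≤ (4 * η) ^ 2 := by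
  have hN' : (0 : ℝ) < N := by exact_mod_cast hN
  set s := √(N : ℝ) with hs
  have s0 : 0 < s := sqrt_pos.2 hN'
  have s2 : s ^ 2 = N := sq_sqrt hN'.le
  let Y : EuclideanSpace ℝ (Fin N) := WithLp.toLp 2 y
  let W : EuclideanSpace ℝ (Fin N) := WithLp.toLp 2 w
  have hY : ‖Y‖ = √(∑ j, y j ^ 2) := by simp [Y, EuclideanSpace.norm_eq]
  have hW : ‖W‖ ^ 2 = ∑ j, w j ^ 2 := by simp [W, EuclideanSpace.real_norm_sq_eq]
  have hd : ‖Y - W‖ ≤ η * s := by
    refine abs_le_of_sq_le_sq' ?_ (by positivity) |>.2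
    rw [EuclideanSpace.real_norm_sq_eq, mul_pow, s2]
    refine (sum_le_card_nsmul _ _ (η ^ 2) (fun i _ => ?_)).trans (by simp [mul_comm])
    simpa [Y, W] using sq_le_sq' (abs_le.1 (h1 i)).1 (abs_le.1 (h1 i)).2
  have e : ∑ i, (nz y i - w i / s) ^ 2 = ‖‖Y‖⁻¹ • Y - s⁻¹ • W‖ ^ 2 := by
    rw [EuclideanSpace.real_norm_sq_eq, hY]
    refine sum_congr rfl (fun i _ => ?_)
    simp [nz, Y, W, div_eq_inv_mul]
  rw [e]
  refine pow_le_pow_left₀ (norm_nonneg _) ?_ 2
  have a1 : ‖‖Y‖⁻¹ • Y - s⁻¹ • Y‖ ≤ |1 - ‖Y‖ / s| := by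
    rw [← sub_smul, norm_smul, Real.norm_eq_abs]
    rcases eq_or_lt_of_le (norm_nonneg Y) with h | h
    · rw [← h]; simp
    · rw [← abs_of_pos h, ← abs_mul, abs_of_pos h]
      refine le_of_eq ?_
      congr 1
      field_simp
  have a2 : ‖s⁻¹ • Y - s⁻¹ • W‖ ≤ η := by
    rw [← smul_sub, norm_smul, Real.norm_eq_abs, abs_of_pos (inv_pos.2 s0), inv_mul_le_iff₀ s0]
    linarith
  have a3 : |‖Y‖ / s - ‖W‖ / s| ≤ η := by
    rw [← sub_div, abs_div, abs_of_pos s0, div_le_iff₀ s0]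
    exact (abs_norm_sub_norm_le Y W).trans hd
  have a4 : |‖W‖ / s - 1| ≤ 2 * η := by
    rw [← hW, ← s2, ← div_pow] at h2
    have x0 : 0 ≤ ‖W‖ / s := by positivity
    refine le_trans ?_ h2
    have : (‖W‖ / s) ^ 2 - 1 = (‖W‖ / s - 1) * (‖W‖ / s + 1) := by ring
    rw [this, abs_mul, abs_of_pos (by linarith : 0 < ‖W‖ / s + 1)]
    exact le_mul_of_one_le_right (abs_nonneg _) (by linarith)
  have a5 := norm_sub_le_norm_sub_add_norm_sub (‖Y‖⁻¹ • Y) (s⁻¹ • Y) (s⁻¹ • W)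
  have a6 : |1 - ‖Y‖ / s| ≤ 3 * η := by
    rw [abs_le] at a3 a4 ⊢
    constructor <;> linarith [a3.1, a3.2, a4.1, a4.2]
  linarith

/-! ### Cells -/

section
variable {T : Type} [Fintype T] [Inhabited T] {v : T → ℝ} {τ : ℝ → Option T} {δ : ℝ}

open Classical in
def wv (v : T → ℝ) (τ : ℝ → Option T) (x : ℝ) : ℝ := ∑ t, if τ x = some t then v t else 0

theorem wv_meas (h : Cpl v τ δ) : Measurable (wv v τ) :=
  Finset.measurable_sum _ (fun t _ => Measurable.ite (h.meas t) measurable_const measurable_const)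

theorem wv_eq {x : ℝ} {t : T} (h : τ x = some t) : wv v τ x = v t := by
  unfold wv
  rw [sum_eq_single t (fun b _ hb => if_neg (fun h' => hb (Option.some.inj (h'.symm.trans h))))
    (by simp), if_pos h]

def cell (τ : ℝ → Option T) (σ : Fin N → T) : Set (Fin N → ℝ) :=
  Set.pi Set.univ (fun i => {x | τ x = some (σ i)})

theorem cell_meas (h : Cpl v τ δ) (σ : Fin N → T) : MeasurableSet (cell τ σ) :=
  MeasurableSet.univ_pi (fun i => h.meas _)

theorem cell_real {q : ℝ} (hq : ∀ t, (gaussianReal 0 1).real {y | τ y = some t} = q)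
    (σ : Fin N → T) : (gN N).real (cell τ σ) = q ^ N := by
  rw [Measure.real, cell, Measure.pi_pi, ENNReal.toReal_prod]
  simp only [← Measure.real_def, hq, prod_const, card_univ, Fintype.card_fin]

def AS (v : T → ℝ) (τ : ℝ → Option T) (N : ℕ) (c0 e : ℝ) : Set (Fin N → ℝ) :=
  ⋃ σ : Sh v N c0 e, cell τ σ.1

theorem as_meas (h : Cpl v τ δ) (c0 e : ℝ) : MeasurableSet (AS v τ N c0 e) :=
  MeasurableSet.iUnion (fun σ => cell_meas h σ.1)

theorem as_int (h : Cpl v τ δ) {q : ℝ}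
    (hq : ∀ t, (gaussianReal 0 1).real {y | τ y = some t} = q) (c0 e : ℝ)
    (G : (Fin N → ℝ) → ℝ) :
    ∫ y in AS v τ N c0 e, G (fun i => wv v τ (y i)) ∂gN N =
      q ^ N * ∑ σ : Sh v N c0 e, G (fun i => v (σ.1 i)) := by
  have hc : ∀ σ : Fin N → T, ∀ y ∈ cell τ σ, G (fun i => wv v τ (y i)) = G (fun i => v (σ i)) :=
    fun σ y hy => by
      congr 1
      funext i
      exact wv_eq (hy i (Set.mem_univ i))
  rw [mul_sum]
  refine (integral_iUnion_fintype (s := fun σ : Sh v N c0 e => cell τ σ.1)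
    (fun σ => cell_meas h σ.1) ?_ ?_).trans ?_
  rotate_left 2
  · refine sum_congr rfl (fun σ _ => ?_)
    rw [setIntegral_congr_fun (cell_meas h σ.1) (hc σ.1), setIntegral_const, cell_real hq,
      smul_eq_mul]
  · intro σ σ' hne
    refine Set.disjoint_left.2 (fun y hy hy' => hne (Subtype.ext (funext (fun i => ?_))))
    have a1 : τ (y i) = some (σ.1 i) := hy i (Set.mem_univ i)
    have a2 : τ (y i) = some (σ'.1 i) := hy' i (Set.mem_univ i)
    exact Option.some.inj (a1.symm.trans a2)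
  · intro σ
    exact (integrableOn_congr_fun (hc σ.1) (cell_meas h σ.1)).2 (integrableOn_const)

theorem as_real (h : Cpl v τ δ) {q : ℝ}
    (hq : ∀ t, (gaussianReal 0 1).real {y | τ y = some t} = q) (c0 e : ℝ) :
    (gN N).real (AS v τ N c0 e) = q ^ N * Fintype.card (Sh v N c0 e) := by
  have := as_int (N := N) h hq c0 e (fun _ => 1)
  simpa using this

theorem as_cond (h : Cpl v τ δ) {q : ℝ} (hq0 : 0 < q)
    (hq : ∀ t, (gaussianReal 0 1).real {y | τ y = some t} = q) (c0 e : ℝ)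
    (G : (Fin N → ℝ) → ℝ) :
    ∫ y, G (fun i => wv v τ (y i)) ∂(gN N)[|AS v τ N c0 e] =
      avg (fun σ : Sh v N c0 e => G (fun i => v (σ.1 i))) := by
  rw [int_cond, as_int h hq, as_real h hq, avg, mul_div_mul_left _ _ (pow_pos hq0 N).ne']

theorem as_low (h : Cpl v τ δ) {p0 : ℝ} (hδ : δ ≤ 1 / 2) (hδ0 : 0 ≤ δ) (hp : 1 - δ ≤ p0)
    (hq : ∀ t, (gaussianReal 0 1).real {y | τ y = some t} = p0 / (Fintype.card T : ℝ)) {c0 e : ℝ}
    (hc : Fintype.card (Fin N → T) ≤ 2 * Fintype.card (Sh v N c0 e)) :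
    0 < (gN N).real (AS v τ N c0 e) ∧ -log ((gN N).real (AS v τ N c0 e)) ≤ 2 * δ * N + 1 := by
  have hT : (0 : ℝ) < Fintype.card T := by exact_mod_cast Fintype.card_pos
  have hc' : (Fintype.card T : ℝ) ^ N ≤ 2 * Fintype.card (Sh v N c0 e) := by
    rw [Fintype.card_fun, Fintype.card_fin] at hc
    exact_mod_cast hc
  have p1 : 0 < p0 := by linarith
  have h1 : p0 ^ N / 2 ≤ (gN N).real (AS v τ N c0 e) := by
    rw [as_real h hq, div_pow, div_mul_eq_mul_div, div_le_div_iff₀ two_pos (pow_pos hT N)]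
    nlinarith [pow_pos p1 N]
  have h2 : 0 < p0 ^ N / 2 := by positivity
  refine ⟨h2.trans_le h1, ?_⟩
  have h3 := log_le_log h2 h1
  rw [log_div (pow_pos p1 N).ne' two_ne_zero, log_pow] at h3
  have h4 : -(2 * δ) ≤ log p0 := by
    have a1 := one_sub_inv_le_log_of_pos p1
    have a2 : p0⁻¹ ≤ 1 + 2 * δ := by
      rw [inv_le_iff_one_le_mul₀ p1]
      nlinarith
    linarith
  have h5 : log 2 ≤ 1 := by linarith [log_le_sub_one_of_pos (two_pos : (0 : ℝ) < 2)]
  have h6 := mul_le_mul_of_nonneg_left h4 (Nat.cast_nonneg (α := ℝ) N)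
  linarith

theorem close (hN : 1 ≤ N) (h : Cpl v τ δ) (hδ : 0 < δ) {f : ℝ → ℝ} {B c0 e : ℝ} (hB0 : 0 ≤ B)
    (hL : ∀ t h, |f (t + h) - f t| ≤ B * |h|) (he : e ≤ δ) (hc0 : |c0 - 1| ≤ δ)
    {y : Fin N → ℝ} (hy : y ∈ AS v τ N c0 e) :
    ∫ g, |f (∑ i, g i * nz y i) - f ((∑ i, g i * wv v τ (y i)) / √(N : ℝ))| ∂gN N ≤
      B * (4 * δ) := by
  obtain ⟨σ, hσ⟩ := Set.mem_iUnion.1 hy
  have a1 : ∀ i, τ (y i) = some (σ.1 i) := fun i => hσ i (Set.mem_univ i)
  have a2 := σ.2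
  have g1 := geo hN (y := y) (w := fun i => wv v τ (y i)) hδ.le
    (fun i => by rw [wv_eq (a1 i)]; exact h.near _ _ (a1 i)) (by
      simp only [wv_eq (a1 _)]
      rw [abs_le] at a2 hc0 ⊢
      constructor <;> linarith [a2.1, a2.2, hc0.1, hc0.2])
  obtain ⟨i1, i2⟩ := abs_int _ (by positivity) g1
  refine le_trans ?_ (mul_le_mul_of_nonneg_left i2 hB0)
  rw [← integral_const_mul]
  refine integral_mono_of_nonneg (ae_of_all _ (fun g => abs_nonneg _)) (i1.const_mul B)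
    (ae_of_all _ (fun g => ?_))
  have := hL ((∑ i, g i * wv v τ (y i)) / √(N : ℝ))
    (∑ i, g i * (nz y i - wv v τ (y i) / √(N : ℝ)))
  have e : (∑ i, g i * wv v τ (y i)) / √(N : ℝ) +
      ∑ i, g i * (nz y i - wv v τ (y i) / √(N : ℝ)) = ∑ i, g i * nz y i := by
    rw [sum_div, ← sum_add_distrib]
    exact sum_congr rfl (fun i _ => by ring)
  rw [e] at this
  exact this

end

theorem lip_meas {f : ℝ → ℝ} {B : ℝ} (hB0 : 0 ≤ B) (hL : ∀ t h, |f (t + h) - f t| ≤ B * |h|) :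
    Measurable f := by
  have : LipschitzWith ⟨B, hB0⟩ f := LipschitzWith.of_dist_le_mul (fun x y => by
    have := hL y (x - y)
    rw [add_sub_cancel] at this
    exact this)
  exact this.continuous.measurable

end RSM

open RSM in
theorem rS (hSph0 : Sph0) (hRotS : RotS) (hMgfS : MgfS) (hR2S : R2S) (hLlnS : LlnS) : RS := by
  intro B α ε hα hε
  obtain ⟨C, hC0, hC⟩ := hMgfS (4 * B)
  obtain ⟨C', hC0', hC'⟩ := hR2S B
  set m : ℝ := min 1 (ε / 4 / (C * α + 1)) with hm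
  have m0 : 0 < m := lt_min one_pos (by positivity)
  have m1 : m ≤ 1 := min_le_left _ _
  have m2 : m * (C * α + 1) ≤ ε / 4 := by
    rw [← le_div_iff₀ (by positivity)]; exact min_le_right _ _
  set η0 : ℝ := min (1 / 2) (min (m * ε / 8) (ε / 16 / (C' * α * |B| + 1))) with hη0
  have e0 : 0 < η0 := lt_min (by norm_num) (lt_min (by positivity) (by positivity))
  have e1 : η0 ≤ 1 / 2 := min_le_left _ _
  have e2 : η0 ≤ m * ε / 8 := (min_le_right _ _).trans (min_le_left _ _)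
  have e3 : η0 * (C' * α * |B| + 1) ≤ ε / 16 := by
    rw [← le_div_iff₀ (by positivity)]; exact (min_le_right _ _).trans (min_le_right _ _)
  refine ⟨η0, e0, fun T _ _ v τ c0 ε1 f hB hL hcp h1 h2 h3 h4 => ?_⟩
  have hB0 : 0 ≤ B := (abs_nonneg _).trans (hB 0)
  have hf := lip_meas hB0 hL
  obtain ⟨p0, hp, hq⟩ := hcp.unif
  have hT : (0 : ℝ) < Fintype.card T := by exact_mod_cast Fintype.card_pos
  have hq0 : 0 < p0 / (Fintype.card T : ℝ) := div_pos (by linarith) hT
  filter_upwards [hLlnS T v c0 ε1 h1 h4, eventually_ge_atTop 1,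
    tendsto_natCast_atTop_atTop (R := ℝ).eventually_ge_atTop (4 / (m * ε))] with N hc hN hN2
  set M := ⌊α * N⌋₊ with hM
  have hN' : (0 : ℝ) < N := by exact_mod_cast hN
  have hMN : (M : ℝ) ≤ α * N := Nat.floor_le (by positivity)
  obtain ⟨a0, a1⟩ := as_low hcp e1 e0.le hp hq hc
  have hne : gN N (AS v τ N c0 ε1) ≠ 0 := fun h => by simp [Measure.real, h] at a0
  have := cond_isProbabilityMeasure (μ := gN N) hne
  have b1 := conc (M := M) hRotS hN hf hB m0 m1
    (fun X B' x1 x2 x3 => hC _ (gN N) M X B' m x1 x2 x3 m0.le m1) (as_meas hcp c0 ε1) a0 hC0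
  have hw := wv_meas hcp
  have b2 := hC' N M _ ((gN N)[|AS v τ N c0 ε1]) (fun g y => f (∑ i, g i * nz y i))
    (fun g y => f ((∑ i, g i * wv v τ (y i)) / √(N : ℝ))) (B * (4 * η0))
    (by unfold nz Function.uncurry; fun_prop) (by unfold Function.uncurry; fun_prop)
    (fun _ _ => hB _) (fun _ _ => hB _)
    ((ae_cond_mem (as_meas hcp c0 ε1)).mono (fun y hy => close hN hcp e0 hB0 hL h2 h3 hy))
  have b3 : ∫ g, log (∫ y, exp (∑ a, f ((∑ i, g a i * wv v τ (y i)) / √(N : ℝ)))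
      ∂(gN N)[|AS v τ N c0 ε1]) ∂gM M N = meanD f N M (shs v N c0 ε1) (fun _ => 0) := by
    unfold meanD
    refine integral_congr_ae (ae_of_all _ (fun g => ?_))
    simp only [add_zero, shs]
    rw [as_cond hcp hq0 hq c0 ε1 (fun w => exp (∑ a, f ((∑ i, g a i * w i) / √(N : ℝ))))]
  rw [b3] at b2
  rw [mean_eq hSph0 hN hf hB]
  have c1 : -log ((gN N).real (AS v τ N c0 ε1)) / m ≤ ε / 2 * N := by
    rw [div_le_iff₀ m0]
    rw [div_le_iff₀ (by positivity)] at hN2
    nlinarith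
  have c2 : C * m * M ≤ ε / 4 * N := by
    have : C * m * M ≤ C * m * (α * N) := mul_le_mul_of_nonneg_left hMN (by positivity)
    nlinarith
  have c3 : C' * M * (B * (4 * η0)) ≤ ε / 4 * N := by
    have : C' * M * (B * (4 * η0)) ≤ C' * (α * N) * (B * (4 * η0)) := by gcongr
    rw [abs_of_nonneg hB0] at e3
    nlinarith
  refine (abs_sub_le _ (∫ g, Lf f ((gN N)[|AS v τ N c0 ε1]) g ∂gM M N) _).trans ?_
  have b2' : |∫ g, Lf f ((gN N)[|AS v τ N c0 ε1]) g ∂gM M N -
      meanD f N M (shs v N c0 ε1) (fun _ => 0)| ≤ C' * M * (B * (4 * η0)) := b2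
  linarith

end

end Vale.Agent.P157
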