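import Vale.Agent.P157.StmS

/-! P157, sphere: rotation invariance of the Gibbs measure. -/

namespace Vale.Agent.P157

open MeasureTheory ProbabilityTheory Finset Real Filter

noncomputable section

namespace RotM

variable {N M : ℕ}

def ro (O : EuclideanSpace ℝ (Fin N) ≃ₗᵢ[ℝ] EuclideanSpace ℝ (Fin N)) (y : Fin N → ℝ) :
    Fin N → ℝ := (O (WithLp.toLp 2 y)).ofLp

theorem ro_meas (O : EuclideanSpace ℝ (Fin N) ≃ₗᵢ[ℝ] EuclideanSpace ℝ (Fin N)) :
    Measurable (ro O) := by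
  unfold ro
  have := O.continuous
  fun_prop

theorem ro_mp (O : EuclideanSpace ℝ (Fin N) ≃ₗᵢ[ℝ] EuclideanSpace ℝ (Fin N)) :
    MeasurePreserving (ro O) (gN N) (gN N) := by
  refine ⟨ro_meas O, ?_⟩
  have h1 : (gN N).map (WithLp.toLp 2) = stdGaussian (EuclideanSpace ℝ (Fin N)) :=
    map_pi_eq_stdGaussian
  have h2 : (stdGaussian (EuclideanSpace ℝ (Fin N))).map (WithLp.ofLp) = gN N := by
    rw [← h1, Measure.map_map (by fun_prop) (by fun_prop)]
    exact Measure.map_id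
  have h3 := stdGaussian_map O
  have hO : Measurable O := O.continuous.measurable
  have : ro O = WithLp.ofLp ∘ (O ∘ WithLp.toLp 2) := rfl
  rw [this, ← Measure.map_map (by fun_prop) (by fun_prop), ← Measure.map_map hO (by fun_prop), h1,
    h3, h2]

theorem ro_inner (O : EuclideanSpace ℝ (Fin N) ≃ₗᵢ[ℝ] EuclideanSpace ℝ (Fin N)) (x y : Fin N → ℝ) :
    ∑ i, ro O x i * ro O y i = ∑ i, x i * y i := by
  have := O.inner_map_map (WithLp.toLp 2 x) (WithLp.toLp 2 y)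
  rw [PiLp.inner_apply, PiLp.inner_apply] at this
  simpa [ro, mul_comm] using this

theorem nz_ro (O : EuclideanSpace ℝ (Fin N) ≃ₗᵢ[ℝ] EuclideanSpace ℝ (Fin N)) (y : Fin N → ℝ) :
    nz (ro O y) = ro O (nz y) := by
  have h1 : ∑ j, ro O y j ^ 2 = ∑ j, y j ^ 2 := by simpa [sq] using ro_inner O y y
  have h2 : nz y = (√(∑ j, y j ^ 2))⁻¹ • y := by
    funext i; simp [nz, div_eq_inv_mul]
  funext i
  rw [h2, nz, h1]
  simp [ro, div_eq_inv_mul]

theorem hn_ro (f : ℝ → ℝ) (O : EuclideanSpace ℝ (Fin N) ≃ₗᵢ[ℝ] EuclideanSpace ℝ (Fin N))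
    (g : Fin M → Fin N → ℝ) (y : Fin N → ℝ) :
    Hn f (fun a => ro O (g a)) (ro O y) = Hn f g y := by
  simp only [Hn, nz_ro, ro_inner]

theorem hn_meas {f : ℝ → ℝ} (hf : Measurable f) :
    Measurable (fun p : (Fin M → Fin N → ℝ) × (Fin N → ℝ) => Hn f p.1 p.2) := by
  unfold Hn nz
  fun_prop

theorem hn_bd {f : ℝ → ℝ} {B : ℝ} (hB : ∀ t, |f t| ≤ B) (g : Fin M → Fin N → ℝ) (y : Fin N → ℝ) :
    |Hn f g y| ≤ M * B := by
  refine (abs_sum_le_sum_abs _ _).trans ((sum_le_card_nsmul _ _ B (fun a _ => hB _)).trans ?_)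
  simp

def Zf (f : ℝ → ℝ) (g : Fin M → Fin N → ℝ) : ℝ := ∫ y, exp (Hn f g y) ∂gN N

theorem ex_int {f : ℝ → ℝ} (hf : Measurable f) {B : ℝ} (hB : ∀ t, |f t| ≤ B)
    (g : Fin M → Fin N → ℝ) (ν : Measure (Fin N → ℝ)) [IsFiniteMeasure ν] :
    Integrable (fun y => exp (Hn f g y)) ν := by
  refine Integrable.of_bound (C := exp (M * B))
    (((hn_meas hf).comp (measurable_const.prodMk measurable_id)).exp.aestronglyMeasurable)
    (Eventually.of_forall (fun y => ?_))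
  rw [Real.norm_eq_abs, abs_of_pos (exp_pos _)]
  exact exp_le_exp.2 (abs_le.1 (hn_bd hB g y)).2

theorem zf_low {f : ℝ → ℝ} (hf : Measurable f) {B : ℝ} (hB : ∀ t, |f t| ≤ B)
    (g : Fin M → Fin N → ℝ) : exp (-(M * B)) ≤ Zf f g := by
  have := integral_mono (integrable_const (exp (-(M * B)))) (ex_int hf hB g (gN N))
    (fun y => exp_le_exp.2 (abs_le.1 (hn_bd hB g y)).1)
  simpa [Zf] using this

theorem zf_meas {f : ℝ → ℝ} (hf : Measurable f) : Measurable (Zf f : (Fin M → Fin N → ℝ) → ℝ) :=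
  ((hn_meas hf).exp.stronglyMeasurable.integral_prod_right' (ν := gN N)).measurable

theorem zf_ro {f : ℝ → ℝ} (hf : Measurable f)
    (O : EuclideanSpace ℝ (Fin N) ≃ₗᵢ[ℝ] EuclideanSpace ℝ (Fin N)) (g : Fin M → Fin N → ℝ) :
    Zf f (fun a => ro O (g a)) = Zf f g := by
  unfold Zf
  have hm : Measurable (fun y => exp (Hn f (fun a => ro O (g a)) y)) :=
    ((hn_meas hf).comp (measurable_const.prodMk measurable_id)).exp
  conv_lhs => rw [← (ro_mp O).map_eq]
  rw [integral_map (ro_meas O).aemeasurable hm.aestronglyMeasurable]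
  simp only [hn_ro]

def Kf (f : ℝ → ℝ) (M : ℕ) (y : Fin N → ℝ) : ℝ := ∫ g, exp (Hn f g y) / Zf f g ∂gM M N

theorem kf_ro {f : ℝ → ℝ} (hf : Measurable f)
    (O : EuclideanSpace ℝ (Fin N) ≃ₗᵢ[ℝ] EuclideanSpace ℝ (Fin N)) (y : Fin N → ℝ) :
    Kf f M (ro O y) = Kf f M y := by
  unfold Kf
  have hp : MeasurePreserving (fun (g : Fin M → Fin N → ℝ) a => ro O (g a)) (gM M N) (gM M N) :=
    measurePreserving_pi _ _ (fun _ => ro_mp O)
  have hm : Measurable (fun g : Fin M → Fin N → ℝ => exp (Hn f g (ro O y)) / Zf f g) :=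
    ((hn_meas hf).comp (measurable_id.prodMk measurable_const)).exp.div (zf_meas hf)
  conv_lhs => rw [← hp.map_eq]
  rw [integral_map hp.measurable.aemeasurable hm.aestronglyMeasurable]
  simp only [hn_ro, zf_ro hf]

theorem nz_sq {y : Fin N → ℝ} (hy : y ≠ 0) : ∑ i, nz y i ^ 2 = 1 := by
  have h0 : 0 < ∑ j, y j ^ 2 := by
    obtain ⟨i, hi⟩ := Function.ne_iff.1 hy
    exact sum_pos' (fun j _ => sq_nonneg _) ⟨i, mem_univ _, by simpa [sq_pos_iff] using hi⟩
  simp only [nz, div_pow, sq_sqrt h0.le, ← sum_div]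
  exact div_self h0.ne'

theorem kf_const {f : ℝ → ℝ} (hf : Measurable f) {y y' : Fin N → ℝ} (hy : y ≠ 0) (hy' : y' ≠ 0) :
    Kf f M y = Kf f M y' := by
  have hn : ‖(WithLp.toLp 2 (nz y) : EuclideanSpace ℝ (Fin N))‖ =
      ‖(WithLp.toLp 2 (nz y') : EuclideanSpace ℝ (Fin N))‖ := by
    simp only [EuclideanSpace.norm_eq, Real.norm_eq_abs, sq_abs, nz_sq hy, nz_sq hy']
  have h1 := Submodule.reflection_sub hn
  set O := Submodule.reflection (ℝ ∙ ((WithLp.toLp 2 (nz y) : EuclideanSpace ℝ (Fin N)) -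
    WithLp.toLp 2 (nz y')))ᗮ
  have h2 : nz (ro O y) = nz y' := by rw [nz_ro, ro, h1]
  rw [← kf_ro hf O y]
  simp only [Kf, Hn, h2]

theorem ae_ne (hN : 1 ≤ N) : ∀ᵐ y ∂gN N, y ≠ 0 := by
  have h : ∀ᵐ y ∂gN N, y ⟨0, hN⟩ ≠ 0 := by
    have h1 : ∀ᵐ x ∂gaussianReal 0 1, x ≠ 0 := by
      have := nullSingletonClass_gaussianReal (μ := 0) (v := 1) one_ne_zero
      exact Measure.ae_ne _ _
    exact (measurePreserving_eval (fun _ : Fin N => gaussianReal 0 1) ⟨0, hN⟩).quasiMeasurePreserving.ae h1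
  filter_upwards [h] with y hy h0
  exact hy (by simp [h0])

theorem swap {f : ℝ → ℝ} (hf : Measurable f) {B : ℝ} (hB : ∀ t, |f t| ≤ B) (A : Set (Fin N → ℝ)) :
    ∫ g, (∫ y in A, exp (Hn f g y) ∂gN N) / Zf f g ∂gM M N = ∫ y in A, Kf f M y ∂gN N := by
  simp only [← integral_div, Kf]
  refine integral_integral_swap (f := fun g y => exp (Hn f g y) / Zf f g) ?_
  refine Integrable.of_bound (C := exp (M * B) / exp (-(M * B)))
    (((hn_meas hf).exp.div ((zf_meas hf).comp measurable_fst)).aestronglyMeasurable)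
    (Eventually.of_forall (fun p => ?_))
  have h1 := zf_low hf hB p.1
  have h2 := exp_pos (-(M * B))
  simp only [Function.uncurry, Real.norm_eq_abs]
  rw [abs_of_pos (div_pos (exp_pos _) (by linarith))]
  exact div_le_div₀ (exp_pos _).le (exp_le_exp.2 (abs_le.1 (hn_bd hB _ _)).2) h2 h1

end RotM

open RotM in
theorem rotS : RotS := by
  intro N M f B A hN hf hB hA
  have h1 : (fun _ : Fin N => (1 : ℝ)) ≠ 0 := fun h => by simpa using congrFun h ⟨0, hN⟩
  have key : ∀ S : Set (Fin N → ℝ), ∫ y in S, Kf f M y ∂gN N =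
      (gN N).real S * Kf f M (fun _ : Fin N => (1 : ℝ)) := fun S => by
    rw [integral_congr_ae (g := fun _ => Kf f M (fun _ : Fin N => (1 : ℝ)))
      (ae_restrict_of_ae ((ae_ne hN).mono (fun y hy => kf_const hf hy h1)))]
    simp
  have h2 := swap (N := N) (M := M) hf hB Set.univ
  rw [key] at h2
  have h3 : ∀ g : Fin M → Fin N → ℝ, (∫ y in Set.univ, exp (Hn f g y) ∂gN N) / Zf f g = 1 :=
    fun g => by
      rw [Measure.restrict_univ]
      exact div_self ((exp_pos _).trans_le (zf_low hf hB g)).ne'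
  simp only [h3] at h2
  have h4 := swap (M := M) hf hB A
  rw [key] at h4
  simp only [integral_const, probReal_univ, smul_eq_mul, mul_one, one_mul] at h2
  rw [← h2, mul_one] at h4
  exact h4

end

end Vale.Agent.P157
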