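import Vale.Agent.P157.StmS
import Vale.Agent.P157.C
import Vale.Agent.P157.G

namespace Vale.Agent.P157

open Finset Real

set_option linter.unusedSectionVars false

namespace Sc2Um

section
variable {O S I : Type} [Fintype O] [DecidableEq O] [Fintype S] [Inhabited S] [DecidableEq I]

theorem ss_abs {s : I → S → ℝ} {K : ℝ} (hs : ∀ i σ, |s i σ| ≤ K) (i : I) (σ σ' : S) :
    |s i σ * s i σ'| ≤ K ^ 2 := by
  rw [abs_mul, sq]
  exact mul_le_mul (hs _ _) (hs _ _) (abs_nonneg _) ((abs_nonneg _).trans (hs i σ))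

theorem rr_abs {s : I → S → ℝ} {K : ℝ} (hs : ∀ i σ, |s i σ| ≤ K) (A : Finset I) (σ σ' : S) :
    |RR s A σ σ'| ≤ K ^ 2 := by
  unfold RR
  rw [abs_div, Nat.abs_cast]
  refine div_le_of_le_mul₀ (Nat.cast_nonneg _) (sq_nonneg _)
    (le_trans (abs_sum_le_sum_abs _ _) ((sum_le_sum fun i _ => ss_abs hs i σ σ').trans ?_))
  simp [mul_comm]

theorem rr_insert {s : I → S → ℝ} {K : ℝ} (hs : ∀ i σ, |s i σ| ≤ K) {τ : I} {A : Finset I}
    (h : τ ∉ A) (hA : A.Nonempty) (σ σ' : S) (p : ℝ) :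
    (RR s (insert τ A) σ σ' - p) ^ 2 ≤ 2 * (RR s A σ σ' - p) ^ 2 + 8 * K ^ 4 / A.card * 1 := by
  have hj : (1 : ℝ) ≤ A.card := by exact_mod_cast hA.card_pos
  have h1 : RR s (insert τ A) σ σ' =
      RR s A σ σ' + (s τ σ * s τ σ' - RR s A σ σ') / (A.card + 1) := by
    unfold RR
    rw [sum_insert h, card_insert_of_notMem h]
    push_cast
    field_simp
    ring
  have h2 : |s τ σ * s τ σ' - RR s A σ σ'| ≤ 2 * K ^ 2 := by
    refine le_trans (abs_sub _ _) ?_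
    linarith [rr_abs hs A σ σ', ss_abs hs τ σ σ']
  have h3 : ((s τ σ * s τ σ' - RR s A σ σ') / (A.card + 1)) ^ 2 ≤ 4 * K ^ 4 / A.card := by
    rw [div_pow]
    refine div_le_div₀ (by positivity) ?_ (by positivity) (by nlinarith)
    refine (sq_le_sq' (abs_le.1 h2).1 (abs_le.1 h2).2).trans (le_of_eq (by ring))
  rw [h1]
  generalize (s τ σ * s τ σ' - RR s A σ σ') / (A.card + 1) = x at h3
  have : 8 * K ^ 4 / (A.card : ℝ) = 2 * (4 * K ^ 4 / A.card) := by ring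
  nlinarith [sq_nonneg (RR s A σ σ' - p - x)]

theorem sy_add (n : ℕ) (s : I → S → ℝ) (A : Finset I) (J : Finset O) (D D' : ℕ) (c : ℝ) :
    sy n s A J (D + D') c = sy n s A J D c + sy n s A J D' c := by
  unfold sy
  simp only [add_nsmul, Multiset.bind_add]

theorem sy_insert (n : ℕ) (s : I → S → ℝ) {τ : I} {A : Finset I} (h : τ ∉ A) (J : Finset O)
    (D : ℕ) (c : ℝ) : sy n s (insert τ A) J D c = sy n s A J D c + sy n s {τ} J D c := by
  unfold sy rd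
  rw [← Multiset.bind_add]
  refine Multiset.bind_congr fun a _ => ?_
  rw [← nsmul_add, insert_val_of_notMem h, Multiset.map_cons, singleton_val, Multiset.map_singleton,
    add_comm, Multiset.singleton_add]

theorem sy_mem {n : ℕ} {s : I → S → ℝ} {A : Finset I} {J : Finset O} {D : ℕ} {c : ℝ} {t : St O S}
    (ht : t ∈ sy n s A J D c) : ∃ a ∈ J, t ∈ rd s a A (n - 1) c := by
  obtain ⟨a, ha, hs⟩ := Multiset.mem_bind.1 ht
  exact ⟨a, ha, Multiset.mem_of_mem_nsmul hs⟩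

theorem sy_small (hG : GUApi) {n : ℕ} {B K c : ℝ} {s : I → S → ℝ} (hn : 1 ≤ n) (hB : 0 ≤ B)
    (hs : ∀ i σ, |s i σ| ≤ K) (hc : B * K * |c| ≤ 1) (A : Finset I) (J : Finset O) (D : ℕ) :
    Small n B (sy n s A J D c) := by
  intro t ht
  obtain ⟨a, -, ht⟩ := sy_mem ht
  exact (hG.rd_vr n B K s a A (n - 1) c hB hs).2.1 (by omega) hc t ht

theorem sy_vr (hG : GUApi) (n : ℕ) {K : ℝ} {s : I → S → ℝ} (hs : ∀ i σ, |s i σ| ≤ K)
    (A : Finset I) (J : Finset O) (D : ℕ) (c : ℝ) :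
    vr (sy n s A J D c) ≤ K ^ 2 * (J.card * (D * (A.card * c ^ 2))) := by
  induction J using Finset.induction_on with
  | empty => simp [sy, vr]
  | insert a J ha ih =>
    have : sy n s A (insert a J) D c = D • rd s a A (n - 1) c + sy n s A J D c := by
      unfold sy; rw [insert_val_of_notMem ha, Multiset.cons_bind]
    rw [this, ((gApi aApi cApi).vr_add _ _ 0).1, ((gApi aApi cApi).vr_add _ 0 D).2.1,
      card_insert_of_notMem ha]
    refine (add_le_add (mul_le_mul_of_nonneg_left (hG.rd_vr n 0 K s a A (n - 1) c le_rfl hs).1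
      (Nat.cast_nonneg _)) ih).trans (le_of_eq ?_)
    push_cast; ring

theorem eu_nonneg {n : ℕ} (hn : 1 ≤ n) (g : O → ℝ → ℝ) (U : S → ℝ) (L : Multiset (St O S))
    {d : ℕ} (hd : d ≤ n) {φ : Om O S → Om O S → ℝ} (h : ∀ x x', 0 ≤ φ x x') :
    0 ≤ EU n g U L d φ := by
  have hk := Cc.ok n L hn
  have := aApi.e2mono hk (ZU g U) (d + 1) (by omega) (φ := fun _ _ => 0) h (0, default)
  rwa [aApi.e2const hk _ _ (by omega)] at this

theorem cu_nonneg (hU : UApi) {n : ℕ} (hn : 1 ≤ n) {g : O → ℝ → ℝ} {U : S → ℝ}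
    {L : Multiset (St O S)} {s : I → S → ℝ} {A : Finset I} {P : ℕ → ℝ} {e : ℝ}
    (h : CU n g U L s A P e) : 0 ≤ e := by
  refine le_trans ?_ h.2
  rw [← hU.e1 n g U L 0 _ hn (Nat.zero_le _)]
  exact eu_nonneg hn g U L (Nat.zero_le _) fun _ _ => sq_nonneg _

theorem eu_aff {n : ℕ} (hn : 1 ≤ n) (g : O → ℝ → ℝ) (U : S → ℝ) (L : Multiset (St O S))
    {d : ℕ} (hd : d ≤ n) {φ ψ : Om O S → Om O S → ℝ} {a b : ℝ}
    (h : ∀ x x', φ x x' ≤ a * ψ x x' + b * 1) : EU n g U L d φ ≤ a * EU n g U L d ψ + b := by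
  have hk := Cc.ok n L hn
  refine le_trans (aApi.e2mono hk (ZU g U) (d + 1) (by omega) h (0, default)) (le_of_eq ?_)
  rw [aApi.e2add (chain L) _ _ _ _ ψ (fun _ _ => 1), aApi.e2const hk _ _ (by omega), mul_one]
  rfl

/-- adding a site to the overlap -/
theorem cu_insert (hU : UApi) {n : ℕ} (hn : 1 ≤ n) {g : O → ℝ → ℝ} {U : S → ℝ}
    {L : Multiset (St O S)} {s : I → S → ℝ} {K : ℝ} (hs : ∀ i σ, |s i σ| ≤ K) {τ : I}
    {A : Finset I} (h : τ ∉ A) (hne : A.Nonempty) {P : ℕ → ℝ} {e : ℝ}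
    (hc : CU n g U L s A P e) : CU n g U L s (insert τ A) P (2 * e + 8 * K ^ 4 / A.card) := by
  have hn' : (0 : ℝ) < n := by exact_mod_cast hn
  refine ⟨?_, ?_⟩
  · refine le_trans (mul_le_mul_of_nonneg_left (sum_le_sum fun d hd => eu_aff hn g U L
      (mem_Ico.1 hd).2.le fun x x' => rr_insert hs h hne x.2 x'.2 (P d)) (by positivity)) ?_
    rw [sum_add_distrib, ← mul_sum, sum_const, Nat.card_Ico, nsmul_eq_mul, mul_add, mul_left_comm]
    refine add_le_add (by linarith [hc.1]) ?_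
    rw [← mul_assoc]
    refine mul_le_of_le_one_left (by positivity) ?_
    rw [one_div, inv_mul_le_iff₀ hn', mul_one]
    exact_mod_cast Nat.sub_le n 1
  · have h2 := hc.2
    rw [← hU.e1 n g U L 0 _ hn (Nat.zero_le _)] at h2 ⊢
    refine (eu_aff hn g U L (Nat.zero_le _)
      (ψ := fun ω _ => (RR s A ω.2 ω.2 - P 0) ^ 2)
      fun x _ => rr_insert hs h hne x.2 x.2 (P 0)).trans (by linarith)

theorem cu_mono {n : ℕ} {g : O → ℝ → ℝ} {U : S → ℝ} {L : Multiset (St O S)} {s : I → S → ℝ}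
    {A : Finset I} {P : ℕ → ℝ} {e e' : ℝ} (hc : CU n g U L s A P e) (h : e ≤ e') :
    CU n g U L s A P e' := ⟨hc.1.trans h, hc.2.trans h⟩

/-- adding or removing small steps of total variance at most `b` -/
theorem cu_gra (hU : UApi) {C : ℝ} (hC : 0 ≤ C) {n : ℕ} (hn : 1 ≤ n) {g : O → ℝ → ℝ} {U : S → ℝ}
    {L L' : Multiset (St O S)} {s : I → S → ℝ} {A : Finset I} {P : ℕ → ℝ} {e x b : ℝ}
    (hx : x ≤ b) (h : ∀ (χ : S → S → ℝ) (d : ℕ), d ≤ n → (∀ σ σ', 0 ≤ χ σ σ') →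
      EU n g U L' d (fun ω ω' => χ ω.2 ω'.2) ≤
        exp (C * x) * EU n g U L d (fun ω ω' => χ ω.2 ω'.2))
    (hc : CU n g U L s A P e) : CU n g U L' s A P (exp (C * b) * e) :=
  cu_mono (hU.cumul n g U U L L' s A P e _ hn (exp_pos _).le h hc)
    (mul_le_mul_of_nonneg_right (exp_le_exp.2 (mul_le_mul_of_nonneg_left hx hC))
      (cu_nonneg hU hn hc))

end

section
variable {O I T : Type} [Fintype O] [DecidableEq O] [Fintype I] [DecidableEq I] [Fintype T]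
  [Inhabited T]

theorem sv_upd (v : T → ℝ) {i j : I} (h : j ≠ i) (σ : I → T) (t : T) :
    sv v j (Function.update σ i t) = sv v j σ := by
  unfold sv; rw [Function.update_of_ne h]

theorem rr_upd (v : T → ℝ) {τ : I} {A : Finset I} (h : τ ∉ A) (σ σ' : I → T) (t t' : T) :
    RR (sv v) A (Function.update σ τ t) (Function.update σ' τ t') = RR (sv v) A σ σ' := by
  unfold RR
  congr 1
  refine sum_congr rfl fun i hi => ?_
  have : i ≠ τ := fun e => h (e ▸ hi)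
  rw [sv_upd v this, sv_upd v this]

theorem uk_upd (v : T → ℝ) (k : ℝ) {τ : I} {A : Finset I} (h : τ ∉ A) (σ : I → T) (t : T) :
    Uk v k A (Function.update σ τ t) = Uk v k A σ := by
  unfold Uk
  rw [sum_congr rfl fun i hi => by
    rw [Function.update_of_ne (fun e : i = τ => h (e ▸ hi))]]

theorem ind_sy {n : ℕ} (v : T → ℝ) {τ : I} {A : Finset I} (h : τ ∉ A) (J : Finset O) (D : ℕ)
    (c : ℝ) : ∀ s ∈ sy n (sv v) A J D c, ∀ σ t, s.2.2 (Function.update σ τ t) = s.2.2 σ := by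
  intro s hs σ b
  obtain ⟨a, -, hs⟩ := sy_mem hs
  obtain ⟨j, hj, rfl⟩ := Multiset.mem_map.1 hs
  have hji : j ≠ τ := fun e => h (e ▸ hj)
  simp only [Pi.smul_apply, sv_upd v hji]

theorem ind_fl (v : T → ℝ) (o0 : O) {τ : I} {A : Finset I} (h : τ ∉ A) (l : Multiset (ℕ × ℝ)) :
    ∀ s ∈ fl (sv v) o0 A l, ∀ σ t, s.2.2 (Function.update σ τ t) = s.2.2 σ := by
  intro s hs σ b
  obtain ⟨j, hj, hs⟩ := Multiset.mem_bind.1 hs
  obtain ⟨x, -, rfl⟩ := Multiset.mem_map.1 hs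
  have hji : j ≠ τ := fun e => h (e ▸ hj)
  simp only [Pi.smul_apply, sv_upd v hji]

theorem ind_core {n : ℕ} (v : T → ℝ) (k : ℝ) (o0 : O) {τ : I} {A : Finset I} (h : τ ∉ A)
    (J : Finset O) (D : ℕ) (c : ℝ) (l : Multiset (ℕ × ℝ)) :
    IndU τ (sy n (sv v) A J D c + fl (sv v) o0 A l) (Uk v k A) :=
  ⟨fun s hs => (Multiset.mem_add.1 hs).elim (ind_sy v h J D c s) (ind_fl v o0 h l s),
    uk_upd v k h⟩

/-- a decoupled site does not change the concentration on the other sites -/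
theorem cu_p2 (hU : UApi) (h2 : P2U) {n : ℕ} (hn : 1 ≤ n) {g : O → ℝ → ℝ} {v : T → ℝ} (V : T → ℝ)
    {U : (I → T) → ℝ} {L : Multiset (St O (I → T))} {o0 : O} (hg : g o0 = id) {τ : I}
    (l : Multiset (ℕ × ℝ)) (hi : IndU τ L U) {A : Finset I} (hτ : τ ∉ A) {P : ℕ → ℝ} {e : ℝ}
    (hc : CU n g U L (sv v) A P e) :
    CU n g (fun σ => U σ + V (σ τ)) (L + lift o0 (sv v τ) l) (sv v) A P e := by
  have h := (h2 O I T n g v V U L o0 τ l hn hg hi).2
  refine ⟨le_trans (le_of_eq ?_) hc.1, le_trans (le_of_eq ?_) hc.2⟩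
  · congr 1
    exact sum_congr rfl fun d hd => h (fun σ σ' => (RR (sv v) A σ σ' - P d) ^ 2) d
      (mem_Ico.1 hd).2.le fun σ σ' t t' => by rw [rr_upd v hτ]
  · rw [← hU.e1 n g _ _ 0 _ hn (Nat.zero_le _), ← hU.e1 n g _ _ 0 _ hn (Nat.zero_le _)]
    exact h (fun σ _ => (RR (sv v) A σ σ - P 0) ^ 2) 0 (Nat.zero_le _)
      fun σ σ' t t' => by rw [rr_upd v hτ]

theorem uk_diff (v : T → ℝ) (k : ℝ) {τ : I} {A : Finset I} (h : τ ∉ A) (hA : A.Nonempty)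
    (σ : I → T) : Uk v k (insert τ A) σ - Uk v k A σ =
      k * ((A.card * (RR (sv v) A σ σ - 1) ^ 2 -
        2 * A.card * ((RR (sv v) A σ σ - 1) * (v (σ τ) ^ 2 - 1)) - (v (σ τ) ^ 2 - 1) ^ 2) /
          (A.card + 1)) := by
  have hj : (0 : ℝ) < A.card := by exact_mod_cast hA.card_pos
  unfold Uk RR sv
  rw [sum_insert h, card_insert_of_notMem h]
  simp only [← sq]
  push_cast
  field_simp
  ring

theorem sub_one_abs {K x : ℝ} (hK : 1 ≤ K) (h0 : 0 ≤ x) (h : x ≤ K ^ 2) : |x - 1| ≤ K ^ 2 :=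
  abs_le.2 ⟨by nlinarith, by linarith⟩

theorem rr_self {v : T → ℝ} {K : ℝ} (hK : 1 ≤ K) (hs : ∀ (i : I) σ, |sv v i σ| ≤ K)
    (A : Finset I) (σ : I → T) : |RR (sv v) A σ σ - 1| ≤ K ^ 2 :=
  sub_one_abs hK (div_nonneg (sum_nonneg fun _ _ => mul_self_nonneg _) (Nat.cast_nonneg _))
    ((le_abs_self _).trans (rr_abs hs A σ σ))

theorem v_self {v : T → ℝ} {K : ℝ} (hK : 1 ≤ K) (hs : ∀ (i : I) σ, |sv v i σ| ≤ K)
    (τ : I) (σ : I → T) : |v (σ τ) ^ 2 - 1| ≤ K ^ 2 :=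
  sub_one_abs hK (sq_nonneg _) (sq_le_sq' (abs_le.1 (hs τ σ)).1 (abs_le.1 (hs τ σ)).2)

theorem uk_bd {v : T → ℝ} {k K : ℝ} (hk : 0 ≤ k) (hK : 1 ≤ K) (hs : ∀ (i : I) σ, |sv v i σ| ≤ K)
    {τ : I} {A : Finset I} (h : τ ∉ A) (hA : A.Nonempty) (σ : I → T) :
    |Uk v k (insert τ A) σ - Uk v k A σ| ≤ k * (3 * K ^ 4) := by
  rw [uk_diff v k h hA, abs_mul, abs_of_nonneg hk]
  refine mul_le_mul_of_nonneg_left ?_ hk
  have h1 := rr_self hK hs A σ
  have h2 := v_self hK hs τ σ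
  generalize RR (sv v) A σ σ - 1 = r at h1
  generalize v (σ τ) ^ 2 - 1 = x at h2
  have hj : (0 : ℝ) ≤ A.card := Nat.cast_nonneg _
  generalize (A.card : ℝ) = j at hj
  have a1 : r ^ 2 ≤ (K ^ 2) ^ 2 := sq_le_sq' (abs_le.1 h1).1 (abs_le.1 h1).2
  have a2 : x ^ 2 ≤ (K ^ 2) ^ 2 := sq_le_sq' (abs_le.1 h2).1 (abs_le.1 h2).2
  have a3 : |r * x| ≤ K ^ 2 * K ^ 2 := by
    rw [abs_mul]; exact mul_le_mul h1 h2 (abs_nonneg _) (sq_nonneg _)
  rw [abs_div, abs_of_pos (by linarith : 0 < j + 1), div_le_iff₀ (by linarith), abs_le]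
  have b1 := mul_le_mul_of_nonneg_left a1 hj
  have b2 := mul_le_mul_of_nonneg_left (abs_le.1 a3).1 hj
  have b3 := mul_le_mul_of_nonneg_left (abs_le.1 a3).2 hj
  have b4 : 0 ≤ j * r ^ 2 := by positivity
  have b5 : 0 ≤ K ^ 4 := by positivity
  have b6 : 0 ≤ j * K ^ 4 := by positivity
  constructor <;> nlinarith [sq_nonneg x]

end

theorem vr_num {j m R c β : ℝ} (hj : 1 ≤ j) (hR : 0 ≤ R) (hβ : 0 ≤ β) (hJ : m ≤ β * j)
    (hc1 : (j * (j + 1) * R) * c ^ 2 = 1) : m * (R * (j * c ^ 2)) ≤ β := by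
  have h0 : (0 : ℝ) ≤ R * c ^ 2 := by positivity
  have h1 : j * (R * (j * c ^ 2)) ≤ 1 := by nlinarith
  have h3 : (0 : ℝ) ≤ R * (j * c ^ 2) := by positivity
  nlinarith [mul_le_mul_of_nonneg_right hJ h3, mul_le_mul_of_nonneg_left h1 hβ]

end Sc2Um

open Sc2Um in
theorem sc2U (hUApi : UApi) (hGUApi : GUApi) (hGraU : GraU) (hP2U : P2U) : Sc2U := by
  intro B K β k hβ hk
  by_cases hB : 1 ≤ B
  swap
  · exact ⟨1, le_rfl, fun _ _ _ _ _ _ _ _ _ _ _ _ _ _ _ _ _ _ _ _ _ _ _ _ _ hS =>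
      (hB hS.hB).elim⟩
  obtain ⟨C, hC0, ha⟩ := hGraU B hB
  set X : ℝ := exp (6 * (k * (3 * K ^ 4))) * (exp (C * (K ^ 2 * β)) * exp (C * (K ^ 2 * β)))
    with hX
  have hX0 : 0 ≤ X := by positivity
  refine ⟨2 * X + 8 * K ^ 4 + 1, by
    have : 0 ≤ K ^ 4 := by positivity
    linarith, ?_⟩
  intro O I T _ _ _ _ _ _ n g g1 g2 v o0 A J τ R c e l lτ P hn hS hτ hne hJ hc1 hBc hc
  have hj : (1 : ℝ) ≤ A.card := by exact_mod_cast hne.card_pos
  have he := cu_nonneg hUApi hn hc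
  have hD : ∀ o, D2 B (g o) := fun o => (hS.sm o).d0
  have hv := mul_le_mul_of_nonneg_left (vr_num hj (Nat.cast_nonneg R) hβ hJ hc1) (sq_nonneg K)
  have hB0 : 0 ≤ B := by linarith
  set core := sy n (sv v) A J (A.card * R) c + fl (sv v) o0 A l with hcore
  have e1 : sy n (sv v) A J ((A.card + 1) * R) c + fl (sv v) o0 A l =
      core + sy n (sv v) A J R c := by
    rw [add_mul, one_mul, sy_add, hcore]; abel
  have e2 : sy n (sv v) (insert τ A) J (A.card * R) c + fl (sv v) o0 A l + lift o0 (sv v τ) lτ =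
      core + lift o0 (sv v τ) lτ + sy n (sv v) {τ} J (A.card * R) c := by
    rw [sy_insert n _ hτ, hcore]; abel
  rw [e1] at hc
  rw [e2]
  have c1 := cu_gra hUApi hC0 hn ((sy_vr hGUApi n hS.bd A J R c).trans hv)
    (fun χ d hd hχ => (ha _ _ n g _ core _ χ d hn hd hD
      (sy_small hGUApi hn hB0 hS.bd hBc A J R) hχ).2) hc
  have c2 := cu_p2 hUApi hP2U hn (fun _ => 0) hS.e0 lτ (ind_core v k o0 hτ J _ c l) hτ c1
  have c3 := cu_gra hUApi hC0 hn ((sy_vr hGUApi n hS.bd {τ} J (A.card * R) c).trans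
      (le_trans (le_of_eq (by simp only [card_singleton]; push_cast; ring)) hv))
    (fun χ d hd hχ => (ha _ _ n g _ _ _ χ d hn hd hD
      (sy_small hGUApi hn hB0 hS.bd hBc {τ} J (A.card * R)) hχ).1) c2
  have c4 := hUApi.cumul n g _ (Uk v k (insert τ A)) _ _ (sv v) A P _ _ hn (exp_pos _).le
    (fun χ d hd hχ => hUApi.potchg n g _ _ (k * (3 * K ^ 4)) _ d _ hn hd
      (fun σ => by rw [add_zero]; exact uk_bd hk hS.hK hS.bd hτ hne σ) fun _ _ => hχ _ _) c3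
  refine cu_mono (cu_insert hUApi hn hS.bd hτ hne c4) ?_
  have h5 : 0 ≤ X * (1 / A.card) := by positivity
  have h6 : 8 * K ^ 4 / (A.card : ℝ) = 8 * K ^ 4 * (1 / A.card) := by ring
  have h7 : 0 ≤ K ^ 4 * e := by positivity
  have h8 : (0 : ℝ) ≤ 1 / A.card := by positivity
  rw [h6, ← mul_assoc (exp (C * _)), ← mul_assoc (exp (6 * _)), ← hX]
  nlinarith

end Vale.Agent.P157
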