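import Vale.Agent.P157.S.ScU1

/-! Module ScU, part 2: the chain of moves. -/

namespace Vale.Agent.P157

open Finset Real Filter Topology

set_option linter.unusedSectionVars false

noncomputable section

namespace ScUm

variable {O S I : Type} [Fintype O] [DecidableEq O] [Fintype S] [Inhabited S] [DecidableEq I]

/-- the steps added to the common subsystem -/
def xt (F G : O → Multiset (St O S)) (X : Multiset (St O S)) (K1 K2 : Multiset O) :
    Multiset (St O S) := K1.bind F + K2.bind G + Multiset.card K1 • X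

theorem ext_cons1 (F G : O → Multiset (St O S)) (X : Multiset (St O S)) (a : O)
    (K1 K2 : Multiset O) : xt F G X (a ::ₘ K1) K2 = xt F G X K1 K2 + (F a + X) := by
  simp only [xt, Multiset.cons_bind, Multiset.card_cons, succ_nsmul]; abel

theorem ext_cons2 (F G : O → Multiset (St O S)) (X : Multiset (St O S)) (a : O)
    (K1 K2 : Multiset O) : xt F G X K1 (a ::ₘ K2) = xt F G X K1 K2 + G a := by
  simp only [xt, Multiset.cons_bind]; abel

theorem ext_small {n : ℕ} {B θ : ℝ} {F G : O → Multiset (St O S)} {X : Multiset (St O S)}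
    (hF : ∀ a, Small n B (F a) ∧ vr (F a) ≤ θ) (hG : ∀ a, Small n B (G a) ∧ vr (G a) ≤ θ)
    (hX : Small n B X ∧ vr X ≤ θ) (K1 K2 : Multiset O) :
    Small n B (xt F G X K1 K2) ∧ vr (xt F G X K1 K2) ≤ 2 * (Multiset.card (K1 + K2) * θ) := by
  refine ⟨small_add (small_add (small_bind _ fun a => (hF a).1) (small_bind _ fun a => (hG a).1))
    fun s hs => hX.1 s (Multiset.mem_of_mem_nsmul hs), ?_⟩
  rw [xt, vadd, vadd, ((gApi aApi cApi).vr_add _ 0 _).2.1, Multiset.card_add]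
  push_cast
  have h1 := mul_le_mul_of_nonneg_left hX.2 (Nat.cast_nonneg (α := ℝ) (Multiset.card K1))
  have h2 := mul_nonneg (Nat.cast_nonneg (α := ℝ) (Multiset.card K2)) ((vnn X).trans hX.2)
  linarith [vr_bind K1 fun a => (hF a).2, vr_bind K2 fun a => (hG a).2]

theorem filt_bd {n : ℕ} {B θ : ℝ} {F G : O → Multiset (St O S)} {X L : Multiset (St O S)}
    (hF : ∀ a, Small n B (F a) ∧ vr (F a) ≤ θ) (hG : ∀ a, Small n B (G a) ∧ vr (G a) ≤ θ)
    (hF' : ∀ a, ∀ s ∈ F a, s.2.1 = a) (hG' : ∀ a, ∀ s ∈ G a, s.2.1 = a) {a : O}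
    (hX : ∀ s ∈ X, s.2.1 ≠ a) (hL : ∀ s ∈ L, s.2.1 ≠ a) (K1 K2 : Multiset O) :
    Small n B ((L + xt F G X K1 K2).filter (fun s => s.2.1 = a)) ∧
    vr ((L + xt F G X K1 K2).filter (fun s => s.2.1 = a)) ≤ Multiset.count a (K1 + K2) * θ := by
  simp only [xt, Multiset.filter_add]
  rw [Multiset.filter_eq_nil.2 hL, (Multiset.filter_eq_nil (s := Multiset.card K1 • X)).2
    fun s hs => hX s (Multiset.mem_of_mem_nsmul hs), zero_add, add_zero]
  refine ⟨small_add (fun s hs => small_bind K1 (fun a => (hF a).1) s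
    (Multiset.mem_of_mem_filter hs)) (fun s hs => small_bind K2 (fun a => (hG a).1) s
      (Multiset.mem_of_mem_filter hs)), ?_⟩
  rw [vadd, Multiset.count_add]
  push_cast
  linarith [vr_filter K1 (fun a => (hF a).2) hF' a, vr_filter K2 (fun a => (hG a).2) hG' a]

theorem sy_succ (n : ℕ) (s : I → S → ℝ) (A : Finset I) (J : Finset O) (R : ℕ) (c : ℝ) :
    sy n s A J ((A.card + 1) * R) c =
      sy n s A J (A.card * R) c + (R • J.val).bind (fun a => rd s a A (n - 1) c) := by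
  rw [Sc.nsmul_bind, add_mul, one_mul, Sc2Um.sy_add]; rfl

theorem sy_ins (n : ℕ) (s : I → S → ℝ) (A : Finset I) (J : Finset O) (R : ℕ) (c : ℝ) {τ : I}
    (hτ : τ ∉ A) : sy n s (insert τ A) J (A.card * R) c =
      sy n s A J (A.card * R) c + (R • J.val).bind (ts n A.card (s τ) c) := by
  rw [Sc.nsmul_bind, Sc2Um.sy_insert n s hτ]
  congr 1
  unfold sy
  refine Multiset.bind_congr fun a _ => ?_
  rw [ts_eq, rd, singleton_val, Multiset.map_singleton, ← Multiset.nsmul_singleton, ← mul_nsmul]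

theorem sy_erase (n : ℕ) (s : I → S → ℝ) (A : Finset I) {J : Finset O} (D : ℕ) (c : ℝ) {a : O}
    (ha : a ∈ J) : sy n s A J D c = sy n s A (J.erase a) D c + D • rd s a A (n - 1) c := by
  rw [sy, sy, erase_val]
  conv_lhs => rw [← Multiset.cons_erase (show a ∈ J.val from ha)]
  rw [Multiset.cons_bind, add_comm]

theorem lift_mem {o : O} {w : S → ℝ} {l : Multiset (ℕ × ℝ)} {s : St O S} (hs : s ∈ lift o w l) :
    s.2.1 = o := by
  obtain ⟨x, _, rfl⟩ := Multiset.mem_map.1 hs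
  rfl

theorem consts (b β C3 B2 CK K2 Ee x y : ℝ) {ε : ℝ} (hε : 0 < ε) :
    ∃ t e0 : ℝ, 0 < t ∧ b * t ≤ 1 ∧ 0 < e0 ∧ b * e0 ≤ 1 ∧
      β * (C3 * √e0 + B2 * √(Ee * e0) + CK * ((√(Ee * e0) + √e0 + K2 * e0) / t + √t) / 2) +
        (x * √(Ee * e0) + y * e0) ≤ ε := by
  have hb : ∀ᶠ z in 𝓝 (0 : ℝ), b * z < 1 :=
    (show Continuous fun z : ℝ => b * z by fun_prop).continuousAt.eventually_lt
      continuousAt_const (by simp)
  have h1 : ∀ᶠ z in 𝓝 (0 : ℝ), β * (CK * √z / 2) < ε / 2 :=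
    (show Continuous fun z : ℝ => β * (CK * √z / 2) by fun_prop).continuousAt.eventually_lt
      continuousAt_const (by simpa using hε)
  obtain ⟨t, ⟨t1, t2⟩, t3⟩ := (((hb.and h1).filter_mono nhdsWithin_le_nhds).and
    (self_mem_nhdsWithin (s := Set.Ioi (0 : ℝ)))).exists
  have h2 : ∀ᶠ z in 𝓝 (0 : ℝ), β * (C3 * √z + B2 * √(Ee * z) +
      CK * ((√(Ee * z) + √z + K2 * z) / t) / 2) + (x * √(Ee * z) + y * z) < ε / 2 :=
    (show Continuous fun z : ℝ => β * (C3 * √z + B2 * √(Ee * z) +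
      CK * ((√(Ee * z) + √z + K2 * z) / t) / 2) + (x * √(Ee * z) + y * z) by
        fun_prop).continuousAt.eventually_lt continuousAt_const (by simpa using hε)
  obtain ⟨e, ⟨e1, e2⟩, e3⟩ := (((hb.and h2).filter_mono nhdsWithin_le_nhds).and
    (self_mem_nhdsWithin (s := Set.Ioi (0 : ℝ)))).exists
  exact ⟨t, e, t3, t1.le, e3, e1.le, by linarith⟩

theorem low {γ β B2 a0 p k x w : ℝ} (hγ : 0 ≤ γ) (hβ : γ ≤ β) (ha : |a0| ≤ 2 * B2) (hk : 0 ≤ k) :
    (1 + 4 * k * (p - 1) - γ * (a0 - w) - 1) / 2 + γ * (x - w / 2) - β * B2 * |p - 1| ≤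
      γ * (x - a0 * p / 2) + k * ((p - 1) ^ 2 + 2 * (p - 1)) := by
  have h1 : a0 * (p - 1) ≤ 2 * B2 * |p - 1| := by
    refine (le_abs_self _).trans ?_
    rw [abs_mul]; exact mul_le_mul_of_nonneg_right ha (abs_nonneg _)
  have h2 := mul_le_mul_of_nonneg_left h1 hγ
  have h3 : 0 ≤ B2 * |p - 1| := mul_nonneg (by linarith [abs_nonneg a0]) (abs_nonneg _)
  have h4 := mul_le_mul_of_nonneg_right hβ h3
  have h5 := mul_nonneg hk (sq_nonneg (p - 1))
  linarith

end ScUm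

open ScUm Sc2Um in
theorem scU (hUApi : UApi) (hGUApi : GUApi) (hMsU : MsU) (hGraU : GraU) (hP2U : P2U)
    (hKeyU : KeyU) : ScU := by
  intro B K β k ε hβ hk hε
  by_cases hB : 1 ≤ B
  swap
  · exact ⟨1, one_pos, fun _ _ _ _ _ _ _ _ _ _ _ _ _ _ _ _ _ _ _ _ _ _ _ _ _ _ hS =>
      (hB hS.hB).elim⟩
  obtain ⟨CM, hCM, hM⟩ := hMsU B hB
  obtain ⟨CG, hCG, ha⟩ := hGraU B hB
  obtain ⟨CK, hCK, hK⟩ := hKeyU B K
  obtain ⟨E1, hE1⟩ : ∃ E1, E1 = exp (CG * (2 * (B ^ 2 * K ^ 2 * β))) * exp (CG * (K ^ 2 * β)) :=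
    ⟨_, rfl⟩
  obtain ⟨E2, hE2⟩ : ∃ E2, E2 = exp (6 * (k * (5 * K ^ 4))) := ⟨_, rfl⟩
  have hE1' : 0 ≤ E1 := by rw [hE1]; positivity
  have hE2' : 1 ≤ E2 := by rw [hE2]; exact one_le_exp (by positivity)
  obtain ⟨C3, hC3⟩ : ∃ C3, C3 = CM * (5 * (B ^ 2 * K ^ 2) ^ 2) + 4 * (B ^ 2 * K ^ 2) ^ 2 +
    2 * (B ^ 2 * K ^ 2) * (exp CG * (2 * (B ^ 2 * K ^ 2)) * (B ^ 2 * K ^ 2)) := ⟨_, rfl⟩
  have hC3' : 0 ≤ C3 := by rw [hC3]; positivity
  obtain ⟨t, e0, t0, t1, e1, e2, hE⟩ := consts (4 * B ^ 4 * K ^ 4) β C3 (2 * B ^ 2) CK (K ^ 2)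
    (E2 * E1) (k * (4 * K ^ 2)) (k * (4 * K ^ 4)) hε
  refine ⟨e0, e1, ?_⟩
  intro O I T _ _ _ _ _ _ n g g1 g2 f f1 f2 v o0 A J τ R c l P hn hS hPt hτ hj hJ hR hθ hP hP0 hco
  have hK1 := hS.hK
  have B0 : 0 ≤ B := by linarith
  have hA0 : A.Nonempty := by
    rw [← card_pos, Nat.pos_iff_ne_zero]
    intro h; rw [h] at hj; norm_num at hj
  have hj1 : (1 : ℝ) ≤ A.card := by exact_mod_cast hA0.card_pos
  have hθ0 : 0 ≤ A.card * c ^ 2 := by positivity
  have hc : 4 * B ^ 4 * K ^ 4 * (A.card * c ^ 2) ≤ 1 :=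
    (mul_le_mul_of_nonneg_left hθ (by positivity)).trans e2
  obtain ⟨n1, n2, n3, R1, n5⟩ := nums hB hK1 hj1 hc
  have hRθ : (R : ℝ) * (A.card * c ^ 2) = 1 / (A.card + 1) := by
    rw [eq_div_iff (by positivity)]; linarith
  have hinv : 1 / ((A.card : ℝ) + 1) ≤ e0 := by
    rw [div_le_iff₀ (by positivity)]; linarith
  have hT : (Multiset.card (R • J.val) : ℝ) * (A.card * c ^ 2) = J.card / (A.card + 1) := by
    rw [Multiset.card_nsmul, card_val]; push_cast
    rw [mul_comm (R : ℝ), mul_assoc, hRθ]; ring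
  have hρ : (J.card : ℝ) / (A.card + 1) ≤ β := by
    rw [div_le_iff₀ (by positivity)]; linarith
  have hD2 : ∀ o, D2 B (g o) := fun o => (hS.sm o).d0
  have hw : ∀ σ : I → T, |sv v τ σ| ≤ K := hS.bd τ
  have hWa : ∃ (W : ℕ → ℝ) (a0 : ℝ), Path n W ∧ W 0 ≤ B ^ 2 ∧ |a0| ≤ 2 * B ^ 2 ∧ ∀ a ∈ J,
      Wf n (g a) (g1 a) ((A.card * R) • sprof n P (A.card * c ^ 2)) = W ∧
      AD n (g a) (gq g1 g2 a) ((A.card * R) • sprof n P (A.card * c ^ 2)) = a0 := by
    rcases J.eq_empty_or_nonempty with h | ⟨a, haJ⟩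
    · exact ⟨fun _ => 0, 0, ⟨fun _ _ => le_rfl, rfl⟩, sq_nonneg _, by simpa using sq_nonneg B,
        by simp [h]⟩
    · obtain ⟨h1, h2, h3, -⟩ := hGUApi.wf_path n B (g a) (g1 a) (gq g1 g2 a)
        ((A.card * R) • sprof n P (A.card * c ^ 2)) hn (hS.sm a).b1
      refine ⟨_, _, h1, h2, h3 _ (KeyUm.gq_bd hB (hS.sm a)), fun a' ha' => ?_⟩
      obtain ⟨u1, u2, u3⟩ := hPt.2.2 a haJ
      obtain ⟨u4, u5, u6⟩ := hPt.2.2 a' ha'
      have u7 : gq g1 g2 a' = gq g1 g2 a := by funext t; simp only [gq, u2, u3, u5, u6]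
      rw [u7, u1, u2, u4, u5]
      exact ⟨rfl, rfl⟩
  obtain ⟨W, a0, hW, hW0, ha0, hWa⟩ := hWa
  have hp : |P 0 - 1| ≤ K ^ 2 := sub_one_abs hK1 (KeyUm.path_nn hP) hP0
  refine ⟨W, 1 + 4 * k * (P 0 - 1) - J.card / (A.card + 1) * (a0 - W 0),
    J.card / (A.card + 1) * (ip n P W - a0 * P 0 / 2) + k * ((P 0 - 1) ^ 2 + 2 * (P 0 - 1)),
    hW, hW0, low (by positivity) hρ ha0 hk, fun lτ => ?_⟩
  have fF : ∀ a : O, Small n B (rd (sv v) a A (n - 1) c) ∧
      vr (rd (sv v) a A (n - 1) c) ≤ K ^ 2 * (A.card * c ^ 2) := fun a =>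
    ⟨(hGUApi.rd_vr n B K _ a A (n - 1) c B0 hS.bd).2.1 (by omega) n1,
      (hGUApi.rd_vr n B K _ a A (n - 1) c B0 hS.bd).1⟩
  have fG := fun a : O => ts_facts hGUApi hn B0 A.card hw n1 a
  have fX := pf_facts hGUApi hB hK1 hθ0 hc o0 hw hW hW0
  set core := sy n (sv v) A J (A.card * R) c + fl (sv v) o0 A l with hcore
  set X := lift o0 (sv v τ) (sprof n W (A.card * c ^ 2)) with hX
  set ap := A.card * c ^ 2 * (a0 - W 0) / 2 with hap
  have c0 : CU n g (Uk v k A) core (sv v) A P (exp (CG * (K ^ 2 * β)) * e0) := by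
    rw [sy_succ, add_right_comm, ← hcore] at hco
    refine cu_gra hUApi hCG hn ((vr_bind (R • J.val) fun a => (fF a).2).trans ?_)
      (fun χ d hd hχ => (ha _ _ n g _ core _ χ d hn hd hD2
        (small_bind _ fun a => (fF a).1) hχ).2) hco
    rw [mul_left_comm, hT]
    exact mul_le_mul_of_nonneg_left hρ (sq_nonneg _)
  have c2 : ∀ (V : T → ℝ) (K1 K2 : Multiset O), K1 + K2 ≤ R • J.val →
      CU n g (fun σ => Uk v k A σ + V (σ τ)) (core + lift o0 (sv v τ) lτ +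
        xt (fun a => rd (sv v) a A (n - 1) c) (ts n A.card (sv v τ) c) X K1 K2) (sv v) A P
        (E1 * e0) := fun V K1 K2 hle => by
    obtain ⟨s1, s2⟩ := ext_small (fun a => ⟨(fF a).1, (fF a).2.trans n3⟩)
      (fun a => ⟨(fG a).1, (fG a).2.1.trans n3⟩) fX K1 K2
    rw [hE1, mul_assoc]
    refine cu_gra hUApi hCG hn (s2.trans ?_) (fun χ d hd hχ =>
      (ha _ _ n g _ _ _ χ d hn hd hD2 s1 hχ).1)
      (cu_p2 hUApi hP2U hn V hS.e0 lτ (ind_core v k o0 hτ J _ c l) hτ c0)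
    rw [mul_left_comm (Multiset.card (K1 + K2) : ℝ)]
    refine mul_le_mul_of_nonneg_left (mul_le_mul_of_nonneg_left ?_ (by positivity)) zero_le_two
    refine le_trans (mul_le_mul_of_nonneg_right ?_ hθ0) (hT.le.trans hρ)
    exact_mod_cast Multiset.card_le_card hle
  have hE12 : E1 * e0 ≤ E2 * E1 * e0 := by
    rw [mul_assoc]; exact le_mul_of_one_le_left (by positivity) hE2'
  have key := Sc.chain_moves (fun K1 K2 => TU n g (fun σ => Uk v k A σ +
      (Uq v (1 + 4 * k * (P 0 - 1)) (σ τ) + Multiset.card K1 * ap * v (σ τ) ^ 2))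
      (core + lift o0 (sv v τ) lτ +
        xt (fun a => rd (sv v) a A (n - 1) c) (ts n A.card (sv v τ) c) X K1 K2)) (R • J.val)
    (A.card * c ^ 2 * (ip n P W - a0 * P 0 / 2)) (A.card * c ^ 2 * (C3 * √e0 +
      2 * B ^ 2 * √(E2 * E1 * e0) + CK * ((√(E2 * E1 * e0) + √e0 + K ^ 2 * e0) / t + √t) / 2))
    (fun a K1 K2 hK12 => by
      have hle : K1 + K2 ≤ R • J.val := hK12 ▸ Multiset.le_cons_self _ _
      have haJ : a ∈ J := Multiset.mem_of_mem_nsmul (hK12 ▸ Multiset.mem_cons_self _ _)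
      have hao : a ≠ o0 := fun e => hPt.1 (e ▸ haJ)
      have c3 := cu_mono (c2 (fun x => Uq v (1 + 4 * k * (P 0 - 1)) x +
        Multiset.card K1 * ap * v x ^ 2) K1 K2 hle) hE12
      have eL : core + lift o0 (sv v τ) lτ +
          xt (fun a => rd (sv v) a A (n - 1) c) (ts n A.card (sv v τ) c) X K1 K2 =
          sy n (sv v) A (J.erase a) (A.card * R) c + fl (sv v) o0 A l + lift o0 (sv v τ) lτ +
            xt (fun a => rd (sv v) a A (n - 1) c) (ts n A.card (sv v τ) c) X K1 K2 +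
            (A.card * R) • rd (sv v) a A (n - 1) c := by
        rw [hcore, sy_erase n _ A _ c haJ]; abel
      obtain ⟨f1', f2'⟩ := filt_bd (L := sy n (sv v) A (J.erase a) (A.card * R) c +
        fl (sv v) o0 A l + lift o0 (sv v τ) lτ) (X := X) (a := a) fF
        (fun a => ⟨(fG a).1, (fG a).2.1⟩)
        (fun a => (hGUApi.rd_vr n B K _ a A (n - 1) c B0 hS.bd).2.2) (fun a => (fG a).2.2)
        (fun s hs e => hao (e.symm.trans (lift_mem hs)))
        (fun s hs e => by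
          rcases Multiset.mem_add.1 hs with hs | hs
          · rcases Multiset.mem_add.1 hs with hs | hs
            · obtain ⟨b, hb, hs⟩ := sy_mem hs
              exact (mem_erase.1 hb).1
                (((hGUApi.rd_vr n B K _ b A (n - 1) c B0 hS.bd).2.2 s hs).symm.trans e)
            · exact hao (e.symm.trans
                ((hGUApi.fl_vr n B K _ o0 A l 0 B0 hS.bd).2.2.2.2 s hs))
          · exact hao (e.symm.trans (lift_mem hs))) K1 K2
      have k1 := hK O _ I n g g1 g2 _ _ (sv v) o0 a A (sv v τ) P _ c (K ^ 2 * e0) t (A.card * R) hn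
        hS hao (by rw [(hPt.2.2 a haJ).1]; exact hPt.2.1) hA0 hw hP hP0 (by linarith) (by
          push_cast
          rw [mul_assoc, hRθ, mul_one_div, div_le_one (by positivity)]; linarith) t0 t1 f1'
        (by
          refine f2'.trans ?_
          rw [mul_left_comm]
          refine mul_le_mul_of_nonneg_left ?_ (sq_nonneg _)
          refine le_trans (mul_le_mul_of_nonneg_right ?_ hθ0) (hRθ.le.trans hinv)
          have x1 := Multiset.count_le_of_le a hle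
          rw [Multiset.count_nsmul] at x1
          have x2 := Multiset.nodup_iff_count_le_one.1 J.nodup a
          exact_mod_cast x1.trans ((Nat.mul_le_mul_left R x2).trans_eq (mul_one R))) (eL ▸ c3)
      rw [← eL, (hWa a haJ).1, (hWa a haJ).2] at k1
      have mv := move hUApi hGUApi hn hS hCM hCG hA0 hw a hP hW hW0 ha0 hc _ _
        (fun L' h1 h2 => (hM _ _ n _ _ _ _ _ L' hn hS.sm h1).2 h2)
        (fun L' h1 => ha _ _ n g _ _ L' (fun σ _ => sv v τ σ ^ 2) 0 hn n.zero_le hD2 h1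
          fun _ _ => sq_nonneg _) c3 k1
      rw [← hC3, ← hX, ← hap] at mv
      have eU : (fun σ : I → T => Uk v k A σ + (Uq v (1 + 4 * k * (P 0 - 1)) (σ τ) +
          Multiset.card (a ::ₘ K1) * ap * v (σ τ) ^ 2)) = fun σ => Uk v k A σ +
          (Uq v (1 + 4 * k * (P 0 - 1)) (σ τ) + Multiset.card K1 * ap * v (σ τ) ^ 2) +
            ap * sv v τ σ ^ 2 := by
        funext σ; rw [Multiset.card_cons]; unfold sv; push_cast; ring
      rw [ext_cons1, ext_cons2, ← add_assoc _ _ (ts n A.card (sv v τ) c a),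
        ← add_assoc _ (xt _ _ X K1 K2), eU]
      refine mv.trans (mul_le_mul_of_nonneg_left ?_ hθ0)
      gcongr) (R • J.val) 0 (add_zero _)
  have a1 : core + lift o0 (sv v τ) lτ +
      xt (fun a => rd (sv v) a A (n - 1) c) (ts n A.card (sv v τ) c) X 0 (R • J.val) =
      sy n (sv v) (insert τ A) J (A.card * R) c + fl (sv v) o0 A l + lift o0 (sv v τ) lτ := by
    rw [sy_ins n _ A J R c hτ, hcore]
    simp only [xt, Multiset.zero_bind, Multiset.card_zero, zero_nsmul]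
    abel
  have a2 : core + lift o0 (sv v τ) lτ +
      xt (fun a => rd (sv v) a A (n - 1) c) (ts n A.card (sv v τ) c) X (R • J.val) 0 =
      sy n (sv v) A J ((A.card + 1) * R) c + fl (sv v) o0 A l +
        lift o0 (sv v τ) (lτ + (J.card * R) • sprof n W (A.card * c ^ 2)) := by
    rw [sy_succ, hcore, hX]
    simp only [xt, Multiset.zero_bind, Multiset.card_nsmul, card_val, lift, Multiset.map_add,
      Multiset.map_nsmul, mul_comm R]
    abel
  have a3 : (fun σ : I → T => Uk v k A σ + (Uq v (1 + 4 * k * (P 0 - 1)) (σ τ) +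
      Multiset.card (R • J.val) * ap * v (σ τ) ^ 2)) = fun σ => Uk v k A σ +
        Uq v (1 + 4 * k * (P 0 - 1) - J.card / (A.card + 1) * (a0 - W 0)) (σ τ) := by
    funext σ
    rw [← hT, hap]; unfold Uq; ring
  have c4 := c2 (Uq v (1 + 4 * k * (P 0 - 1))) 0 (R • J.val) (by rw [zero_add])
  rw [a1] at c4
  have c5 := hUApi.cumul n g _ (Uk v k (insert τ A)) _ _ (sv v) A P _ _ hn (exp_pos _).le
    (fun χ d hd hχ => hUApi.potchg n g _ _ (k * (5 * K ^ 4)) _ d _ hn hd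
      (fun σ => by
        have u1 := uk_bd hk hK1 hS.bd hτ hA0 σ
        have u2 : |Uq v (1 + 4 * k * (P 0 - 1)) (σ τ)| ≤ k * (2 * K ^ 4) := by
          rw [show Uq v (1 + 4 * k * (P 0 - 1)) (σ τ) = k * (-2 * ((P 0 - 1) * v (σ τ) ^ 2)) by
            unfold Uq; ring, abs_mul, abs_of_nonneg hk, abs_mul, abs_neg, abs_two, abs_mul,
            abs_of_nonneg (sq_nonneg (v (σ τ)))]
          refine mul_le_mul_of_nonneg_left (mul_le_mul_of_nonneg_left ((mul_le_mul hp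
            (sq_le_sq' (abs_le.1 (hw σ)).1 (abs_le.1 (hw σ)).2) (sq_nonneg _)
            (sq_nonneg _)).trans_eq (by ring)) zero_le_two) hk
        rw [abs_le] at u1 u2 ⊢
        constructor <;> linarith [u1.1, u1.2, u2.1, u2.2]) fun _ _ => hχ _ _) c4
  rw [← hE2, ← mul_assoc] at c5
  have sw := swap hUApi hGUApi hn g _ _ _ (c1 := k * ((P 0 - 1) ^ 2 + 2 * (P 0 - 1)))
    (x := k * (4 * K ^ 2)) (y := k * (4 * K ^ 4 * (1 / (A.card + 1)))) (by positivity)
    (fun σ => by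
      have u := dev hk (Nat.cast_nonneg A.card) (rr_self hK1 hS.bd A σ) (v_self hK1 hS.bd τ σ) hp
      rw [← uk_diff v k hτ hA0 σ, sub_sub_sub_cancel_right] at u
      convert u using 2
      unfold Uq; ring) (cu_mono c4 hE12) c5
  simp only [a1, a2, a3, Multiset.card_zero, Nat.cast_zero, zero_mul, add_zero] at key
  rw [(hP2U O I T n g v _ _ _ o0 τ _ hn hS.e0 (ind_core v k o0 hτ J _ c l)).1,
    ← mul_assoc (Multiset.card (R • J.val) : ℝ) (A.card * c ^ 2),
    ← mul_assoc (Multiset.card (R • J.val) : ℝ) (A.card * c ^ 2), hT] at key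
  have b1 := key.trans (mul_le_mul_of_nonneg_right hρ (by positivity))
  have b2 : k * (4 * K ^ 4 * (1 / (A.card + 1))) ≤ k * (4 * K ^ 4) * e0 := by
    rw [mul_assoc k]
    exact mul_le_mul_of_nonneg_left (mul_le_mul_of_nonneg_left hinv (by positivity)) hk
  rw [abs_le] at b1 sw ⊢
  constructor <;> linarith [b1.1, b1.2, sw.1, sw.2]

end

end Vale.Agent.P157
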