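import Vale.Agent.P157.StmS
import Vale.Agent.P157.A
import Vale.Agent.P157.C
import Vale.Agent.P157.G

/-! Module KeyU. -/

namespace Vale.Agent.P157

open Finset Real

namespace KeyUm

variable {O S : Type} [Fintype O] [DecidableEq O] [Fintype S] [Inhabited S]

theorem eu_one {n : ℕ} (hn : 1 ≤ n) (g : O → ℝ → ℝ) (U : S → ℝ) (L : Multiset (St O S)) {d : ℕ}
    (hd : d ≤ n) (c : ℝ) : EU n g U L d (fun _ _ => c) = c :=
  aApi.e2const (cApi.ok n L hn) _ (d + 1) (by omega) _ _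

theorem eu_mono {n : ℕ} (hn : 1 ≤ n) (g : O → ℝ → ℝ) (U : S → ℝ) (L : Multiset (St O S)) {d : ℕ}
    (hd : d ≤ n) {φ ψ : Om O S → Om O S → ℝ} (h : ∀ ω ω', φ ω ω' ≤ ψ ω ω') :
    EU n g U L d φ ≤ EU n g U L d ψ :=
  aApi.e2mono (cApi.ok n L hn) (ZU g U) (d + 1) (by omega) h (0, default)

theorem eu_nn {n : ℕ} (hn : 1 ≤ n) (g : O → ℝ → ℝ) (U : S → ℝ) (L : Multiset (St O S)) {d : ℕ}
    (hd : d ≤ n) {φ : Om O S → Om O S → ℝ} (h : ∀ ω ω', 0 ≤ φ ω ω') : 0 ≤ EU n g U L d φ :=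
  (eu_one hn g U L hd 0).symm.trans_le (eu_mono hn g U L hd h)

theorem e1_one {n : ℕ} (hn : 1 ≤ n) (g : O → ℝ → ℝ) (U : S → ℝ) (L : Multiset (St O S)) :
    E1U n g U L (fun _ => 1) = 1 :=
  (aApi.ce (cApi.ok n L hn) (ZU g U) 0 (n + 1) le_rfl).2 (0, default)

theorem e1_mul {n : ℕ} (g : O → ℝ → ℝ) (U : S → ℝ) (L : Multiset (St O S)) (c : ℝ)
    (V : Om O S → ℝ) : E1U n g U L (fun ω => c * V ω) = c * E1U n g U L V := by
  rw [E1U, Aa.smul', E1U]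

theorem gam_diff (hG : GUApi) {n : ℕ} (hn : 1 ≤ n) (g g1 g2 : O → ℝ → ℝ) (U : S → ℝ)
    (L : Multiset (St O S)) (a : O) {o0 : O} (e1 : g1 o0 = fun _ => 1) (e2 : g2 o0 = fun _ => 0)
    (w : S → ℝ) {P W : ℕ → ℝ} (hP : Path n P) (hW : Path n W) {θ : ℝ} (hθ : 0 ≤ θ) (a0 : ℝ) :
    ((lift a w {(n - 1, √θ)}).map (GU n g g1 g2 U L)).sum -
      ((lift a (fun _ => 1) (sprof n P θ) + lift o0 w (sprof n W θ)).map
        (GU n g g1 g2 U L)).sum - θ * (a0 - W 0) / 2 * E1U n g U L (fun ω => w ω.2 ^ 2) =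
      θ / 2 * LamU n g g1 g2 U L a w P W a0 := by
  have e3 : Icc 1 (n - 1) = Ico 1 n := by ext d; simp only [mem_Icc, mem_Ico]; omega
  have e4 : ob (g1 o0) o0 w = fun ω => w ω.2 := funext fun ω => by simp [ob, e1]
  have e5 : ob (gq g1 g2 o0) o0 (fun σ => w σ ^ 2) = fun ω => w ω.2 ^ 2 :=
    funext fun ω => by simp [ob, gq, e1, e2]
  rw [Multiset.map_add, Multiset.sum_add, hG.gam_prof n _ _ _ U L _ _ P θ hn hP hθ,
    hG.gam_prof n _ _ _ U L _ _ W θ hn hW hθ, lift, Multiset.map_singleton, Multiset.map_singleton,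
    Multiset.sum_singleton, hG.gam_one, sq_sqrt hθ, e3, e4, e5, LamU,
    sum_add_distrib, sum_sub_distrib]
  simp only [one_pow]
  ring

theorem lam_dec (hG : GUApi) (h1 : P1U) {n : ℕ} (hn : 1 ≤ n) (g g1 g2 : O → ℝ → ℝ) (U : S → ℝ)
    {L : Multiset (St O S)} {a : O} (hL : ∀ s ∈ L, s.2.1 ≠ a) {B : ℝ} (hb : ∀ t, |g1 a t| ≤ B)
    (w : S → ℝ) (P : ℕ → ℝ) (l : Multiset (ℕ × ℝ)) :
    LamU n g g1 g2 U (L + lift a (fun _ => 1) l) a w P (Wf n (g a) (g1 a) l)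
      (AD n (g a) (gq g1 g2 a) l) =
      2 * ip n P (Wf n (g a) (g1 a) l) - AD n (g a) (gq g1 g2 a) l * P 0 := by
  obtain ⟨h2, h⟩ := (h1 _ _ n g U L a l hn hL).2
  obtain ⟨-, -, -, c0, c2⟩ := hG.wf_path n B (g a) (g1 a) (g1 a) l hn hb
  have hn' : (n : ℝ) ≠ 0 := by positivity
  have c4 := h2 (fun _ => 1) fun σ => w σ ^ 2
  rw [c0, one_mul, show ob (fun _ => 1) a (fun σ => w σ ^ 2) = fun ω : Om O S => w ω.2 ^ 2 from
    funext fun ω => one_mul _] at c4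
  have c5 : ∑ d ∈ Ico 1 n, (P d * EU n g U (L + lift a (fun _ => 1) l) d
      (fun ω ω' => ob (g1 a) a (fun _ => 1) ω * ob (g1 a) a (fun _ => 1) ω') -
        EU n g U (L + lift a (fun _ => 1) l) d (fun ω ω' => ob (g1 a) a w ω * ob (g1 a) a w ω') +
        Wf n (g a) (g1 a) l d * EU n g U (L + lift a (fun _ => 1) l) d
          (fun ω ω' => w ω.2 * w ω'.2)) = ∑ d ∈ Ico 1 n, P d * Wf n (g a) (g1 a) l d := by
    refine sum_congr rfl fun d hd => ?_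
    have hd' := (mem_Ico.1 hd).2
    have c3 := h (fun _ => 1) w d hd'.le
    simp only [ob, one_mul, c2 d hd'.le] at c3
    rw [h (g1 a) _ d hd'.le, h (g1 a) w d hd'.le, eu_one hn g U L hd'.le, c3, Wf, if_pos hd']
    ring
  rw [LamU, c5, h2, h2, c4, e1_one hn, ip]
  field_simp
  ring

theorem path_nn {n : ℕ} {W : ℕ → ℝ} (hW : Path n W) : 0 ≤ W 0 := by
  have : ∀ k, k ≤ n → W n ≤ W (n - k) := fun k hk => by
    induction k with
    | zero => exact le_rfl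
    | succ k ih =>
      refine (ih (by omega)).trans ?_
      have := hW.1 (n - (k + 1)) (by omega)
      rwa [show n - (k + 1) + 1 = n - k by omega] at this
  simpa [hW.2] using this n le_rfl

theorem gq_bd {B : ℝ} (hB : 1 ≤ B) {g g1 g2 : O → ℝ → ℝ} {a : O} (sm : Sm B (g a) (g1 a) (g2 a))
    (t : ℝ) : |gq g1 g2 a t| ≤ 2 * B ^ 2 := by
  have u1 := sm.b2 t
  have u2 : g1 a t ^ 2 ≤ B ^ 2 := sq_le_sq' (abs_le.1 (sm.b1 t)).1 (abs_le.1 (sm.b1 t)).2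
  rw [gq, abs_le] at *
  constructor <;> nlinarith [sq_nonneg (g1 a t)]

theorem hsq {x y : ℝ} (hy : 0 ≤ y) (hx : y ^ 2 * x ≤ 1) : y * √x ≤ 1 := by
  rw [← sqrt_sq hy, ← sqrt_mul (sq_nonneg y)]
  exact sqrt_le_one.2 hx

theorem spr {n : ℕ} {θ0 : ℝ} (h0 : 0 ≤ θ0) {p : ℕ → ℝ} {y : ℝ} (hp : Path n p) (hy : 0 ≤ y)
    (hp0 : y ^ 2 * (θ0 * p 0) ≤ 1) : ∀ s ∈ sprof n p θ0, s.1 < n ∧ y * |s.2| ≤ 1 := fun s hs => by
  have := ((gApi aApi cApi).sprof_var n p θ0 hp h0).2.2 s hs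
  exact ⟨this.1, le_trans (by gcongr; exact this.2) (hsq hy hp0)⟩

theorem v4 {x k θ0 : ℝ} (h0 : 0 ≤ θ0) (hk : 1 ≤ k) (h : x ≤ k * θ0) :
    x * √x ≤ k ^ 2 * (θ0 * √θ0) := by
  have : √x ≤ k * √θ0 := by
    rw [← sqrt_sq (by linarith : 0 ≤ k), ← sqrt_mul (sq_nonneg _)]
    exact sqrt_le_sqrt (h.trans (by gcongr; nlinarith))
  calc _ ≤ k * θ0 * (k * √θ0) := by gcongr
    _ = _ := by ring

theorem exp_small {C x y : ℝ} (h0 : 0 ≤ x) (h1 : x ≤ y) (h2 : y ≤ 1) :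
    exp (C * x) - 1 ≤ exp C * y := by
  have z1 := convexOn_exp.2 (Set.mem_univ C) (Set.mem_univ 0) h0
    (by linarith : 0 ≤ 1 - x) (by ring)
  simp only [smul_eq_mul, mul_zero, add_zero, exp_zero, mul_one] at z1
  rw [mul_comm C]
  nlinarith [exp_pos C]

theorem steps (hG : GUApi) {n : ℕ} (hn : 1 ≤ n) {B K θ0 : ℝ} (hB : 1 ≤ B) (hK : 1 ≤ K)
    (h0 : 0 ≤ θ0) (h1 : 4 * B ^ 4 * K ^ 4 * θ0 ≤ 1) (a o0 : O) {w : S → ℝ} (hw : ∀ σ, |w σ| ≤ K)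
    {P W : ℕ → ℝ} (hP : Path n P) (hW : Path n W) (hP0 : P 0 ≤ K ^ 2) (hW0 : W 0 ≤ B ^ 2) :
    Small n B (lift a w {(n - 1, √θ0)}) ∧
      Small n B (lift a (fun _ => 1) (sprof n P θ0) + lift o0 w (sprof n W θ0)) ∧
      vr (lift a w {(n - 1, √θ0)}) ≤ B ^ 2 * K ^ 2 * θ0 ∧
      vr (lift a (fun _ => 1) (sprof n P θ0) + lift o0 w (sprof n W θ0)) ≤
        2 * (B ^ 2 * K ^ 2) * θ0 ∧ 4 * (B ^ 2 * K ^ 2) * θ0 ≤ 1 := by
  have hA := gApi aApi cApi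
  have B2 : 1 ≤ B ^ 2 := one_le_pow₀ hB
  have K2 : 1 ≤ K ^ 2 := one_le_pow₀ hK
  have B0 : 0 ≤ B := by linarith
  have r1 : K ^ 2 * θ0 ≤ B ^ 2 * K ^ 2 * θ0 := by
    rw [mul_assoc]; exact le_mul_of_one_le_left (by positivity) B2
  have r2 : B ^ 2 * K ^ 2 * θ0 ≤ B ^ 2 * (B ^ 2 * K ^ 2 * θ0) :=
    le_mul_of_one_le_left (by positivity) B2
  have r3 : B ^ 2 * (B ^ 2 * K ^ 2 * θ0) ≤ K ^ 2 * (B ^ 2 * (B ^ 2 * K ^ 2 * θ0)) :=
    le_mul_of_one_le_left (by positivity) K2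
  have r4 : θ0 * P 0 ≤ θ0 * K ^ 2 := by gcongr
  have r5 : θ0 * W 0 ≤ θ0 * B ^ 2 := by gcongr
  have one : ∀ σ : S, |(fun _ => (1 : ℝ)) σ| ≤ 1 := fun _ => by simp
  refine ⟨(hG.lift_vr n B K a w _ B0 hw).2.2.1 fun s hs => ?_, fun t ht =>
    (Multiset.mem_add.1 ht).elim
      ((hG.lift_vr n B 1 a _ _ B0 one).2.2.1 (spr h0 hP (by positivity) ?_) t)
      ((hG.lift_vr n B K o0 w _ B0 hw).2.2.1 (spr h0 hW (by positivity) ?_) t), ?_, ?_,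
    by linarith⟩
  · rw [Multiset.mem_singleton.1 hs]
    exact ⟨by simp only; omega, by
      rw [abs_of_nonneg (sqrt_nonneg _)]
      exact hsq (by positivity) (by linarith)⟩
  · linarith [mul_le_mul_of_nonneg_left r4 (sq_nonneg B)]
  · linarith [mul_le_mul_of_nonneg_left r5 (sq_nonneg (B * K))]
  · refine (hG.lift_vr n B K a w _ B0 hw).1.trans ?_
    rwa [Multiset.map_singleton, Multiset.sum_singleton, sq_sqrt h0]
  · have u1 := (hG.lift_vr n B 1 a _ (sprof n P θ0) B0 one).1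
    have u2 := (hG.lift_vr n B K o0 w (sprof n W θ0) B0 hw).1
    rw [(hA.sprof_var n P θ0 hP h0).1] at u1
    rw [(hA.sprof_var n W θ0 hW h0).1] at u2
    rw [(hA.vr_add _ _ 0).1]
    linarith [mul_le_mul_of_nonneg_left r5 (sq_nonneg K)]

theorem e1_chg (hU : UApi) {n : ℕ} (hn : 1 ≤ n) (g : O → ℝ → ℝ) (U : S → ℝ)
    (L L' : Multiset (St O S)) {w : S → ℝ} {k x y : ℝ} (w2 : ∀ σ, w σ ^ 2 ≤ k) (u6 : 1 ≤ x)
    (u5 : x - 1 ≤ y)
    (u : EU n g U L' 0 (fun ω _ => w ω.2 ^ 2) ≤ x * EU n g U L 0 (fun ω _ => w ω.2 ^ 2) ∧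
      EU n g U L 0 (fun ω _ => w ω.2 ^ 2) ≤ x * EU n g U L' 0 (fun ω _ => w ω.2 ^ 2)) :
    |E1U n g U L' (fun ω => w ω.2 ^ 2) - E1U n g U L (fun ω => w ω.2 ^ 2)| ≤ y * k := by
  have u3 := fun L => eu_nn hn g U L n.zero_le (φ := fun ω _ => w ω.2 ^ 2) fun _ _ => sq_nonneg _
  have u4 := fun L => (eu_mono hn g U L n.zero_le (φ := fun ω _ => w ω.2 ^ 2)
    fun _ _ => w2 _).trans (eu_one hn g U L n.zero_le _).le
  rw [← hU.e1 n g U _ 0 _ hn n.zero_le, ← hU.e1 n g U L 0 _ hn n.zero_le, abs_le]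
  have z1 := mul_le_mul u5 (u4 L') (u3 L') (by linarith)
  have z2 := mul_le_mul u5 (u4 L) (u3 L) (by linarith)
  constructor <;> linarith [u.1, u.2]

theorem fin {θ0 x Cm Cp Q C3 e q θ : ℝ} (h0 : 0 < θ0) (m0 : 0 ≤ Cm) (p0 : 0 ≤ Cp) (Q1 : 1 ≤ Q)
    (y4 : 0 ≤ C3) (hθ : 0 ≤ θ)
    (key : θ0 * x ≤ 4 * (Cm * θ + Cp * (Q * √e + √q)) + 4 * (C3 * (θ0 * √θ0))) :
    x ≤ (4 * Cm + 4 * Cp * Q + 4 * C3) * ((√e + √q + θ) / θ0 + √θ0) := by
  refine le_of_mul_le_mul_left (key.trans ?_) h0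
  rw [mul_left_comm θ0, mul_add θ0, mul_div_cancel₀ _ h0.ne']
  have y1 : 0 ≤ √e := sqrt_nonneg _
  have y2 : 0 ≤ √q := sqrt_nonneg _
  have y3 : 0 ≤ θ0 * √θ0 := by positivity
  have y5 : Cp * √q ≤ Cp * Q * √q :=
    mul_le_mul_of_nonneg_right (le_mul_of_one_le_right p0 Q1) y2
  have y6 : 0 ≤ Cp * Q := by positivity
  rw [mul_assoc 4 Cp]
  generalize θ0 * √θ0 = z at y3 ⊢
  linarith [mul_nonneg m0 y1, mul_nonneg m0 y2, mul_nonneg m0 y3, mul_nonneg y6 hθ,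
    mul_nonneg y6 y3, mul_nonneg y4 y1, mul_nonneg y4 y2, mul_nonneg y4 hθ]

end KeyUm

open KeyUm in
theorem keyU (hUApi : UApi) (hGUApi : GUApi) (hMsU : MsU) (hPatU : PatU) (hGraU : GraU)
    (hP1U : P1U) (hPcU : PcU) : KeyU := by
  intro B K
  by_cases hBK : 1 ≤ B ∧ 1 ≤ K
  swap
  · exact ⟨0, le_rfl, fun _ _ _ _ _ _ _ _ _ _ _ _ _ _ _ _ _ _ _ _ _ _ _ _ _ hM =>
      absurd ⟨hM.hB, hM.hK⟩ hBK⟩
  obtain ⟨hB, hK⟩ := hBK
  have hG := gApi aApi cApi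
  obtain ⟨Cm, m0, hM⟩ := hMsU B hB
  obtain ⟨Cg, g0, ha⟩ := hGraU B hB
  obtain ⟨Cp, p0, hc⟩ := hPcU B K
  obtain ⟨Q, hQ⟩ : ∃ Q, Q = √(exp 6 * (exp Cg * exp (12 * B))) := ⟨_, rfl⟩
  have Q1 : 1 ≤ Q := hQ ▸ one_le_sqrt.2 (one_le_mul_of_one_le_of_one_le (one_le_exp (by norm_num))
    (one_le_mul_of_one_le_of_one_le (one_le_exp g0) (one_le_exp (by linarith))))
  obtain ⟨R, hR⟩ : ∃ R, R = B ^ 2 * K ^ 2 := ⟨_, rfl⟩
  have B2 : 1 ≤ B ^ 2 := one_le_pow₀ hB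
  have K2 : 1 ≤ K ^ 2 := one_le_pow₀ hK
  have R1 : 1 ≤ R := hR ▸ one_le_mul_of_one_le_of_one_le B2 K2
  have RB : B ^ 2 ≤ R := hR ▸ le_mul_of_one_le_right (by linarith) K2
  have RK : K ^ 2 ≤ R := hR ▸ le_mul_of_one_le_left (by linarith) B2
  obtain ⟨C3, hC3⟩ : ∃ C3, C3 = Cm * (5 * R ^ 2) + 4 * R ^ 2 + 2 * R * (exp Cg * (2 * R) * R) :=
    ⟨_, rfl⟩
  have y4 : 0 ≤ C3 := by rw [hC3]; positivity
  refine ⟨4 * Cm + 4 * Cp * Q + 4 * C3, by positivity, ?_⟩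
  intro O S I _ _ _ _ n g g1 g2 U L s o0 a A w P e c θ θ0 D hn hd hao hb hAn hw hPP hP0 hq hD h0 h0'
    hs hv hco
  set q := A.card * c ^ 2
  set l := D • sprof n P q with hl
  have sm := hd.sm
  obtain ⟨hW, hW0, hA0, -⟩ := hGUApi.wf_path n B (g a) (g1 a) (gq g1 g2 a) l hn (sm a).b1
  replace hA0 := hA0 _ (gq_bd hB (sm a))
  set La := L.filter fun s => s.2.1 = a
  set L0 := L.filter fun s => ¬ s.2.1 = a
  have ld := lam_dec hGUApi hP1U hn g g1 g2 U (L := L0) (fun s hs => (Multiset.mem_filter.1 hs).2)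
    (sm a).b1 w P l
  generalize Wf n (g a) (g1 a) l = W at hW hW0 ld ⊢
  generalize AD n (g a) (gq g1 g2 a) l = a0 at hA0 ld ⊢
  set Rd : Multiset (St O S) := D • rd s a A (n - 1) c
  have hL : L = L0 + La := by rw [add_comm]; exact (Multiset.filter_add_not _ L).symm
  have W0 := path_nn hW
  obtain ⟨s1, s2, v1, v2, t2⟩ := steps hGUApi hn hB hK h0.le h0' a o0 hw hPP hW hP0 hW0
  rw [← hR] at v1 v2 t2
  have gd := fun L' => gam_diff hGUApi hn g g1 g2 U L' a hd.e1 hd.e2 w hPP hW h0.le a0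
  generalize lift a w {(n - 1, √θ0)} = T1 at s1 v1 gd
  generalize lift a (fun _ => 1) (sprof n P θ0) + lift o0 w (sprof n W θ0) = T2 at s2 v2 gd
  have t1 : 0 ≤ R * θ0 := by positivity
  have t3 : θ0 ≤ 1 := by linarith [le_mul_of_one_le_left h0.le R1]
  have t4 : θ0 ≤ √θ0 := le_sqrt_of_sq_le (by rw [sq]; exact mul_le_of_le_one_left h0.le t3)
  have B0 : 0 ≤ B := by linarith
  have v0 : ∀ T : Multiset (St O S), 0 ≤ vr T := fun T => (hG.vr_add T T 0).2.2.2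
  have w2 : ∀ σ, w σ ^ 2 ≤ K ^ 2 := fun σ => sq_le_sq' (abs_le.1 (hw σ)).1 (abs_le.1 (hw σ)).2
  have p1 : |θ0 * (a0 - W 0) / 2| ≤ 2 * B ^ 2 * θ0 := by
    rw [mul_div_assoc, abs_mul, abs_of_pos h0, mul_comm]
    refine mul_le_mul_of_nonneg_right ?_ h0.le
    rw [abs_le] at hA0 ⊢
    constructor <;> linarith [hA0.1, hA0.2]
  generalize θ0 * (a0 - W 0) / 2 = ap at p1 gd
  have p2 : ∀ σ, |ap * w σ ^ 2| ≤ 2 * R * θ0 := fun σ => by
    rw [abs_mul, abs_of_nonneg (sq_nonneg (w σ))]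
    calc _ ≤ 2 * B ^ 2 * θ0 * K ^ 2 := mul_le_mul p1 (w2 σ) (sq_nonneg _) (by positivity)
      _ = _ := by rw [hR]; ring
  have F : ∀ L' : Multiset (St O S), |TU n g U (L' + T1) -
      TU n g (fun σ => U σ + ap * w σ ^ 2) (L' + T2) -
      θ0 / 2 * LamU n g g1 g2 U L' a w P W a0| ≤ C3 * (θ0 * √θ0) := fun L' => by
    have a1 := (hM _ _ n _ _ _ U L' T1 hn sm s1).2 (by linarith)
    have a2 := (hM _ _ n _ _ _ U L' T2 hn sm s2).2 (by linarith)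
    have a3 := mul_le_mul_of_nonneg_left (v4 h0.le R1 v1) m0
    have a4 := mul_le_mul_of_nonneg_left (v4 h0.le (by linarith) v2) m0
    have a5 := hUApi.pot1 n g U _ _ (L' + T2) hn p2 (by linarith)
    have a6 := e1_chg hUApi hn g U L' (L' + T2) w2 (one_le_exp (mul_nonneg g0 (v0 T2)))
      (exp_small (v0 T2) v2 (by linarith)) (ha _ _ n g U L' T2 (fun σ _ => w σ ^ 2) 0 hn n.zero_le
        (fun o => (sm o).d0) s2 fun _ _ => sq_nonneg _)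
    have a7 : |ap * (E1U n g U (L' + T2) (fun ω => w ω.2 ^ 2) -
        E1U n g U L' (fun ω => w ω.2 ^ 2))| ≤ 2 * R * (exp Cg * (2 * R) * R) * (θ0 * √θ0) := by
      rw [abs_mul]
      calc _ ≤ 2 * R * θ0 * (exp Cg * (2 * R * √θ0) * R) := by
            refine mul_le_mul (p1.trans (by gcongr)) (a6.trans (by gcongr)) (abs_nonneg _)
              (by positivity)
        _ = _ := by ring
    have a8 : (2 * R * θ0) ^ 2 ≤ 4 * R ^ 2 * (θ0 * √θ0) := by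
      calc _ = 4 * R ^ 2 * (θ0 * θ0) := by ring
        _ ≤ _ := by gcongr
    rw [e1_mul] at a5
    rw [← gd, hC3]
    rw [abs_le] at a1 a2 a5 a7 ⊢
    constructor <;> linarith [a1.1, a1.2, a2.1, a2.2, a5.1, a5.2, a7.1, a7.2]
  have c0 : CU n g U L0 s A P (exp (12 * B) * e) := by
    rw [hL, add_assoc] at hco
    refine hUApi.cumul n g U U _ _ s A P e _ hn (exp_pos _).le (fun χ d hd' hχ =>
      ((hPatU _ _ n g U L0 (La + Rd) a B hn hb fun t ht => ?_).2 χ d hd' hχ).2) hco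
    rcases Multiset.mem_add.1 ht with ht | ht
    · exact (Multiset.mem_filter.1 ht).2
    · exact (hGUApi.rd_vr n B K s a A _ c B0 hd.bd).2.2 t (Multiset.mem_of_mem_nsmul ht)
  have hθ : 0 ≤ θ := (v0 La).trans hv
  have G : ∀ (T : Multiset (St O S)) (U' : S → ℝ), Small n B T → vr T ≤ 1 →
      (∀ σ, |U' σ - U σ| ≤ 1) → |TU n g U' (L + Rd + T) -
      TU n g U' (L0 + lift a (fun _ => 1) l + T)| ≤ Cm * θ + Cp * (Q * √e + √q) :=
    fun T U' hT hT' hU' => by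
    have c1 : CU n g U (L0 + T) s A P (exp Cg * (exp (12 * B) * e)) :=
      hUApi.cumul n g U U _ _ s A P _ _ hn (exp_pos _).le (fun χ d hd hχ => by
        have u := ha _ _ n g U L0 T χ d hn hd (fun o => (sm o).d0) hT hχ
        exact u.1.trans (mul_le_mul_of_nonneg_right (exp_le_exp.2 (mul_le_of_le_one_right g0 hT'))
          (eu_nn hn g U L0 hd fun _ _ => hχ _ _))) c0
    have c2 : CU n g U' (L0 + T) s A P (exp 6 * (exp Cg * (exp (12 * B) * e))) :=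
      hUApi.cumul n g U U' _ _ s A P _ _ hn (exp_pos _).le (fun χ d hd hχ => by
        simpa using hUApi.potchg n g U U' 1 (L0 + T) d (fun ω ω' => χ ω.2 ω'.2) hn hd hU'
          fun _ _ => hχ _ _) c1
    have a1 := (hM _ _ n _ _ _ U' (L0 + T + Rd) La hn sm hs).1
    have a2 := hc O S I n g g1 g2 U' (L0 + T) s o0 a A P _ c D hn hd hb hAn hPP hP0 hq c2
    rw [← mul_assoc (exp Cg), ← mul_assoc (exp 6), sqrt_mul (by positivity), ← hQ,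
      show D • lift a (fun _ : S => (1 : ℝ)) (sprof n P q) = lift a (fun _ => 1) l by
        rw [hl, lift, lift, Multiset.map_nsmul]] at a2
    have a3 : Cp * (D * q) * (Q * √e + √q) ≤ Cp * 1 * (Q * √e + √q) :=
      mul_le_mul_of_nonneg_right (mul_le_mul_of_nonneg_left hD p0)
        (add_nonneg (mul_nonneg (by linarith) (sqrt_nonneg _)) (sqrt_nonneg _))
    have a4 := mul_le_mul_of_nonneg_left hv m0
    rw [show L + Rd + T = L0 + T + Rd + La by rw [hL]; abel, add_right_comm L0 (lift a _ l)]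
    rw [abs_le] at a1 a2 ⊢
    constructor <;> linarith [a1.1, a1.2, a2.1, a2.2]
  have f1' := F (L + Rd)
  have f2' := F (L0 + lift a (fun _ => 1) l)
  have g1' := G T1 U s1 (by linarith) fun σ => by rw [sub_self, abs_zero]; exact zero_le_one
  have g2' := G T2 (fun σ => U σ + ap * w σ ^ 2) s2 (by linarith) fun σ => by
    rw [add_sub_cancel_left]; exact (p2 σ).trans (by linarith)
  rw [ld] at f2'
  refine fin h0 m0 p0 Q1 y4 hθ ?_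
  rw [← abs_of_pos h0, ← abs_mul, abs_of_pos h0]
  rw [abs_le] at f1' f2' g1' g2' ⊢
  constructor <;> linarith [f1'.1, f1'.2, f2'.1, f2'.2, g1'.1, g1'.2, g2'.1, g2'.2]

end Vale.Agent.P157
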