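import Vale.Agent.P157.Sc
import Vale.Agent.P157.S.KeyU
import Vale.Agent.P157.S.PcU
import Vale.Agent.P157.S.Sc2U

/-! Module ScU, part 1: bookkeeping and one move. -/

namespace Vale.Agent.P157

open Finset Real

set_option linter.unusedSectionVars false

noncomputable section

namespace ScUm

variable {O S I : Type} [Fintype O] [DecidableEq O] [Fintype S] [Inhabited S] [DecidableEq I]

theorem vadd (L L' : Multiset (St O S)) : vr (L + L') = vr L + vr L' :=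
  ((gApi aApi cApi).vr_add L L' 0).1

theorem vnn (L : Multiset (St O S)) : 0 ≤ vr L := ((gApi aApi cApi).vr_add L L 0).2.2.2

theorem small_add {n : ℕ} {B : ℝ} {L L' : Multiset (St O S)} (h : Small n B L) (h' : Small n B L') :
    Small n B (L + L') := fun s hs => (Multiset.mem_add.1 hs).elim (h s) (h' s)

theorem small_bind {n : ℕ} {B : ℝ} (K : Multiset O) {F : O → Multiset (St O S)}
    (h : ∀ a, Small n B (F a)) : Small n B (K.bind F) := fun s hs => by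
  obtain ⟨a, _, ha⟩ := Multiset.mem_bind.1 hs
  exact h a s ha

theorem vr_bind (K : Multiset O) {F : O → Multiset (St O S)} {θ : ℝ} (h : ∀ a, vr (F a) ≤ θ) :
    vr (K.bind F) ≤ Multiset.card K * θ := by
  induction K using Multiset.induction_on with
  | empty => simp [vr]
  | cons a K ih =>
    rw [Multiset.cons_bind, vadd, Multiset.card_cons]; push_cast; linarith [h a]

theorem vr_filter (K : Multiset O) {F : O → Multiset (St O S)} {θ : ℝ} (h : ∀ a, vr (F a) ≤ θ)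
    (h' : ∀ a, ∀ s ∈ F a, s.2.1 = a) (a : O) :
    vr ((K.bind F).filter (fun s => s.2.1 = a)) ≤ Multiset.count a K * θ := by
  induction K using Multiset.induction_on with
  | empty => simp [vr]
  | cons b K ih =>
    rw [Multiset.cons_bind, Multiset.filter_add, vadd]
    by_cases hb : a = b
    · subst hb
      rw [Multiset.filter_eq_self.2 (h' a), Multiset.count_cons_self]; push_cast; linarith [h a]
    · rw [Multiset.filter_eq_nil.2 (fun s hs e => hb (by rw [h' b s hs] at e; exact e.symm)),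
        Multiset.count_cons_of_ne hb]
      simpa [vr] using ih

def ts (n j : ℕ) (w : S → ℝ) (c : ℝ) (a : O) : Multiset (St O S) :=
  lift a w (Multiset.replicate j (n - 1, c))

theorem ts_eq (n j : ℕ) (w : S → ℝ) (c : ℝ) (a : O) :
    ts n j w c a = Multiset.replicate j (n - 1, a, c • w) := by
  simp [ts, lift]

theorem ts_facts (hG : GUApi) {n : ℕ} (hn : 1 ≤ n) {B K c : ℝ} (hB : 0 ≤ B) (j : ℕ) {w : S → ℝ}
    (hw : ∀ σ, |w σ| ≤ K) (hc : B * K * |c| ≤ 1) (a : O) :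
    Small n B (ts n j w c a) ∧ vr (ts n j w c a) ≤ K ^ 2 * (j * c ^ 2) ∧
      ∀ s ∈ ts n j w c a, s.2.1 = a := by
  obtain ⟨h1, -, h2, h3⟩ := hG.lift_vr n B K a w (Multiset.replicate j (n - 1, c)) hB hw
  refine ⟨h2 fun s hs => ?_, by simpa [ts] using h1, h3⟩
  rw [Multiset.eq_of_mem_replicate hs]; exact ⟨by omega, hc⟩

theorem pf_facts (hG : GUApi) {n : ℕ} {B K θ : ℝ} (hB : 1 ≤ B) (hK : 1 ≤ K) (hθ : 0 ≤ θ)
    (hc : 4 * B ^ 4 * K ^ 4 * θ ≤ 1) (o0 : O) {w : S → ℝ} (hw : ∀ σ, |w σ| ≤ K) {W : ℕ → ℝ}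
    (hW : Path n W) (hW0 : W 0 ≤ B ^ 2) :
    Small n B (lift o0 w (sprof n W θ)) ∧ vr (lift o0 w (sprof n W θ)) ≤ B ^ 2 * K ^ 2 * θ := by
  obtain ⟨h1, -, h2, -⟩ := hG.lift_vr n B K o0 w (sprof n W θ) (by linarith) hw
  rw [((gApi aApi cApi).sprof_var n W θ hW hθ).1] at h1
  have r5 : θ * W 0 ≤ θ * B ^ 2 := by gcongr
  have K2 : 1 ≤ K ^ 2 := one_le_pow₀ hK
  have r3 : B ^ 4 * K ^ 2 * θ ≤ K ^ 2 * (B ^ 4 * K ^ 2 * θ) :=
    le_mul_of_one_le_left (by positivity) K2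
  have r4 : 0 ≤ B ^ 4 * K ^ 4 * θ := by positivity
  refine ⟨h2 (KeyUm.spr hθ hW (by positivity) ?_), ?_⟩
  · linarith [mul_le_mul_of_nonneg_left r5 (sq_nonneg (B * K))]
  · linarith [mul_le_mul_of_nonneg_left r5 (sq_nonneg K)]

theorem nums {B K c j : ℝ} (hB : 1 ≤ B) (hK : 1 ≤ K) (hj : 1 ≤ j)
    (hc : 4 * B ^ 4 * K ^ 4 * (j * c ^ 2) ≤ 1) :
    B * K * |c| ≤ 1 ∧ 4 * (B ^ 2 * K ^ 2) * (j * c ^ 2) ≤ 1 ∧
      K ^ 2 * (j * c ^ 2) ≤ B ^ 2 * K ^ 2 * (j * c ^ 2) ∧ 1 ≤ B ^ 2 * K ^ 2 ∧ j * c ^ 2 ≤ 1 := by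
  have B2 : 1 ≤ B ^ 2 := one_le_pow₀ hB
  have K2 : 1 ≤ K ^ 2 := one_le_pow₀ hK
  have Q1 : 1 ≤ B ^ 2 * K ^ 2 := one_le_mul_of_one_le_of_one_le B2 K2
  have h0 : 0 ≤ j * c ^ 2 := by positivity
  have h1 : c ^ 2 ≤ j * c ^ 2 := le_mul_of_one_le_left (sq_nonneg c) hj
  have h2 : B ^ 2 * K ^ 2 * (j * c ^ 2) ≤ B ^ 2 * K ^ 2 * (B ^ 2 * K ^ 2 * (j * c ^ 2)) :=
    le_mul_of_one_le_left (by positivity) Q1
  have h3 : j * c ^ 2 ≤ B ^ 2 * K ^ 2 * (j * c ^ 2) := le_mul_of_one_le_left h0 Q1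
  have h4 : K ^ 2 * (j * c ^ 2) ≤ B ^ 2 * (K ^ 2 * (j * c ^ 2)) :=
    le_mul_of_one_le_left (by positivity) B2
  have h5 : (B * K * |c|) ^ 2 ≤ 1 := by
    rw [mul_pow, mul_pow, sq_abs]
    linarith [mul_le_mul_of_nonneg_left h1 (by positivity : 0 ≤ B ^ 2 * K ^ 2)]
  exact ⟨(sq_le_one_iff₀ (by positivity)).1 h5, by linarith, by linarith, Q1, by linarith⟩

theorem gam_ts (hG : GUApi) (n j : ℕ) (g g1 g2 : O → ℝ → ℝ) (U : S → ℝ) (L : Multiset (St O S))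
    (w : S → ℝ) (c : ℝ) (a : O) : ((ts n j w c a).map (GU n g g1 g2 U L)).sum =
      ((lift a w {(n - 1, √(j * c ^ 2))}).map (GU n g g1 g2 U L)).sum := by
  rw [ts_eq, Multiset.map_replicate, Multiset.sum_replicate, lift, Multiset.map_singleton,
    Multiset.map_singleton, Multiset.sum_singleton, hG.gam_one, hG.gam_one,
    sq_sqrt (by positivity), nsmul_eq_mul]
  ring

/-- one move: a round, a field profile and a potential against `|A|` steps on the new site -/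
theorem move (hU : UApi) (hG : GUApi) {n : ℕ} (hn : 1 ≤ n) {B K CM Cg e κ c a0 : ℝ}
    {g g1 g2 : O → ℝ → ℝ} {o0 : O} {s : I → S → ℝ} (hS : Md B K g g1 g2 o0 s) (hCM : 0 ≤ CM)
    (hCg : 0 ≤ Cg) {A : Finset I} (hA0 : A.Nonempty) {w : S → ℝ} (hw : ∀ σ, |w σ| ≤ K) (a : O)
    {P W : ℕ → ℝ} (hP : Path n P) (hW : Path n W) (hW0 : W 0 ≤ B ^ 2) (ha0 : |a0| ≤ 2 * B ^ 2)
    (hc : 4 * B ^ 4 * K ^ 4 * (A.card * c ^ 2) ≤ 1) (U : S → ℝ) (L : Multiset (St O S))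
    (hM : ∀ L' : Multiset (St O S), Small n B L' → vr L' ≤ 1 → |TU n g U (L + L') - TU n g U L -
      (L'.map (GU n g g1 g2 U L)).sum| ≤ CM * (vr L' * √(vr L')))
    (ha : ∀ L' : Multiset (St O S), Small n B L' →
      EU n g U (L + L') 0 (fun ω _ => w ω.2 ^ 2) ≤
        exp (Cg * vr L') * EU n g U L 0 (fun ω _ => w ω.2 ^ 2) ∧
      EU n g U L 0 (fun ω _ => w ω.2 ^ 2) ≤
        exp (Cg * vr L') * EU n g U (L + L') 0 (fun ω _ => w ω.2 ^ 2))
    (hco : CU n g U L s A P e)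
    (hK : |LamU n g g1 g2 U L a w P W a0 - (2 * ip n P W - a0 * P 0)| ≤ κ) :
    |TU n g U (L + ts n A.card w c a) -
        TU n g (fun σ => U σ + A.card * c ^ 2 * (a0 - W 0) / 2 * w σ ^ 2)
          (L + (rd s a A (n - 1) c + lift o0 w (sprof n W (A.card * c ^ 2)))) -
        A.card * c ^ 2 * (ip n P W - a0 * P 0 / 2)| ≤
      A.card * c ^ 2 * ((CM * (5 * (B ^ 2 * K ^ 2) ^ 2) + 4 * (B ^ 2 * K ^ 2) ^ 2 +
        2 * (B ^ 2 * K ^ 2) * (exp Cg * (2 * (B ^ 2 * K ^ 2)) * (B ^ 2 * K ^ 2))) *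
          √(A.card * c ^ 2) + 2 * B ^ 2 * √e + κ / 2) := by
  have hB := hS.hB
  have hK1 := hS.hK
  have B0 : 0 ≤ B := by linarith
  have hj : (1 : ℝ) ≤ A.card := by exact_mod_cast hA0.card_pos
  obtain ⟨n1, n2, n3, R1, t3⟩ := nums hB hK1 hj hc
  have h0 : 0 ≤ A.card * c ^ 2 := by positivity
  obtain ⟨s1, v1, -⟩ := ts_facts hG hn B0 A.card hw n1 a
  obtain ⟨s3, v3⟩ := pf_facts hG hB hK1 h0 hc o0 hw hW hW0
  obtain ⟨v4', s4, -⟩ := hG.rd_vr n B K s a A (n - 1) c B0 hS.bd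
  have s2 := small_add (s4 (by omega) n1) s3
  have v2 := (vadd _ _).trans_le (add_le_add (v4'.trans n3) v3)
  replace v1 := v1.trans n3
  have g1' := gam_ts hG n A.card g g1 g2 U L w c a
  have g2' := PcUm.gam_diff hG a c hn hB (hS.sm a) hA0 hP hco
  have gd := KeyUm.gam_diff hG hn g g1 g2 U L a hS.e1 hS.e2 w hP hW h0 a0
  have a1 := hM _ s1
  have a2 := hM _ s2
  have a6 := ha _ s2
  rw [Multiset.map_add, Multiset.sum_add] at gd a2
  have W0 := KeyUm.path_nn hW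
  have RB : B ^ 2 ≤ B ^ 2 * K ^ 2 := le_mul_of_one_le_right (sq_nonneg _) (one_le_pow₀ hK1)
  have RK : K ^ 2 ≤ B ^ 2 * K ^ 2 := le_mul_of_one_le_left (sq_nonneg _) (one_le_pow₀ hB)
  generalize rd s a A (n - 1) c + lift o0 w (sprof n W (A.card * c ^ 2)) = T2 at v2 a2 a6 ⊢
  generalize ts n A.card w c a = T1 at v1 a1 g1' ⊢
  generalize (A.card : ℝ) * c ^ 2 = θ0 at *
  have t4 : θ0 ≤ √θ0 := le_sqrt_of_sq_le (by rw [sq]; exact mul_le_of_le_one_left h0 t3)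
  have w2 : ∀ σ, w σ ^ 2 ≤ K ^ 2 := fun σ => sq_le_sq' (abs_le.1 (hw σ)).1 (abs_le.1 (hw σ)).2
  have p1 : |θ0 * (a0 - W 0) / 2| ≤ 2 * B ^ 2 * θ0 := by
    rw [mul_div_assoc, abs_mul, abs_of_nonneg h0, mul_comm]
    refine mul_le_mul_of_nonneg_right ?_ h0
    rw [abs_le] at ha0 ⊢
    constructor <;> linarith [ha0.1, ha0.2]
  generalize θ0 * (a0 - W 0) / 2 = ap at p1 gd ⊢
  have p2 : ∀ σ, |ap * w σ ^ 2| ≤ 2 * (B ^ 2 * K ^ 2) * θ0 := fun σ => by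
    rw [abs_mul, abs_of_nonneg (sq_nonneg (w σ))]
    calc _ ≤ 2 * B ^ 2 * θ0 * K ^ 2 := mul_le_mul p1 (w2 σ) (sq_nonneg _) (by positivity)
      _ = _ := by ring
  generalize B ^ 2 * K ^ 2 = R at *
  have t1 : 0 ≤ R * θ0 := by positivity
  replace v2 : vr T2 ≤ 2 * R * θ0 := by linarith
  replace a1 := a1 (by linarith)
  replace a2 := a2 (by linarith)
  have a3 := mul_le_mul_of_nonneg_left (KeyUm.v4 h0 R1 v1) hCM
  have a4 := mul_le_mul_of_nonneg_left (KeyUm.v4 h0 (by linarith) v2) hCM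
  have a5 := hU.pot1 n g U _ _ (L + T2) hn p2 (by linarith)
  replace a6 := KeyUm.e1_chg hU hn g U L (L + T2) w2 (one_le_exp (mul_nonneg hCg (vnn T2)))
    (KeyUm.exp_small (vnn T2) v2 (by linarith)) a6
  have a7 : |ap * (E1U n g U (L + T2) (fun ω => w ω.2 ^ 2) -
      E1U n g U L (fun ω => w ω.2 ^ 2))| ≤ 2 * R * (exp Cg * (2 * R) * R) * (θ0 * √θ0) := by
    rw [abs_mul]
    calc _ ≤ 2 * R * θ0 * (exp Cg * (2 * R * √θ0) * R) := by
          refine mul_le_mul (p1.trans (by gcongr)) (a6.trans (by gcongr)) (abs_nonneg _)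
            (by positivity)
      _ = _ := by ring
  have a8 : (2 * R * θ0) ^ 2 ≤ 4 * R ^ 2 * (θ0 * √θ0) := by
    calc _ = 4 * R ^ 2 * (θ0 * θ0) := by ring
      _ ≤ _ := by gcongr
  rw [KeyUm.e1_mul] at a5
  have a9 := mul_le_mul_of_nonneg_left (abs_le.1 hK).1 h0
  have a10 := mul_le_mul_of_nonneg_left (abs_le.1 hK).2 h0
  rw [abs_le] at a1 a2 a5 a7 g2' ⊢
  constructor <;> linarith [a1.1, a1.2, a2.1, a2.2, a5.1, a5.2, a7.1, a7.2, g2'.1, g2'.2]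

/-- comparison of two potentials whose difference is almost constant -/
theorem swap (hU : UApi) (hG : GUApi) {n : ℕ} (hn : 1 ≤ n) (g : O → ℝ → ℝ) (U0 U1 : S → ℝ)
    (L : Multiset (St O S)) {s : I → S → ℝ} {A : Finset I} {P : ℕ → ℝ} {e x y c1 : ℝ} (hx : 0 ≤ x)
    (h : ∀ σ, |U1 σ - U0 σ - c1| ≤ x * |RR s A σ σ - P 0| + y) (h0 : CU n g U0 L s A P e)
    (h1 : CU n g U1 L s A P e) : |TU n g U1 L - TU n g U0 L - c1| ≤ x * √e + y := by
  have key : ∀ (U V : S → ℝ) (c : ℝ), CU n g U L s A P e →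
      (∀ σ, |V σ - c| ≤ x * |RR s A σ σ - P 0| + y) →
      c - (x * √e + y) ≤ E1U n g U L fun ω => V ω.2 := by
    intro U V c hc hV
    have k1 := ((hG.conc_abs n g U L s A P e 1 hn hc).2 (fun _ => 1) fun _ => by simp).1
    simp only [one_mul] at k1
    rw [← hU.e1 n g U L 0 _ hn n.zero_le] at k1
    have k2 := Sc2Um.eu_aff hn g U L n.zero_le (φ := fun ω _ => (-1) * V ω.2)
      (ψ := fun ω _ => |RR s A ω.2 ω.2 - P 0|) (a := x) (b := y - c)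
      fun ω _ => by linarith [(abs_le.1 (hV ω.2)).1]
    rw [hU.e1 n g U L 0 _ hn n.zero_le, KeyUm.e1_mul] at k2
    linarith [mul_le_mul_of_nonneg_left k1 hx]
  have k1 := hU.potlow n g U0 (fun σ => U1 σ - U0 σ) L hn
  have k2 := hU.potlow n g U1 (fun σ => U0 σ - U1 σ) L hn
  simp only [add_sub_cancel] at k1 k2
  have k3 := key U0 (fun σ => U1 σ - U0 σ) c1 h0 h
  have k4 := key U1 (fun σ => U0 σ - U1 σ) (-c1) h1 fun σ => by
    rw [← abs_neg]; convert h σ using 2; ring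
  rw [abs_le]
  constructor <;> linarith

theorem dev {k K j r x p : ℝ} (hk : 0 ≤ k) (hj : 0 ≤ j) (hr : |r| ≤ K ^ 2) (hx : |x| ≤ K ^ 2)
    (hp : |p| ≤ K ^ 2) :
    |k * ((j * r ^ 2 - 2 * j * (r * x) - x ^ 2) / (j + 1)) + 2 * k * p * (x + 1) -
      k * (p ^ 2 + 2 * p)| ≤ k * (4 * K ^ 2) * |r - p| + k * (4 * K ^ 4 * (1 / (j + 1))) := by
  rw [show k * ((j * r ^ 2 - 2 * j * (r * x) - x ^ 2) / (j + 1)) + 2 * k * p * (x + 1) -
      k * (p ^ 2 + 2 * p) = k * ((r + p - 2 * x) * (r - p) - (r - x) ^ 2 * (1 / (j + 1))) by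
    field_simp; ring, abs_mul, abs_of_nonneg hk, mul_assoc, ← mul_add]
  refine mul_le_mul_of_nonneg_left ((abs_sub _ _).trans (add_le_add ?_ ?_)) hk
  · rw [abs_mul]
    refine mul_le_mul_of_nonneg_right ?_ (abs_nonneg _)
    rw [abs_le] at *
    constructor <;> linarith [hr.1, hr.2, hx.1, hx.2, hp.1, hp.2]
  · rw [abs_of_nonneg (by positivity)]
    refine mul_le_mul_of_nonneg_right ?_ (by positivity)
    rw [abs_le] at *
    calc _ ≤ (2 * K ^ 2) ^ 2 := sq_le_sq' (by linarith [hr.1, hx.2]) (by linarith [hr.2, hx.1])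
      _ = _ := by ring

end ScUm

end

end Vale.Agent.P157
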