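import Vale.Agent.P157.S.R2S
import Vale.Agent.P157.Smn

/-! P157, sphere: the pressure is Lipschitz for the Gaussian `L^1` distance. -/

namespace Vale.Agent.P157

open MeasureTheory ProbabilityTheory Finset Real Filter

noncomputable section

theorem sphM_prob {N : ℕ} (hN : 1 ≤ N) : IsProbabilityMeasure (sphM N) := by
  have : Nonempty (Fin N) := ⟨⟨0, hN⟩⟩
  constructor
  rw [sphM, Measure.smul_apply, smul_eq_mul]
  refine ENNReal.inv_mul_cancel ?_ (measure_ne_top _ _)
  rw [Ne, Measure.measure_univ_eq_zero]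
  exact Measure.toSphere_ne_zero _

theorem smnS : SmnS := by
  intro B
  obtain ⟨C, hC, H⟩ := r2S B
  refine ⟨C, hC, fun N M f g hN hf hg hfB hgB => ?_⟩
  have := sphM_prob hN
  have hN' : (0 : ℝ) < N := by exact_mod_cast hN
  have hT : Measurable (fun z : (Fin N → ℝ) × Metric.sphere (0 : EuclideanSpace ℝ (Fin N)) 1 =>
      (∑ i, z.1 i * (√(N : ℝ) * z.2.1 i)) / √(N : ℝ)) := by fun_prop
  have h := H N M _ (sphM N) (fun x u => f ((∑ i, x i * (√(N : ℝ) * u.1 i)) / √(N : ℝ)))
    (fun x u => g ((∑ i, x i * (√(N : ℝ) * u.1 i)) / √(N : ℝ)))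
    (∫ z, |f z - g z| ∂gaussianReal 0 1) (hf.comp hT) (hg.comp hT) (fun _ _ => hfB _)
    (fun _ _ => hgB _) (ae_of_all _ (fun u => le_of_eq ?_))
  · unfold meanS pS
    rw [integral_const_mul, integral_const_mul, ← mul_sub, abs_mul, abs_of_pos (by positivity)]
    refine (mul_le_mul_of_nonneg_left h (by positivity)).trans (le_of_eq (by ring))
  · have hu : ∑ i, u.1 i ^ 2 = 1 := by
      rw [← EuclideanSpace.real_norm_sq_eq, mem_sphere_zero_iff_norm.1 u.2, one_pow]
    have hm : Measurable fun z => |f z - g z| := by fun_prop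
    rw [← Smn.law N (fun i => u.1 i) hu, integral_map (Measurable.aemeasurable (by fun_prop))
      hm.aestronglyMeasurable]
    congr 1
    funext x
    have : (∑ i, x i * (√(N : ℝ) * u.1 i)) / √(N : ℝ) = ∑ i, u.1 i * x i := by
      rw [sum_div]
      exact sum_congr rfl (fun i _ => by field_simp)
    rw [this]

end

end Vale.Agent.P157
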