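import Vale.Agent.P157.StmS

/-! Module SoftS: the soft constraint versus the shell. -/

namespace Vale.Agent.P157

open MeasureTheory Finset Real

namespace SoftSm

theorem avg_pos {S : Type} [Fintype S] [Nonempty S] (X : S → ℝ) : 0 < avg fun σ => exp (X σ) :=
  div_pos (sum_pos (fun _ _ => exp_pos _) univ_nonempty) (by exact_mod_cast Fintype.card_pos)

theorem avg_le {S : Type} [Fintype S] [Nonempty S] {F : S → ℝ} {c : ℝ} (h : ∀ σ, F σ ≤ c) :
    avg F ≤ c := by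
  rw [avg, div_le_iff₀ (by exact_mod_cast Fintype.card_pos), mul_comm, ← nsmul_eq_mul]
  exact sum_le_card_nsmul _ _ _ fun σ _ => h σ

theorem le_avg {S : Type} [Fintype S] [Nonempty S] {F : S → ℝ} {c : ℝ} (h : ∀ σ, c ≤ F σ) :
    c ≤ avg F := by
  rw [avg, le_div_iff₀ (by exact_mod_cast Fintype.card_pos), mul_comm, ← nsmul_eq_mul]
  exact card_nsmul_le_sum _ _ _ fun σ _ => h σ

theorem abs_log {S : Type} [Fintype S] [Nonempty S] {X : S → ℝ} {c : ℝ} (h : ∀ σ, |X σ| ≤ c) :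
    |log (avg fun σ => exp (X σ))| ≤ c :=
  abs_le.2 ⟨(le_log_iff_exp_le (avg_pos X)).2 (le_avg fun σ => exp_le_exp.2 (abs_le.1 (h σ)).1),
    (log_le_iff_le_exp (avg_pos X)).2 (avg_le fun σ => exp_le_exp.2 (abs_le.1 (h σ)).2)⟩

theorem sum_bd {M : ℕ} {f : ℝ → ℝ} {B : ℝ} (hB : ∀ t, |f t| ≤ B) (x : Fin M → ℝ) :
    |∑ a, f (x a)| ≤ B * M :=
  (abs_sum_le_sum_abs _ _).trans ((sum_le_card_nsmul _ _ B fun _ _ => hB _).trans_eq (by
    simp [mul_comm]))

theorem int_ok {f : ℝ → ℝ} {B : ℝ} (hf : Measurable f) (hB : ∀ t, |f t| ≤ B) (N M : ℕ) {S : Type}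
    [Fintype S] [Nonempty S] (s : Fin N → S → ℝ) (U : S → ℝ) :
    Integrable (fun g : Fin M → Fin N → ℝ =>
      log (avg fun σ => exp (∑ a, f ((∑ i, g a i * s i σ) / √(N : ℝ)) + U σ))) (gM M N) := by
  refine Integrable.of_bound (C := B * M + ∑ σ, |U σ|) (Measurable.aestronglyMeasurable ?_)
    (ae_of_all _ fun g => abs_log fun σ => (abs_add_le _ _).trans (add_le_add (sum_bd hB _)
      (single_le_sum (f := fun σ => |U σ|) (fun _ _ => abs_nonneg _) (mem_univ σ))))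
  unfold avg
  fun_prop

theorem sum_sh {T : Type} [Fintype T] (v : T → ℝ) (N : ℕ) (c0 ε : ℝ) (F : (Fin N → T) → ℝ) :
    ∑ σ : Sh v N c0 ε, F σ.1 =
      ∑ σ ∈ univ.filter fun σ : Fin N → T => |(∑ i, v (σ i) ^ 2) / N - c0| ≤ ε, F σ :=
  (sum_subtype _ (by simp) F).symm

end SoftSm

open SoftSm in
theorem softS : SoftS := by
  intro T _ _ v B k ε f N M hN hf hB hk hε hne hM
  have N0 : (0 : ℝ) < N := by exact_mod_cast hN
  have i2 := int_ok hf hB N M (shs v N 1 ε) fun _ => 0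
  refine le_add_of_le_of_nonneg (integral_mono (int_ok hf hB N M _ _) i2 fun g =>
    log_le_log (avg_pos _) ?_) (log_nonneg one_le_two)
  set a := avg fun σ => exp (∑ a, f ((∑ i, g a i * shs v N 1 ε i σ) / √(N : ℝ)) + 0) with ha
  set H : (Fin N → T) → ℝ := fun σ => ∑ a, f ((∑ i, g a i * sv v i σ) / √(N : ℝ))
  set p : (Fin N → T) → Prop := fun σ => |(∑ i, v (σ i) ^ 2) / N - 1| ≤ ε
  have a1 : exp (-(B * M)) ≤ a := le_avg fun σ => exp_le_exp.2 (by
    rw [add_zero]; exact (abs_le.1 (sum_bd hB _)).1)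
  have c1 : (Fintype.card (Sh v N 1 ε) : ℝ) = #(univ.filter p) := by
    simpa using sum_sh v N 1 ε fun _ => 1
  have a2 : ∑ σ ∈ univ.filter p, exp (H σ) = #(univ.filter p) * a := by
    rw [← sum_sh, ← c1, ha, avg, mul_div_cancel₀ _ (by exact_mod_cast Fintype.card_ne_zero)]
    simp only [add_zero]
    rfl
  have a3 : ∑ σ ∈ univ.filter p, exp (H σ + Uk v k univ σ) ≤ ∑ σ ∈ univ.filter p, exp (H σ) :=
    sum_le_sum fun σ _ => exp_le_exp.2 (add_le_of_nonpos_right (neg_nonpos.2 (by positivity)))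
  have a4 : ∑ σ ∈ univ.filter (fun σ => ¬ p σ), exp (H σ + Uk v k univ σ) ≤
      #(univ.filter fun σ => ¬ p σ) * a := by
    rw [← nsmul_eq_mul]
    refine sum_le_card_nsmul _ _ _ fun σ hσ => le_trans (exp_le_exp.2 ?_) a1
    have h := (not_le.1 (mem_filter.1 hσ).2).le
    have h1 : H σ ≤ B * M := (abs_le.1 (sum_bd hB _)).2
    have h2 : k * ε ^ 2 * N ≤ k * (∑ i, v (σ i) ^ 2 - N) ^ 2 / N := by
      rw [show k * (∑ i, v (σ i) ^ 2 - N) ^ 2 / N = k * |(∑ i, v (σ i) ^ 2) / N - 1| ^ 2 * N by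
        rw [sq_abs]; field_simp]
      gcongr
    rw [Uk, card_univ, Fintype.card_fin]
    linarith
  have e2 : (#(univ.filter p) : ℝ) + #(univ.filter fun σ => ¬ p σ) = Fintype.card (Fin N → T) := by
    exact_mod_cast card_filter_add_card_filter_not (s := univ) p
  rw [avg, div_le_iff₀ (by exact_mod_cast Fintype.card_pos), ← sum_filter_add_sum_filter_not _ p,
    ← e2]
  linarith

end Vale.Agent.P157
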