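import Vale.Agent.P157.StmS

namespace Vale.Agent.P157

open MeasureTheory ProbabilityTheory Finset Real

namespace Sph0m

theorem gN_eq (N : ℕ) : gN N = (volume : Measure (Fin N → ℝ)).withDensity
    (fun y => ENNReal.ofReal (∏ i, gaussianPDFReal 0 1 (y i))) := by
  refine Measure.pi_eq fun s hs => ?_
  rw [withDensity_apply _ (MeasurableSet.univ_pi hs), volume_pi, Measure.restrict_pi_pi,
    ← ofReal_integral_eq_lintegral_ofReal, integral_fintype_prod_eq_prod,
    ENNReal.ofReal_prod_of_nonneg]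
  · exact prod_congr rfl fun i _ => (gaussianReal_apply_eq_integral 0 one_ne_zero (s i)).symm
  · exact fun i _ => integral_nonneg fun x => gaussianPDFReal_nonneg _ _ _
  · exact Integrable.fintype_prod fun i => (integrable_gaussianPDFReal 0 1).integrableOn
  · exact .of_forall fun y => prod_nonneg fun i _ => gaussianPDFReal_nonneg _ _ _

theorem polar (N : ℕ) (hN : 1 ≤ N) : ∃ c : ℝ, ∀ F : (Fin N → ℝ) → ℝ, ∫ y, F (nz y) ∂gN N =
    (∫ u, F (fun i => u.1 i) ∂(volume : Measure (EuclideanSpace ℝ (Fin N))).toSphere) * c := by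
  have : Nonempty (Fin N) := ⟨⟨0, hN⟩⟩
  set φ : ℝ → ℝ := fun r => (√(2 * π))⁻¹ ^ N * exp (-r ^ 2 / 2) with hφ
  refine ⟨∫ r : Set.Ioi (0 : ℝ), φ r ∂Measure.volumeIoiPow
    (Module.finrank ℝ (EuclideanSpace ℝ (Fin N)) - 1), fun F => ?_⟩
  have hn : ∀ x : EuclideanSpace ℝ (Fin N), ‖x‖ ^ 2 = ∑ i, x i ^ 2 := fun x => by
    rw [EuclideanSpace.norm_sq_eq]; simp
  rw [gN_eq, integral_withDensity_eq_integral_toReal_smul (by fun_prop) (by simp),
    ← (PiLp.volume_preserving_ofLp (Fin N)).integral_comp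
      (MeasurableEquiv.toLp 2 (Fin N → ℝ)).symm.measurableEmbedding, ← integral_prod_mul,
    ← (volume : Measure (EuclideanSpace ℝ (Fin N))).measurePreserving_homeomorphUnitSphereProd.integral_comp
      (Homeomorph.measurableEmbedding _)]
  refine Eq.trans ?_ ((integral_subtype_comap (μ := volume) (measurableSet_singleton 0).compl
    (fun x : EuclideanSpace ℝ (Fin N) => F (fun i => (‖x‖⁻¹ • x) i) * φ ‖x‖)).symm.trans ?_)
  swap
  · refine integral_congr_ae (.of_forall fun x => ?_)
    simp only [homeomorphUnitSphereProd_apply_fst_coe, homeomorphUnitSphereProd_apply_snd_coe]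
  rw [restrict_compl_singleton]
  refine integral_congr_ae (.of_forall fun x => ?_)
  simp only
  rw [ENNReal.toReal_ofReal (prod_nonneg fun i _ => gaussianPDFReal_nonneg _ _ _), smul_eq_mul,
    mul_comm]
  congr 1
  · congr 1
    ext i
    rw [nz, ← hn, sqrt_sq (norm_nonneg _)]
    simp [div_eq_inv_mul]
  · simp only [hφ, gaussianPDFReal, NNReal.coe_one, mul_one, sub_zero]
    rw [prod_mul_distrib, prod_const, card_univ, Fintype.card_fin, ← exp_sum, hn, ← sum_div,
      sum_neg_distrib]

end Sph0m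

theorem sph0 : Sph0 := by
  intro N F _ hN _ _
  obtain ⟨c, hc⟩ := Sph0m.polar N hN
  have h1 := hc fun _ => 1
  simp only [integral_const, probReal_univ, smul_eq_mul, mul_one] at h1
  rw [hc, sphM, integral_smul_measure, ENNReal.toReal_inv, smul_eq_mul, mul_comm]
  congr 1
  exact (eq_inv_of_mul_eq_one_right h1.symm).symm

end Vale.Agent.P157
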