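import Vale.Agent.P157.StmS
import Vale.Agent.P157.A
import Vale.Agent.P157.C
import Vale.Agent.P157.G
import Vale.Agent.P157.Spin

/-! P157, sphere, module SpinU: the one-spin cavity lower bound. -/

namespace Vale.Agent.P157

open Finset Real

noncomputable section

namespace SpU

open Spin (lvar_ys path_nonneg lift_add ip_smul par par2)

section
variable {O S I : Type} [Fintype O] [DecidableEq O] [Fintype S] [Inhabited S]

/-- second order effect of one extra field step -/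
theorem extra (hG : GUApi) {B K CM : ℝ} (hB : 1 ≤ B) (hK : 1 ≤ K) (hCM : 0 ≤ CM) {n : ℕ}
    {g g1 g2 : O → ℝ → ℝ} {U : S → ℝ} (L : Multiset (St O S)) (o0 : O) (w : S → ℝ)
    (hM : ∀ L' : Multiset (St O S), Small n B L' → vr L' ≤ 1 →
      |TU n g U (L + L') - TU n g U L - (L'.map (GU n g g1 g2 U L)).sum| ≤ CM * (vr L' * √(vr L')))
    (e1 : g1 o0 = fun _ => 1) (e2 : g2 o0 = fun _ => 0) (hw : ∀ σ, |w σ| ≤ K) {κ : ℕ} {s : ℝ}
    (hκ : κ < n) (hs : 0 ≤ s) (hsB : B * K * s ≤ 1) :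
    |TU n g U (L + lift o0 w {(κ, s)}) - TU n g U L - s ^ 2 * (E1U n g U L (fun ω => w ω.2 ^ 2) -
      (1 / (n : ℝ)) * ∑ d ∈ Icc 1 κ, EU n g U L d (fun ω ω' => w ω.2 * w ω'.2)) / 2| ≤
      CM * (K * s) ^ 3 := by
  obtain ⟨hv, -, hsm, -⟩ := hG.lift_vr n B K o0 w {(κ, s)} (by linarith) hw
  have hv0 : 0 ≤ vr (lift o0 w {(κ, s)}) := ((gApi aApi cApi).vr_add _ 0 0).2.2.2
  have hv' : vr (lift o0 w {(κ, s)}) ≤ (K * s) ^ 2 := by simpa [mul_pow] using hv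
  have hKs : 0 ≤ K * s := by positivity
  have hKs1 : K * s ≤ 1 := by nlinarith
  have h1 := hM _ (hsm fun t ht => by
    obtain rfl := Multiset.mem_singleton.1 ht
    exact ⟨hκ, by simpa [abs_of_nonneg hs] using hsB⟩) (hv'.trans (by nlinarith))
  have e3 : ((lift o0 w {(κ, s)}).map (GU n g g1 g2 U L)).sum = s ^ 2 *
      (E1U n g U L (fun ω => w ω.2 ^ 2) - (1 / (n : ℝ)) * ∑ d ∈ Icc 1 κ,
        EU n g U L d (fun ω ω' => w ω.2 * w ω'.2)) / 2 := by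
    unfold lift
    rw [Multiset.map_singleton, Multiset.map_singleton, Multiset.sum_singleton, hG.gam_one]
    have a1 : ob (gq g1 g2 o0) o0 (fun σ => w σ ^ 2) = fun ω : Om O S => w ω.2 ^ 2 := by
      funext ω; simp [ob, gq, e1, e2]
    have a2 : ∀ ω : Om O S, ob (g1 o0) o0 w ω = w ω.2 := fun ω => by simp [ob, e1]
    simp only [a1, a2]
  rw [e3] at h1
  refine h1.trans (mul_le_mul_of_nonneg_left ?_ hCM)
  have h2 : √(vr (lift o0 w {(κ, s)})) ≤ K * s := sqrt_le_iff.2 ⟨hKs, hv'⟩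
  calc _ ≤ (K * s) ^ 2 * (K * s) := mul_le_mul hv' h2 (sqrt_nonneg _) (sq_nonneg _)
    _ = _ := by ring

theorem head_r (hG : GUApi) {n : ℕ} {g : O → ℝ → ℝ} {U : S → ℝ} (hn : 1 ≤ n)
    (L : Multiset (St O S)) (s : I → S → ℝ) (A : Finset I) (P : ℕ → ℝ) {e : ℝ}
    (h : CU n g U L s A P e) {κ : ℕ} (hκ : κ < n) :
    |E1U n g U L (fun ω => RR s A ω.2 ω.2) - (1 / (n : ℝ)) * ∑ d ∈ Icc 1 κ,
      EU n g U L d (fun ω ω' => RR s A ω.2 ω'.2) -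
        (P 0 - (1 / (n : ℝ)) * ∑ d ∈ Icc 1 κ, P d)| ≤ 2 * √e := by
  obtain ⟨h1, h2⟩ := hG.conc_abs n g U L s A P e 1 hn h
  have h1 := h1 (fun _ _ _ => 1) (fun _ _ _ => by simp)
  have h2 := (h2 (fun _ => 1) (fun _ => by simp)).2
  have c1 : E1U n g U L (fun _ => 1) = 1 :=
    aApi.const (aApi.ce (cApi.ok n L hn) _ 0 (n + 1) le_rfl) 1 _
  simp only [one_mul, c1, mul_one] at h1 h2
  have h3 : |(1 / (n : ℝ)) * ∑ d ∈ Icc 1 κ,
      (EU n g U L d (fun ω ω' => RR s A ω.2 ω'.2) - P d)| ≤ √e := by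
    refine le_trans ?_ h1
    rw [abs_mul, abs_of_nonneg (by positivity)]
    refine mul_le_mul_of_nonneg_left ((abs_sum_le_sum_abs _ _).trans ?_) (by positivity)
    refine le_trans (le_of_eq (sum_congr rfl (fun d hd => ?_)))
      (sum_le_sum_of_subset_of_nonneg (s := Icc 1 κ) (fun d hd => ?_) (fun _ _ _ => abs_nonneg _))
    · have hd' := (mem_Icc.1 hd).2
      have : EU n g U L d (fun _ _ => 1) = 1 :=
        aApi.e2const (cApi.ok n L hn) _ (d + 1) (by omega) 1 _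
      rw [this, mul_one]
    · have := mem_Icc.1 hd
      exact mem_Ico.2 ⟨this.1, by omega⟩
  rw [sum_sub_distrib, mul_sub] at h3
  have := abs_le.1 h2
  have := abs_le.1 h3
  exact abs_le.2 ⟨by linarith, by linarith⟩

end

theorem test {a0 a1 p0 p1 c X Y s ε' E t : ℝ} (hs : 0 < s) (h0 : |a0 - p0 - c| ≤ ε')
    (h1 : |a1 - p1 - c| ≤ ε') (h2 : |a1 - a0 - s ^ 2 * Y / 2| ≤ E)
    (h3 : |p1 - p0 - s ^ 2 * X / 2| ≤ E) (h4 : 4 * ε' + 4 * E ≤ s ^ 2 * t) : |X - Y| ≤ t := by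
  have hXY : s ^ 2 * |X - Y| ≤ s ^ 2 * t := by
    rw [← abs_of_nonneg (sq_nonneg s), ← abs_mul, abs_of_nonneg (sq_nonneg s)]
    have := abs_le.1 h0; have := abs_le.1 h1; have := abs_le.1 h2; have := abs_le.1 h3
    refine abs_le.2 ⟨by linarith, by linarith⟩
  exact le_of_mul_le_mul_left hXY (by positivity)

/-- the profile of the cavity field -/
theorem prof {n k : ℕ} {W y : ℕ → ℝ} {c2 γ B ηs η : ℝ} (hW : Path n W) (hW0 : W 0 ≤ B ^ 2)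
    (hc2 : 0 ≤ c2) (hcη : c2 ≤ η) (hη5 : η * B ^ 2 ≤ ηs ^ 2) (hηs : 0 < ηs) (hγ : 0 ≤ γ)
    (hk : k * c2 = γ) (hyη : ∀ κ, κ < n → |y κ| ≤ η) (hη3 : η ≤ ηs) :
    Prof n ηs (ys n y + k • sprof n W c2) (fun d => γ * W d + ∑ κ ∈ Ico d n, y κ ^ 2) ∧
      ∀ d, 0 ≤ ∑ κ ∈ Ico d n, y κ ^ 2 ∧ ∑ κ ∈ Ico d n, y κ ^ 2 ≤ n * η ^ 2 := by
  have hG := gApi aApi cApi
  have hW00 := path_nonneg hW
  obtain ⟨-, hv1, hv2⟩ := hG.sprof_var n W c2 hW hc2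
  have hst : ∀ d, d < n → ∑ κ ∈ Ico d n, y κ ^ 2 = y d ^ 2 + ∑ κ ∈ Ico (d + 1) n, y κ ^ 2 :=
    fun d hd => sum_eq_sum_Ico_succ_bot hd _
  refine ⟨⟨⟨fun d hd => ?_, by simp [hW.2]⟩, fun s hs => ?_, fun d hd => ?_⟩, fun d =>
    ⟨sum_nonneg fun _ _ => sq_nonneg _, ?_⟩⟩
  · have := mul_le_mul_of_nonneg_left (hW.1 d hd) hγ
    simp only [hst d hd]
    nlinarith [sq_nonneg (y d)]
  · rcases Multiset.mem_add.1 hs with hs | hs
    · obtain ⟨κ, hκ, rfl⟩ := Multiset.mem_map.1 hs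
      exact (hyη κ (mem_range.1 hκ)).trans hη3
    · refine (hv2 s (Multiset.mem_of_mem_nsmul hs)).2.trans (sqrt_le_iff.2 ⟨hηs.le, ?_⟩)
      have := mul_le_mul hcη hW0 hW00 (hc2.trans hcη)
      linarith
  · rw [(hG.lvar_add _ _ 0 d).1, (hG.lvar_add _ 0 _ d).2, hv1 d hd, lvar_ys n y hd, ← hk]
    simp only [hst d hd]
    ring
  · refine (sum_le_card_nsmul _ _ (η ^ 2) fun κ hκ => ?_).trans ?_
    · have := hyη κ (mem_Ico.1 hκ).2
      rw [← sq_abs]; exact pow_le_pow_left₀ (abs_nonneg _) this 2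
    · rw [nsmul_eq_mul, Nat.card_Ico]
      exact mul_le_mul_of_nonneg_right (by exact_mod_cast Nat.sub_le n d) (sq_nonneg _)

/-- the variational upper bound for `Vs` -/
theorem vs_le (hl : HlU) (hc : CsApi) {B α τ0 γ u : ℝ} {n : ℕ} {f f1 f2 : ℝ → ℝ}
    {P pv W yy : ℕ → ℝ} (hB : 1 ≤ B) (hα : 0 < α) (hn : 1 ≤ n) (hf : Sm B f f1 f2)
    (hfB : ∀ t, |f t| ≤ B) (hP : Path n P) (hP2 : P 0 ≤ 2) (hpv : Path n pv) (hpv0 : pv 0 = 1)
    (hpv1 : pv 1 < 1) (hq : Path n fun d => γ * W d + yy d) (hy : ∀ d, 0 ≤ yy d ∧ yy d ≤ u)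
    (hτ : 0 ≤ τ0) (hh : ∀ κ, κ < n → |(1 / (n : ℝ)) * ∑ d ∈ Icc 1 κ, (pv d - P d)| ≤ τ0) :
    Vs n α f - α * Hf n f P ≤ CS n pv + α * (B ^ 2 * τ0 + B ^ 2 * |P 0 - 1|) ∧
      ip n pv (fun d => γ * W d + yy d) ≤ γ * ip n P W + u + (γ * W 0 + yy 0) / 2 * τ0 := by
  have hn' : (0 : ℝ) < n := by exact_mod_cast hn
  have hm : Measurable f := by
    have : LipschitzWith (Real.toNNReal B) f := LipschitzWith.of_dist_le_mul (fun a b => by
      have := (hf.d0 b (a - b)).1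
      rw [add_sub_cancel] at this
      rw [Real.dist_eq, Real.dist_eq, Real.coe_toNNReal _ (by linarith)]
      exact this)
    exact this.continuous.measurable
  have hbb : BddBelow (valS n α f) := by
    refine ⟨-(α * B), fun t ⟨p, hp, hp0, hp1, ht⟩ => ?_⟩
    have h1 := hc.nn n p hn hp hp0 hp1
    have := (abs_le.1 (hl.2 B n f p hn hm hfB)).1
    rw [ht]; nlinarith
  have h1 : Vs n α f ≤ α * Hf n f pv + CS n pv := csInf_le hbb ⟨pv, hpv, hpv0, hpv1, rfl⟩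
  have h3 := abs_le.1 (hl.1 B n f f1 f2 pv P τ0 hB hn hf hpv hP hτ hh)
  rw [hpv0, abs_sub_comm] at h3
  refine ⟨by nlinarith [mul_le_mul_of_nonneg_left h3.2 hα.le], ?_⟩
  have h4 := aApi.abel n _ (fun d => pv d - P d) (n * τ0) hq (by positivity) (fun κ hκ => by
    have := hh κ hκ
    rw [abs_mul, abs_of_pos (by positivity), one_div, inv_mul_le_iff₀ hn'] at this
    exact this)
  have h5 : ip n pv (fun d => γ * W d + yy d) = γ * ip n P W + ip n P yy +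
      (1 / (2 * (n : ℝ))) * ∑ d ∈ Ico 1 n, (γ * W d + yy d) * (pv d - P d) := by
    rw [← ip_smul]
    unfold ip
    rw [← mul_add, ← mul_add, ← sum_add_distrib, ← sum_add_distrib]
    congr 1
    exact sum_congr rfl (fun d _ => by ring)
  have h6 : (1 / (2 * (n : ℝ))) * ∑ d ∈ Ico 1 n, (γ * W d + yy d) * (pv d - P d) ≤
      (γ * W 0 + yy 0) / 2 * τ0 :=
    calc _ ≤ (1 / (2 * (n : ℝ))) * ((γ * W 0 + yy 0) * (n * τ0)) :=
          mul_le_mul_of_nonneg_left (abs_le.1 h4).2 (by positivity)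
      _ = _ := by field_simp
  have hu : 0 ≤ u := (hy 0).1.trans (hy 0).2
  have hPd : ∀ d, d ≤ n → P d ≤ 2 := by
    intro d
    induction d with
    | zero => intro _; exact hP2
    | succ d ih => intro hd; exact (hP.1 d (by omega)).trans (ih (by omega))
  have h7 : ip n P yy ≤ u := by
    unfold ip
    have : ∑ d ∈ Ico 1 n, P d * yy d ≤ n * (2 * u) := by
      refine (sum_le_card_nsmul _ _ (2 * u) fun d hd => ?_).trans ?_
      · have := hPd d (mem_Ico.1 hd).2.le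
        nlinarith [(hy d).1, (hy d).2]
      · rw [nsmul_eq_mul, Nat.card_Ico]
        exact mul_le_mul_of_nonneg_right (by exact_mod_cast Nat.sub_le n 1) (by linarith)
    calc _ ≤ (1 / (2 * (n : ℝ))) * (n * (2 * u)) := mul_le_mul_of_nonneg_left this (by positivity)
      _ = u := by field_simp
  linarith

theorem heads {n : ℕ} {pv P pT : ℕ → ℝ} {p0 t δ : ℝ} (hn : 1 ≤ n) (hδ : 0 ≤ δ)
    (h : ∀ κ, κ < n → |p0 - (1 / (n : ℝ)) * ∑ d ∈ Icc 1 κ, pT d -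
      (P 0 - (1 / (n : ℝ)) * ∑ d ∈ Icc 1 κ, P d)| ≤ t)
    (hp : ∀ d, 1 ≤ d → d < n → |pv d - pT d| ≤ δ) (κ : ℕ) (hκ : κ < n) :
    |(1 / (n : ℝ)) * ∑ d ∈ Icc 1 κ, (pv d - P d)| ≤ 2 * t + δ := by
  have hn' : (0 : ℝ) < n := by exact_mod_cast hn
  have h0 := h 0 (by omega)
  have h1 := h κ hκ
  simp only [show Icc 1 0 = (∅ : Finset ℕ) from rfl, sum_empty, mul_zero, sub_zero] at h0
  have h2 : |(1 / (n : ℝ)) * ∑ d ∈ Icc 1 κ, (pv d - pT d)| ≤ δ := by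
    rw [abs_mul, abs_of_pos (by positivity), one_div, inv_mul_le_iff₀ hn']
    refine (abs_sum_le_sum_abs _ _).trans ((sum_le_card_nsmul _ _ δ fun d hd => ?_).trans ?_)
    · have := mem_Icc.1 hd
      exact hp d this.1 (by omega)
    · rw [nsmul_eq_mul, Nat.card_Icc]
      exact mul_le_mul_of_nonneg_right (by exact_mod_cast (by omega : κ + 1 - 1 ≤ n)) hδ
  rw [sum_sub_distrib, mul_sub] at h2 ⊢
  have := abs_le.1 h0; have := abs_le.1 h1; have := abs_le.1 h2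
  exact abs_le.2 ⟨by linarith, by linarith⟩

theorem fl_insert {O S I : Type} [DecidableEq I] (s : I → S → ℝ) (o0 : O) (A : Finset I) {τ : I}
    (h : τ ∉ A) (l : Multiset (ℕ × ℝ)) :
    fl s o0 (insert τ A) l = fl s o0 A l + lift o0 (s τ) l := by
  unfold fl
  rw [insert_val_of_notMem h, Multiset.cons_bind, add_comm]

theorem consts {B K CM t : ℝ} (hB : 1 ≤ B) (hCM : 0 ≤ CM) (ht : 0 < t) :
    ∃ s ε' : ℝ, 0 < s ∧ 0 < ε' ∧ ε' ≤ t ∧ (1 ≤ K → B * K * s ≤ 1 ∧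
      4 * ε' + 4 * (CM * (K * s) ^ 3) ≤ s ^ 2 * (t / 2)) := by
  by_cases hK : 1 ≤ K
  swap
  · exact ⟨1, t, one_pos, ht, le_rfl, fun h => absurd h hK⟩
  obtain ⟨s, hs, hs1, hs2⟩ : ∃ s : ℝ, 0 < s ∧ B * K * s ≤ 1 ∧ 16 * (CM * K ^ 3 + 1) * s ≤ t := by
    refine ⟨min (1 / (B * K)) (t / (16 * (CM * K ^ 3 + 1))), lt_min (by positivity) (by positivity),
      ?_, ?_⟩
    · have := min_le_left (1 / (B * K)) (t / (16 * (CM * K ^ 3 + 1)))
      rw [le_div_iff₀ (by positivity)] at this; linarith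
    · have := min_le_right (1 / (B * K)) (t / (16 * (CM * K ^ 3 + 1)))
      rw [le_div_iff₀ (by positivity)] at this; linarith
  refine ⟨s, min t (s ^ 2 * t / 16), hs, lt_min ht (by positivity), min_le_left _ _, fun _ =>
    ⟨hs1, ?_⟩⟩
  have h1 := min_le_right t (s ^ 2 * t / 16)
  have h2 := mul_le_mul_of_nonneg_left hs2 (sq_nonneg s)
  have h3 : 0 ≤ s ^ 2 * s := by positivity
  nlinarith

theorem tests (hG : GUApi) {O I T : Type} [Fintype O] [DecidableEq O] [Fintype I] [DecidableEq I]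
    [Fintype T] [Inhabited T] {B K CM s ε' t c b : ℝ} {n : ℕ} {g g1 g2 : O → ℝ → ℝ} {v : T → ℝ}
    {o0 : O} {U : (I → T) → ℝ} {L1 : Multiset (St O (I → T))} {l1 : Multiset (ℕ × ℝ)}
    {A : Finset I} {τ : I} {P : ℕ → ℝ} (hCM : 0 ≤ CM)
    (hM : ∀ (O S : Type) [Fintype O] [DecidableEq O] [Fintype S] [Inhabited S] (n : ℕ)
      (g g1 g2 : O → ℝ → ℝ) (U : S → ℝ) (L L' : Multiset (St O S)), 1 ≤ n →
      (∀ o, Sm B (g o) (g1 o) (g2 o)) → Small n B L' → vr L' ≤ 1 →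
      |TU n g U (L + L') - TU n g U L - (L'.map (GU n g g1 g2 U L)).sum| ≤ CM * (vr L' * √(vr L')))
    (hn : 1 ≤ n) (hMd : Md B K g g1 g2 o0 (sv v : I → _)) (hv : ∀ t, |v t| ≤ K) (hsp : 0 < s)
    (ht : 0 < t) (hsB : B * K * s ≤ 1)
    (hsC : 4 * ε' + 4 * (CM * (K * s) ^ 3) ≤ s ^ 2 * (t / 2))
    (a0 : |TU n g U L1 - PW n v (Uq v b) l1 - c| ≤ ε')
    (a1 : ∀ x, |TU n g U (L1 + lift o0 (sv v τ) x) - PW n v (Uq v b) (l1 + x) - c| ≤ ε')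
    (hsym0 : E1U n g U L1 (fun ω => sv v τ ω.2 ^ 2) = E1U n g U L1 (fun ω => RR (sv v) A ω.2 ω.2))
    (hsym : ∀ d, d ≤ n → EU n g U L1 d (fun ω ω' => sv v τ ω.2 * sv v τ ω'.2) =
      EU n g U L1 d (fun ω ω' => RR (sv v) A ω.2 ω'.2))
    (hcon : CU n g U L1 (sv v) A P ((t / 4) ^ 2)) (κ : ℕ) (hκ : κ < n) :
    |pi0 n v (Uq v b) l1 - (1 / (n : ℝ)) * ∑ d ∈ Icc 1 κ,
      piT n v (Uq v b) l1 d - (P 0 - (1 / (n : ℝ)) * ∑ d ∈ Icc 1 κ, P d)| ≤ t := by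
  have hid : Sm B id (fun _ => 1) (fun _ => 0) := by
    have := hMd.sm o0
    rwa [hMd.e0, hMd.e1, hMd.e2] at this
  have d1 := extra hG hMd.hB hMd.hK hCM L1 o0 (sv v τ) (fun L' h1 h2 =>
    hM _ _ n g g1 g2 U L1 L' hn hMd.sm h1 h2) hMd.e1 hMd.e2 (hMd.bd τ) hκ hsp.le hsB
  have d2 := extra hG hMd.hB hMd.hK hCM (lift () v l1) () v (fun L' h1 h2 =>
    hM _ _ n (fun _ => id) (fun _ _ => 1) (fun _ _ => 0) (Uq v b) (lift () v l1) L' hn
      (fun _ => hid) h1 h2) rfl rfl hv hκ hsp.le hsB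
  rw [← lift_add] at d2
  rw [hsym0, sum_congr rfl (fun d hd => hsym d (by have := (mem_Icc.1 hd).2; omega))] at d1
  have d3 := test hsp a0 (a1 {(κ, s)}) d1 d2 hsC
  have d4 := head_r hG hn L1 (sv v) A P hcon hκ
  rw [sqrt_sq (by positivity)] at d4
  have := abs_le.1 d3
  have := abs_le.1 d4
  unfold pi0 piT
  exact abs_le.2 ⟨by linarith, by linarith⟩

theorem fin_num {α β B δ t ε ε' x γ W0 Y V Cs Pw b c0 ip1 ip2 u T0 T1 : ℝ} (hα : 0 < α)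
    (hβ : 0 ≤ β) (hδ : 0 < δ) (ht : 0 < t) (ht2 : t ≤ δ) (ht3 : t ≤ 1) (hε1 : ε' ≤ t)
    (hδε : (4 * α * B ^ 2 + β * B ^ 2 + 3 * (β * B ^ 2 + 1) / 2 + 3) * δ = ε) (hx : x ≤ t)
    (hq0 : γ * W0 ≤ β * B ^ 2) (hY0 : 0 ≤ Y) (hY : Y ≤ u) (hu : u ≤ t)
    (f1 : V ≤ Cs + α * (B ^ 2 * (2 * t + δ) + B ^ 2 * x))
    (f2 : ip1 ≤ γ * ip2 + u + (γ * W0 + Y) / 2 * (2 * t + δ))
    (hCS : Cs ≤ Pw + (b - 1) / 2 - (γ * W0 + Y) / 2 + ip1 + δ)
    (hc0 : (b - 1) / 2 + γ * (ip2 - W0 / 2) - β * B ^ 2 * x ≤ c0)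
    (a0 : |T1 - Pw - (c0 + T0)| ≤ ε') : T0 + (V - ε) ≤ T1 := by
  have hB2 : 0 ≤ B ^ 2 := sq_nonneg B
  have g1 : α * (B ^ 2 * (2 * t + δ) + B ^ 2 * x) ≤ 4 * α * B ^ 2 * δ := by
    have : B ^ 2 * (2 * t + δ) + B ^ 2 * x ≤ B ^ 2 * (4 * δ) := by nlinarith
    nlinarith
  have g2 : β * B ^ 2 * x ≤ β * B ^ 2 * δ :=
    mul_le_mul_of_nonneg_left (hx.trans ht2) (by positivity)
  have g3 : (γ * W0 + Y) / 2 * (2 * t + δ) ≤ (β * B ^ 2 + 1) / 2 * (3 * δ) :=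
    mul_le_mul (by linarith) (by linarith) (by linarith) (by positivity)
  have := (abs_le.1 a0).1
  linarith

end SpU

open SpU Spin in
theorem spinU (hG : GUApi) (hM : MsU) (hs : ScU) (hs2 : Sc2U) (hy : SymU) (hS : SsU)
    (hc : CsApi) (hl : HlU) : SpinU := by
  intro B β α ε hB hβ hα hε
  obtain ⟨CM, hCM, hM⟩ := hM B hB
  obtain ⟨δ, hδ, hδε⟩ : ∃ δ : ℝ, 0 < δ ∧
      (4 * α * B ^ 2 + β * B ^ 2 + 3 * (β * B ^ 2 + 1) / 2 + 3) * δ = ε :=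
    ⟨ε / (4 * α * B ^ 2 + β * B ^ 2 + 3 * (β * B ^ 2 + 1) / 2 + 3), by positivity, by field_simp⟩
  obtain ⟨η0s, b1, ηs, hη0s, hb1, hηs, hS⟩ := hS (β * B ^ 2 + 1) δ hδ
  obtain ⟨t, ht, ht1, ht2, ht3⟩ : ∃ t : ℝ, 0 < t ∧ t ≤ η0s / 2 ∧ t ≤ δ ∧ t ≤ 1 :=
    ⟨min (η0s / 2) (min δ 1), lt_min (by positivity) (lt_min hδ one_pos), min_le_left _ _,
      (min_le_right _ _).trans (min_le_left _ _), (min_le_right _ _).trans (min_le_right _ _)⟩
  refine ⟨t, b1, ht, hb1, fun K k hk => ?_⟩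
  obtain ⟨s, ε', hsp, hε'p, hε1, hsK⟩ := consts (K := K) hB hCM ht
  obtain ⟨C2, hC2, hs2⟩ := hs2 B K β k hβ hk
  obtain ⟨es, hes, hs⟩ := hs B K β k ε' hβ hk hε'p
  obtain ⟨e0, he0, he1, he2⟩ : ∃ e0 : ℝ, 0 < e0 ∧ e0 ≤ es ∧ e0 ≤ (t / 4) ^ 2 / (2 * C2) :=
    ⟨min es ((t / 4) ^ 2 / (2 * C2)), lt_min hes (by positivity), min_le_left _ _,
      min_le_right _ _⟩
  refine ⟨e0, he0, fun T _ _ v hv n hn => ?_⟩
  have hK := hv.hK
  obtain ⟨hsB, hsC⟩ := hsK hK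
  have hn' : (1 : ℝ) ≤ n := by exact_mod_cast hn
  obtain ⟨η, hη0, hη1, hη2, hη3, hη4, hη5⟩ : ∃ η : ℝ, 0 < η ∧ η ≤ es ∧ η ≤ 1 / (B * K) ^ 2 ∧
      η ≤ ηs ∧ η ≤ t / n ∧ η * B ^ 2 ≤ ηs ^ 2 :=
    ⟨min (min es (1 / (B * K) ^ 2)) (min (min ηs (t / n)) (ηs ^ 2 / B ^ 2)),
      lt_min (lt_min hes (by positivity)) (lt_min (lt_min hηs (by positivity)) (by positivity)),
      (min_le_left _ _).trans (min_le_left _ _), (min_le_left _ _).trans (min_le_right _ _),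
      (min_le_right _ _).trans ((min_le_left _ _).trans (min_le_left _ _)),
      (min_le_right _ _).trans ((min_le_left _ _).trans (min_le_right _ _)),
      (le_div_iff₀ (by positivity)).1 ((min_le_right _ _).trans (min_le_right _ _))⟩
  have hnη : n * η ^ 2 ≤ t := by
    rw [le_div_iff₀ (by linarith)] at hη4
    have : η ≤ 1 := by nlinarith
    nlinarith
  refine ⟨η, hη0, ?_⟩
  intro O I _ _ _ _ g g1 g2 f f1 f2 o0 A J τ R c y P hMd hPt hf hτ hA1 hJ hR hcη hyη hP hP0 hPK hCU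
  have hj0 : (0 : ℝ) ≤ A.card := Nat.cast_nonneg _
  have hAne : A.Nonempty := by
    rw [← card_pos]; by_contra h0
    have : A.card = 0 := by omega
    rw [this] at hA1; norm_num at hA1
  have hj1 : (1 : ℝ) ≤ A.card := by exact_mod_cast card_pos.2 hAne
  have hcB : B * K * |c| ≤ 1 := par (by nlinarith) hj1 hcη hη2
  obtain ⟨W, b, c0, hW, hW0, hc0, hsc⟩ := hs O I T n g g1 g2 f f1 f2 v o0 A J τ R c (ys n y) P hn
    hMd hPt hτ (hA1.trans (mul_le_mul_of_nonneg_right he1 hj0)) hJ hR (hcη.trans hη1) hP hPK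
    ⟨hCU.1.trans he1, hCU.2.trans he1⟩
  have hcon0 := hs2 O I T n g g1 g2 v o0 A J τ R c e0 (ys n y) (ys n y) P hn hMd hτ hAne hJ hR
    hcB hCU
  obtain ⟨hsym0, hsym⟩ := hy O I T n g v k o0 (insert τ A) J (A.card * R) c (ys n y) τ hn
    (mem_insert_self _ _)
  obtain ⟨γ, hγ⟩ : ∃ γ : ℝ, γ = J.card / (A.card + 1) := ⟨_, rfl⟩
  have hγ0 : 0 ≤ γ := by rw [hγ]; positivity
  have hγβ : γ ≤ β := by rw [hγ, div_le_iff₀ (by positivity)]; linarith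
  have hkk : ((J.card * R : ℕ) : ℝ) * (A.card * c ^ 2) = γ := by
    rw [hγ, eq_div_iff (by positivity)]; push_cast
    linear_combination (J.card : ℝ) * hR
  rw [← hγ] at hc0
  have hq0 : γ * W 0 ≤ β * B ^ 2 := mul_le_mul hγβ hW0 (path_nonneg hW) hβ
  obtain ⟨hpr, hyy⟩ := prof hW hW0 (by positivity) hcη hη5 hηs hγ0 hkk hyη hη3
  rw [add_assoc, ← fl_insert _ o0 A hτ] at hcon0
  have eL : ∀ x, sy n (sv v) (insert τ A) J (A.card * R) c + fl (sv v) o0 A (ys n y) +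
      lift o0 (sv v τ) (ys n y + x) = sy n (sv v) (insert τ A) J (A.card * R) c +
      fl (sv v) o0 (insert τ A) (ys n y) + lift o0 (sv v τ) x := fun x => by
    rw [fl_insert _ o0 A hτ, lift_add]; abel
  have a0 := hsc (ys n y)
  rw [add_assoc, ← fl_insert _ o0 A hτ] at a0
  have a1 := fun x => hsc (ys n y + x)
  simp only [eL, add_right_comm (ys n y) _ ((J.card * R) • sprof n W (A.card * c ^ 2))] at a1
  clear hsc hs hs2 eL
  generalize sy n (sv v) (insert τ A) J (A.card * R) c + fl (sv v) o0 (insert τ A) (ys n y) = L1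
    at *
  generalize TU n g (Uk v k A) (sy n (sv v) A J ((A.card + 1) * R) c + fl (sv v) o0 A (ys n y)) = T0
    at *
  generalize ys n y + (J.card * R) • sprof n W (A.card * c ^ 2) = l1 at *
  have hcon : CU n g (Uk v k (insert τ A)) L1 (sv v) (insert τ A) P ((t / 4) ^ 2) :=
    ⟨hcon0.1.trans (par2 hC2 hj1 hA1 he2), hcon0.2.trans (par2 hC2 hj1 hA1 he2)⟩
  rw [sub_sub, sub_sub, ← add_assoc, add_comm T0, add_assoc, ← sub_sub, add_comm T0] at a0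
  have hh := tests hG hCM (fun O S _ _ _ _ n g g1 g2 U L L' h1 h2 h3 =>
    (hM O S n g g1 g2 U L L' h1 h2 h3).2) hn hMd hv.bd hsp ht hsB hsC a0 (fun x => by
      have := a1 x
      rwa [sub_sub, sub_sub, ← add_assoc, add_comm T0, add_assoc, ← sub_sub, add_comm T0] at this)
    hsym0 hsym hcon
  have hp0 : |pi0 n v (Uq v b) l1 - 1| ≤ η0s := by
    have h0 := hh 0 (by omega)
    simp only [show Icc 1 0 = (∅ : Finset ℕ) from rfl, sum_empty, mul_zero, sub_zero] at h0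
    have := abs_le.1 h0
    have := abs_le.1 hP0
    exact abs_le.2 ⟨by linarith, by linarith⟩
  obtain ⟨pv, hpv, hpv0, hpv1, hpT, hCS⟩ := hS K T v (hv.mono (by linarith) le_rfl (by linarith))
    n b _ l1 hn hpr (by have := (hyy 0).2; linarith) hp0
  have hd := heads hn hδ.le hh hpT
  obtain ⟨f1', f2'⟩ := vs_le hl hc hB hα hn hf hPt.2.1 hP (by linarith [(abs_le.1 hP0).2]) hpv hpv0
    hpv1 hpr.1 hyy (by linarith) hd
  exact fin_num hα hβ hδ ht ht2 ht3 hε1 hδε hP0 hq0 (hyy 0).1 (hyy 0).2 hnη f1' f2' hCS hc0 a0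

end

end Vale.Agent.P157
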