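import Vale.Agent.P157.StmS
import Vale.Agent.P157.S.CsApi

namespace Vale.Agent.P157

open Finset Real

namespace SsUm

variable {T : Type} [Fintype T] [Inhabited T]

theorem low (hU : UApi) {n : ℕ} (hn : 1 ≤ n) (v : T → ℝ) (l : Multiset (ℕ × ℝ)) (b b' : ℝ) :
    PW n v (Uq v b) l + (b - b') / 2 * pi0 n v (Uq v b) l ≤ PW n v (Uq v b') l := by
  have h := hU.potlow n (fun _ : Unit => id) (Uq v b) (fun t => (b - b') / 2 * v t ^ 2)
    (lift () v l) hn
  have e1 : (fun t => Uq v b t + (b - b') / 2 * v t ^ 2) = Uq v b' := by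
    ext t; simp only [Uq]; ring
  have e2 : (fun ω : Om Unit T => (b - b') / 2 * v ω.2 ^ 2) =
      ((b - b') / 2) • fun ω : Om Unit T => v ω.2 ^ 2 := rfl
  rw [e1, e2] at h
  unfold E1U at h
  rw [map_smul] at h
  exact h

theorem anti (hU : UApi) {n : ℕ} (hn : 1 ≤ n) (v : T → ℝ) (l : Multiset (ℕ × ℝ)) {b b' : ℝ}
    (h : b < b') : pi0 n v (Uq v b') l ≤ pi0 n v (Uq v b) l := by
  have h1 := low hU hn v l b b'
  have h2 := low hU hn v l b' b
  by_contra hc
  push Not at hc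
  nlinarith

end SsUm

open SsUm in
theorem ssU (hU : UApi) (hC : CmpU) (hS : CsApi) : SsU := by
  intro Q ε hε
  set e := min (ε / 3) (1 / 10) with he
  have he0 : 0 < e := lt_min (by positivity) (by norm_num)
  have he1 : e ≤ ε / 3 := min_le_left _ _
  have he2 : e ≤ 1 / 10 := min_le_right _ _
  have hQ := abs_nonneg Q
  obtain ⟨η0, η, h0, hη, hC⟩ := hC Q (|Q| + 4 * (1 + |Q|) + 1) e he0
  refine ⟨min η0 e, |Q| + 4 * (1 + |Q|) + 1, η, lt_min h0 he0, by linarith, hη, ?_⟩
  intro K T _ _ v hv n b q l hn hl hq hπ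
  have hC := hC K T v (hv.mono (min_le_left _ _) le_rfl (by linarith)) n
  replace hπ := abs_le.1 (hπ.trans (min_le_right _ _))
  have hD := Cs.dk_le hl.1 le_rfl
  rw [hl.1.2, sub_zero] at hD
  have hq' := hq.trans (le_abs_self Q)
  have hb1 : 1 / 4 ≤ lamb n b q n := by
    by_contra hc
    have e1 : lamb n (1 / 4 + Dk n q n) q n = 1 / 4 := by simp [lamb]
    have h1 := (hC (1 / 4 + Dk n q n) q l hn hl hq (by linarith) e1.ge).2.1
    have h2 := (hS.crit n (1 / 4 + Dk n q n) q hn hl.1 (by rw [e1]; norm_num)).2.2.2.1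
    have h3 := anti hU hn v l (b := b) (b' := 1 / 4 + Dk n q n) (by
      simp only [lamb] at hc; linarith)
    rw [e1] at h2
    have := (abs_le.1 h1).1
    linarith
  have hb2 : b ≤ |Q| + 4 * (1 + |Q|) + 1 := by
    by_contra hc
    push Not at hc
    have e1 : 4 * (1 + |Q|) ≤ lamb n (|Q| + 4 * (1 + |Q|) + 1) q n := by
      simp only [lamb]; linarith
    have h1 := (hC _ q l hn hl hq le_rfl (by linarith)).2.1
    have h2 := (hS.crit n (|Q| + 4 * (1 + |Q|) + 1) q hn hl.1 (by linarith)).2.2.2.2.1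
    have h3 := anti hU hn v l hc
    set lam := lamb n (|Q| + 4 * (1 + |Q|) + 1) q n
    have h4 : 1 / lam ≤ 1 / 4 := one_div_le_one_div_of_le (by norm_num) (by linarith)
    have h5 : q 0 / lam ^ 2 ≤ 1 / 4 := by
      rw [div_le_iff₀ (by positivity [show 0 < lam by linarith])]
      nlinarith
    have := (abs_le.1 h1).2
    linarith
  obtain ⟨c1, c2, c3⟩ := hC b q l hn hl hq hb2 hb1
  obtain ⟨d1, d2, d3, -, -, d4⟩ := hS.crit n b q hn hl.1 (by linarith)
  refine ⟨_, d1, by simp, by simpa using d2, fun d hd hd' => ?_, by linarith⟩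
  simp only [if_neg (show d ≠ 0 by omega)]
  set ρ := 1 / b + piG n b q 0
  have c2' := abs_le.1 c2
  have hρ : 0 < ρ := by linarith
  have a1 : 0 ≤ piG n b q d / ρ := div_nonneg (d4 d).1 hρ.le
  have a2 : piG n b q d / ρ ≤ 1 := (div_le_one hρ).2 (d4 d).2
  have a3 : piG n b q d = piG n b q d / ρ * ρ := by field_simp
  have a4 := abs_le.1 (c3 d hd'.le)
  set x := piG n b q d / ρ
  rw [abs_le]
  constructor <;> nlinarith

end Vale.Agent.P157
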