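import Vale.Agent.P157.StmS
import Vale.Agent.P157.St1
import Vale.Agent.P157.C
import Vale.Agent.P157.L1

/-! Module St1U: one step, second order, with a potential. -/

namespace Vale.Agent.P157

open Finset Real

theorem St1Um.zu_th {O S : Type} [Fintype O] [DecidableEq O] (g : O → ℝ → ℝ) (U : S → ℝ)
    (s : St O S) (x : Om O S × Bool) :
    ZU g U (St1.th s 0 x) = ZU g U x.1 + 0 + (g s.2.1 (x.1.1 s.2.1 x.1.2 + spin x.2 * s.2.2 x.1.2) -
      g s.2.1 (x.1.1 s.2.1 x.1.2)) := by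
  rw [ZU, St1.zz_th, ZU, show (St1.th s 0 x).2 = x.1.2 from rfl]
  ring

open St1 in
theorem st1U (_hUApi : UApi) : St1U := by
  intro B hB
  have hA := aApi
  have hC := cApi
  obtain ⟨C, hL⟩ := l1Stmt aApi
  refine ⟨|C| * B ^ 3 + B + 12 * B ^ 2, ?_⟩
  intro O S _ _ _ _ n g g1 g2 U L s hn hg hs hw
  have ok := hC.ok n L hn
  have sm := hg s.2.1
  set a := ‖s.2.2‖ with ha
  have a0 : 0 ≤ a := norm_nonneg _
  have a1 : a ≤ 1 := by nlinarith
  set x0 : Om O S × Bool := ((0, default), true)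
  set A : Om O S × Bool → ℝ := fun x => g s.2.1 (x.1.1 s.2.1 x.1.2 + spin x.2 * s.2.2 x.1.2) -
    g s.2.1 (x.1.1 s.2.1 x.1.2) with hAd
  set U1 := ob (g1 s.2.1) s.2.1 s.2.2
  set U2 := ob (g2 s.2.1) s.2.1 fun σ => s.2.2 σ ^ 2 / 2
  have hσ : ∀ σ, |s.2.2 σ| ≤ a := fun σ => norm_le_pi_norm s.2.2 σ
  have hsp : ∀ b σ, |spin b * s.2.2 σ| ≤ a := fun b σ => by
    cases b <;> simpa [spin] using hσ σ
  have b0 : ∀ x, |A x| ≤ B * a := fun x => ((sm.d0 _ _).1).trans (by gcongr; exact hsp _ _)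
  have b1 : ∀ ω, |U1 ω| ≤ B * a := fun ω => by
    simp only [U1, ob, abs_mul]; gcongr; exacts [sm.b1 _, hσ _]
  have b2 : ∀ ω, |U2 ω| ≤ B * a ^ 2 := fun ω => by
    have : s.2.2 ω.2 ^ 2 ≤ a ^ 2 := sq_le_sq' (abs_le.1 (hσ _)).1 (abs_le.1 (hσ _)).2
    simp only [U2, ob]
    rw [abs_mul, abs_of_nonneg (by positivity : 0 ≤ s.2.2 ω.2 ^ 2 / 2)]
    gcongr
    exacts [sm.b2 _, by linarith [sq_nonneg a]]
  have b3 : ∀ x, |A x - U1 x.1 * spin x.2 - U2 x.1| ≤ B * a ^ 3 := fun x => by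
    refine le_trans (le_of_eq ?_) ((sm.tay (x.1.1 s.2.1 x.1.2) (spin x.2 * s.2.2 x.1.2)).trans
      (by gcongr; exact hsp _ _))
    simp only [hAd, U1, U2, ob, mul_pow, spin_sq]
    congr 1; ring
  have a3 : B * a ^ 3 ≤ B * a ^ 2 := by gcongr _ * ?_; nlinarith [sq_nonneg a]
  have a2 : B * a ^ 2 ≤ B * a := by gcongr _ * ?_; nlinarith
  have b4 : ∀ x, |A x - U1 x.1 * spin x.2| ≤ 2 * (B * a ^ 2) := fun x => by
    have := b3 x
    have := b2 x.1
    rw [abs_le] at *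
    constructor <;> linarith
  have e1 : TU n g U (s ::ₘ L) = XX (ext (chain L) (s.1 + 1)) (ex n)
      ((fun x => ZU g U x.1 + 0) + A) (n + 1) x0 := by
    have := (hA.tw (ex n) (n + 1) (th s) (fun j _ => ext_tw hC L s j) (ZU g U)).1 (n + 1) le_rfl x0
    rw [th, if_neg (by omega)] at this
    rw [TU, ← this]
    congr 1
    exact funext (St1Um.zu_th g U s)
  have e2 : TU n g U L = XX (ext (chain L) (s.1 + 1)) (ex n) (fun x => ZU g U x.1 + 0) (n + 1) x0 := by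
    rw [(hA.prod ok (rs_ok ok _) Prod.fst Prod.snd (fun j _ => ext_prod (s.1 + 1) j) (ZU g U)
      (fun _ => 0)).1 (n + 1) le_rfl x0, rs_xx, add_zero, TU]
  have l1 := hL _ _ _ _ (ext_ok ok (s.1 + 1)) (fun x => ZU g U x.1 + 0) A (B * a) b0 hw n le_rfl x0
  rw [← e1, ← e2] at l1
  have t0 := near ok (s.1 + 1) (ZU g U) 0 le_rfl b4 x0
  have t0' := near ok (s.1 + 1) (ZU g U) 0 le_rfl (F := fun x => U1 x.1 * spin x.2) (g1 := U1)
    (g2 := spin) (e := 0) (by simp) x0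
  simp only [rs_ce, if_neg (by omega : ¬ n + 1 ≤ s.1 + 1), mul_zero, sub_zero] at t0 t0'
  have t1 := near1 ok (s.1 + 1) (ZU g U) 0 le_rfl b3 x0
  rw [show (fun x => A x - U1 x.1 * spin x.2) = A - fun x => U1 x.1 * spin x.2 from rfl, map_sub,
    Pi.sub_apply, abs_nonpos_iff.1 t0', sub_zero] at t1
  have hs1 : ∀ (y : ℝ) b, |y| ≤ B * a → |y * spin b| ≤ B * a := fun y b hy => by
    cases b <;> simpa [spin] using hy
  have t2 := near1 ok (s.1 + 1) (ZU g U) 0 le_rfl (F := fun x => A x ^ 2) (g1 := fun ω => U1 ω ^ 2)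
    (fun x => by
      have := sq_near (b4 x) (hs1 _ _ (b1 _)) (by linarith)
      rwa [mul_pow, spin_sq, mul_one] at this) x0
  have t3 := ex_sum hs (fun i => Ce (ext (chain L) (s.1 + 1)) (ex n) (fun x => ZU g U x.1 + 0) (i + 1)
      (n + 1) (fun x => Ce (ext (chain L) (s.1 + 1)) (ex n) (fun x => ZU g U x.1 + 0) 0 (i + 1)
        A x ^ 2) x0) (fun d => EU n g U L d fun ω ω' => U1 ω * U1 ω')
      (e := 4 * (B * a) * (2 * (B * a ^ 2))) fun i hi => by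
    have u1 := fun x => near ok (s.1 + 1) (ZU g U) 0 (b := i + 1) (by omega) b4 x
    have u2 := hA.abs_le (hA.ce ok (ZU g U) 0 (i + 1) (by omega)) b1
    simp only [rs_ce, Nat.add_le_add_iff_right] at u1
    split_ifs with c
    · simp only [if_pos c] at u1
      rw [EU, hA.e2mul]
      refine near1 ok (s.1 + 1) (ZU g U) (i + 1) le_rfl (fun x => ?_) x0
      have := sq_near (u1 x) (hs1 _ _ (u2 _)) (by linarith)
      rwa [mul_pow, spin_sq, mul_one, sq (Ce (chain L) _ _ _ _ _ _)] at this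
    · simp only [if_neg c] at u1
      rw [sub_zero]
      refine hA.abs_le (hA.ce (ext_ok ok _) _ _ _ le_rfl) (fun x => ?_) x0
      simpa using sq_near (u1 x) (a := B * a) (by simp; positivity) (by linarith)
  have e3 : E1U n g U L (ob (gq g1 g2 s.2.1) s.2.1 fun σ => s.2.2 σ ^ 2) =
      2 * Ce (chain L) (ex n) (ZU g U) 0 (n + 1) U2 x0.1 +
        Ce (chain L) (ex n) (ZU g U) 0 (n + 1) (fun ω => U1 ω ^ 2) x0.1 := by
    rw [← Aa.smul', ← Aa.add', E1U]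
    refine congrArg (fun u => Ce (chain L) (ex n) (ZU g U) 0 (n + 1) u x0.1) (funext fun ω => ?_)
    simp only [U1, U2, ob, gq]; ring
  have t4 := sq_near (y := 0) (a := B * a) (by rwa [sub_zero]) (by simp; positivity)
    (by linarith : 2 * (B * a ^ 2) ≤ _)
  have m0 := ok.pos n (by omega)
  have m1 := ok.le1 n (by omega)
  have t5 := mul_le_of_le_one_left (sq_nonneg (Ce (ext (chain L) (s.1 + 1)) (ex n)
    (fun x => ZU g U x.1 + 0) 0 (n + 1) A x0)) m1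
  have t6 := mul_nonneg m0.le (sq_nonneg (Ce (ext (chain L) (s.1 + 1)) (ex n)
    (fun x => ZU g U x.1 + 0) 0 (n + 1) A x0))
  have t7 : C * (B * a) ^ 3 ≤ |C| * B ^ 3 * a ^ 3 := by
    rw [mul_assoc, ← mul_pow]; gcongr; exact le_abs_self C
  rw [GU, e3, show (|C| * B ^ 3 + B + 12 * B ^ 2) * a ^ 3 = |C| * B ^ 3 * a ^ 3 + B * a ^ 3 +
    3 / 2 * (4 * (B * a) * (2 * (B * a ^ 2))) by ring]
  rw [show ex n 0 = 1 from rfl] at l1
  rw [abs_le] at l1 t1 t2 t3 t4 ⊢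
  constructor <;> linarith [l1.1, l1.2, t1.1, t1.2, t2.1, t2.2, t3.1, t3.2, t4.1, t4.2]

end Vale.Agent.P157
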