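import Vale.Agent.P157.StmS
import Vale.Agent.P157.C
import Vale.Agent.P157.G
import Vale.Agent.P157.Sw

namespace Vale.Agent.P157

open Finset Real

namespace SwUm

theorem arith (T0 T1 T2 E E' R X Y Z W0 θ se st v1 v2 C1 B2 M2 eC r ε : ℝ) (hθ : 0 ≤ θ)
    (m1 : T1 - T0 - θ * (E' - r * X) / 2 ≤ C1 * v1)
    (m2 : -(C1 * v2) ≤ T2 - T0 - (θ * (E - r * Y) / 2 + θ * (W0 * R - r * Z) / 2))
    (hv1 : C1 * v1 ≤ C1 * (M2 * (θ * st))) (hv2 : C1 * v2 ≤ C1 * (M2 * (θ * st)))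
    (key : r * Z - r * X ≤ 2 * (B2 * (eC * se))) (hE : E' - E ≤ 2 * B2 * ε)
    (hR : W0 - W0 * R ≤ B2 * ε) (p0 : 0 ≤ θ * (B2 * ε))
    (p1 : 0 ≤ θ * (B2 * eC * st)) (p2 : 0 ≤ θ * (C1 * (2 * M2) * se)) :
    T1 ≤ T2 + θ * (r / 2 * Y - W0 / 2 + 2 * B2 * ε + (B2 * eC + C1 * (2 * M2)) * (se + st)) := by
  have a1 := mul_le_mul_of_nonneg_left key hθ
  have a2 := mul_le_mul_of_nonneg_left hE hθ
  have a3 := mul_le_mul_of_nonneg_left hR hθ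
  nlinarith

theorem sqrt_bd {M θ v : ℝ} (hM : 1 ≤ M) (hθ0 : 0 ≤ θ) (hv : v ≤ M * θ) :
    v * √v ≤ M ^ 2 * (θ * √θ) := by
  have h1 : √v ≤ M * √θ := by
    rw [sqrt_le_left (by positivity), mul_pow, sq_sqrt hθ0]
    refine hv.trans (mul_le_mul_of_nonneg_right ?_ hθ0)
    nlinarith
  calc _ ≤ (M * θ) * (M * √θ) := mul_le_mul hv h1 (sqrt_nonneg _) (by positivity)
    _ = _ := by ring

variable {O S I : Type} [Fintype O] [DecidableEq O] [Fintype S] [Inhabited S]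

theorem key (hG : GUApi) {n : ℕ} (hn : 1 ≤ n) {g : O → ℝ → ℝ} {U : S → ℝ}
    {L : Multiset (St O S)} {s : I → S → ℝ}
    {A : Finset I} {P W : ℕ → ℝ} {e B : ℝ} (hB : 0 ≤ B) (hcL : CU n g U L s A P e)
    {V : Om O S → ℝ} (hUb : ∀ ω, |V ω| ≤ B) (hWb : ∀ d, |W d| ≤ B ^ 2)
    (hW : ∀ d, d < n → EU n g U L d (fun ω ω' => V ω * V ω') = W d) :
    (1 / (n : ℝ)) * ∑ d ∈ Ico 1 n, W d * EU n g U L d (fun ω ω' => RR s A ω.2 ω'.2) -
      (1 / (n : ℝ)) * ∑ d ∈ Ico 1 n, EU n g U L d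
        (fun ω ω' => V ω * V ω' * RR s A ω.2 ω'.2) ≤ 2 * (B ^ 2 * √e) := by
  have c0 := (hG.conc_abs n g U L s A P _ (B ^ 2) hn hcL).1
  have c1 := c0 (fun _ ω ω' => V ω * V ω') fun d ω ω' => by
    rw [abs_mul, sq]; exact mul_le_mul (hUb _) (hUb _) (abs_nonneg _) hB
  have c2 := c0 (fun d _ _ => W d) fun d ω ω' => hWb d
  have hok := Cc.ok n L hn
  rw [← mul_sub, ← sum_sub_distrib]
  refine le_trans ?_ (add_le_add c1 c2 |>.trans_eq (two_mul _).symm)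
  rw [← mul_add, ← sum_add_distrib]
  refine mul_le_mul_of_nonneg_left (sum_le_sum fun d hd => ?_) (by positivity)
  have hd' := (mem_Ico.1 hd).2
  have e1 : EU n g U L d (fun _ _ => W d) = W d :=
    aApi.e2const hok _ _ (by omega) _ _
  have e2 : EU n g U L d (fun ω ω' => W d * RR s A ω.2 ω'.2) =
      W d * EU n g U L d (fun ω ω' => RR s A ω.2 ω'.2) := by
    have := aApi.e2add (chain L) (ex n) (ZU g U) (d + 1) (n + 1)
      (fun ω ω' => RR s A ω.2 ω'.2) (fun ω ω' => RR s A ω.2 ω'.2) (W d) 0 (0, default)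
    simp only [zero_mul, add_zero] at this
    exact this
  rw [e1, e2, hW d hd']
  have a1 := neg_abs_le (EU n g U L d (fun ω ω' => V ω * V ω' * RR s A ω.2 ω'.2) - P d * W d)
  have a2 := le_abs_self (W d * EU n g U L d (fun ω ω' => RR s A ω.2 ω'.2) - P d * W d)
  linarith

theorem e1_sub {n : ℕ} (hn : 1 ≤ n) (g : O → ℝ → ℝ) (U : S → ℝ) (L : Multiset (St O S))
    {V V' : Om O S → ℝ} {c : ℝ} (h : ∀ ω, |V ω - V' ω| ≤ c) :
    E1U n g U L V - E1U n g U L V' ≤ c := by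
  have hk := aApi.ce (Cc.ok n L hn) (ZU g U) 0 (n + 1) le_rfl
  have h1 := aApi.abs_le hk (g := V - V') h (0, default)
  rw [map_sub] at h1
  exact (abs_le.1 h1).2

theorem e1_one {n : ℕ} (hn : 1 ≤ n) (g : O → ℝ → ℝ) (U : S → ℝ) (L : Multiset (St O S)) :
    E1U n g U L (fun _ => 1) = 1 :=
  (aApi.ce (Cc.ok n L hn) (ZU g U) 0 (n + 1) le_rfl).2 _

theorem nums {B K θ : ℝ} (hB : 1 ≤ B) (hK : 1 ≤ K) (hθ0 : 0 ≤ θ) (h : 2 * B ^ 4 * K ^ 2 * θ ≤ 1) :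
    1 ≤ 2 * B ^ 2 * K ^ 2 ∧ 2 * B ^ 2 * K ^ 2 * θ ≤ 1 ∧ (B * K) ^ 2 * θ ≤ 1 ∧
      (B * 1) ^ 2 * θ ≤ 1 ∧ (B * K) ^ 2 * (θ * B ^ 2) ≤ 1 ∧ 1 ≤ B * K ∧
      K ^ 2 * θ ≤ 2 * B ^ 2 * K ^ 2 * θ ∧ θ + K ^ 2 * (θ * B ^ 2) ≤ 2 * B ^ 2 * K ^ 2 * θ := by
  have hB2 : 1 ≤ B ^ 2 := one_le_pow₀ hB
  have hK2 : 1 ≤ K ^ 2 := one_le_pow₀ hK
  have h1 : 1 ≤ B ^ 2 * K ^ 2 := one_le_mul_of_one_le_of_one_le hB2 hK2
  have h2 : θ ≤ B ^ 2 * K ^ 2 * θ := le_mul_of_one_le_left hθ0 h1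
  have h3 : K ^ 2 * θ ≤ B ^ 2 * (K ^ 2 * θ) := le_mul_of_one_le_left (by positivity) hB2
  have h4 : B ^ 2 * θ ≤ K ^ 2 * (B ^ 2 * θ) := le_mul_of_one_le_left (by positivity) hK2
  have h5 : B ^ 2 * K ^ 2 * θ ≤ B ^ 2 * (B ^ 2 * K ^ 2 * θ) :=
    le_mul_of_one_le_left (by positivity) hB2
  have h6 : 0 ≤ B ^ 2 * K ^ 2 * θ := by positivity
  refine ⟨by linarith, by nlinarith, by nlinarith, by nlinarith, by nlinarith,
    one_le_mul_of_one_le_of_one_le hB hK, by nlinarith, by nlinarith⟩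

end SwUm

open SwUm Sw in
theorem swU (hU : UApi) (hG : GUApi) (hM : MsU) (ha : GraU) : SwU := by
  intro B K
  by_cases hB : 1 ≤ B
  swap
  · exact ⟨0, le_rfl, fun _ _ _ _ _ _ _ _ _ _ _ _ _ _ _ _ _ _ _ _ _ _ _ hS => (hB hS.hB).elim⟩
  obtain ⟨C1, hC1, hM⟩ := hM B hB
  obtain ⟨C2, hC2, ha⟩ := ha B hB
  refine ⟨B ^ 2 * exp C2 + C1 * (2 * (2 * B ^ 2 * K ^ 2) ^ 2), by positivity, ?_⟩
  intro O S I _ _ _ _ n g g1 g2 U L s o0 a A p P e c ε1 hn hS hA0 hp hp0 hR hθ hcon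
  have hK := hS.hK
  set θ : ℝ := A.card * c ^ 2 with hθd
  have hAc : (1 : ℝ) ≤ A.card := by exact_mod_cast hA0.card_pos
  have hθ0 : 0 ≤ θ := by positivity
  have hcθ : c ^ 2 ≤ θ := le_mul_of_one_le_left (sq_nonneg c) hAc
  obtain ⟨n1, n2, n3, n4, n5, n6, n7, n8⟩ := nums hB hK hθ0 hθ
  have hε : 0 ≤ ε1 := (abs_nonneg _).trans (hR default)
  have hB0 : 0 ≤ B := by linarith
  have hSg := hS.sm
  set V : Om O S → ℝ := ob (g1 a) a (fun _ => 1) with hV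
  have hUb : ∀ ω, |V ω| ≤ B := fun ω => by
    simp only [hV, ob, mul_one]; exact (hSg a).b1 _
  obtain ⟨hW, hW0, -⟩ := hG.w_path n g U L V B hn hUb
  set W : ℕ → ℝ := fun d => if d < n then EU n g U L d (fun ω ω' => V ω * V ω') else 0
    with hWd
  have hW0' : W 0 ≤ B ^ 2 := by simp only [hWd]; rw [if_pos (by omega)]; exact hW0
  have hWn : 0 ≤ W 0 := path_nonneg hW (Nat.zero_le _)
  have hWb : ∀ d, |W d| ≤ B ^ 2 := fun d => by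
    by_cases hd : d < n
    · rw [abs_of_nonneg (path_nonneg hW hd.le)]
      exact (path_le hW (Nat.zero_le _) hd.le).trans hW0'
    · simp only [hWd]; rw [if_neg hd, abs_zero]; positivity
  refine ⟨W, hW, hW0', ?_⟩
  obtain ⟨hr1, hr2, -⟩ := hG.rd_vr n B K s a A (n - 1) c hB0 hS.bd
  have hr2 := hr2 (by omega) (le_one_of_sq n6 hθ0 (abs_le_sqrt hcθ) n3)
  replace hr1 := hr1.trans n7
  obtain ⟨hs1, -, hs3⟩ := gApi aApi cApi |>.sprof_var n p θ hp hθ0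
  obtain ⟨ht1, -, ht3⟩ := gApi aApi cApi |>.sprof_var n W (c ^ 2) hW (sq_nonneg c)
  obtain ⟨hk1, -, hk2, -⟩ := hG.lift_vr n B 1 a (fun _ : S => (1 : ℝ)) (sprof n p θ) hB0
    (fun _ => by simp)
  rw [hs1, hp0, one_pow, one_mul, mul_one] at hk1
  have hk2 := hk2 fun s hs => ⟨(hs3 s hs).1, by
    have h1 := (hs3 s hs).2
    rw [hp0, mul_one] at h1
    exact le_one_of_sq (by linarith) hθ0 h1 n4⟩
  obtain ⟨hf1, -, hf3, -, -⟩ := hG.fl_vr n B K s o0 A (sprof n W (c ^ 2)) 0 hB0 hS.bd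
  rw [ht1, ← mul_assoc (A.card : ℝ), ← hθd] at hf1
  have hf3 := hf3 fun s hs => ⟨(ht3 s hs).1,
    le_one_of_sq n6 (by positivity) (ht3 s hs).2 ((mul_le_mul_of_nonneg_left
      (mul_le_mul hcθ hW0' hWn hθ0) (sq_nonneg _)).trans n5)⟩
  set L2 := lift a (fun _ : S => (1 : ℝ)) (sprof n p θ) + fl s o0 A (sprof n W (c ^ 2)) with hL2
  have hv2 : vr L2 ≤ 2 * B ^ 2 * K ^ 2 * θ := by
    rw [hL2, vr_add']
    exact (add_le_add hk1 (hf1.trans (mul_le_mul_of_nonneg_left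
      (mul_le_mul_of_nonneg_left hW0' hθ0) (sq_nonneg _)))).trans n8
  have hsm2 : Small n B L2 := fun s hs => by
    rcases Multiset.mem_add.1 hs with h | h
    · exact hk2 s h
    · exact hf3 s h
  have m1 := (hM _ _ n _ _ _ U L _ hn hSg hr2).2 (hr1.trans n2)
  have m2 := (hM _ _ n _ _ _ U L _ hn hSg hsm2).2 (hv2.trans n2)
  rw [hG.gam_rd n _ _ _ U L s a A c hn hA0] at m1
  rw [hL2, Multiset.map_add, Multiset.sum_add, ← hL2,
    hG.gam_fl n g g1 g2 U L s o0 A W (c ^ 2) hn hA0 hW (sq_nonneg c) hS.e1 hS.e2,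
    hG.gam_prof n _ _ _ U L a _ p θ hn hp hθ0, hp0, one_mul] at m2
  have hcL := hU.cumul n g U U _ L s A P e _ hn (exp_pos _).le (fun χ d hd hχ =>
    (ha _ _ n g U L _ χ d hn hd (fun o => (hSg o).d0) hr2 hχ).2) hcon
  have key := (key hG hn hB0 hcL hUb hWb fun d hd => by simp only [hWd]; rw [if_pos hd]).trans
    (mul_le_mul_of_nonneg_left (mul_le_mul_of_nonneg_left (sqrt_exp hC2 (hr1.trans n2))
      (by positivity)) (by norm_num))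
  have e4 : ∑ d ∈ Ico 1 n, p d * EU n g U L d (fun ω ω' => V ω * V ω') =
      ∑ d ∈ Ico 1 n, p d * W d := by
    refine sum_congr rfl fun d hd => ?_
    simp only [hWd]; rw [if_pos (mem_Ico.1 hd).2]
  have e5 : ∑ d ∈ Ico 1 n, EU n g U L d (fun ω ω' => g1 a (ω.1 a ω.2) *
      g1 a (ω'.1 a ω'.2) * RR s A ω.2 ω'.2) =
      ∑ d ∈ Ico 1 n, EU n g U L d (fun ω ω' => V ω * V ω' * RR s A ω.2 ω'.2) := by
    refine sum_congr rfl fun d _ => ?_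
    simp only [hV, ob, mul_one]
  rw [e4] at m2
  rw [e5] at m1
  have hE : E1U n g U L (ob (gq g1 g2 a) a (fun σ => RR s A σ σ)) -
      E1U n g U L (ob (gq g1 g2 a) a (fun σ => (fun _ : S => (1 : ℝ)) σ ^ 2)) ≤ 2 * B ^ 2 * ε1 := by
    refine e1_sub hn g U L fun ω => ?_
    simp only [ob, one_pow]
    rw [← mul_sub, abs_mul]
    refine mul_le_mul ?_ (hR _) (abs_nonneg _) (by positivity)
    have h1 := (hSg a).b2 (ω.1 a ω.2)
    have h2 := sq_le_sq' (abs_le.1 ((hSg a).b1 (ω.1 a ω.2))).1 (abs_le.1 ((hSg a).b1 _)).2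
    have h3 : B ≤ B ^ 2 := by nlinarith
    refine (abs_add_le _ _).trans ?_
    rw [abs_of_nonneg (sq_nonneg (g1 a (ω.1 a ω.2)))]
    linarith
  have hR' : W 0 - W 0 * E1U n g U L (fun ω => RR s A ω.2 ω.2) ≤ B ^ 2 * ε1 := by
    have h1 := e1_sub hn g U L (V := fun _ => 1) (V' := fun ω => RR s A ω.2 ω.2) (c := ε1)
      fun ω => by rw [abs_sub_comm]; exact hR _
    rw [e1_one hn] at h1
    calc _ = W 0 * (1 - E1U n g U L (fun ω => RR s A ω.2 ω.2)) := by ring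
      _ ≤ W 0 * ε1 := mul_le_mul_of_nonneg_left h1 hWn
      _ ≤ _ := mul_le_mul_of_nonneg_right hW0' hε
  rw [add_assoc L, ← hL2]
  unfold ip
  have hn2 : (1 / (2 * (n : ℝ))) = (1 / (n : ℝ)) / 2 := by ring
  rw [hn2]
  exact arith _ _ _ _ _ _ _ _ _ _ _ _ _ _ _ _ _ _ _ _ _ hθ0 (abs_le.1 m1).2 (abs_le.1 m2).1
    (mul_le_mul_of_nonneg_left (sqrt_bd n1 hθ0 hr1) hC1)
    (mul_le_mul_of_nonneg_left (sqrt_bd n1 hθ0 hv2) hC1) key hE hR' (by positivity)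
    (by positivity) (by positivity)

end Vale.Agent.P157
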