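import Vale.Agent.P157.StmS
import Vale.Agent.P157.Sym
import Vale.Agent.P157.C

namespace Vale.Agent.P157

open Finset Real

set_option linter.unusedSectionVars false

namespace SymUm

variable {I O T : Type} [Fintype I] [DecidableEq I] [Fintype O] [DecidableEq O] [Fintype T]
  [Inhabited T]

/-- renaming of the sites in the fields -/
def ph (O T : Type) (e : Equiv.Perm I) : (O → (I → T) → ℝ) →+ (O → (I → T) → ℝ) where
  toFun x := fun o σ => x o (σ ∘ e)
  map_zero' := rfl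
  map_add' _ _ := rfl

/-- renaming of the sites in a step -/
def ta (e : Equiv.Perm I) (s : St O (I → T)) : St O (I → T) :=
  (s.1, s.2.1, fun σ => s.2.2 (σ ∘ e))

theorem ph_vec (e : Equiv.Perm I) (s : St O (I → T)) : ph O T e (vec s) = vec (ta e s) := by
  ext o σ
  by_cases h : o = s.2.1
  · subst h; simp [ph, vec, ta]
  · simp [ph, vec, ta, Pi.single_eq_of_ne h]

theorem ee_perm (hA : AApi) (hC : CApi) (n : ℕ) (g : O → ℝ → ℝ) (U : (I → T) → ℝ)
    (L : Multiset (St O (I → T))) (e : Equiv.Perm I) (he : ∀ i, e (e i) = i)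
    (hU : ∀ σ, U (σ ∘ e) = U σ) (d : ℕ) (hd : d ≤ n) (χ : (I → T) → (I → T) → ℝ) :
    EU n g U L d (fun ω ω' => χ (ω.2 ∘ e) (ω'.2 ∘ e)) =
      EU n g U (L.map (ta e)) d (fun ω ω' => χ ω.2 ω'.2) := by
  have h := (hA.tw (P := chain (L.map (ta e))) (P' := chain L) (ex n) (n + 1)
    (fun _ ω => (ph O T e ω.1, ω.2 ∘ e)) (fun j _ G ω => ?_) (ZU g U)).2.2 (d + 1) (by omega)
    (fun ω ω' => χ ω.2 ω'.2) (0, default)
  · have hz : (fun x : Om O (I → T) => ZU g U (ph O T e x.1, x.2 ∘ e)) = ZU g U := by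
      ext x
      have : (x.2 ∘ e) ∘ e = x.2 := funext fun i => congrArg x.2 (he i)
      simp only [ZU, ZZ, ph, AddMonoidHom.coe_mk, ZeroHom.coe_mk, this, hU]
    rw [hz] at h
    exact h
  · cases j with
    | zero =>
      exact congrArg (· / (Fintype.card (I → T) : ℝ))
        ((Equiv.arrowCongr e.symm (Equiv.refl T)).sum_comp fun σ => G (ph O T e ω.1, σ))
    | succ j =>
      have h1 := hC.lv_map (ph O T e) 0 (fun σ : I → T => σ ∘ e)
        ((L.filter fun s => s.1 = j).map vec) G ω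
      simp only [add_zero, Multiset.map_map, Function.comp_def, ph_vec] at h1
      refine h1.trans ?_
      show _ = lv _ _ _
      rw [Multiset.filter_map, Multiset.map_map]
      rfl

theorem inv (n : ℕ) (v : T → ℝ) (o0 : O) (A : Finset I) (J : Finset O) (D : ℕ)
    (c : ℝ) (l : Multiset (ℕ × ℝ)) (e : Equiv.Perm I) (he : A.val.map e = A.val) :
    (sy n (sv v) A J D c + fl (sv v) o0 A l).map (ta e) =
      sy n (sv v) A J D c + fl (sv v) o0 A l := by
  rw [Multiset.map_add]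
  congr 1
  · rw [sy, Multiset.map_bind]
    refine Multiset.bind_congr fun a _ => ?_
    rw [Multiset.map_nsmul, rd, Multiset.map_map]
    conv_rhs => rw [← he, Multiset.map_map]
    rfl
  · rw [fl, Multiset.map_bind]
    conv_rhs => rw [← he, Multiset.bind_map]
    refine Multiset.bind_congr fun i _ => ?_
    rw [lift, lift, Multiset.map_map]
    rfl

theorem uk_inv (v : T → ℝ) (k : ℝ) (A : Finset I) (e : Equiv.Perm I) (he : A.val.map e = A.val)
    (σ : I → T) : Uk v k A (σ ∘ e) = Uk v k A σ := by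
  have : ∑ i ∈ A, v ((σ ∘ e) i) ^ 2 = ∑ i ∈ A, v (σ i) ^ 2 := by
    rw [Finset.sum, Finset.sum]
    conv_rhs => rw [← he, Multiset.map_map]
    rfl
  rw [Uk, Uk, this]

/-- averaging over the sites -/
theorem avgA (n : ℕ) (g : O → ℝ → ℝ) (v : T → ℝ) (k : ℝ) (o0 : O) (A : Finset I) (J : Finset O)
    (D : ℕ) (c : ℝ) (l : Multiset (ℕ × ℝ)) (i : I) (hi : i ∈ A) (d : ℕ) (hd : d ≤ n)
    (F : T → T → ℝ) :
    EU n g (Uk v k A) (sy n (sv v) A J D c + fl (sv v) o0 A l) d
        (fun ω ω' => F (ω.2 i) (ω'.2 i)) =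
      EU n g (Uk v k A) (sy n (sv v) A J D c + fl (sv v) o0 A l) d
        (fun ω ω' => (∑ j ∈ A, F (ω.2 j) (ω'.2 j)) / (A.card : ℝ)) := by
  have hA := aApi
  have hC := cApi
  have h1 : ∀ j ∈ A, EU n g (Uk v k A) (sy n (sv v) A J D c + fl (sv v) o0 A l) d
      (fun ω ω' => F (ω.2 j) (ω'.2 j)) =
      EU n g (Uk v k A) (sy n (sv v) A J D c + fl (sv v) o0 A l) d
      (fun ω ω' => F (ω.2 i) (ω'.2 i)) := fun j hj => by
    have := ee_perm hA hC n g (Uk v k A) (sy n (sv v) A J D c + fl (sv v) o0 A l) (Equiv.swap i j)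
      (Equiv.swap_apply_self i j) (uk_inv v k A _ (Sym.map_swap hi hj)) d hd
      fun σ σ' => F (σ i) (σ' i)
    rw [inv n v o0 A J D c l _ (Sym.map_swap hi hj)] at this
    simpa using this
  have hc : (A.card : ℝ) ≠ 0 := Nat.cast_ne_zero.2 (card_pos.2 ⟨i, hi⟩).ne'
  have h2 := hA.e2add (chain (sy n (sv v) A J D c + fl (sv v) o0 A l)) (ex n) (ZU g (Uk v k A))
    (d + 1) (n + 1) (fun ω ω' => ∑ j ∈ A, F (ω.2 j) (ω'.2 j)) (fun _ _ => 0) (A.card : ℝ)⁻¹ 0
    (0, default)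
  rw [hA.e2sum] at h2
  simp only [zero_mul, add_zero] at h2
  have h3 := sum_congr rfl h1
  simp only [EU] at h3 ⊢
  simp only [div_eq_inv_mul]
  rw [h2, h3, sum_const, nsmul_eq_mul, inv_mul_cancel_left₀ hc]

end SymUm

theorem symU (hUApi : UApi) : SymU := by
  intro O I T _ _ _ _ _ _ n g v k o0 A J D c l i hn hi
  refine ⟨?_, fun d hd => SymUm.avgA n g v k o0 A J D c l i hi d hd fun t t' => v t * v t'⟩
  rw [← hUApi.e1 n g _ _ 0 _ hn (Nat.zero_le n), ← hUApi.e1 n g _ _ 0 _ hn (Nat.zero_le n)]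
  have := SymUm.avgA n g v k o0 A J D c l i hi 0 (Nat.zero_le n) fun t _ => v t * v t
  simp only [sv, RR, sq]
  exact this

end Vale.Agent.P157
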