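import Vale.Agent.P157.StmS
import Vale.Agent.P157.C
import Vale.Agent.P157.Tilt

namespace Vale.Agent.P157

open Finset Real

set_option linter.unusedSectionVars false

namespace TiltUm

open Tlt

variable {O S : Type} [Fintype O] [DecidableEq O] [Fintype S] [Inhabited S]

theorem tt_top (n : ℕ) (hn : 1 ≤ n) (L : Multiset (St O S)) (g : O → ℝ → ℝ) (U : S → ℝ)
    (hL : ∀ s ∈ L, s.1 = n - 1) :
    TU n g U L = n * log (lv (L.map vec) (fun ω : Om O S => exp (1 / (n : ℝ) *
      log (avg fun σ => exp (ZU g U (ω.1, σ))))) (0, default)) := by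
  obtain ⟨d, rfl⟩ : ∃ d, n = d + 1 := ⟨n - 1, by omega⟩
  have h0 : L.filter (fun s => s.1 = d) = L :=
    Multiset.filter_eq_self.2 fun s hs => by have := hL s hs; omega
  have he : ex (d + 1) (d + 1) = 1 / ((d + 1 : ℕ) : ℝ) := by
    show 1 - (d : ℝ) / ((d + 1 : ℕ) : ℝ) = _
    push_cast; field_simp; ring
  show (ex (d + 1) (d + 1))⁻¹ * log (lv ((L.filter (fun s => s.1 = d)).map vec)
    (fun ω' => exp (ex (d + 1) (d + 1) * XX (chain L) (ex (d + 1)) (ZU g U) (d + 1) ω')) _) = _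
  rw [xx_low cApi _ hn L _ hL d le_rfl, h0, he, one_div, inv_inv]
  have e : XX (chain L) (ex (d + 1)) (ZU g U) 1 = fun ω : Om O S =>
      log (avg fun σ => exp (ZU g U (ω.1, σ))) := by
    ext ω
    show (1 : ℝ)⁻¹ * log ((∑ σ, exp (1 * ZU g U (ω.1, σ))) / _) = _
    simp [avg]
  rw [e]

theorem osc (g : O → ℝ → ℝ) (U : S → ℝ) (o : O) {B : ℝ} (hg : ∀ t, |g o t| ≤ B) :
    Osc o (2 * B) (fun ω : Om O S => log (avg fun σ => exp (ZU g U (ω.1, σ)))) := by
  intro ω w
  have hK : (0 : ℝ) < Fintype.card S := by exact_mod_cast Fintype.card_pos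
  have h1 : ∀ σ, ZU g U (ω.1 + Pi.single o w, σ) ≤ ZU g U (ω.1, σ) + 2 * B := fun σ => by
    unfold ZU ZZ
    rw [← add_sum_erase _ _ (mem_univ o), ← add_sum_erase _ _ (mem_univ o)]
    have h1 : ∑ x ∈ univ.erase o, g x ((ω.1 + Pi.single o w : O → S → ℝ) x σ) =
        ∑ x ∈ univ.erase o, g x (ω.1 x σ) := by
      refine sum_congr rfl fun x hx => ?_
      simp [Pi.single_eq_of_ne (ne_of_mem_erase hx)]
    have h2 := (abs_le.1 (hg ((ω.1 + Pi.single o w : O → S → ℝ) o σ))).2
    have h3 := (abs_le.1 (hg (ω.1 o σ))).1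
    simp only at h1 ⊢
    linarith
  have p : ∀ x : O → S → ℝ, 0 < avg fun σ => exp (ZU g U (x, σ)) := fun x =>
    div_pos (sum_pos (fun _ _ => exp_pos _) univ_nonempty) hK
  show log _ ≤ log _ + _
  rw [log_le_iff_le_exp (p _), exp_add, exp_log (p _)]
  unfold avg
  rw [div_mul_eq_mul_div, sum_mul]
  refine div_le_div_of_nonneg_right (sum_le_sum fun σ _ => ?_) hK.le
  rw [← exp_add]; exact exp_le_exp.2 (h1 σ)

theorem pats_val (M : ℕ) : (pats M).val = (univ : Finset (Fin M)).val.map some := by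
  have : pats M = (univ : Finset (Fin M)).map ⟨some, Option.some_injective _⟩ := by
    ext o; cases o <;> simp [pats]
  rw [this]; rfl

end TiltUm

open Tlt TiltUm in
theorem tiltU : TiltU := by
  intro B
  refine ⟨8 * B ^ 2, fun n f N M D S _ _ s U hn hf => ?_⟩
  have hA := aApi
  have hC := cApi
  have hn' : (0 : ℝ) < n := by exact_mod_cast hn
  set c := 1 / √((N : ℝ) * D)
  set V : Fin M → Multiset (Option (Fin M) → S → ℝ) := fun a =>
    D • (univ : Finset (Fin N)).val.map (fun i => Pi.single (some a) (c • s i)) with hV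
  have hs : ∀ k, (sy k s (univ : Finset (Fin N)) (pats M) D c).map vec =
      (univ : Finset (Fin M)).val.bind V := fun k => by
    unfold sy rd
    rw [Multiset.map_bind, pats_val, Multiset.bind_map]
    refine Multiset.bind_congr fun a _ => ?_
    rw [Multiset.map_nsmul, Multiset.map_map]; rfl
  have hL : ∀ t ∈ sy n s (univ : Finset (Fin N)) (pats M) D c, t.1 = n - 1 := by
    intro t ht
    obtain ⟨a, -, h⟩ := Multiset.mem_bind.1 ht
    obtain ⟨i, -, rfl⟩ := Multiset.mem_map.1 (Multiset.mem_of_mem_nsmul h)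
    rfl
  unfold RVU PVU
  rw [TiltUm.tt_top n hn _ _ U hL, hs, hs]
  set Φ : Om (Option (Fin M)) S → ℝ := fun ω =>
    log (avg fun σ => exp (ZU (gg (Fin M) f) U (ω.1, σ)))
  have hk := hC.lv_mk (S := S) ((univ : Finset (Fin M)).val.bind V)
  have hu := many hA hC (fun a : Fin M => some a) (m := 1 / (n : ℝ)) (by positivity)
    (Φ := Φ) (fun a => TiltUm.osc (gg (Fin M) f) U (some a) hf) V (fun a v hv => by
      obtain ⟨i, -, rfl⟩ := Multiset.mem_map.1 (Multiset.mem_of_mem_nsmul hv)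
      exact ⟨_, rfl⟩) univ (0, default)
  have hl := hA.jen hk (fun x => 1 / (n : ℝ) * Φ x + 0) (0, default)
  rw [aff hA hk] at hl
  simp only [add_zero] at hl
  have hp := (exp_pos _).trans_le hl
  have h1 := (log_le_iff_le_exp hp).2 hu
  have h2 := (le_log_iff_exp_le hp).2 hl
  rw [card_univ, Fintype.card_fin] at h1
  have h3 := mul_le_mul_of_nonneg_left h1 hn'.le
  have h4 := mul_le_mul_of_nonneg_left h2 hn'.le
  have e1 : ∀ x : ℝ, n * (1 / (n : ℝ) * x + M * (2 * (1 / (n : ℝ) * (2 * B)) ^ 2)) =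
      x + 8 * B ^ 2 * M / n := fun x => by field_simp; ring
  have e2 : ∀ x : ℝ, n * (1 / (n : ℝ) * x) = x := fun x => by field_simp
  rw [e1] at h3
  rw [e2] at h4
  have h5 : 0 ≤ 8 * B ^ 2 * M / n := by positivity
  rw [abs_le]; constructor <;> linarith

end Vale.Agent.P157
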