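import Vale.Agent.P157.StmS
import Vale.Agent.P157.C

namespace Vale.Agent.P157

open Finset Real

set_option linter.unusedSectionVars false

namespace UA

open Cc (ok xx_low chain_eq chain_ne xx_tr sgo_apply chain_zero)

variable {O S : Type} [Fintype O] [DecidableEq O] [Fintype S] [Inhabited S]

theorem zu0 (g : O → ℝ → ℝ) : ZU g (fun _ : S => 0) = ZZ g := by
  funext ω; simp [ZU]

theorem zu_add (g : O → ℝ → ℝ) (U A : S → ℝ) :
    ZU g (fun σ => U σ + A σ) = ZU g U + fun ω : Om O S => A ω.2 := by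
  funext ω; simp only [ZU, Pi.add_apply]; ring

theorem tt0 (n : ℕ) (g : O → ℝ → ℝ) (U : S → ℝ) (hn : 1 ≤ n) :
    TU n g U (0 : Multiset (St O S)) = ∑ o, g o 0 + log (avg fun σ => exp (U σ)) := by
  have hk := ok n (0 : Multiset (St O S)) hn
  have key : ∀ j, j ≤ n → ∀ σ, XX (chain (0 : Multiset (St O S))) (ex n) (ZU g U) (j + 1) (0, σ) =
      ∑ o, g o 0 + log (avg fun σ => exp (U σ)) := by
    intro j
    induction j with
    | zero =>
      intro _ σ
      have hc : (0 : ℝ) < Fintype.card S := by exact_mod_cast Fintype.card_pos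
      show (1 : ℝ)⁻¹ * log ((∑ σ : S, exp (1 * (∑ o, g o 0 + U σ))) / _) = _
      have hp : 0 < avg fun σ => exp (U σ) :=
        div_pos (sum_pos (fun _ _ => exp_pos _) univ_nonempty) hc
      have : (∑ σ : S, exp (1 * (∑ o, g o 0 + U σ))) / (Fintype.card S : ℝ) =
          exp (∑ o, g o 0) * avg fun σ => exp (U σ) := by
        simp only [one_mul, exp_add, avg, ← mul_sum]; ring
      rw [this, log_mul (exp_pos _).ne' hp.ne', log_exp]; simp
    | succ j ih =>
      intro hj σ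
      have hm := (hk.pos (j + 1) (by omega)).ne'
      show (ex n (j + 1))⁻¹ * log (exp (ex n (j + 1) * XX _ _ _ (j + 1) (0, σ))) = _
      rw [log_exp, ih (by omega), inv_mul_cancel_left₀ hm]
  exact key n le_rfl _

theorem zu_lip (g : O → ℝ → ℝ) (U : S → ℝ) (B : ℝ) (o : O)
    (hg : ∀ t h, |g o (t + h) - g o t| ≤ B * |h|) (w w' : S → ℝ) (ω : Om O S) :
    ZU g U (ω.1 + Pi.single o w, ω.2) ≤ ZU g U (ω.1 + Pi.single o w', ω.2) + B * ‖w - w'‖ := by
  have := Cc.zz_lip g B o hg w w' ω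
  simp only [ZU]; linarith

theorem rep1 (n : ℕ) (g : O → ℝ → ℝ) (U : S → ℝ) (B : ℝ) (L : Multiset (St O S)) (κ : ℕ) (o : O)
    (w w' : S → ℝ) (hn : 1 ≤ n) (hg : ∀ t h, |g o (t + h) - g o t| ≤ B * |h|) :
    TU n g U ((κ, o, w) ::ₘ L) ≤ TU n g U ((κ, o, w') ::ₘ L) + B * ‖w - w'‖ := by
  have hB : 0 ≤ B := by simpa using (abs_nonneg _).trans (hg 0 1)
  have hc : 0 ≤ B * ‖w - w'‖ := by positivity
  have hk := ok n L hn
  have hk' := ok n ((κ, o, w') ::ₘ L) hn
  have key : ∀ j, j ≤ n + 1 → ∀ ω, XX (chain ((κ, o, w) ::ₘ L)) (ex n) (ZU g U) j ω ≤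
      XX (chain ((κ, o, w') ::ₘ L)) (ex n) (ZU g U) j ω + B * ‖w - w'‖ := by
    intro j
    induction j with
    | zero => intro _ ω; exact le_add_of_nonneg_right hc
    | succ j ih =>
      intro hj ω
      have hm := hk.pos j (by omega)
      have hP : chain ((κ, o, w) ::ₘ L) j (fun x => exp (ex n j *
          XX (chain ((κ, o, w) ::ₘ L)) (ex n) (ZU g U) j x)) ω ≤ exp (ex n j * (B * ‖w - w'‖)) *
          chain ((κ, o, w') ::ₘ L) j (fun x => exp (ex n j *
            XX (chain ((κ, o, w') ::ₘ L)) (ex n) (ZU g U) j x)) ω := by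
        by_cases hjk : j = κ + 1
        · subst hjk
          rw [xx_low n _ L (κ, o, w) le_rfl, xx_low n _ L (κ, o, w') le_rfl,
            chain_eq L (κ, o, w), chain_eq L (κ, o, w')]
          have h1 : ∀ u u' : S → ℝ, ‖u - u'‖ = ‖w - w'‖ →
              chain L (κ + 1) (fun x => exp (ex n (κ + 1) * XX (chain L) (ex n) (ZU g U) (κ + 1) x))
                (ω.1 + Pi.single o u, ω.2) ≤ exp (ex n (κ + 1) * (B * ‖w - w'‖)) *
              chain L (κ + 1) (fun x => exp (ex n (κ + 1) * XX (chain L) (ex n) (ZU g U) (κ + 1) x))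
                (ω.1 + Pi.single o u', ω.2) := by
            intro u u' hu
            rw [← Aa.exp_xx hk _ (by omega), ← Aa.exp_xx hk _ (by omega), ← exp_add, exp_le_exp,
              ← xx_tr, ← xx_tr, ← mul_add, add_comm (B * _), ← hu]
            exact mul_le_mul_of_nonneg_left
              (Aa.xle hk (fun x => zu_lip g U B o hg u u' x) _ (by omega) ω) hm.le
          have h2 := h1 w w' rfl
          have h3 := h1 (-w) (-w') (by rw [← norm_neg]; congr 1; ring)
          rw [Pi.single_neg, Pi.single_neg, ← sub_eq_add_neg, ← sub_eq_add_neg] at h3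
          simp only [LinearMap.comp_apply, sgo_apply, vec]
          linarith
        · rw [chain_ne L (κ, o, w) hjk, chain_ne L (κ, o, w') hjk, ← Aa.smul']
          refine Aa.mono' (hk.mk' j) (fun x => ?_) ω
          rw [← exp_add, exp_le_exp, ← mul_add, add_comm (B * _)]
          exact mul_le_mul_of_nonneg_left (ih (by omega) x) hm.le
      have hk1 := ok n ((κ, o, w) ::ₘ L) hn
      rw [← Aa.exp_xx hk1 _ (by omega), ← Aa.exp_xx hk' _ (by omega), ← exp_add, exp_le_exp,
        ← mul_add, add_comm (B * _)] at hP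
      exact le_of_mul_le_mul_left hP hm
  exact key _ le_rfl _

theorem rep (n : ℕ) (g : O → ℝ → ℝ) (U : S → ℝ) (B : ℝ) (L : Multiset (St O S)) (κ : ℕ) (o : O)
    (w w' : S → ℝ) (hn : 1 ≤ n) (hg : ∀ t h, |g o (t + h) - g o t| ≤ B * |h|) :
    |TU n g U ((κ, o, w) ::ₘ L) - TU n g U ((κ, o, w') ::ₘ L)| ≤ B * ‖w - w'‖ := by
  have h1 := rep1 n g U B L κ o w w' hn hg
  have h2 := rep1 n g U B L κ o w' w hn hg
  rw [norm_sub_rev] at h2
  rw [abs_le]; constructor <;> linarith

theorem crude (n : ℕ) (g : O → ℝ → ℝ) (U : S → ℝ) (B : ℝ) (L L' : Multiset (St O S)) (hn : 1 ≤ n)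
    (hg : ∀ s ∈ L', ∀ t h, |g s.2.1 (t + h) - g s.2.1 t| ≤ B * |h|) :
    |TU n g U (L + L') - TU n g U L| ≤ B * sz L' := by
  induction L' using Multiset.induction_on with
  | empty => simp [sz]
  | cons s L' ih =>
    have h1 := ih (fun s hs => hg s (Multiset.mem_cons_of_mem hs))
    have h2 := rep n g U B (L + L') s.1 s.2.1 s.2.2 0 hn (hg s (Multiset.mem_cons_self _ _))
    have h3 : TU n g U ((s.1, s.2.1, (0 : S → ℝ)) ::ₘ (L + L')) = TU n g U (L + L') := by
      unfold TU; rw [chain_zero]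
    rw [h3, sub_zero] at h2
    rw [Multiset.add_cons]
    have h4 : sz (s ::ₘ L') = ‖s.2.2‖ + sz L' := by simp [sz]
    rw [h4]
    have := abs_sub_le (TU n g U (s ::ₘ (L + L'))) (TU n g U (L + L')) (TU n g U L)
    linarith

theorem e1 (n : ℕ) (g : O → ℝ → ℝ) (U : S → ℝ) (L : Multiset (St O S)) (d : ℕ) (V : Om O S → ℝ)
    (hn : 1 ≤ n) (hd : d ≤ n) : EU n g U L d (fun ω _ => V ω) = E1U n g U L V :=
  aApi.e2one (ok n L hn) _ _ (by omega) _ _

end UA

theorem uApi : UApi where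
  zero := fun n g L => by
    refine ⟨?_, fun V => ?_, fun d φ => ?_⟩ <;> simp only [TU, E1U, EU, UA.zu0, TT, E1, EE]
  tt0 := UA.tt0
  rep := UA.rep
  crude := UA.crude
  pot1 := fun n g U A b L hn hA hb => by
    unfold TU E1U
    rw [UA.zu_add]
    exact aApi.first (Cc.ok n L hn) _ _ b (fun ω => hA ω.2) hb _ le_rfl _
  potlow := fun n g U A L hn => by
    unfold TU E1U
    rw [UA.zu_add]
    exact aApi.xlow (Cc.ok n L hn) _ _ _ le_rfl _
  potle := fun n g U U' c L hn h =>
    aApi.xle (Cc.ok n L hn) (fun ω => by simp only [ZU]; linarith [h ω.2]) _ le_rfl _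
  potchg := fun n g U U' b L d φ hn hd h hφ => by
    have : U' = fun σ => U σ + (U' σ - U σ) := by funext σ; ring
    unfold EU
    rw [this, UA.zu_add]
    have h1 := aApi.chg2 (Cc.ok n L hn) (ZU g U) (fun ω => U' ω.2 - U ω.2) b (fun ω => h ω.2)
      (d + 1) (by omega) φ hφ (0, default)
    simpa using h1
  e1 := UA.e1
  cumul := fun n g U U' L L' s A P e c hn hc h hC => by
    refine ⟨?_, ?_⟩
    · refine le_trans ?_ (mul_le_mul_of_nonneg_left hC.1 hc)
      rw [mul_left_comm, mul_sum (a := c)]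
      refine mul_le_mul_of_nonneg_left (sum_le_sum fun d hd => ?_) (by positivity)
      exact h (fun σ σ' => (RR s A σ σ' - P d) ^ 2) d (mem_Ico.1 hd).2.le fun _ _ => sq_nonneg _
    · refine le_trans ?_ (mul_le_mul_of_nonneg_left hC.2 hc)
      rw [← UA.e1 n g U L 0 _ hn (Nat.zero_le _), ← UA.e1 n g U' L' 0 _ hn (Nat.zero_le _)]
      exact h (fun σ _ => (RR s A σ σ - P 0) ^ 2) 0 (Nat.zero_le _) fun _ _ => sq_nonneg _

end Vale.Agent.P157
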