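import Vale.Agent.P157.StmS
import Vale.Agent.P157.A
import Vale.Agent.P157.C
import Vale.Agent.P157.G
import Vale.Agent.P157.Lin
import Vale.Agent.P157.Link
import Vale.Agent.P157.G2
import Vale.Agent.P157.Ub

namespace Vale.Agent.P157

open Finset Real Filter

noncomputable section

namespace UbUm

open Ub (nsmul_bind ev_sqrt meas ip_add pen_bound c_facts)

lemma hG0 : GApi := gApi aApi cApi

lemma hG2' : G2Stmt := g2Stmt aApi cApi (linStmt aApi cApi) (linkStmt aApi cApi)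

lemma d2_lin {B : ℝ} (hB : 1 ≤ B) (a c : ℝ) (ha : |a| ≤ 1) : D2 B fun t => a * t + c := by
  intro t h
  constructor
  · rw [show a * (t + h) + c - (a * t + c) = a * h by ring, abs_mul]
    exact mul_le_mul_of_nonneg_right (ha.trans hB) (abs_nonneg _)
  · rw [show a * (t + h) + c + (a * (t - h) + c) - 2 * (a * t + c) = 0 by ring, abs_zero]
    positivity

lemma md {B K : ℝ} (hB : 1 ≤ B) (hK : 1 ≤ K) {f f1 f2 : ℝ → ℝ} (hS : Sm B f f1 f2) (ι : Type)
    {S I : Type} {s : I → S → ℝ} (hs : ∀ i σ, |s i σ| ≤ K) :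
    Md B K (gg ι f) (gg1 ι f1) (gg2 ι f2) none s := by
  refine ⟨hB, hK, fun o => ?_, rfl, rfl, rfl, hs⟩
  cases o with
  | some a => exact hS
  | none =>
    refine ⟨?_, ?_, ?_, fun t => by simpa [gg1] using hB, fun t => by simp [gg2]; linarith,
      fun t h => by simp [gg, gg1, gg2]; positivity⟩
    · have := d2_lin hB 1 0 (by simp)
      simp only [one_mul, add_zero] at this
      exact this
    · have := d2_lin hB 0 1 (by simp)
      simp only [zero_mul, zero_add] at this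
      exact this
    · have := d2_lin hB 0 0 (by simp)
      simp only [zero_mul, zero_add] at this
      exact this

variable {O S I : Type} [Fintype O] [DecidableEq O] [Fintype S] [Inhabited S]

lemma fl_crude (hU : UApi) (hG : GUApi) {n : ℕ} (hn : 1 ≤ n) {g : O → ℝ → ℝ} (U : S → ℝ)
    {o0 : O} (h0 : g o0 = id) (L : Multiset (St O S)) {s : I → S → ℝ} {K : ℝ}
    (hs : ∀ i σ, |s i σ| ≤ K) (A : Finset I) (y : ℕ → ℝ) :
    |TU n g U (L + fl s o0 A (ys n y)) - TU n g U L| ≤ A.card * K * ∑ κ ∈ range n, |y κ| := by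
  have h1 := hG.fl_vr n 1 K s o0 A (ys n y) 0 zero_le_one hs
  have h2 := hU.crude n g U 1 L (fl s o0 A (ys n y)) hn (fun t ht x h => by
    rw [h1.2.2.2.2 t ht, h0]; simp)
  rw [one_mul] at h2
  refine h2.trans (h1.2.1.trans (le_of_eq ?_))
  have : ((ys n y).map fun t => |t.2|).sum = ∑ κ ∈ range n, |y κ| := by
    unfold ys
    rw [Multiset.map_map]
    rfl
  rw [this]
  ring

/-- the interpolating state -/
def stt (n : ℕ) (s : I → S → ℝ) (o0 : O) (A : Finset I) (c : ℝ) (p : ℕ → ℝ) (K1 K2 : Multiset O)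
    (lf : Multiset (ℕ × ℝ)) : Multiset (St O S) :=
  K1.bind (fun a => rd s a A (n - 1) c) +
    K2.bind (fun a => lift a (fun _ => 1) (sprof n p (A.card * c ^ 2))) + fl s o0 A lf

def Inv (n : ℕ) (B c : ℝ) (k : ℕ) (lf : Multiset (ℕ × ℝ)) (q : ℕ → ℝ) : Prop :=
  Path n q ∧ (∀ d, d < n → lvar lf d = q d - q (d + 1)) ∧ q 0 ≤ k * (c ^ 2 * B ^ 2)

lemma ind (hG : GUApi) (hm : MaxU) {n : ℕ} (hn : 1 ≤ n) {B K c lam e err Bd : ℝ} (hK : 0 ≤ K)
    {g : O → ℝ → ℝ} {U : S → ℝ} {s : I → S → ℝ} {o0 : O} (h0 : g o0 = id)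
    (hs : ∀ i σ, |s i σ| ≤ K) {A : Finset I} {p : ℕ → ℝ} (hl : 0 < lam) (T : Multiset O)
    (hcon : ∀ (L : Multiset (St O S)) y, MxU n g U L s o0 A lam (A.card * K / lam) y →
      CU n g U (L + fl s o0 A (ys n y)) s A (ovU n g U (L + fl s o0 A (ys n y)) s A) e)
    (hsw : ∀ (L : Multiset (St O S)) (a : O) (P : ℕ → ℝ),
      CU n g U (L + rd s a A (n - 1) c) s A P e →
      ∃ W : ℕ → ℝ, Path n W ∧ W 0 ≤ B ^ 2 ∧ TU n g U (L + rd s a A (n - 1) c) ≤
        TU n g U (L + lift a (fun _ => 1) (sprof n p (A.card * c ^ 2)) +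
          fl s o0 A (sprof n W (c ^ 2))) + (A.card * c ^ 2) * (ip n p W - W 0 / 2) + err)
    (hbase : ∀ lf q, Inv n B c T.card lf q → ∀ y',
      TU n g U (stt n s o0 A c p 0 T lf + fl s o0 A (ys n y')) - pen n lam (A.card * K / lam) y' +
        A.card * (ip n p q - q 0 / 2) ≤ Bd) (K1 : Multiset O) :
    ∀ K2 lf q, K1 + K2 = T → Inv n B c K2.card lf q → ∀ y',
      TU n g U (stt n s o0 A c p K1 K2 lf + fl s o0 A (ys n y')) -
        pen n lam (A.card * K / lam) y' + A.card * (ip n p q - q 0 / 2) ≤ Bd + K1.card * err := by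
  induction K1 using Multiset.induction_on with
  | empty =>
    intro K2 lf q hK hI y'
    rw [zero_add] at hK
    subst hK
    simpa using hbase lf q hI y'
  | cons a K1 ih =>
    intro K2 lf q hK' hI y'
    obtain ⟨y, hy⟩ := hm O S I n g U (stt n s o0 A c p (a ::ₘ K1) K2 lf) s o0 A K lam
      (A.card * K / lam) hn h0 hK hs hl (by rw [div_mul_cancel₀ _ hl.ne'])
    have h1 := hy.2 y'
    have h2 := hcon _ y hy
    have e1 : stt n s o0 A c p (a ::ₘ K1) K2 lf + fl s o0 A (ys n y) =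
        (stt n s o0 A c p K1 K2 lf + fl s o0 A (ys n y)) + rd s a A (n - 1) c := by
      unfold stt
      rw [Multiset.cons_bind]
      abel
    rw [e1] at h1 h2
    obtain ⟨W, hW, hW0, h3⟩ := hsw _ a _ h2
    have e2 : stt n s o0 A c p K1 K2 lf + fl s o0 A (ys n y) +
        lift a (fun _ => 1) (sprof n p (A.card * c ^ 2)) + fl s o0 A (sprof n W (c ^ 2)) =
        stt n s o0 A c p K1 (a ::ₘ K2) (lf + sprof n W (c ^ 2)) + fl s o0 A (ys n y) := by
      unfold stt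
      rw [Multiset.cons_bind,
        (hG.fl_vr n 1 K s o0 A lf (sprof n W (c ^ 2)) zero_le_one hs).2.2.2.1]
      abel
    rw [e2] at h3
    obtain ⟨s1, s2, s3⟩ := hG0.sprof_var n W (c ^ 2) hW (sq_nonneg c)
    have hI' : Inv n B c (a ::ₘ K2).card (lf + sprof n W (c ^ 2)) (fun d => q d + c ^ 2 * W d) := by
      refine ⟨⟨fun d hd => ?_, ?_⟩, fun d hd => ?_, ?_⟩
      · have := hI.1.1 d hd
        have := mul_le_mul_of_nonneg_left (hW.1 d hd) (sq_nonneg c)
        linarith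
      · simp only [hI.1.2, hW.2, mul_zero, add_zero]
      · rw [(hG0.lvar_add lf _ 0 d).1, hI.2.1 d hd, s2 d hd]; ring
      · have := hI.2.2
        have := mul_le_mul_of_nonneg_left hW0 (sq_nonneg c)
        rw [Multiset.card_cons]
        push_cast
        linarith
    have h4 := ih (a ::ₘ K2) _ _ (by rw [← hK', Multiset.cons_add, Multiset.add_cons]) hI' y
    rw [ip_add] at h4
    rw [Multiset.card_cons]
    push_cast
    nlinarith

lemma card_pats (M : ℕ) : (pats M).card = M := by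
  rw [pats, card_erase_of_mem (mem_univ _), card_univ, Fintype.card_option, Fintype.card_fin]
  rfl

lemma fixed (hU : UApi) (hG : GUApi) (hm : MaxU) (he : EndU) (hc : CsApi) {n N M : ℕ}
    (hn : 1 ≤ n) {B K c lam e err η η0 Q ε : ℝ} (hK : 0 ≤ K) {f : ℝ → ℝ} {s : Fin N → S → ℝ}
    (hs : ∀ i σ, |s i σ| ≤ K) {p : ℕ → ℝ} (hp : Path n p) (hp0 : p 0 = 1) (hp1 : p 1 < 1)
    (hl : 0 < lam) (D : ℕ) (hD : D * (N * c ^ 2) = 1)
    (hcon : ∀ (L : Multiset (St (Option (Fin M)) S)) y,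
      MxU n (gg (Fin M) f) (fun _ => 0) L s none univ lam (N * K / lam) y →
      CU n (gg (Fin M) f) (fun _ => 0) (L + fl s none univ (ys n y)) s univ
        (ovU n (gg (Fin M) f) (fun _ => 0) (L + fl s none univ (ys n y)) s univ) e)
    (hsw : ∀ (L : Multiset (St (Option (Fin M)) S)) (a : Option (Fin M)) (P : ℕ → ℝ),
      CU n (gg (Fin M) f) (fun _ => 0) (L + rd s a univ (n - 1) c) s univ P e →
      ∃ W : ℕ → ℝ, Path n W ∧ W 0 ≤ B ^ 2 ∧
        TU n (gg (Fin M) f) (fun _ => 0) (L + rd s a univ (n - 1) c) ≤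
        TU n (gg (Fin M) f) (fun _ => 0) (L + lift a (fun _ => 1) (sprof n p (N * c ^ 2)) +
          fl s none univ (sprof n W (c ^ 2))) + (N * c ^ 2) * (ip n p W - W 0 / 2) + err)
    (hg2 : ∀ l : Multiset (ℕ × ℝ), (∀ t ∈ l, |t.2| ≤ η) →
      (∀ d, d < n → |lvar l d - (p d - p (d + 1))| ≤ η) → |HD n f l - Hf n f p| ≤ ε)
    (hη : 0 ≤ η) (h1 : √(N * c ^ 2) ≤ η) (hQ2 : (D * M : ℝ) * (c ^ 2 * B ^ 2) ≤ Q)
    (hE : ∀ b, 1 ≤ b → b ≤ (Dk n p n)⁻¹ + Q → ∀ h : Fin N → ℝ,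
      log (avg fun σ => exp (∑ i, h i * s i σ)) ≤
        ∑ i, h i ^ 2 / (2 * b) + N * ((b - 1 - log b) / 2 + η0)) :
    TU n (gg (Fin M) f) (fun _ => 0) (sy n s univ (pats M) D c) ≤
      M * (Hf n f p + ε) + N * (CS n p + η0) + 5 * n * (N * K) * lam + (D * M : ℝ) * err := by
  have hcard : (Multiset.card (D • (pats M).val) : ℝ) = D * M := by
    rw [Multiset.card_nsmul, card_val, card_pats]; push_cast; rfl
  have hA : (((univ : Finset (Fin N)).card : ℕ) : ℝ) = N := by simp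
  have hA0 : (0 : ℝ) ≤ N := by positivity
  have key := ind (A := univ) (p := p) (B := B) (c := c) (e := e) (err := err) hG hm hn hK
    (g := gg (Fin M) f) (U := fun _ => 0) (o0 := none) rfl hs hl (D • (pats M).val)
    (by rw [hA]; exact hcon) (by rw [hA]; exact hsw)
    (Bd := M * (Hf n f p + ε) + N * (CS n p + η0) + 3 * n * (N * K) * lam) (fun lf q hI y' => by
      have a1 := (abs_le.1 (fl_crude hU hG hn (g := gg (Fin M) f) (fun _ => 0) (o0 := none) rfl
        (stt n s none univ c p 0 (D • (pats M).val) lf) hs univ y')).2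
      rw [hA] at a1 ⊢
      have a2 := pen_bound n hl (mul_nonneg hA0 hK) y'
      have e1 : stt n s none univ c p 0 (D • (pats M).val) lf =
          (pats M).val.bind (fun a => lift a (fun _ => 1) (D • sprof n p (N * c ^ 2))) +
            fl s none univ lf := by
        unfold stt
        rw [Multiset.zero_bind, zero_add, nsmul_bind, hA]
        congr 2
        ext1 a
        unfold lift
        rw [Multiset.map_nsmul]
      obtain ⟨c1, c2, c3, c4, c5⟩ := hc.up n p q hn hp hp0 hp1 hI.1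
      have c6 : 1 ≤ (Dk n p n)⁻¹ := (one_le_inv₀ c1).2 c2
      have c7 := hI.2.2
      rw [hcard] at c7
      have a3 := he S (Fin N) n M f s (D • sprof n p (N * c ^ 2)) lf q _ _ hn hI.1 hI.2.1
        (by unfold lamb; linarith) (hE ((Dk n p n)⁻¹ + Dk n q n) (by linarith) (by linarith))
      rw [← e1, Fintype.card_fin] at a3
      obtain ⟨s1, s2, s3⟩ := hG0.sprof_var n p (N * c ^ 2) hp (by positivity)
      have a4 := hg2 (D • sprof n p (N * c ^ 2)) (fun t ht => by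
        have := (s3 t (Multiset.mem_of_mem_nsmul ht)).2
        rw [hp0, mul_one] at this
        exact this.trans h1) (fun d hd => by
        rw [(hG0.lvar_add _ 0 D d).2, s2 d hd, ← mul_assoc, hD, one_mul, sub_self, abs_zero]
        exact hη)
      have a7 : (M : ℝ) * HD n f (D • sprof n p (N * c ^ 2)) ≤ M * (Hf n f p + ε) :=
        mul_le_mul_of_nonneg_left (by linarith [(abs_le.1 a4).2]) (by positivity)
      have a8 := mul_le_mul_of_nonneg_left c5 hA0
      linarith) (D • (pats M).val) 0 0 (fun _ => 0) (add_zero _)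
    ⟨⟨fun _ _ => le_rfl, rfl⟩, fun d _ => by simp [lvar], by simp⟩ (fun _ => 2 * lam)
  have e2 : stt n s none univ c p (D • (pats M).val) 0 0 = sy n s univ (pats M) D c := by
    unfold stt sy
    rw [nsmul_bind]
    simp [fl, lift]
  have e3 : ∀ k, pen n lam k (fun _ => 2 * lam) = 0 := fun k => by simp [pen]
  have e4 : ip n p (fun _ => 0) = 0 := by simp [ip]
  rw [e2, e3, e4, hcard] at key
  have b1 := (abs_le.1 (fl_crude hU hG hn (g := gg (Fin M) f) (fun _ => 0) (o0 := none) rfl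
    (sy n s univ (pats M) D c) hs univ (fun _ => 2 * lam))).1
  rw [sum_const, card_range, nsmul_eq_mul, abs_of_pos (by positivity : 0 < 2 * lam), hA] at b1
  linarith

lemma e_small {δ C K' K lam n N : ℝ} (hδ0 : 0 < δ) (hK0 : 0 ≤ K') (hK : 0 ≤ K) (hl0 : 0 < lam)
    (hn0 : 0 < n) (hN0 : 0 < N) (hn1 : 3 * C / δ ≤ √n) (hl3 : lam ≤ δ / (3 * (K' + 1)))
    (hN1 : 3 * (K' * √K) / (√lam * lam * δ) ≤ √N) :
    C / √n + K' * (lam + √(N * K / lam) / (lam * N)) ≤ δ := by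
  have hsn : 0 < √n := sqrt_pos.2 hn0
  have hsN : 0 < √N := sqrt_pos.2 hN0
  have hsl : 0 < √lam := sqrt_pos.2 hl0
  have a1 : C / √n ≤ δ / 3 := by
    rw [div_le_iff₀ hsn]; rw [div_le_iff₀ (by positivity)] at hn1; linarith
  have a2 : K' * lam ≤ δ / 3 := by
    rw [le_div_iff₀ (by positivity)] at hl3; nlinarith
  have a3 : K' * (√(N * K / lam) / (lam * N)) ≤ δ / 3 := by
    have e1 : √(N * K / lam) / (lam * N) = √K / (√lam * lam * √N) := by
      rw [sqrt_div (mul_nonneg hN0.le hK), sqrt_mul hN0.le]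
      field_simp
      rw [sq_sqrt hN0.le]
      ring
    rw [e1, ← mul_div_assoc, div_le_iff₀ (by positivity)]
    rw [div_le_iff₀ (by positivity)] at hN1
    linarith
  linarith

lemma fin_arith {B α ε ε1 η0 C K δ lam n N M D H T V se sD : ℝ} (hα : 0 < α) (hε : 0 < ε)
    (hC0 : 0 ≤ C) (hK : 0 < K) (hδ1 : α * C * δ ≤ ε / 16) (hn0 : 0 < n) (hN0 : 0 < N)
    (hD0 : 0 < D) (hM1 : M ≤ α * N) (hM2 : α * N < M + 1) (hH : |H| ≤ B) (hN3 : 8 * B / ε ≤ N)
    (hl2 : lam ≤ ε / (40 * n * K)) (h1 : 0 ≤ se) (h2 : se ≤ δ) (h3 : 0 ≤ sD) (h4 : sD ≤ δ)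
    (ht : α * H + T < V + ε / 8) (e0 : 0 ≤ ε1) (e1 : α * ε1 ≤ ε / 8) (e2 : 0 ≤ η0)
    (e3 : η0 ≤ ε / 8) (e4 : α * (2 * B ^ 2 * η0) ≤ ε / 8) :
    M * (H + ε1) + N * (T + η0) + 5 * n * (N * K) * lam +
      (D * M) * ((1 / D) * (2 * B ^ 2 * η0 + C * (se + sD))) ≤ N * (V + ε) := by
  rw [abs_le] at hH
  have b1 : M * H ≤ α * N * H + B := by nlinarith [hH.1, hH.2]
  have b2 : B ≤ N * (ε / 8) := by rw [div_le_iff₀ hε] at hN3; linarith
  have b3 : M * ε1 ≤ N * (ε / 8) :=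
    (mul_le_mul_of_nonneg_right hM1 e0).trans (by nlinarith)
  have b3' := mul_le_mul_of_nonneg_left e3 hN0.le
  have b4 : 5 * n * (N * K) * lam ≤ N * (ε / 8) := by
    rw [le_div_iff₀ (by positivity)] at hl2
    nlinarith
  have b5 : (D * M) * (1 / D * (2 * B ^ 2 * η0 + C * (se + sD))) ≤ N * (ε / 4) := by
    have c2 : (D * M) * (1 / D * (2 * B ^ 2 * η0 + C * (se + sD))) =
        M * (2 * B ^ 2 * η0 + C * (se + sD)) := by field_simp
    rw [c2]
    calc M * (2 * B ^ 2 * η0 + C * (se + sD)) ≤ (α * N) * (2 * B ^ 2 * η0 + C * (δ + δ)) :=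
          mul_le_mul hM1 (add_le_add le_rfl (mul_le_mul_of_nonneg_left (add_le_add h2 h4) hC0))
            (by positivity) (by positivity)
      _ = N * (α * (2 * B ^ 2 * η0) + 2 * (α * C * δ)) := by ring
      _ ≤ _ := mul_le_mul_of_nonneg_left (by linarith) hN0.le
  have b6 := mul_le_mul_of_nonneg_left ht.le hN0.le
  nlinarith

lemma small (a : ℝ) (ha : 0 ≤ a) {ε : ℝ} (hε : 0 < ε) : ∃ δ : ℝ, 0 < δ ∧ δ ≤ ε ∧ a * δ ≤ ε := by
  have h1 : (a + 1) * (ε / (a + 1)) = ε := by field_simp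
  have h2 : 0 < ε / (a + 1) := by positivity
  exact ⟨ε / (a + 1), h2, by nlinarith, by nlinarith⟩

lemma path1 {n : ℕ} (hn : 1 ≤ n) : Path n (fun d => if d = 0 then 1 else 0) :=
  ⟨fun d _ => by by_cases h : d = 0 <;> simp [h], if_neg (by omega)⟩

end UbUm

open UbUm Ub in
theorem ubU (hUApi : UApi) (hGUApi : GUApi) (hMaxU : MaxU) (hConU : ConU) (hSwU : SwU)
    (hEndU : EndU) (hCsApi : CsApi) (hHlU : HlU) : UbU := by
  intro B α ε hB hα hε
  obtain ⟨η0, e2, e3, e4⟩ := small (α * (2 * B ^ 2)) (by positivity) (show 0 < ε / 8 by positivity)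
  obtain ⟨ε1, e0, -, e1⟩ := small α hα.le (show 0 < ε / 8 by positivity)
  refine ⟨η0, e2, fun K f f1 f2 hK hS hf => ?_⟩
  obtain ⟨C, hC0, hw⟩ := hSwU B K
  obtain ⟨C1, hn⟩ := hConU K hK
  obtain ⟨δ, hδ0, -, hδ1⟩ := small (α * C) (by positivity) (show 0 < ε / 16 by positivity)
  filter_upwards [ev_sqrt (3 * C1 / δ ^ 2), eventually_ge_atTop 1] with n hn1 hn2
  obtain ⟨K', hK0, hn⟩ := hn n hn2
  obtain ⟨η, hη0, h2⟩ := hG2' n B 1 ε1 hn2 e0
  have hn0 : (0 : ℝ) < n := by exact_mod_cast hn2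
  obtain ⟨t, ⟨p, hp, hp0, hp1, rfl⟩, ht⟩ := exists_lt_of_csInf_lt (s := valS n α f)
    ⟨_, _, path1 hn2, if_pos rfl, by simp, rfl⟩
    (show sInf (valS n α f) < Vs n α f + ε / 8 from by unfold Vs; linarith)
  obtain ⟨c1, c2, -⟩ := hCsApi.up n p p hn2 hp hp0 hp1 hp
  refine ⟨(Dk n p n)⁻¹ + (1 + α * B ^ 2), by
    have := (one_le_inv₀ c1).2 c2
    have : 0 ≤ α * B ^ 2 := by positivity
    linarith, ?_⟩
  obtain ⟨lam, hl0, hl1, hl2, hl3⟩ : ∃ lam : ℝ, 0 < lam ∧ lam ≤ 1 / (3 * K) ∧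
      lam ≤ ε / (40 * n * K) ∧ lam ≤ δ ^ 2 / (3 * (K' + 1)) :=
    ⟨min (1 / (3 * K)) (min (ε / (40 * n * K)) (δ ^ 2 / (3 * (K' + 1)))), by positivity,
      min_le_left _ _, (min_le_right _ _).trans (min_le_left _ _),
      (min_le_right _ _).trans (min_le_right _ _)⟩
  filter_upwards [ev_sqrt (3 * (K' * √K) / (√lam * lam * δ ^ 2)), eventually_ge_atTop 1,
    tendsto_natCast_atTop_atTop.eventually_ge_atTop (8 * B / ε)] with N hN1 hN2 hN3
  intro S _ _ s hs hR hE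
  have hN0 : (0 : ℝ) < N := by exact_mod_cast hN2
  filter_upwards [ev_sqrt (1 / δ), ev_sqrt (B / η), eventually_ge_atTop 1,
    tendsto_natCast_atTop_atTop.eventually_ge_atTop (2 * B ^ 4 * K ^ 2)] with D hD1 hD2 hD3 hD4
  have hD0 : (0 : ℝ) < D := by exact_mod_cast hD3
  have hM1 : ((⌊α * N⌋₊ : ℕ) : ℝ) ≤ α * N := Nat.floor_le (by positivity)
  have hM2 : α * N < (⌊α * N⌋₊ : ℕ) + 1 := Nat.lt_floor_add_one _
  generalize ⌊α * N⌋₊ = M at hM1 hM2 ⊢
  obtain ⟨c1, c2, -, c4⟩ := c_facts hB hη0 hN2 hD3 hD2 hM1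
  unfold RVU
  generalize 1 / √((N : ℝ) * D) = c at c1 c4 ⊢
  have hcard : (((univ : Finset (Fin N)).card : ℕ) : ℝ) = N := by simp
  have hne : (univ : Finset (Fin N)).Nonempty := ⟨⟨0, by omega⟩, mem_univ _⟩
  have he1 : √(C1 / √(n : ℝ) + K' * (lam + √(N * K / lam) / (lam * N))) ≤ δ :=
    sqrt_le_iff.2 ⟨hδ0.le, e_small (by positivity) hK0 (by linarith) hl0 hn0 hN0 hn1 hl3 hN1⟩
  have hcon := fun (L : Multiset (St (Option (Fin M)) S)) y hy =>
    hn (Option (Fin M)) S (Fin N) (gg (Fin M) f) (fun _ => 0) L s none univ lam (N * K / lam) y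
      rfl hs hne hl0 (by rw [le_div_iff₀ (by positivity)] at hl1; linarith) (by positivity) hy
  rw [hcard] at hcon
  generalize C1 / √(n : ℝ) + K' * (lam + √(N * K / lam) / (lam * N)) = e at he1 hcon
  have key := fixed hUApi hGUApi hMaxU hEndU hCsApi hn2 (B := B) (c := c) (lam := lam)
    (e := e) (err := (1 / D) * (2 * B ^ 2 * η0 + C * (√e + √(1 / (D : ℝ))))) (η := η)
    (Q := 1 + α * B ^ 2) (ε := ε1) (by linarith) (f := f) hs hp hp0 hp1 hl0 D
    (by rw [c1]; field_simp) hcon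
    (fun L a P hP => by
      obtain ⟨W, w1, w2, w3⟩ := hw _ S (Fin N) n _ _ _ _ L s none a univ p P e c η0 hn2
        (md hB hK hS (Fin M) hs) hne hp hp0 hR
        (by rw [hcard, c1, mul_one_div, div_le_one hD0]; exact hD4) hP
      rw [hcard] at w3
      refine ⟨W, w1, w2, w3.trans (le_of_eq ?_)⟩
      rw [c1]; ring)
    (fun l a3 a4 => (h2 p l hp hp0.le a3 a4).1 f (fun t h => (hS.d0 t h).1)) hη0.le
    (by rw [c1]; exact c2) c4 hE
  refine key.trans (UbUm.fin_arith hα hε hC0 (by linarith) hδ1 hn0 hN0 hD0 hM1 hM2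
    (hHlU.2 B n f p hn2 (meas hS.d0) hf) hN3 hl2 (sqrt_nonneg _) he1 (sqrt_nonneg _)
    ?_ ht e0.le e1 e2.le e3 (by linarith))
  have hsD : 0 < √(D : ℝ) := sqrt_pos.2 hD0
  rw [sqrt_div zero_le_one, sqrt_one, div_le_iff₀ hsD]
  rw [div_le_iff₀ hδ0] at hD1
  linarith

end

end Vale.Agent.P157
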