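import Vale.Agent.P157.S.AlgU
import Vale.Agent.P157.S.AprU
import Vale.Agent.P157.S.BlockU
import Vale.Agent.P157.S.CmpU
import Vale.Agent.P157.S.ConU
import Vale.Agent.P157.S.CsApi
import Vale.Agent.P157.S.DomA
import Vale.Agent.P157.S.EndU
import Vale.Agent.P157.S.ExpS
import Vale.Agent.P157.S.G1U
import Vale.Agent.P157.S.GUApi
import Vale.Agent.P157.S.GgU
import Vale.Agent.P157.S.Gr0U
import Vale.Agent.P157.S.Gr1U
import Vale.Agent.P157.S.HlU
import Vale.Agent.P157.S.KeyU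
import Vale.Agent.P157.S.LbU
import Vale.Agent.P157.S.LinkU
import Vale.Agent.P157.S.LlnS
import Vale.Agent.P157.S.MainS
import Vale.Agent.P157.S.MaxU
import Vale.Agent.P157.S.MgfS
import Vale.Agent.P157.S.MsU
import Vale.Agent.P157.S.P1U
import Vale.Agent.P157.S.P2U
import Vale.Agent.P157.S.PatU
import Vale.Agent.P157.S.PcU
import Vale.Agent.P157.S.QG
import Vale.Agent.P157.S.QStep
import Vale.Agent.P157.S.QuantS
import Vale.Agent.P157.S.R2S
import Vale.Agent.P157.S.RS
import Vale.Agent.P157.S.RecU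
import Vale.Agent.P157.S.RotS
import Vale.Agent.P157.S.Sc2U
import Vale.Agent.P157.S.ScU
import Vale.Agent.P157.S.ScU1
import Vale.Agent.P157.S.SmnS
import Vale.Agent.P157.S.SoftS
import Vale.Agent.P157.S.Sph0
import Vale.Agent.P157.S.SpinU
import Vale.Agent.P157.S.SsU
import Vale.Agent.P157.S.St1U
import Vale.Agent.P157.S.SwU
import Vale.Agent.P157.S.SymU
import Vale.Agent.P157.S.TiltU
import Vale.Agent.P157.S.UApi
import Vale.Agent.P157.S.UbU
import Vale.Agent.P157.Smf
import Vale.Agent.P157.Smh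

namespace Vale.Agent.P157

namespace AllS

theorem hG : GUApi := gUApi uApi
theorem hGra : GraU := graU gr0U
theorem hMs : MsU := msU (st1U uApi) (grbU gr0U)
theorem hP1 : P1U := p1U uApi
theorem hCon : ConU := conU recU (ggU recU) algU
theorem hPc : PcU := pcU uApi hG hMs patU
theorem hKey : KeyU := keyU uApi hG hMs patU hGra hP1 hPc
theorem hSc2 : Sc2U := sc2U uApi hG hGra p2U
theorem hSc : ScU := scU uApi hG hMs hGra p2U hKey
theorem hSs : SsU := ssU uApi (cmpU linkU domA (qG qStep)) csApi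
theorem hSpin : SpinU := spinU hG hMs hSc hSc2 (symU uApi) hSs csApi hlU
theorem hBlock : BlockU := blockU hSpin hSc2 hPc hP1 patU
theorem hUb : UbU :=
  ubU uApi hG (maxU uApi) hCon (swU uApi hG hMs hGra) (endU hP1) csApi hlU
theorem hLb : LbU := lbU uApi hG (maxU uApi) hCon hBlock (aprU uApi hG patU) csApi hlU
theorem hRS : RS := rS sph0 rotS mgfS r2S llnS

end AllS

open Filter Topology in
theorem sphere (α : ℝ) (hα : 0 < α) (f : ℝ → ℝ) (hf : Measurable f) (hB : ∃ B, ∀ t, |f t| ≤ B) :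
    (∀ n, 1 ≤ n → (valS n α f).Nonempty ∧ BddBelow (valS n α f)) ∧
    ∃ l : ℝ, Tendsto (fun n => Vs n α f) atTop (𝓝 l) ∧
      Tendsto (fun N : ℕ => meanS f N ⌊α * N⌋₊) atTop (𝓝 l) :=
  mainS AllS.hUb AllS.hLb tiltU g1U quantS llnS AllS.hRS expS softS csApi hlU smfStmt smhStmt smnS
    α hα f hf hB

end Vale.Agent.P157
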