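import Vale.Agent.P157.StmS
import Vale.Agent.P157.Rec
import Vale.Agent.P157.A
import Vale.Agent.P157.C

/-! P157, sphere: the recording space for general spins. -/

namespace Vale.Agent.P157

open Finset Real

set_option linter.unusedSectionVars false

namespace RecU

open Rec (lv_avg lv_sh)

variable {O S I : Type} [Fintype O] [DecidableEq O] [Fintype S] [Inhabited S] [Fintype I]
  [DecidableEq I]

theorem filt_one (n d : ℕ) (hd : d < n) (y : ℕ → ℝ) (o0 : O) (w : S → ℝ) :
    (lift o0 w (ys n y)).filter (fun s => s.1 = d) = {(d, o0, y d • w)} := by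
  unfold lift ys
  rw [Multiset.map_map, Multiset.filter_map]
  have : Multiset.filter ((fun s : St O S => s.1 = d) ∘
      ((fun s : ℕ × ℝ => ((s.1, o0, s.2 • w) : St O S)) ∘ fun κ => (κ, y κ)))
      (range n).val = {d} := by
    have h := Finset.filter_eq' (range n) d
    rw [if_pos (mem_range.2 hd)] at h
    have h' := congrArg Finset.val h
    rw [Finset.filter_val] at h'
    exact (Multiset.filter_congr (fun _ _ => Iff.rfl)).trans h'
  rw [this]; rfl

theorem filt (n d : ℕ) (hd : d < n) (y : ℕ → ℝ) (s : I → S → ℝ) (o0 : O) (A : Finset I) :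
    ((fl s o0 A (ys n y)).filter (fun s => s.1 = d)).map vec =
      A.val.map (fun i => (Pi.single o0 (y d • s i) : O → S → ℝ)) := by
  unfold fl
  induction A.val using Multiset.induction_on with
  | empty => simp
  | cons i s ih =>
    rw [Multiset.cons_bind, Multiset.filter_add, Multiset.map_add, ih, filt_one n d hd,
      Multiset.map_cons]
    rfl

/-- recorded field of the levels in `[d, n)` -/
noncomputable def rf (n : ℕ) (s : I → S → ℝ) (o0 : O) (A : Finset I) (y : ℕ → ℝ) (d : ℕ)
    (e : ℕ → I → Bool) : O → S → ℝ :=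
  ∑ k ∈ Ico d n, ∑ i ∈ A, spin (e k i) • (Pi.single o0 (y k • s i) : O → S → ℝ)

noncomputable def th (n : ℕ) (s : I → S → ℝ) (o0 : O) (A : Finset I) (y : ℕ → ℝ) :
    ℕ → RsU O S I → Om O S
  | 0 => fun ω => (ω.1 0 + rf n s o0 A y 0 ω.2.1, ω.2.2)
  | d + 1 => fun ω => (ω.1 d + rf n s o0 A y d ω.2.1, ω.2.2)

theorem step (hC : CApi) (n : ℕ) (L : Multiset (St O S)) (s : I → S → ℝ) (o0 : O)
    (A : Finset I) (y : ℕ → ℝ) (j : ℕ) (hj : j < n + 1)
    (g : Om O S → ℝ) (ω : RsU O S I) :
    rchU I L j (fun x => g (th n s o0 A y j x)) ω =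
      chain (L + fl s o0 A (ys n y)) j g (th n s o0 A y (j + 1) ω) := by
  cases j with
  | zero => rfl
  | succ d =>
    have hd : d < n := by omega
    show chain L (d + 1) (rinU d ω (fun x => g (th n s o0 A y (d + 1) x))) (ω.1 (d + 1), ω.2.2) =
      lv (((L + fl s o0 A (ys n y)).filter (fun s => s.1 = d)).map vec) g
        (ω.1 (d + 1) + rf n s o0 A y (d + 1) ω.2.1, ω.2.2)
    rw [Multiset.filter_add, Multiset.map_add, hC.lv_add, filt n d hd, LinearMap.comp_apply,
      ← lv_sh hC _ _ _ _ ω.2.2]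
    show lv _ _ _ = _
    refine congrFun (congrArg _ ?_) _
    ext ω'
    rw [lv_avg hC]
    unfold rinU
    congr 1
    refine sum_congr rfl fun e _ => ?_
    show g (Function.update ω.1 d ω'.1 d + rf n s o0 A y d (Function.update ω.2.1 d e), ω.2.2) = _
    rw [Function.update_self]
    congr 2
    unfold rf
    rw [sum_eq_sum_Ico_succ_bot hd, Function.update_self, add_assoc, add_comm (∑ k ∈ Ico (d + 1) n, _)]
    congr 2
    refine sum_congr rfl fun k hk => ?_
    have : k ≠ d := by have := (mem_Ico.1 hk).1; omega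
    rw [Function.update_of_ne this]

theorem term (n : ℕ) (g : O → ℝ → ℝ) (U : S → ℝ) (s : I → S → ℝ) (o0 : O) (A : Finset I)
    (y : ℕ → ℝ) (hg : g o0 = id) :
    (fun x : RsU O S I => ZU g U (th n s o0 A y 0 x)) = rZU n g U s A y := by
  ext ω
  unfold rZU ZU ZZ hhU
  rw [← add_sum_erase univ _ (mem_univ o0), ← add_sum_erase univ _ (mem_univ o0)]
  have h1 : ∀ o ∈ univ.erase o0, g o ((th n s o0 A y 0 ω).1 o (th n s o0 A y 0 ω).2) =
      g o (ω.1 0 o ω.2.2) := by
    intro o ho
    simp only [th, rf, Pi.add_apply, Finset.sum_apply, Pi.smul_apply,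
      Pi.single_eq_of_ne (ne_of_mem_erase ho), Pi.zero_apply, smul_zero, sum_const_zero, add_zero]
  rw [sum_congr rfl h1]
  simp only [th, rf, hg, id, Pi.add_apply, Finset.sum_apply, Pi.smul_apply,
    Pi.single_eq_same, smul_eq_mul, Nat.Ico_zero_eq_range, mul_sum]
  have : ∑ k ∈ range n, ∑ i ∈ A, spin (ω.2.1 k i) * (y k * s i ω.2.2) =
      ∑ k ∈ range n, ∑ i ∈ A, y k * (spin (ω.2.1 k i) * s i ω.2.2) :=
    sum_congr rfl fun k _ => sum_congr rfl fun i _ => by ring
  rw [this]
  ring

theorem top (n : ℕ) (s : I → S → ℝ) (o0 : O) (A : Finset I) (y : ℕ → ℝ) :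
    th n s o0 A y (n + 1) (r0U O S I) = (0, default) := by
  simp [th, rf, r0U]

theorem mk (hC : CApi) (L : Multiset (St O S)) (j : ℕ) : Mk (rchU I L j) := by
  have hc : (0 : ℝ) < Fintype.card (I → Bool) := by exact_mod_cast Fintype.card_pos
  have hs : (0 : ℝ) < Fintype.card S := by exact_mod_cast Fintype.card_pos
  cases j with
  | zero =>
    refine ⟨fun g hg ω => div_nonneg (sum_nonneg fun σ _ => hg _) hs.le, fun ω => ?_⟩
    show (∑ _σ : S, (1 : ℝ)) / _ = 1
    rw [sum_const, card_univ, nsmul_eq_mul, mul_one, div_self hs.ne']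
  | succ d =>
    refine ⟨fun g hg ω => (hC.lv_mk _).1 _ (fun ω' => ?_) _, fun ω => ?_⟩
    · exact div_nonneg (sum_nonneg fun σ _ => hg _) hc.le
    · have : rinU d ω (fun _ => (1 : ℝ)) = fun _ => 1 := by
        ext ω'
        show (∑ _σ : I → Bool, (1 : ℝ)) / _ = 1
        rw [sum_const, card_univ, nsmul_eq_mul, mul_one, div_self hc.ne']
      show chain L (d + 1) (rinU d ω (fun _ => (1 : ℝ))) _ = 1
      rw [this]
      exact (hC.lv_mk _).2 _

theorem fil (hC : CApi) (L : Multiset (St O S)) : Fil (rchU I L) rrU := by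
  refine ⟨fun d ω => ?_, fun d ω ω' h => ?_, fun d ω ω' ω'' h h' => ?_, fun ω ω' h => h,
    fun d ω ω' h => ?_, fun d u u' ω h => ?_, fun d u hu ω ω' h => ?_⟩
  · cases d with
    | zero => rfl
    | succ d => exact fun k _ => ⟨rfl, rfl⟩
  · cases d with
    | zero => exact Eq.symm h
    | succ d => exact fun k hk => ⟨(h k hk).1.symm, (h k hk).2.symm⟩
  · cases d with
    | zero => exact Eq.trans h h'
    | succ d => exact fun k hk => ⟨(h k hk).1.trans (h' k hk).1, (h k hk).2.trans (h' k hk).2⟩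
  · cases d with
    | zero => have : ω = ω' := h
              subst this
              exact fun k _ => ⟨rfl, rfl⟩
    | succ d => exact fun k hk => h k (by omega)
  · cases d with
    | zero =>
      show (∑ σ, u (ω.1, ω.2.1, σ)) / _ = (∑ σ, u' (ω.1, ω.2.1, σ)) / _
      congr 1
      exact sum_congr rfl fun σ _ => h _ (fun k _ => ⟨rfl, rfl⟩)
    | succ d =>
      have : rinU d ω u = rinU d ω u' := by
        ext ω'
        unfold rinU
        congr 1
        refine sum_congr rfl fun e _ => h _ (fun k hk => ?_)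
        have : k ≠ d := by omega
        exact ⟨(Function.update_of_ne this _ _).symm, (Function.update_of_ne this _ _).symm⟩
      show chain L (d + 1) (rinU d ω u) _ = chain L (d + 1) (rinU d ω u') _
      rw [this]
  · cases d with
    | zero =>
      have h1 : ω.1 = ω'.1 := funext fun k => (h k (Nat.zero_le k)).1
      have h2 : ω.2.1 = ω'.2.1 := funext fun k => (h k (Nat.zero_le k)).2
      show (∑ σ, u (ω.1, ω.2.1, σ)) / _ = (∑ σ, u (ω'.1, ω'.2.1, σ)) / _
      rw [h1, h2]
    | succ d =>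
      have h0 : rinU d ω u = fun x => rinU d ω' u (x.1 + 0, ω'.2.2) := by
        ext x
        unfold rinU
        congr 1
        refine sum_congr rfl fun e _ => hu _ _ (fun k hk => ?_)
        by_cases hkd : k = d
        · subst hkd; simp
        · have h1 := h k (by omega)
          simp only [Function.update_of_ne hkd]
          exact h1
      show lv _ (rinU d ω u) (ω.1 (d + 1), ω.2.2) = lv _ (rinU d ω' u) (ω'.1 (d + 1), ω'.2.2)
      rw [h0, lv_sh hC, add_zero, (h (d + 1) le_rfl).1]

end RecU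

theorem recU : RecU := by
  intro O S I _ _ _ _ _ _ n L hn
  have hC := cApi
  have ho := hC.ok n L hn
  refine ⟨⟨RecU.mk hC L, ho.pos, ho.le1, ho.anti⟩, RecU.fil hC L, fun g U s o0 A y hg => ?_⟩
  have h := aApi.tw (ex n) (n + 1) (RecU.th n s o0 A y) (RecU.step hC n L s o0 A y) (ZU g U)
  rw [RecU.term n g U s o0 A y hg] at h
  refine ⟨?_, fun χ d hd => ?_⟩
  · rw [h.1 (n + 1) le_rfl, RecU.top]; rfl
  · have := h.2.2 (d + 1) (by omega) (fun ω ω' => χ ω.2 ω'.2) (r0U O S I)
    rw [RecU.top] at this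
    exact this.symm

end Vale.Agent.P157
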